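import Vale.Agent.P310.TM

/-!
P310, Level C, piece C1: general programs as programs over `Fin` (padding, classical instances).
-/

namespace Vale.Agent.P310

open scoped BigOperators

namespace AdaptAux

variable {I V : Type} [Fintype I] [Fintype V]

/-- a term as an affine form -/
noncomputable def aff (t : Tm V) : Aff (Fintype.card V) :=
  match t with
  | .v i => ⟨0, fun j => if j = Fintype.equivFin V i then 1 else 0⟩
  | .s i => ⟨1, fun j => if j = Fintype.equivFin V i then 1 else 0⟩
  | .c n => ⟨n, fun _ => 0⟩

theorem aff_ev (t : Tm V) (q : ℕ) (x : Fin (Fintype.card V) → ZMod q) :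
    (aff t).ev q x = t.ev (fun i => x (Fintype.equivFin V i)) := by
  cases t with
  | v i => simp [aff, Aff.ev, Tm.ev]
  | s i => simp [aff, Aff.ev, Tm.ev, add_comm]
  | c n => simp [aff, Aff.ev, Tm.ev]

/-- translation of an atom -/
noncomputable def atm {P : Type} (a : GAtm P I V) :
    Atm P (Fintype.card I) (Fintype.card V) :=
  match a with
  | .pr p a => ⟨.inl p, fun j => aff (a ((Fintype.equivFin I).symm j))⟩
  | .tb s a => ⟨.inr s, fun j => if h : j.val < 5 then aff (a ⟨j.val, h⟩) else ⟨0, fun _ => 0⟩⟩

open Classical in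
/-- the translated program -/
noncomputable def tprog (Pg : GProg I V) : TProg 5 (Fintype.card I) (Fintype.card V) :=
  letI := Fintype.ofFinite Pg.P
  letI := Fintype.ofFinite Pg.R
  { P := Pg.P
    R := Pg.R
    hd := Pg.hd
    ha := fun r j => aff (Pg.ha r ((Fintype.equivFin I).symm j))
    body := fun r => (Pg.body r).map atm
    goal := Pg.goal }

theorem evA_head (f : I → Tm V) (q : ℕ) (x : Fin (Fintype.card V) → ZMod q) (i : I) :
    evA q (fun j => aff (f ((Fintype.equivFin I).symm j))) x (Fintype.equivFin I i) =
      (f i).ev (fun i => x (Fintype.equivFin V i)) := by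
  simp [evA, aff_ev]

theorem tab_iff (hI : 5 ≤ Fintype.card I) (q : ℕ) (D : (Fin 5 → ZMod q) → Prop) (s : Bool)
    (a : Fin 5 → Tm V) (x : Fin (Fintype.card V) → ZMod q) :
    tabHolds hI D s (evA q (fun j : Fin (Fintype.card I) =>
      if h : j.val < 5 then aff (a ⟨j.val, h⟩) else ⟨0, fun _ => 0⟩) x) ↔
      ((D fun j => (a j).ev (fun i => x (Fintype.equivFin V i))) ↔ s = true) := by
  unfold tabHolds
  have : (fun j : Fin 5 => evA q (fun j : Fin (Fintype.card I) =>
      if h : j.val < 5 then aff (a ⟨j.val, h⟩) else ⟨0, fun _ => 0⟩) x (Fin.castLE hI j)) =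
      fun j => (a j).ev (fun i => x (Fintype.equivFin V i)) := by
    funext j
    simp [evA, aff_ev]
  rw [this]

theorem sat_of_holds (hI : 5 ≤ Fintype.card I) (Pg : GProg I V) (q : ℕ)
    (D : (Fin 5 → ZMod q) → Prop) (p : (tprog Pg).P) (y : Fin (Fintype.card I) → ZMod q)
    (h : (tprog Pg).Holds hI q D p y) : Pg.Sat D p (fun i => y (Fintype.equivFin I i)) := by
  induction h with
  | rule r x h1 h2 ih =>
    intro M hM
    have key := hM r (fun i => x (Fintype.equivFin V i)) ?_
    · have e : (fun i => evA q ((tprog Pg).ha r) x (Fintype.equivFin I i)) =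
          fun i => (Pg.ha r i).ev (fun i => x (Fintype.equivFin V i)) := by
        funext i
        exact evA_head (Pg.ha r) q x i
      rw [e]
      exact key
    · intro a ha
      have hm : atm a ∈ (tprog Pg).body r := List.mem_map_of_mem ha
      cases a with
      | pr p a =>
        have := ih _ hm p rfl M hM
        have e : (fun i => evA q (fun j => aff (a ((Fintype.equivFin I).symm j))) x
            (Fintype.equivFin I i)) =
            fun i => (a i).ev (fun i => x (Fintype.equivFin V i)) := by
          funext i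
          exact evA_head a q x i
        change M p (fun i => evA q (fun j => aff (a ((Fintype.equivFin I).symm j))) x
            (Fintype.equivFin I i)) at this
        rw [e] at this
        exact this
      | tb s a =>
        have := h2 _ hm s rfl
        exact (tab_iff hI q D s a x).1 this

theorem holds_of_sat (hI : 5 ≤ Fintype.card I) (Pg : GProg I V) (q : ℕ)
    (D : (Fin 5 → ZMod q) → Prop) (p : Pg.P) (y : I → ZMod q)
    (h : Pg.Sat D p y) :
    (tprog Pg).Holds hI q D p (fun j => y ((Fintype.equivFin I).symm j)) := by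
  refine h (fun p y => (tprog Pg).Holds hI q D p (fun j => y ((Fintype.equivFin I).symm j))) ?_
  intro r x hb
  have hx : (fun i => (fun j => x ((Fintype.equivFin V).symm j)) (Fintype.equivFin V i)) = x := by
    funext i
    simp
  have key := TProg.Holds.rule (hJ := hI) (Pg := tprog Pg) (q := q) (D := D) r
    (fun j => x ((Fintype.equivFin V).symm j)) ?_ ?_
  · have e : evA q ((tprog Pg).ha r) (fun j => x ((Fintype.equivFin V).symm j)) =
        fun j => (Pg.ha r ((Fintype.equivFin I).symm j)).ev x := by
      funext j
      change (aff (Pg.ha r ((Fintype.equivFin I).symm j))).ev q _ = _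
      rw [aff_ev, hx]
    rw [e] at key
    exact key
  · intro a ha p hp
    obtain ⟨b, hb', rfl⟩ := List.mem_map.1 ha
    have hh := hb b hb'
    cases b with
    | pr p' a =>
      have hpp : p' = p := Sum.inl.inj hp
      subst hpp
      have e : evA q (fun j => aff (a ((Fintype.equivFin I).symm j)))
          (fun j => x ((Fintype.equivFin V).symm j)) =
          fun j => (a ((Fintype.equivFin I).symm j)).ev x := by
        funext j
        change (aff (a ((Fintype.equivFin I).symm j))).ev q _ = _
        rw [aff_ev, hx]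
      change (tprog Pg).Holds hI q D p' (evA q (fun j => aff (a ((Fintype.equivFin I).symm j)))
          (fun j => x ((Fintype.equivFin V).symm j)))
      rw [e]
      exact hh
    | tb s a => simp [atm] at hp
  · intro a ha s hs
    obtain ⟨b, hb', rfl⟩ := List.mem_map.1 ha
    have hh := hb b hb'
    cases b with
    | pr p' a => simp [atm] at hs
    | tb s' a =>
      have hss : s' = s := Sum.inr.inj hs
      subst hss
      refine (tab_iff hI q D s' a _).2 ?_
      rw [hx]
      exact hh

end AdaptAux

theorem GProg.exists_tprog {I V : Type} [Fintype I] [Fintype V] (hI : 5 ≤ Fintype.card I)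
    (Pg : GProg I V) : ∃ Pg' : TProg 5 (Fintype.card I) (Fintype.card V),
      ∀ (q : ℕ) (D : (Fin 5 → ZMod q) → Prop),
        (∃ y, Pg'.Holds hI q D Pg'.goal y) ↔ ∃ y, Pg.Sat D Pg.goal y := by
  refine ⟨AdaptAux.tprog Pg, fun q D => ⟨?_, ?_⟩⟩
  · rintro ⟨y, hy⟩
    exact ⟨_, AdaptAux.sat_of_holds hI Pg q D _ _ hy⟩
  · rintro ⟨y, hy⟩
    exact ⟨_, AdaptAux.holds_of_sat hI Pg q D _ _ hy⟩

end Vale.Agent.P310
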