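import Vale.Agent.P310.Leaf

/-!
P310, Level C: the arcs of the graphs of a two-of-three system in closed form: between two kinds
there is an arc from `a` to `a'` iff `a' = a + δ` and a condition on `a` holds, where `δ` and the
condition depend only on the two kinds.
-/

namespace Vale.Agent.P310

open scoped BigOperators

/-- conditions on the second component of a vertex -/
inductive PC (E : Type) : Type
  | never
  | zero
  | always
  | pr (e : E)

namespace Sys

variable {S : Sys}

/-- meaning of a condition -/
def pcHolds (S : Sys) : PC S.E → S.A → Prop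
  | .never, _ => False
  | .zero, a => a = 0
  | .always, _ => True
  | .pr e, a => S.presA e a

theorem lt_inj (hS : S.OK) (p : S.E × S.Q) {i j : Fin 3} (h : S.lt p i = S.lt p j) : i = j :=
  g_inj hS p.1 i j (mul_left_cancel (congrArg Prod.snd h : p.2 * S.g p.1 i = p.2 * S.g p.1 j))

theorem never_form {κ κ' : S.Kind} (h : ∀ hh a a', ¬ S.Arc hh κ a κ' a') :
    ∃ δ : S.A, ∀ hh, ∃ π : PC S.E, ∀ a a', S.Arc hh κ a κ' a' ↔ S.pcHolds π a ∧ a' = a + δ :=
  ⟨0, fun hh => ⟨.never, fun a a' => ⟨fun h' => (h hh a a' h').elim, fun h' => h'.1.elim⟩⟩⟩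

theorem arc_form1 (hS : S.OK) (κ κ' : S.Kind) : ∃ δ : S.A, ∀ hh, ∃ π : PC S.E, ∀ a a',
    S.Arc hh κ a κ' a' ↔ S.pcHolds π a ∧ a' = a + δ := by
  classical
  rcases κ with κ0 | ⟨κ0, j⟩
  · rcases κ' with κ1 | ⟨κ1, j'⟩
    · rcases κ0 with ⟨x, l, b⟩ | ⟨p, l, f⟩ | ⟨s, f⟩
      · exact never_form fun hh a a' h => by cases h
      · rcases κ1 with ⟨x', l', b'⟩ | ⟨p', l', f'⟩ | ⟨s', f'⟩
        · by_cases h : l = l' ∧ ∃ i, S.lt p i = x' ∧ f i = b'
          · obtain ⟨rfl, i, rfl, rfl⟩ := h
            refine ⟨S.φ l (S.sh p.1 i), fun hh => ?_⟩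
            by_cases hf : ∑ i, f i = 0
            · refine ⟨.pr p.1, fun a a' => ⟨fun h => ?_, fun h => ?_⟩⟩
              · generalize hx : S.lt p i = x at h
                generalize hb : f i = b at h
                cases h with
                | eqn _ _ _ _ i' h1 h2 =>
                  obtain rfl := lt_inj hS p hx
                  exact ⟨h1, rfl⟩
              · obtain ⟨h1, rfl⟩ := h
                exact .eqn p l f a i h1 hf
            · refine ⟨.never, fun a a' => ⟨fun h => ?_, fun h => h.1.elim⟩⟩
              generalize hx : S.lt p i = x at h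
              generalize hb : f i = b at h
              cases h with
              | eqn _ _ _ _ i' h1 h2 => exact (hf h2).elim
          · refine ⟨0, fun hh => ⟨.never, fun a a' => ⟨fun h' => ?_, fun h => h.1.elim⟩⟩⟩
            cases h' with
            | eqn _ _ _ _ i' h1 h2 => exact (h ⟨rfl, i', rfl, rfl⟩).elim
        · exact never_form fun hh a a' h => by cases h
        · exact never_form fun hh a a' h => by cases h
      · rcases κ1 with ⟨x', l', b'⟩ | ⟨p', l', f'⟩ | ⟨s', f'⟩
        · refine ⟨0, fun hh => ?_⟩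
          by_cases h : S.spt s = x' ∧ f l' = b' ∧ ∑ l, f l = S.tw hh s
          · obtain ⟨rfl, rfl, h3⟩ := h
            refine ⟨.zero, fun a a' => ⟨fun h => ?_, fun h => ?_⟩⟩
            · generalize hx : S.spt s = x at h
              generalize hb : f l' = b at h
              cases h with
              | spc _ _ _ h1 => exact ⟨rfl, (add_zero _).symm⟩
            · obtain ⟨h1, rfl⟩ := h
              have h1' : a = 0 := h1
              subst h1'
              rw [add_zero]
              exact .spc s f l' h3
          · refine ⟨.never, fun a a' => ⟨fun h' => ?_, fun h => h.1.elim⟩⟩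
            cases h' with
            | spc _ _ _ h1 => exact (h ⟨rfl, rfl, h1⟩).elim
        · exact never_form fun hh a a' h => by cases h
        · exact never_form fun hh a a' h => by cases h
    · refine ⟨0, fun hh => ?_⟩
      by_cases h : κ0 = κ1 ∧ j'.val < S.lam κ0.ok
      · obtain ⟨rfl, h2⟩ := h
        refine ⟨.always, fun a a' => ⟨fun h => ?_, fun h => ?_⟩⟩
        · cases h with
          | leaf _ _ _ h1 => exact ⟨trivial, (add_zero _).symm⟩
        · obtain ⟨_, rfl⟩ := h
          rw [add_zero]
          exact .leaf κ0 j' a h2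
      · refine ⟨.never, fun a a' => ⟨fun h' => ?_, fun h => h.1.elim⟩⟩
        cases h' with
        | leaf _ _ _ h1 => exact (h ⟨rfl, h1⟩).elim
  · exact never_form fun hh a a' h => by cases h

/-- Closed form of the arcs. -/
theorem exists_arc_form (hS : S.OK) : ∃ (δ : S.Kind → S.Kind → S.A)
    (π : Bool → S.Kind → S.Kind → PC S.E), ∀ hh κ κ' a a',
      S.Arc hh κ a κ' a' ↔ S.pcHolds (π hh κ κ') a ∧ a' = a + δ κ κ' := by
  choose δ h using arc_form1 hS
  choose π h using h
  exact ⟨δ, fun hh κ κ' => π κ κ' hh, fun hh κ κ' a a' => h κ κ' hh a a'⟩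

end Sys

end Vale.Agent.P310
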