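import Vale.Agent.P310.TM

/-!
P310, Level C: `Sat` satisfies the rules; soundness of a rule; the facts at one time.
-/

namespace Vale.Agent.P310

open scoped BigOperators

/-- the least fixed point satisfies the rules -/
theorem GProg.sat_rule {I V : Type} (Pg : GProg I V) {q : ℕ} (D : (Fin 5 → ZMod q) → Prop)
    (r : Pg.R) (x : V → ZMod q) (h : ∀ a ∈ Pg.body r, a.holds D (Pg.Sat D) x) :
    Pg.Sat D (Pg.hd r) fun i => (Pg.ha r i).ev x := by
  intro M hM
  refine hM r x fun a ha => ?_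
  have h1 := h a ha
  cases a with
  | pr p a => exact h1 M hM
  | tb s a => exact h1

/-- the rule `x` holds under the intended meaning -/
def RR.Sound {A : TM} {r q : ℕ} (D : (Fin 5 → ZMod q) → Prop) (u : List Bool) (x : RR A r) :
    Prop :=
  ∀ v : VV r → ZMod q, (∀ a ∈ x.rule.2.2, a.holds D (Mean A r D u) v) →
    Mean A r D u x.rule.1 fun i => (x.rule.2.1 i).ev v

/-- all facts at the time `t` are derived -/
def Facts (A : TM) (r : ℕ) {q : ℕ} (D : (Fin 5 → ZMod q) → Prop) (u : List Bool)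
    (t : Fin r → ZMod q) : Prop :=
  (prog A r).Sat D (.st (A.run u (num q t)).st : PP A) (Sum.elim t 0) ∧
  (∀ (i : Fin (A.nt + 1)) (x : Fin (r + 1) → ZMod q),
    (num q x : ℤ) = (q : ℤ) ^ r + (A.run u (num q t)).hd i →
      (prog A r).Sat D (.hd i : PP A) (Sum.elim t x)) ∧
  ∀ (i : Fin (A.nt + 1)) (x : Fin (r + 1) → ZMod q),
    (prog A r).Sat D (.ct i ((A.run u (num q t)).tp i ((num q x : ℤ) - (q : ℤ) ^ r)) : PP A)
      (Sum.elim t x)

end Vale.Agent.P310
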