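import Vale.Agent.P310.CDef

/-!
P310, Level C for every number `n` of vertices with `q ^ 7 ≤ n < q ^ 8`: the cells of the input
are scanned one after the other (definitions only).
-/

namespace Vale.Agent.P310

open scoped BigOperators

/-- the table also contains the digits of `n - 1` -/
structure GoodN {q : ℕ} (D : (Fin 5 → ZMod q) → Prop) (n : ℕ) : Prop extends GoodD D where
  dig_iff : ∀ (e : Fin 8) (a : ZMod q),
    D ![((16 + e.val : ℕ) : ZMod q), a, a, a, a] ↔ a.val = (n - 1) / q ^ e.val % q

/-- the column: digits `0 .. 7` -/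
def jv {q : ℕ} (d : ℕ → ZMod q) : ℕ := ∑ x ∈ Finset.range 8, (d x).val * q ^ x

/-- the row: digits `8 .. 15` -/
def iv {q : ℕ} (d : ℕ → ZMod q) : ℕ := ∑ x ∈ Finset.range 8, (d (8 + x)).val * q ^ x

/-- from the 17 digits of (column, row, number of the graph) to the 15 digits used by `LAdj` -/
def pdg {q : ℕ} (d : ℕ → ZMod q) (x : ℕ) : ZMod q :=
  if x < 7 then d x else if x < 14 then d (x + 1) else d 16

/-- the input word is that of the graphs of the table with isolated vertices added up to `n` -/
structure InpN {q : ℕ} (D : (Fin 5 → ZMod q) → Prop) (n : ℕ) (u : List Bool) : Prop where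
  len : u.length = 2 * n ^ 2
  bit : ∀ (d : ℕ → ZMod q) (b : Bool), jv d < n → iv d < n → (d 16 = 0 ∨ d 16 = 1) →
    (b = true ↔ d 7 = 0 ∧ d 15 = 0 ∧ LAdj D (pdg d)) →
    u[(d 16).val * n ^ 2 + iv d * n + jv d]? = some b

/-- predicates of the extended program -/
inductive PN (A : TM) : Type
  | old (p : PP A)
  | pos
  | bl

/-- rename the predicates of an atom -/
def GAtm.map {P P' I V : Type} (f : P → P') : GAtm P I V → GAtm P' I V
  | .pr p a => .pr (f p) a
  | .tb s a => .tb s a

section

variable (r : ℕ)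

/-- digit number `j` of the time block -/
def tn (j : ℕ) : Tm (VV r) := if h : j < r then .v (.inl ⟨j, h⟩) else .c 0

/-- the time block with the row increased by one, carry at `c`, and column zero -/
def tb' (c : Fin r) : Fin r → Tm (VV r) := fun i =>
  if i.val < 8 then .c 0 else if i ≤ c then .s (.inl i) else .v (.inl i)

/-- the first cell of the second graph -/
def tc' : Fin r → Tm (VV r) := fun i => if i.val = 16 then .c 1 else .c 0

/-- the 15 digits for `adj` as a position -/
def pdj : Fin (r + 1) → Tm (VV r) := fun x =>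
  if x.val < 7 then tn r x.val else if x.val < 14 then tn r (x.val + 1) else
    if x.val = 14 then tn r 16 else .c 0

variable {A : TM}

/-- atom of the extended program -/
def na (p : PN A) (t : Fin r → Tm (VV r)) (x : Fin (r + 1) → Tm (VV r)) :
    GAtm (PN A) (II r) (VV r) := .pr p (tp r t x)

/-- `a` is the digit number `e` of `n - 1`, or not -/
def al (s : Bool) (e : Fin 8) (a : Tm (VV r)) : GAtm (PN A) (II r) (VV r) :=
  .tb s ![.c (16 + e.val), a, a, a, a]

/-- table atoms of the old program -/
def oe (s : Bool) (a b : Tm (VV r)) : GAtm (PN A) (II r) (VV r) := .tb s ![.c 0, a, b, b, b]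

/-- the carry conditions for `row + 1`, carry at `c` -/
def carB (c : Fin r) : List (GAtm (PN A) (II r) (VV r)) :=
  ((List.finRange r).filter fun i => 8 ≤ i.val ∧ i < c).map
      (fun i => oe r true (.s (.inl i)) (.c 0)) ++ [oe r false (.s (.inl c)) (.c 0)]

/-- the column is `n - 1` -/
def colN : List (GAtm (PN A) (II r) (VV r)) :=
  (List.finRange 8).map fun e => al r true e (tn r e.val)

/-- the row is `n - 1` -/
def rowN : List (GAtm (PN A) (II r) (VV r)) :=
  (List.finRange 8).map fun e => al r true e (tn r (8 + e.val))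

/-- new rules -/
inductive XR (r : ℕ) : Type
  | pos0
  | posA (c : Fin r) (hc : c.val < 8) (e : Fin 8) (c' : Fin (r + 1))
  | posB (c : Fin r) (h1 : 8 ≤ c.val) (h2 : c.val < 16) (e : Fin 8) (c' : Fin (r + 1))
  | posC (c' : Fin (r + 1))
  | posE (c' : Fin (r + 1))
  | blS (c' : Fin (r + 1))
  | bl0
  | bl1
  | inp1 (b : Bool)
  | inp0 (s : Bool)

/-- head, head arguments and body of a new rule -/
def XR.rule (A : TM) {r : ℕ} : XR r → PN A × (II r → Tm (VV r)) × List (GAtm (PN A) (II r) (VV r))
  | .pos0 => (.pos, tp r (tz r) (p1 r), [])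
  | .posA c _ e c' => (.pos, tp r (ts r c) (ps r c'),
      [na r .pos (tv r) (pv r), al r false e (tn r e.val)] ++
        (carT r c).map (GAtm.map .old) ++ (carP r c').map (GAtm.map .old))
  | .posB c _ _ e c' => (.pos, tp r (tb' r c) (ps r c'),
      [na r .pos (tv r) (pv r), al r false e (tn r (8 + e.val))] ++ colN r ++ carB r c ++
        (carP r c').map (GAtm.map .old))
  | .posC c' => (.pos, tp r (tc' r) (ps r c'),
      [na r .pos (tv r) (pv r), oe r true (tn r 16) (.c 0)] ++ colN r ++ rowN r ++
        (carP r c').map (GAtm.map .old))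
  | .posE c' => (.bl, tp r (tz r) (ps r c'),
      [na r .pos (tv r) (pv r), oe r true (tn r 16) (.c 1)] ++ colN r ++ rowN r ++
        (carP r c').map (GAtm.map .old))
  | .blS c' => (.bl, tp r (tz r) (ps r c'),
      [na r .bl (tz r) (pv r)] ++ (carP r c').map (GAtm.map .old))
  | .bl0 => (.old (.ct 0 A.blank), tp r (tz r) (pv r), [oe r true (pn r r) (.c 0)])
  | .bl1 => (.old (.ct 0 A.blank), tp r (tz r) (pv r), [na r .bl (tz r) (pv r)])
  | .inp1 b => (.old (.ct 0 (A.bit b)), tp r (tz r) (pv r),
      [na r .pos (tv r) (pv r), oe r true (tn r 7) (.c 0), oe r true (tn r 15) (.c 0),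
        na r (.old (.adj b)) (tz r) (pdj r)])
  | .inp0 s => (.old (.ct 0 (A.bit false)), tp r (tz r) (pv r),
      [na r .pos (tv r) (pv r), oe r false (tn r (if s then 7 else 15)) (.c 0)])

end

/-- the rules of the old program which are replaced -/
def RR.isInit {A : TM} {r : ℕ} : RR A r → Prop
  | .inp _ _ => True
  | .bl1 _ _ _ => True
  | .bl2 => True
  | .bl3 => True
  | _ => False

instance (A : TM) : Finite (PN A) := by
  have f : Function.Injective (fun p : PN A => (match p with
    | .old p => .inl p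
    | .pos => .inr true
    | .bl => .inr false : PP A ⊕ Bool)) := by
    intro a b hab
    cases a <;> cases b <;> simp_all
  exact Finite.of_injective _ f

instance (r : ℕ) : Finite (XR r) := by
  have f : Function.Injective (fun x : XR r => (match x with
    | .pos0 => .inl 0
    | .posA c _ e c' => .inr (.inl (true, c, e, c'))
    | .posB c _ _ e c' => .inr (.inl (false, c, e, c'))
    | .posC c' => .inr (.inr (0, c'))
    | .posE c' => .inr (.inr (1, c'))
    | .blS c' => .inr (.inr (2, c'))
    | .bl0 => .inl 1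
    | .bl1 => .inl 2
    | .inp1 b => .inl (if b then 3 else 4)
    | .inp0 s => .inl (if s then 5 else 6) :
    Fin 7 ⊕ (Bool × Fin r × Fin 8 × Fin (r + 1)) ⊕ (Fin 3 × Fin (r + 1)))) := by
    intro a b hab
    cases a <;> cases b <;> simp_all <;> (try split at hab) <;> (try split at hab) <;> simp_all
  exact Finite.of_injective _ f

/-- the extended program -/
noncomputable def progN (A : TM) (r : ℕ) : GProg (II r) (VV r) where
  P := PN A
  R := {x : RR A r // ¬ x.isInit} ⊕ XR r
  hd
    | .inl x => .old x.1.rule.1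
    | .inr x => (x.rule A).1
  ha
    | .inl x => x.1.rule.2.1
    | .inr x => (x.rule A).2.1
  body
    | .inl x => x.1.rule.2.2.map (GAtm.map .old)
    | .inr x => (x.rule A).2.2
  goal := .old .goal

/-- the digits of a time block as a function on all natural numbers -/
def dgt {q r : ℕ} (t : Fin r → ZMod q) (j : ℕ) : ZMod q := if h : j < r then t ⟨j, h⟩ else 0

/-- intended meaning of the predicates of the extended program -/
def MeanN (A : TM) (r : ℕ) {q : ℕ} (D : (Fin 5 → ZMod q) → Prop) (n : ℕ) (u : List Bool)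
    (p : PN A) (y : II r → ZMod q) : Prop :=
  let d := dgt fun i => y (.inl i)
  let x := fun j => y (.inr j)
  match p with
  | .old p => Mean A r D u p y
  | .pos => jv d < n ∧ iv d < n ∧ (d 16 = 0 ∨ d 16 = 1) ∧
      num q x = q ^ r + (d 16).val * n ^ 2 + iv d * n + jv d
  | .bl => q ^ r + 2 * n ^ 2 ≤ num q x

/-- `M` satisfies the rule `x` of the old program -/
def RR.Holds {A : TM} {r q : ℕ} (D : (Fin 5 → ZMod q) → Prop)
    (M : PP A → (II r → ZMod q) → Prop) (x : RR A r) : Prop :=
  ∀ v : VV r → ZMod q, (∀ a ∈ x.rule.2.2, a.holds D M v) →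
    M x.rule.1 fun i => (x.rule.2.1 i).ev v

/-- all facts at the time `t` are in `M` -/
def FactsM {A : TM} {r q : ℕ} (u : List Bool) (M : PP A → (II r → ZMod q) → Prop)
    (t : Fin r → ZMod q) : Prop :=
  M (.st (A.run u (num q t)).st : PP A) (Sum.elim t 0) ∧
  (∀ (i : Fin (A.nt + 1)) (x : Fin (r + 1) → ZMod q),
    (num q x : ℤ) = (q : ℤ) ^ r + (A.run u (num q t)).hd i → M (.hd i : PP A) (Sum.elim t x)) ∧
  ∀ (i : Fin (A.nt + 1)) (x : Fin (r + 1) → ZMod q),
    M (.ct i ((A.run u (num q t)).tp i ((num q x : ℤ) - (q : ℤ) ^ r)) : PP A) (Sum.elim t x)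

end Vale.Agent.P310
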