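import Vale.Agent.P310.Leaf

/-!
P310, Level A, piece A8: the good digit.
-/

namespace Vale.Agent.P310.Sys

open scoped BigOperators

variable {S : Sys}

/-- objects of `P` at the digit `l` (equations that are not present count for nothing) -/
noncomputable def atd (P : Finset (Obj S)) (l : Fin S.m) : Finset (Obj S) := by
  classical
  exact P.filter fun o => (∃ v, o = .var v ∧ v.1 = l) ∨ (∃ E, o = .eqn E ∧ E.1 = l)

namespace GoodAux

theorem na_self (hS : S.OK) {n : ℕ} (hn : 4 * n ≤ S.big) (ψ : S.C →+ S.A) (r : S.Nd) :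
    S.NA ψ n r r := by
  intro n' hn' d hd _
  have h0 : d = 0 := near_unique hS hn (near_mono hn' hd) (Near.refl n r.1)
  rw [h0, add_zero]

theorem na_pair (hS : S.OK) {n : ℕ} (hn : 4 * n ≤ S.big) {kap : ℕ}
    (hk : ∀ c : S.C, c ≠ 0 → (Finset.univ.filter fun l : Fin S.m => S.φ l c = 0).card ≤ kap)
    (r r' : S.Nd) : ∃ B : Finset (Fin S.m), B.card ≤ kap ∧
      ∀ l, l ∉ B → S.NA (S.φ l) n r r' ∧ S.NA (S.φ l) n r' r := by
  classical
  by_cases h : ∃ n' ≤ n, ∃ d : S.C, S.Near n' r.1 r'.1 d ∧ r'.2 ≠ r.2 + d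
  · obtain ⟨n0, hn0, d0, hd0, hne⟩ := h
    refine ⟨Finset.univ.filter fun l : Fin S.m => S.φ l (r'.2 - (r.2 + d0)) = 0,
      hk _ (sub_ne_zero.2 hne), ?_⟩
    intro l hl
    have hl' : S.φ l (r'.2 - (r.2 + d0)) ≠ 0 := by
      intro h0
      exact hl (Finset.mem_filter.2 ⟨Finset.mem_univ _, h0⟩)
    constructor
    · intro n' hn' d hd he
      exfalso
      have hdd : d = d0 := near_unique hS hn (near_mono hn' hd) (near_mono hn0 hd0)
      apply hl'
      rw [map_sub, he, hdd, sub_self]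
    · intro n' hn' d hd he
      exfalso
      have hdd : -d = d0 :=
        near_unique hS hn (near_mono hn' (near_symm hd)) (near_mono hn0 hd0)
      apply hl'
      rw [map_sub, map_add, he, ← hdd, map_add, map_neg]
      abel
  · push Not at h
    refine ⟨∅, by simp, ?_⟩
    intro l _
    constructor
    · intro n' hn' d hd _
      exact h n' hn' d hd
    · intro n' hn' d hd _
      have := h n' hn' (-d) (near_symm hd)
      rw [this]
      abel

theorem na_spc (hS : S.OK) {n : ℕ} (hn : 4 * n ≤ S.big) {kap : ℕ}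
    (hk : ∀ c : S.C, c ≠ 0 → (Finset.univ.filter fun l : Fin S.m => S.φ l c = 0).card ≤ kap)
    (r : S.Nd) : ∃ B : Finset (Fin S.m), B.card ≤ kap ∧
      ∀ l, l ∉ B → ∀ s : S.Spc, S.NA (S.φ l) n r (S.spt s, 0) ∧
        S.NA (S.φ l) n (S.spt s, 0) r := by
  classical
  have hnb : n ≤ S.big := by omega
  by_cases h : r.2 = 0
  · refine ⟨∅, by simp, ?_⟩
    intro l _ s
    constructor
    · intro n' hn' d hd _
      have h0 : -d = 0 := hS.iso n' (hn'.trans hnb) s r.1 (-d) (near_symm hd)
      have h1 : d = 0 := neg_eq_zero.1 h0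
      simp [h, h1]
    · intro n' hn' d hd _
      have h0 : d = 0 := hS.iso n' (hn'.trans hnb) s r.1 d hd
      simp [h, h0]
  · refine ⟨Finset.univ.filter fun l : Fin S.m => S.φ l r.2 = 0, hk _ h, ?_⟩
    intro l hl s
    have hl' : S.φ l r.2 ≠ 0 := by
      intro h0
      exact hl (Finset.mem_filter.2 ⟨Finset.mem_univ _, h0⟩)
    constructor
    · intro n' hn' d hd he
      exfalso
      have h0 : -d = 0 := hS.iso n' (hn'.trans hnb) s r.1 (-d) (near_symm hd)
      have h1 : d = 0 := neg_eq_zero.1 h0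
      apply hl'
      simp only [h1, add_zero, map_zero] at he
      exact he.symm
    · intro n' hn' d hd he
      exfalso
      have h0 : d = 0 := hS.iso n' (hn'.trans hnb) s r.1 d hd
      apply hl'
      simp only [h0, add_zero, map_zero] at he
      exact he

theorem na_spc_spc (hS : S.OK) {n : ℕ} (hn : 4 * n ≤ S.big) (l : Fin S.m) (s s' : S.Spc) :
    S.NA (S.φ l) n (S.spt s, 0) (S.spt s', 0) := by
  intro n' hn' d hd _
  have h0 : d = 0 := hS.iso n' (by omega) s _ d hd
  simp [h0]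

/-- all pairs from `R` and the specials are non-accidental outside of few digits -/
theorem na_all (hS : S.OK) {n : ℕ} (hn : 4 * n ≤ S.big) {kap : ℕ}
    (hk : ∀ c : S.C, c ≠ 0 → (Finset.univ.filter fun l : Fin S.m => S.φ l c = 0).card ≤ kap)
    (R : Finset S.Nd) (hR : R.card ≤ 2) : ∃ B : Finset (Fin S.m), B.card ≤ 3 * kap ∧
      ∀ l, l ∉ B → (∀ ρ ∈ R, ∀ ρ' ∈ R, S.NA (S.φ l) n ρ ρ') ∧
        (∀ ρ ∈ R, ∀ s : S.Spc, S.NA (S.φ l) n ρ (S.spt s, 0) ∧ S.NA (S.φ l) n (S.spt s, 0) ρ) := by
  classical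
  rcases Finset.eq_empty_or_nonempty R with rfl | ⟨r, hr⟩
  · exact ⟨∅, by simp, fun l _ => ⟨by simp, by simp⟩⟩
  · have hsub : ∃ r', R ⊆ {r, r'} := by
      have h1 : (R.erase r).card ≤ 1 := by
        rw [Finset.card_erase_of_mem hr]
        omega
      rcases Finset.eq_empty_or_nonempty (R.erase r) with h2 | ⟨r', hr'⟩
      · refine ⟨r, ?_⟩
        intro x hx
        by_contra hxr
        have : x ∈ R.erase r := Finset.mem_erase.2 ⟨by simpa using hxr, hx⟩
        rw [h2] at this
        simp at this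
      · refine ⟨r', ?_⟩
        intro x hx
        by_cases hxr : x = r
        · simp [hxr]
        · have h3 : x ∈ R.erase r := Finset.mem_erase.2 ⟨hxr, hx⟩
          have := Finset.card_le_one.1 h1 x h3 r' hr'
          simp [this]
    obtain ⟨r', hsub⟩ := hsub
    obtain ⟨B0, hB0, h0⟩ := na_pair hS hn hk r r'
    obtain ⟨B1, hB1, h1⟩ := na_spc hS hn hk r
    obtain ⟨B2, hB2, h2⟩ := na_spc hS hn hk r'
    refine ⟨B0 ∪ (B1 ∪ B2), ?_, ?_⟩
    · have := Finset.card_union_le B0 (B1 ∪ B2)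
      have := Finset.card_union_le B1 B2
      omega
    · intro l hl
      simp only [Finset.mem_union, not_or] at hl
      obtain ⟨hl0, hl1, hl2⟩ := hl
      constructor
      · intro ρ hρ ρ' hρ'
        have e1 := hsub hρ
        have e2 := hsub hρ'
        simp only [Finset.mem_insert, Finset.mem_singleton] at e1 e2
        rcases e1 with rfl | rfl <;> rcases e2 with rfl | rfl
        · exact na_self hS hn _ _
        · exact (h0 l hl0).1
        · exact (h0 l hl0).2
        · exact na_self hS hn _ _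
      · intro ρ hρ s
        have e1 := hsub hρ
        simp only [Finset.mem_insert, Finset.mem_singleton] at e1
        rcases e1 with rfl | rfl
        · exact h1 l hl1 s
        · exact h2 l hl2 s

theorem card_crowded (P : Finset (Obj S)) :
    2 * (Finset.univ.filter fun l : Fin S.m => 2 ≤ (atd P l).card).card ≤ P.card := by
  classical
  have hdis : ((Finset.univ : Finset (Fin S.m)) : Set (Fin S.m)).PairwiseDisjoint
      (fun l => atd P l) := by
    intro l _ l' _ hne
    rw [Function.onFun, Finset.disjoint_left]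
    intro o ho ho'
    apply hne
    simp only [atd, Finset.mem_filter] at ho ho'
    obtain ⟨_, ho⟩ := ho
    obtain ⟨_, ho'⟩ := ho'
    rcases ho with ⟨v, rfl, hv⟩ | ⟨E, rfl, hE⟩
    · rcases ho' with ⟨v', hv1, hv'⟩ | ⟨E', hE1, hE'⟩
      · injection hv1 with hv1
        rw [← hv, ← hv', hv1]
      · cases hE1
    · rcases ho' with ⟨v', hv1, hv'⟩ | ⟨E', hE1, hE'⟩
      · cases hv1
      · injection hE1 with hE1
        rw [← hE, ← hE', hE1]
  have hsum : ∑ l : Fin S.m, (atd P l).card ≤ P.card := by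
    rw [← Finset.card_biUnion (fun l hl l' hl' hne => hdis hl hl' hne)]
    apply Finset.card_le_card
    intro o ho
    simp only [Finset.mem_biUnion, atd, Finset.mem_filter] at ho
    obtain ⟨_, _, h, _⟩ := ho
    exact h
  have h2 : ∑ l ∈ Finset.univ.filter (fun l : Fin S.m => 2 ≤ (atd P l).card), 2 ≤
      ∑ l : Fin S.m, (atd P l).card := by
    calc ∑ l ∈ Finset.univ.filter (fun l : Fin S.m => 2 ≤ (atd P l).card), 2
        ≤ ∑ l ∈ Finset.univ.filter (fun l : Fin S.m => 2 ≤ (atd P l).card), (atd P l).card :=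
          Finset.sum_le_sum fun l hl => (Finset.mem_filter.1 hl).2
      _ ≤ ∑ l : Fin S.m, (atd P l).card :=
          Finset.sum_le_sum_of_subset (Finset.filter_subset _ _)
  rw [Finset.sum_const, smul_eq_mul] at h2
  omega

end GoodAux

theorem exists_good (hS : S.OK) (P : Finset (Obj S)) (hP : P.card ≤ S.m + 2)
    (R : Finset S.Nd) (hR : R.card ≤ 2) :
    ∃ l : Fin S.m, (atd P l).card ≤ 1 ∧
      ∀ (A : Finset S.Spc), ∀ ρ ∈ R ∪ A.image (fun s => ((S.spt s, 0) : S.Nd)),
        ∀ ρ' ∈ R ∪ A.image (fun s => ((S.spt s, 0) : S.Nd)),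
        S.NA (S.φ l) (50 * (S.m + 2)) ρ ρ' := by
  classical
  obtain ⟨kap, hkm, hk⟩ := hS.code
  have hn : 4 * (50 * (S.m + 2)) ≤ S.big := by
    unfold big
    omega
  obtain ⟨B, hB, hB'⟩ := GoodAux.na_all hS hn hk R hR
  have hcr := GoodAux.card_crowded (S := S) P
  have hex : ∃ l : Fin S.m, l ∉ B ∪ (Finset.univ.filter fun l : Fin S.m => 2 ≤ (atd P l).card) := by
    by_contra hall
    push Not at hall
    have h1 : (Finset.univ : Finset (Fin S.m)).card ≤
        (B ∪ (Finset.univ.filter fun l : Fin S.m => 2 ≤ (atd P l).card)).card :=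
      Finset.card_le_card fun l _ => hall l
    have h2 := Finset.card_union_le B
      (Finset.univ.filter fun l : Fin S.m => 2 ≤ (atd P l).card)
    rw [Finset.card_univ, Fintype.card_fin] at h1
    omega
  obtain ⟨l, hl⟩ := hex
  simp only [Finset.mem_union, Finset.mem_filter, Finset.mem_univ, true_and, not_or,
    not_le] at hl
  obtain ⟨hl1, hl2⟩ := hl
  refine ⟨l, by omega, ?_⟩
  obtain ⟨hRR, hRs⟩ := hB' l hl1
  intro A ρ hρ ρ' hρ'
  rw [Finset.mem_union, Finset.mem_image] at hρ hρ'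
  rcases hρ with hρ | ⟨s, _, rfl⟩ <;> rcases hρ' with hρ' | ⟨s', _, rfl⟩
  · exact hRR ρ hρ ρ' hρ'
  · exact (hRs ρ hρ s').1
  · exact (hRs ρ' hρ' s).2
  · exact GoodAux.na_spc_spc hS hn l s s'

end Vale.Agent.P310.Sys
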