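import Vale.Agent.P310.Leaf

/-!
P310, Level A, piece A7: lifting a relation at one digit to nodes.
-/

namespace Vale.Agent.P310.Sys

open scoped BigOperators

variable {S : Sys}

theorem A7.sum_symmDiff_two {α : Type} [DecidableEq α] (s t : Finset α) (f : α → ZMod 2) :
    ∑ x ∈ symmDiff s t, f x = ∑ x ∈ s, f x + ∑ x ∈ t, f x := by
  have h1 : ∑ x ∈ symmDiff s t, f x = ∑ x ∈ s \ t, f x + ∑ x ∈ t \ s, f x := by
    rw [symmDiff_def, Finset.sup_eq_union, Finset.sum_union]
    exact disjoint_sdiff_sdiff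
  have h2 := Finset.sum_inter_add_sum_sdiff s t f
  have h3 := Finset.sum_inter_add_sum_sdiff t s f
  rw [h1, ← h2, ← h3, Finset.inter_comm t s]
  have h4 := CharTwo.add_self_eq_zero (∑ x ∈ s ∩ t, f x)
  linear_combination -h4

theorem A7.nd_inj (hS : S.OK) (p : S.E × S.Q) (c : S.C) {i j : Fin 3}
    (h : S.nd p c i = S.nd p c j) : i = j := by
  have h1 : p.2 * S.g p.1 i = p.2 * S.g p.1 j := congrArg (fun n : S.Nd => n.1.2) h
  exact g_inj hS p.1 i j (mul_left_cancel h1)

theorem A7.sl_inj (hS : S.OK) (ψ : S.C →+ S.A) (E : S.E1) {i j : Fin 3}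
    (h : S.sl ψ E i = S.sl ψ E j) : i = j := by
  have h1 : E.1.2 * S.g E.1.1 i = E.1.2 * S.g E.1.1 j := congrArg (fun n : S.V1 => n.1.2) h
  exact g_inj hS E.1.1 i j (mul_left_cancel h1)

/-- a private variable of an equation has coefficient one -/
theorem A7.bd_priv (hS : S.OK) (ψ : S.C →+ S.A) (U : Finset S.E1) {E : S.E1} (hE : E ∈ U)
    (i : Fin 3) (hp : S.Priv ψ U E i) : S.bd ψ U (S.sl ψ E i) = 1 := by
  unfold bd
  rw [Finset.sum_eq_single_of_mem E hE]
  · rw [Finset.sum_eq_single_of_mem i (Finset.mem_univ i)]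
    · simp
    · intro j _ hj
      rw [if_neg]
      intro h
      exact hj (A7.sl_inj hS ψ E h)
  · intro E' hE' hne
    apply Finset.sum_eq_zero
    intro j _
    rw [if_neg]
    intro h
    exact hne (hp E' hE' j h)

theorem A7.third_slot : ∀ i j : Fin 3, ∃ l : Fin 3, l ≠ i ∧ l ≠ j := by
  decide

theorem A7.three_slots : ∀ i j l i' : Fin 3, i ≠ j → l ≠ i → l ≠ j → i' = i ∨ i' = j ∨ i' = l := by
  decide

/-- one step -/
theorem A7.near_one (p : S.E × S.Q) (i j : Fin 3) :
    S.Near 1 (S.lt p i) (S.lt p j) (S.sh p.1 j - S.sh p.1 i) := by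
  have h := Near.step p i j (Near.refl (S := S) 0 (S.lt p i))
  simpa using h

theorem A7.lift_aux {Tr : Set S.Nd} {val : S.Nd → ZMod 2} (hS : S.OK) (hT : S.TrOK Tr val)
    (ψ : S.C →+ S.A) (hψ : ∀ e c, S.pres e c ↔ S.presA e (ψ c)) (N : ℕ) :
    ∀ (U : Finset S.E1), U.card = N →
    (∀ E ∈ U, S.presA E.1.1 E.2) → (2 * U.card ≤ S.big) → ∀ (K : Finset S.Nd),
    (∀ ρ ∈ K, ρ ∈ Tr) → (∀ ρ ∈ K, ∀ ρ' ∈ K, S.NA ψ (2 * U.card) ρ ρ') →
    ∀ (z : Option S.V1),
    (∀ v, S.bd ψ U v = ∑ ρ ∈ K, sgl (some (S.pr ψ ρ)) v + sgl z v) →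
    ∃ (W : Finset ((S.E × S.Q) × S.C)) (zz : Option S.Nd), W.card ≤ U.card ∧
      (∀ w ∈ W, S.pres w.1.1 w.2) ∧ (∀ ρ, zz = some ρ → ρ ∈ Tr) ∧ zz.map (S.pr ψ) = z ∧
      (∀ ν : S.Nd, ∑ ρ ∈ K, sgl (some ρ) ν + sgl zz ν =
        ∑ w ∈ W, ∑ i : Fin 3, sgl (some (S.nd w.1 w.2 i)) ν) ∧
      ∑ ρ ∈ K, val ρ + zz.elim 0 val = 0 := by
  induction N with
  | zero =>
    intro U hU0 hU hc K hK hNA z hz
    have hUe : U = ∅ := Finset.card_eq_zero.mp hU0
    subst hUe
    have hz' : ∀ v, ∑ ρ ∈ K, sgl (some (S.pr ψ ρ)) v + sgl z v = 0 := by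
      intro v
      rw [← hz v]
      simp [bd]
    -- the projection is injective on `K`
    have hinj : ∀ ρ ∈ K, ∀ ρ' ∈ K, S.pr ψ ρ = S.pr ψ ρ' → ρ = ρ' := by
      intro ρ hρ ρ' hρ' h
      have h1 : ρ.1 = ρ'.1 := congrArg (fun n : S.V1 => n.1) h
      have h2 : ψ ρ.2 = ψ ρ'.2 := congrArg (fun n : S.V1 => n.2) h
      have h3 := hNA ρ hρ ρ' hρ' 0 (Nat.zero_le _) 0 (by rw [← h1]; exact Near.refl 0 _)
        (by rw [add_zero, h2])
      rw [add_zero] at h3
      exact Prod.ext h1 h3.symm
    -- value at the projection of a node of `K`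
    have hval : ∀ ρ ∈ K, ∑ ρ' ∈ K, sgl (some (S.pr ψ ρ')) (S.pr ψ ρ) = (1 : ZMod 2) := by
      intro ρ hρ
      rw [Finset.sum_eq_single_of_mem ρ hρ]
      · simp [sgl]
      · intro ρ' hρ' hne
        simp only [sgl]
        rw [if_neg]
        intro h
        exact hne (hinj ρ' hρ' ρ hρ h)
    have hzK : ∀ ρ ∈ K, z = some (S.pr ψ ρ) := by
      intro ρ hρ
      have h1 := hz' (S.pr ψ ρ)
      rw [hval ρ hρ] at h1
      cases z with
      | none => simp [sgl] at h1
      | some y =>
        by_contra hne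
        have hne' : ¬ y = S.pr ψ ρ := fun h => hne (by rw [h])
        simp only [sgl] at h1
        rw [if_neg hne'] at h1
        simp at h1
    rcases K.eq_empty_or_nonempty with hKe | ⟨ρ, hρ⟩
    · subst hKe
      refine ⟨∅, none, by simp, by simp, by simp, ?_, by simp [sgl], by simp⟩
      cases z with
      | none => rfl
      | some y =>
        have h1 := hz' y
        simp [sgl] at h1
    · have hKs : K = {ρ} := by
        ext ρ'
        rw [Finset.mem_singleton]
        constructor
        · intro h'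
          have h1 := hzK ρ hρ
          have h2 := hzK ρ' h'
          rw [h1] at h2
          exact hinj ρ' h' ρ hρ (Option.some.inj h2).symm
        · rintro rfl
          exact hρ
      have hzρ := hzK ρ hρ
      have hTρ := hK ρ hρ
      subst hKs
      refine ⟨∅, some ρ, by simp, by simp, ?_, ?_, ?_, ?_⟩
      · intro ρ' h
        rw [← Option.some.inj h]
        exact hTρ
      · rw [hzρ]
        rfl
      · intro ν
        rw [Finset.sum_singleton]
        simp [CharTwo.add_self_eq_zero]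
      · rw [Finset.sum_singleton]
        simp [CharTwo.add_self_eq_zero]
  | succ N ih =>
    intro U hUN hU hc K hK hNA z hz
    have hne : U.Nonempty := by
      rw [← Finset.card_pos, hUN]
      exact Nat.succ_pos N
    obtain ⟨E, hE, i, j, hij, hpi, hpj, hzi, hzj⟩ := exists_leaf hS ψ U hne hc z
    -- the two nodes
    have key : ∀ i : Fin 3, S.Priv ψ U E i → some (S.sl ψ E i) ≠ z →
        ∃ ρ ∈ K, S.pr ψ ρ = S.sl ψ E i := by
      intro i hp hzi
      have h1 := hz (S.sl ψ E i)
      rw [A7.bd_priv hS ψ U hE i hp] at h1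
      have h2 : (sgl z (S.sl ψ E i) : ZMod 2) = 0 := by
        cases z with
        | none => rfl
        | some y =>
          simp only [sgl]
          rw [if_neg]
          intro h
          exact hzi (by rw [h])
      rw [h2, add_zero] at h1
      by_contra hcon
      have h3 : ∑ ρ ∈ K, (sgl (some (S.pr ψ ρ)) (S.sl ψ E i) : ZMod 2) = 0 := by
        apply Finset.sum_eq_zero
        intro ρ hρ
        simp only [sgl]
        rw [if_neg]
        intro h
        exact hcon ⟨ρ, hρ, h⟩
      rw [h3] at h1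
      exact one_ne_zero h1
    obtain ⟨ρi, hρi, hi⟩ := key i hpi hzi
    obtain ⟨ρj, hρj, hj⟩ := key j hpj hzj
    obtain ⟨p, a⟩ := E
    have hi1 : ρi.1 = S.lt p i := congrArg Prod.fst hi
    have hi2 : ψ ρi.2 = a + ψ (S.sh p.1 i) := congrArg Prod.snd hi
    have hj1 : ρj.1 = S.lt p j := congrArg Prod.fst hj
    have hj2 : ψ ρj.2 = a + ψ (S.sh p.1 j) := congrArg Prod.snd hj
    have hcj : ρj.2 = ρi.2 + (S.sh p.1 j - S.sh p.1 i) := by
      refine hNA ρi hρi ρj hρj 1 (by omega) _ ?_ ?_
      · rw [hi1, hj1]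
        exact A7.near_one p i j
      · rw [hj2, map_add, hi2, map_sub]
        abel
    obtain ⟨l, hli, hlj⟩ := A7.third_slot i j
    set c : S.C := ρi.2 - S.sh p.1 i with hcdef
    have hψc : ψ c = a := by
      rw [hcdef, map_sub, hi2]
      abel
    have hpres : S.pres p.1 c := by
      rw [hψ, hψc]
      exact hU _ hE
    have hndi : S.nd p c i = ρi := by
      apply Prod.ext
      · exact hi1.symm
      · show c + S.sh p.1 i = ρi.2
        rw [hcdef]
        abel
    have hndj : S.nd p c j = ρj := by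
      apply Prod.ext
      · exact hj1.symm
      · show c + S.sh p.1 j = ρj.2
        rw [hcj, hcdef]
        abel
    have hTl : S.nd p c l ∈ Tr := by
      refine hT.closed p c i j l hij hli hlj hpres ?_ ?_
      · rw [hndi]
        exact hK _ hρi
      · rw [hndj]
        exact hK _ hρj
    have hTall : ∀ i', S.nd p c i' ∈ Tr := by
      intro i'
      have h3 : i' = i ∨ i' = j ∨ i' = l := A7.three_slots i j l i' hij hli hlj
      rcases h3 with h | h | h
      · rw [h, hndi]
        exact hK _ hρi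
      · rw [h, hndj]
        exact hK _ hρj
      · rw [h]
        exact hTl
    have hpr : ∀ i', S.pr ψ (S.nd p c i') = S.sl ψ (p, a) i' := by
      intro i'
      apply Prod.ext
      · rfl
      · show ψ (c + S.sh p.1 i') = a + ψ (S.sh p.1 i')
        rw [map_add, hψc]
    -- the new sets
    set L : Finset S.Nd := Finset.univ.image (S.nd p c) with hL
    have hsumL : ∀ f : S.Nd → ZMod 2, ∑ x ∈ L, f x = ∑ i', f (S.nd p c i') := by
      intro f
      rw [hL, Finset.sum_image]
      intro x _ y _ h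
      exact A7.nd_inj hS p c h
    set K' : Finset S.Nd := symmDiff K L with hK'
    have hK'mem : ∀ x ∈ K', x ∈ K ∨ x = S.nd p c l := by
      intro x hx
      rw [hK', Finset.mem_symmDiff] at hx
      rcases hx with ⟨h1, _⟩ | ⟨h1, h2⟩
      · exact Or.inl h1
      · right
        rw [hL, Finset.mem_image] at h1
        obtain ⟨i', _, h3⟩ := h1
        have h4 : i' = i ∨ i' = j ∨ i' = l := A7.three_slots i j l i' hij hli hlj
        rcases h4 with h | h | h
        · exact absurd (by rw [← h3, h, hndi]; exact hρi) h2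
        · exact absurd (by rw [← h3, h, hndj]; exact hρj) h2
        · rw [← h3, h]
    have hcard : (U.erase (p, a)).card = N := by
      rw [Finset.card_erase_of_mem hE, hUN]
      rfl
    have hndl : ρi.1 = S.lt p i ∧ (S.nd p c l).1 = S.lt p l ∧
        (S.nd p c l).2 = ρi.2 + (S.sh p.1 l - S.sh p.1 i) := by
      refine ⟨hi1, rfl, ?_⟩
      show c + S.sh p.1 l = ρi.2 + (S.sh p.1 l - S.sh p.1 i)
      rw [hcdef]
      abel
    obtain ⟨W', zz, hWc, hWp, hzzT, hzzm, hsum, hvals⟩ := ih (U.erase (p, a)) hcard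
      (fun E' hE' => hU E' (Finset.mem_of_mem_erase hE')) (by omega) K'
      (by
        intro ρ hρ
        rcases hK'mem ρ hρ with h | h
        · exact hK ρ h
        · rw [h]
          exact hTl)
      (by
        intro ρ hρ ρ' hρ' n' hn' d hnear hψd
        rcases hK'mem ρ hρ with h | h <;> rcases hK'mem ρ' hρ' with h' | h'
        · exact hNA ρ h ρ' h' n' (by omega) d hnear hψd
        · -- `ρ ∈ K`, `ρ'` new
          subst h'
          have h1 : S.Near (n' + 1) ρ.1 ρi.1 (d + (S.sh p.1 i - S.sh p.1 l)) := by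
            rw [hi1]
            exact near_trans hnear (A7.near_one p l i)
          have h2 := hNA ρ h ρi hρi (n' + 1) (by omega) _ h1 (by
            have h3 : ψ ρi.2 = ψ (S.nd p c l).2 + ψ (S.sh p.1 i - S.sh p.1 l) := by
              rw [hndl.2.2, ← map_add]
              congr 1
              abel
            rw [h3, hψd, ← map_add]
            congr 1
            abel)
          rw [hndl.2.2, h2]
          abel
        · subst h
          have h1 : S.Near (1 + n') ρi.1 ρ'.1 ((S.sh p.1 l - S.sh p.1 i) + d) := by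
            rw [hi1]
            exact near_trans (A7.near_one p i l) hnear
          have h2 := hNA ρi hρi ρ' h' (1 + n') (by omega) _ h1 (by
            rw [hψd, hndl.2.2]
            congr 1
            abel)
          rw [hndl.2.2, h2]
          abel
        · subst h
          subst h'
          have h1 : S.Near (1 + n' + 1) ρi.1 ρi.1
              ((S.sh p.1 l - S.sh p.1 i) + d + (S.sh p.1 i - S.sh p.1 l)) := by
            rw [hi1]
            exact near_trans (near_trans (A7.near_one p i l) hnear) (A7.near_one p l i)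
          have h2 := hNA ρi hρi ρi hρi (1 + n' + 1) (by omega) _ h1 (by
            have h3 : ψ d = 0 := by
              rw [map_add] at hψd
              exact left_eq_add.mp hψd
            have h4 : ρi.2 + (S.sh p.1 l - S.sh p.1 i + d + (S.sh p.1 i - S.sh p.1 l))
                = ρi.2 + d := by abel
            rw [h4, map_add, h3, add_zero])
          have h4 : ρi.2 + (S.sh p.1 l - S.sh p.1 i + d + (S.sh p.1 i - S.sh p.1 l))
                = ρi.2 + d := by abel
          rw [h4] at h2
          have h5 : d = 0 := left_eq_add.mp h2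
          rw [h5, add_zero])
      z
      (by
        intro v
        have h1 : S.bd ψ U v = S.bd ψ (U.erase (p, a)) v +
            ∑ i' : Fin 3, (if S.sl ψ (p, a) i' = v then (1 : ZMod 2) else 0) := by
          unfold bd
          rw [Finset.sum_erase_add _ _ hE]
        have h2 : ∑ ρ ∈ K', (sgl (some (S.pr ψ ρ)) v : ZMod 2) =
            ∑ ρ ∈ K, sgl (some (S.pr ψ ρ)) v +
            ∑ i' : Fin 3, (if S.sl ψ (p, a) i' = v then (1 : ZMod 2) else 0) := by
          rw [hK', A7.sum_symmDiff_two, hsumL]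
          congr 1
          apply Finset.sum_congr rfl
          intro i' _
          rw [hpr i']
          rfl
        have h3 := hz v
        rw [h1] at h3
        rw [h2]
        have h4 := CharTwo.add_self_eq_zero
          (∑ i' : Fin 3, (if S.sl ψ (p, a) i' = v then (1 : ZMod 2) else 0))
        linear_combination h3 - h4)
    refine ⟨symmDiff W' {(p, c)}, zz, ?_, ?_, hzzT, hzzm, ?_, ?_⟩
    · have h1 : (symmDiff W' {(p, c)}).card ≤ W'.card + 1 := by
        have h2 : symmDiff W' {(p, c)} ⊆ insert (p, c) W' := by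
          intro w hw
          rw [Finset.mem_symmDiff] at hw
          rcases hw with ⟨h, _⟩ | ⟨h, _⟩
          · exact Finset.mem_insert_of_mem h
          · rw [Finset.mem_singleton] at h
            rw [h]
            exact Finset.mem_insert_self _ _
        exact (Finset.card_le_card h2).trans (Finset.card_insert_le _ _)
      omega
    · intro w hw
      rw [Finset.mem_symmDiff] at hw
      rcases hw with ⟨h, _⟩ | ⟨h, _⟩
      · exact hWp w h
      · rw [Finset.mem_singleton] at h
        rw [h]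
        exact hpres
    · intro ν
      rw [A7.sum_symmDiff_two, ← hsum ν, Finset.sum_singleton, hK', A7.sum_symmDiff_two, hsumL]
      have h4 := CharTwo.add_self_eq_zero
        (∑ i' : Fin 3, (sgl (some (S.nd p c i')) ν : ZMod 2))
      linear_combination - h4
    · rw [hK', A7.sum_symmDiff_two, hsumL, hT.sum p c hpres hTall, add_zero] at hvals
      exact hvals

/-- Lifting of a relation at one digit. -/
theorem lift {Tr : Set S.Nd} {val : S.Nd → ZMod 2} (hS : S.OK) (hT : S.TrOK Tr val)
    (ψ : S.C →+ S.A) (hψ : ∀ e c, S.pres e c ↔ S.presA e (ψ c)) (U : Finset S.E1)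
    (hU : ∀ E ∈ U, S.presA E.1.1 E.2) (hc : 2 * U.card ≤ S.big) (K : Finset S.Nd)
    (hK : ∀ ρ ∈ K, ρ ∈ Tr) (hNA : ∀ ρ ∈ K, ∀ ρ' ∈ K, S.NA ψ (2 * U.card) ρ ρ')
    (z : Option S.V1) (hz : ∀ v, S.bd ψ U v = ∑ ρ ∈ K, sgl (some (S.pr ψ ρ)) v + sgl z v) :
    ∃ (W : Finset ((S.E × S.Q) × S.C)) (zz : Option S.Nd), W.card ≤ U.card ∧
      (∀ w ∈ W, S.pres w.1.1 w.2) ∧ (∀ ρ, zz = some ρ → ρ ∈ Tr) ∧ zz.map (S.pr ψ) = z ∧
      (∀ ν : S.Nd, ∑ ρ ∈ K, sgl (some ρ) ν + sgl zz ν =
        ∑ w ∈ W, ∑ i : Fin 3, sgl (some (S.nd w.1 w.2 i)) ν) ∧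
      ∑ ρ ∈ K, val ρ + zz.elim 0 val = 0 :=
  A7.lift_aux hS hT ψ hψ U.card U rfl hU hc K hK hNA z hz

end Vale.Agent.P310.Sys
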