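import Vale.Agent.P310.LeafCard
import Vale.Agent.P310.Lift
import Vale.Agent.P310.Good

/-!
P310, Level A: the main reduction. A form on at most `m + 2` objects which is a sum of at most two
words of true nodes, of special equations belonging to the objects and of few equations per digit
is a sum of at most one word of a true node, of such special equations and of few equations.
-/

namespace Vale.Agent.P310.Sys

open scoped BigOperators

variable {S : Sys}

theorem sum_symmDiff2 {X : Type} [DecidableEq X] (A B : Finset X) (F : X → ZMod 2) :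
    ∑ x ∈ symmDiff A B, F x = ∑ x ∈ A, F x + ∑ x ∈ B, F x := by
  have hA := Finset.sum_inter_add_sum_sdiff A B F
  have hB := Finset.sum_inter_add_sum_sdiff B A F
  have hd : Disjoint (A \ B) (B \ A) := disjoint_sdiff_sdiff
  rw [← hA, ← hB, symmDiff_def, Finset.sup_eq_union, Finset.sum_union hd, Finset.inter_comm B A]
  have h2 := CharTwo.add_self_eq_zero (∑ x ∈ A ∩ B, F x)
  linear_combination -h2

/-- the node of a special equation -/
def snd (s : S.Spc) : S.Nd := (S.spt s, 0)

theorem spt_inj (hS : S.OK) : Function.Injective (S.spt) := by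
  intro a b hab
  cases a with
  | none =>
    cases b with
    | none => rfl
    | some h =>
      exact absurd (congrArg Prod.fst hab).symm hS.start_ne
  | some h =>
    cases b with
    | none => exact absurd (congrArg Prod.fst hab) hS.start_ne
    | some h' =>
      have := congrArg Prod.snd hab
      simp only [spt] at this
      rw [this]

theorem snd_inj (hS : S.OK) : Function.Injective (snd (S := S)) := by
  intro a b hab
  exact spt_inj hS (congrArg Prod.fst hab)

theorem zmod2_cases (x : ZMod 2) : x = 0 ∨ x = 1 := by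
  revert x; decide

theorem word_eq (n : S.Nd) (v : S.Var) : S.word n v = sgl (some (S.pr (S.φ v.1) n)) v.2 := rfl

/-- the equations of `U` at the digit `l` -/
def dig (U : Finset S.Eqn) (l : Fin S.m) : Finset S.E1 :=
  (U.filter fun E => E.1 = l).image Prod.snd

theorem mem_dig {U : Finset S.Eqn} {l : Fin S.m} {E : S.E1} : E ∈ dig U l ↔ (l, E) ∈ U := by
  unfold dig
  simp only [Finset.mem_image, Finset.mem_filter]
  constructor
  · rintro ⟨F, ⟨h1, h2⟩, h3⟩
    subst h2 h3
    exact h1
  · intro h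
    exact ⟨(l, E), ⟨h, rfl⟩, rfl⟩

theorem card_dig (U : Finset S.Eqn) (l : Fin S.m) :
    (dig U l).card = (U.filter fun E => E.1 = l).card := by
  unfold dig
  apply Finset.card_image_of_injOn
  rintro ⟨a, b⟩ ha ⟨c, d⟩ hc h
  simp only [Finset.coe_filter, Set.mem_ofPred_eq] at ha hc
  have h1 : a = c := ha.2.trans hc.2.symm
  have h2 : b = d := h
  rw [h1, h2]

theorem bdG_eq (U : Finset S.Eqn) (l : Fin S.m) (v : S.V1) :
    S.bdG U (l, v) = S.bd (S.φ l) (dig U l) v := by
  classical
  unfold bdG bd dig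
  rw [Finset.sum_image]
  · rw [Finset.sum_filter]
    apply Finset.sum_congr rfl
    rintro ⟨l', E⟩ _
    by_cases h : l' = l
    · subst h
      simp [slot]
    · simp only [h, if_false]
      apply Finset.sum_eq_zero
      intro i _
      rw [if_neg]
      intro h'
      exact h (congrArg Prod.fst h')
  · rintro ⟨a, b⟩ ha ⟨c, d⟩ hc h
    simp only [Finset.coe_filter, Set.mem_ofPred_eq] at ha hc
    have h1 : a = c := ha.2.trans hc.2.symm
    have h2 : b = d := h
    rw [h1, h2]

theorem bd_symmDiff (ψ : S.C →+ S.A) (U V : Finset S.E1) (v : S.V1) :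
    S.bd ψ (symmDiff U V) v = S.bd ψ U v + S.bd ψ V v := by
  unfold bd
  exact sum_symmDiff2 U V _


theorem spec_form (hS : S.OK) (P : Finset (Obj S)) (h : S.V1 → ZMod 2) (x : S.V1)
    (hh : ∀ v, h v ≠ 0 → v = x ∨ ∃ s : S.Spc, Obj.spc s ∈ P ∧ v = (S.spt s, 0)) :
    ∃ (B : Finset S.Spc) (z : Option S.V1), (∀ s ∈ B, Obj.spc s ∈ P) ∧
      ∀ v, h v = sgl z v + ∑ s ∈ B, sgl (some ((S.spt s, 0) : S.V1)) v := by
  classical
  obtain ⟨z, hz⟩ : ∃ z : Option S.V1, ∀ v, h v + sgl z v ≠ 0 →
      ∃ s : S.Spc, Obj.spc s ∈ P ∧ v = (S.spt s, 0) := by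
    rcases zmod2_cases (h x) with h0 | h1
    · refine ⟨none, fun v hv => ?_⟩
      simp only [sgl, add_zero] at hv
      rcases hh v hv with rfl | h2
      · exact absurd h0 hv
      · exact h2
    · refine ⟨some x, fun v hv => ?_⟩
      by_cases hvx : v = x
      · subst hvx
        exfalso
        apply hv
        simp only [sgl, h1, if_true]
        decide
      · simp only [sgl, if_neg (Ne.symm hvx), add_zero] at hv
        rcases hh v hv with h2 | h2
        · exact absurd h2 hvx
        · exact h2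
  refine ⟨Finset.univ.filter fun s => Obj.spc s ∈ P ∧
    h (S.spt s, 0) + sgl z (S.spt s, 0) ≠ 0, z, ?_, ?_⟩
  · intro s hs
    exact (Finset.mem_filter.1 hs).2.1
  · intro v
    have key : ∑ s ∈ Finset.univ.filter (fun s => Obj.spc s ∈ P ∧
        h (S.spt s, 0) + sgl z (S.spt s, 0) ≠ 0), sgl (some ((S.spt s, 0) : S.V1)) v
        = h v + sgl z v := by
      by_cases hv : h v + sgl z v = 0
      · rw [hv]
        apply Finset.sum_eq_zero
        intro s hs
        have h2 := (Finset.mem_filter.1 hs).2.2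
        simp only [sgl]
        rw [if_neg]
        intro h'
        rw [h'] at h2
        exact h2 hv
      · obtain ⟨s, hs, rfl⟩ := hz v hv
        rw [Finset.sum_eq_single s]
        · simp only [sgl, if_true]
          rcases zmod2_cases (h (S.spt s, 0) + sgl z (S.spt s, 0)) with h0 | h1
          · exact absurd h0 hv
          · exact h1.symm
        · intro b _ hb
          simp only [sgl]
          rw [if_neg]
          intro h'
          exact hb (spt_inj hS (congrArg Prod.fst h'))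
        · intro hs'
          exact absurd (Finset.mem_filter.2 ⟨Finset.mem_univ _, hs, hv⟩) hs'
    rw [key]
    have h2 := CharTwo.add_self_eq_zero (sgl z v)
    linear_combination -h2

theorem digit_form (hS : S.OK) (P : Finset (Obj S)) (l : Fin S.m) (hl : (atd P l).card ≤ 1)
    (f : S.Var → ZMod 2) (supp : ∀ v, f v ≠ 0 → ∃ o ∈ P, v ∈ S.scope o) :
    ∃ (B : Finset S.Spc) (z : Option S.V1) (ε : Finset S.E1),
      (∀ s ∈ B, Obj.spc s ∈ P) ∧ ε.card ≤ 1 ∧ (∀ E ∈ ε, S.presA E.1.1 E.2) ∧
      (∀ v, f (l, v) = sgl z v + ∑ s ∈ B, sgl (some ((S.spt s, 0) : S.V1)) v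
        + S.bd (S.φ l) ε v) := by
  classical
  have huniq : ∀ o ∈ atd P l, ∀ o' ∈ atd P l, o = o' := by
    intro o ho o' ho'
    exact Finset.card_le_one.1 hl o ho o' ho'
  have hsup : ∀ v : S.V1, f (l, v) ≠ 0 → Obj.var (l, v) ∈ P ∨
      (∃ E : S.E1, Obj.eqn (l, E) ∈ P ∧ S.presA E.1.1 E.2 ∧ ∃ i, S.sl (S.φ l) E i = v) ∨
      ∃ s : S.Spc, Obj.spc s ∈ P ∧ v = (S.spt s, 0) := by
    intro v hv
    obtain ⟨o, ho, hvo⟩ := supp _ hv
    cases o with
    | var w =>
      simp only [scope, Finset.mem_singleton] at hvo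
      left
      rw [hvo]
      exact ho
    | eqn E =>
      right; left
      simp only [scope] at hvo
      split_ifs at hvo with hpre
      · obtain ⟨i, _, hi⟩ := Finset.mem_image.1 hvo
        obtain ⟨l', E⟩ := E
        have h1 : l' = l := congrArg Prod.fst hi
        subst h1
        exact ⟨E, ho, hpre, i, congrArg Prod.snd hi⟩
      · simp at hvo
    | spc s =>
      right; right
      simp only [scope, Finset.mem_image, Finset.mem_univ, true_and] at hvo
      obtain ⟨l', hl'⟩ := hvo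
      exact ⟨s, ho, (congrArg Prod.snd hl').symm⟩
    | nul => simp [scope] at hvo
  by_cases hE : ∃ E : S.E1, Obj.eqn (l, E) ∈ P ∧ S.presA E.1.1 E.2
  · obtain ⟨E, hEP, hpre⟩ := hE
    have hEat : Obj.eqn (l, E) ∈ atd P l :=
      Finset.mem_filter.2 ⟨hEP, Or.inr ⟨(l, E), rfl, rfl⟩⟩
    have hsup' : ∀ v : S.V1, f (l, v) ≠ 0 → (∃ i, S.sl (S.φ l) E i = v) ∨
        ∃ s : S.Spc, Obj.spc s ∈ P ∧ v = (S.spt s, 0) := by
      intro v hv
      rcases hsup v hv with h1 | ⟨E', h1, h2, h3⟩ | h1
      · have := huniq _ hEat _ (Finset.mem_filter.2 ⟨h1, Or.inl ⟨(l, v), rfl, rfl⟩⟩)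
        exact absurd this (by simp)
      · have := huniq _ hEat _ (Finset.mem_filter.2 ⟨h1, Or.inr ⟨(l, E'), rfl, rfl⟩⟩)
        simp only [Obj.eqn.injEq, Prod.mk.injEq, true_and] at this
        subst this
        exact Or.inl h3
      · exact Or.inr h1
    have hinj : ∀ i j, S.sl (S.φ l) E i = S.sl (S.φ l) E j → i = j := by
      intro i j hij
      have h1 : E.1.2 * S.g E.1.1 i = E.1.2 * S.g E.1.1 j := congrArg (fun v => v.1.2) hij
      exact g_inj hS _ _ _ (mul_left_cancel h1)
    have hbd : ∀ v, S.bd (S.φ l) {E} v = ∑ i : Fin 3, if S.sl (S.φ l) E i = v then 1 else 0 := by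
      intro v
      unfold bd
      rw [Finset.sum_singleton]
    have hbd1 : ∀ i, S.bd (S.φ l) {E} (S.sl (S.φ l) E i) = 1 := by
      intro i
      rw [hbd, Finset.sum_eq_single i]
      · simp
      · intro j _ hj
        rw [if_neg]
        intro h'
        exact hj (hinj _ _ h')
      · simp
    have hbd0 : ∀ v, (∀ i, S.sl (S.φ l) E i ≠ v) → S.bd (S.φ l) {E} v = 0 := by
      intro v hv
      rw [hbd]
      apply Finset.sum_eq_zero
      intro i _
      rw [if_neg (hv i)]
    -- two of the three values are equal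
    obtain ⟨i, j, k, hijk, hij⟩ : ∃ i j k : Fin 3, (∀ t : Fin 3, t = i ∨ t = j ∨ t = k) ∧
        f (l, S.sl (S.φ l) E i) = f (l, S.sl (S.φ l) E j) := by
      rcases zmod2_cases (f (l, S.sl (S.φ l) E 0)) with a0 | a0 <;>
      rcases zmod2_cases (f (l, S.sl (S.φ l) E 1)) with a1 | a1 <;>
      rcases zmod2_cases (f (l, S.sl (S.φ l) E 2)) with a2 | a2
      · exact ⟨0, 1, 2, by decide, by rw [a0, a1]⟩
      · exact ⟨0, 1, 2, by decide, by rw [a0, a1]⟩
      · exact ⟨0, 2, 1, by decide, by rw [a0, a2]⟩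
      · exact ⟨1, 2, 0, by decide, by rw [a1, a2]⟩
      · exact ⟨1, 2, 0, by decide, by rw [a1, a2]⟩
      · exact ⟨0, 2, 1, by decide, by rw [a0, a2]⟩
      · exact ⟨0, 1, 2, by decide, by rw [a0, a1]⟩
      · exact ⟨0, 1, 2, by decide, by rw [a0, a1]⟩
    obtain ⟨ε, hε1, hε2, hε3⟩ : ∃ ε : Finset S.E1, ε.card ≤ 1 ∧ (∀ F ∈ ε, F = E) ∧
        ∀ v, (f (l, v) + S.bd (S.φ l) ε v ≠ 0 → v = S.sl (S.φ l) E k ∨
          ∃ s : S.Spc, Obj.spc s ∈ P ∧ v = (S.spt s, 0)) := by
      rcases zmod2_cases (f (l, S.sl (S.φ l) E i)) with a | a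
      · refine ⟨∅, by simp, by simp, ?_⟩
        intro v hv
        have hb : S.bd (S.φ l) ∅ v = 0 := by simp [bd]
        rw [hb, add_zero] at hv
        rcases hsup' v hv with ⟨t, rfl⟩ | h1
        · rcases hijk t with rfl | rfl | rfl
          · exact absurd a hv
          · rw [← hij] at hv
            exact absurd a hv
          · exact Or.inl rfl
        · exact Or.inr h1
      · refine ⟨{E}, by simp, by simp, ?_⟩
        intro v hv
        by_cases hvE : ∃ t, S.sl (S.φ l) E t = v
        · obtain ⟨t, rfl⟩ := hvE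
          rw [hbd1] at hv
          rcases hijk t with rfl | rfl | rfl
          · rw [a] at hv
            exact absurd (by decide) hv
          · rw [← hij, a] at hv
            exact absurd (by decide) hv
          · exact Or.inl rfl
        · have h0 := hbd0 v (fun t ht => hvE ⟨t, ht⟩)
          rw [h0, add_zero] at hv
          rcases hsup' v hv with h1 | h1
          · exact absurd h1 hvE
          · exact Or.inr h1
    obtain ⟨B, z, hB, hz⟩ := spec_form hS P (fun v => f (l, v) + S.bd (S.φ l) ε v)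
      (S.sl (S.φ l) E k) hε3
    refine ⟨B, z, ε, hB, hε1, ?_, ?_⟩
    · intro F hF
      rw [hε2 F hF]
      exact hpre
    · intro v
      have h1 := hz v
      have h2 := CharTwo.add_self_eq_zero (S.bd (S.φ l) ε v)
      rw [← h1]
      linear_combination -h2
  · obtain ⟨x, hx⟩ : ∃ x : S.V1, ∀ v, f (l, v) ≠ 0 → v = x ∨
        ∃ s : S.Spc, Obj.spc s ∈ P ∧ v = (S.spt s, 0) := by
      by_cases hV : ∃ x : S.V1, Obj.var (l, x) ∈ P
      · obtain ⟨x, hx⟩ := hV
        refine ⟨x, fun v hv => ?_⟩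
        rcases hsup v hv with h1 | ⟨E', h1, h2, h3⟩ | h1
        · have := huniq _ (Finset.mem_filter.2 ⟨h1, Or.inl ⟨(l, v), rfl, rfl⟩⟩) _
            (Finset.mem_filter.2 ⟨hx, Or.inl ⟨(l, x), rfl, rfl⟩⟩)
          simp only [Obj.var.injEq, Prod.mk.injEq, true_and] at this
          exact Or.inl this
        · exact absurd ⟨E', h1, h2⟩ hE
        · exact Or.inr h1
      · refine ⟨(S.spt none, 0), fun v hv => ?_⟩
        rcases hsup v hv with h1 | ⟨E', h1, h2, h3⟩ | h1
        · exact absurd ⟨v, h1⟩ hV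
        · exact absurd ⟨E', h1, h2⟩ hE
        · exact Or.inr h1
    obtain ⟨B, z, hB, hz⟩ := spec_form hS P (fun v => f (l, v)) x hx
    refine ⟨B, z, ∅, hB, by simp, by simp, ?_⟩
    intro v
    have h1 := hz v
    rw [h1]
    simp [bd]

theorem transfer {X : Type} [DecidableEq X] (K : Finset X) (zz : Option X) {ι : Type}
    (W : Finset ι) (n : ι → Fin 3 → X)
    (h : ∀ ν : X, ∑ ρ ∈ K, sgl (some ρ) ν + sgl zz ν = ∑ w ∈ W, ∑ i : Fin 3, sgl (some (n w i)) ν)
    (F : X → ZMod 2) :
    ∑ ρ ∈ K, F ρ + zz.elim 0 F = ∑ w ∈ W, ∑ i : Fin 3, F (n w i) := by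
  classical
  set S0 : Finset X := K ∪ zz.toFinset ∪ W.biUnion (fun w => Finset.univ.image (n w)) with hS0
  have hF : ∀ ρ ∈ S0, F ρ = ∑ ν ∈ S0, F ν * sgl (some ρ) ν := by
    intro ρ hρ
    rw [Finset.sum_eq_single ρ]
    · simp [sgl]
    · intro b _ hb
      simp [sgl, Ne.symm hb]
    · intro h'
      exact absurd hρ h'
  have h1 : ∑ ρ ∈ K, F ρ = ∑ ν ∈ S0, F ν * ∑ ρ ∈ K, sgl (some ρ) ν := by
    simp_rw [Finset.mul_sum]
    rw [Finset.sum_comm]
    apply Finset.sum_congr rfl
    intro ρ hρ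
    apply hF
    simp [hS0, hρ]
  have h2 : zz.elim 0 F = ∑ ν ∈ S0, F ν * sgl zz ν := by
    cases zz with
    | none => simp [sgl]
    | some ρ =>
      apply hF
      simp [hS0]
  have h3 : ∑ w ∈ W, ∑ i : Fin 3, F (n w i) =
      ∑ ν ∈ S0, F ν * ∑ w ∈ W, ∑ i : Fin 3, sgl (some (n w i)) ν := by
    simp_rw [Finset.mul_sum]
    symm
    rw [Finset.sum_comm]
    apply Finset.sum_congr rfl
    intro w hw
    rw [Finset.sum_comm]
    apply Finset.sum_congr rfl
    intro i _
    symm
    apply hF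
    rw [hS0]
    apply Finset.mem_union_right
    exact Finset.mem_biUnion.2 ⟨w, hw, Finset.mem_image_of_mem _ (Finset.mem_univ _)⟩
  rw [h1, h2, h3, ← Finset.sum_add_distrib]
  apply Finset.sum_congr rfl
  intro ν _
  rw [← h ν]
  ring

theorem half {Tr : Set S.Nd} {val : S.Nd → ZMod 2} (hS : S.OK) (hT : S.TrOK Tr val)
    {P : Finset (Obj S)} {R : Finset S.Nd} {A : Finset S.Spc} {U : Finset S.Eqn}
    {f : S.Var → ZMod 2} {β : ZMod 2} {b : ℕ} (hb : b ≤ 6 * (S.m + 2))
    (h : S.Rep Tr val P b R A U f β) (l : Fin S.m)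
    (hgood : ∀ (A : Finset S.Spc), ∀ ρ ∈ R ∪ A.image (fun s => ((S.spt s, 0) : S.Nd)),
        ∀ ρ' ∈ R ∪ A.image (fun s => ((S.spt s, 0) : S.Nd)),
        S.NA (S.φ l) (50 * (S.m + 2)) ρ ρ')
    (B : Finset S.Spc) (z : Option S.V1) (ε : Finset S.E1) (hε1 : ε.card ≤ 1)
    (hε2 : ∀ E ∈ ε, S.presA E.1.1 E.2)
    (hf : ∀ v, f (l, v) = sgl z v + ∑ s ∈ B, sgl (some ((S.spt s, 0) : S.V1)) v
        + S.bd (S.φ l) ε v) :
    ∃ (W : Finset ((S.E × S.Q) × S.C)) (zz : Option S.Nd), W.card ≤ 6 * (S.m + 2) + 1 ∧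
      (∀ w ∈ W, S.pres w.1.1 w.2) ∧ (∀ ρ, zz = some ρ → ρ ∈ Tr) ∧ zz.map (S.pr (S.φ l)) = z ∧
      (∀ F : S.Nd → ZMod 2, ∑ ρ ∈ R, F ρ + ∑ s ∈ A, F (S.spt s, 0) + ∑ s ∈ B, F (S.spt s, 0) +
        zz.elim 0 F = ∑ w ∈ W, ∑ i : Fin 3, F (S.nd w.1 w.2 i)) ∧
      ∑ ρ ∈ R, val ρ + ∑ s ∈ A, val (S.spt s, 0) + ∑ s ∈ B, val (S.spt s, 0) +
        zz.elim 0 val = 0 := by
  classical
  set N : Finset S.Nd := (symmDiff A B).image (fun s => ((S.spt s, 0) : S.Nd)) with hN
  set K : Finset S.Nd := symmDiff R N with hK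
  have hsum : ∀ F : S.Nd → ZMod 2, ∑ ρ ∈ K, F ρ =
      ∑ ρ ∈ R, F ρ + ∑ s ∈ A, F (S.spt s, 0) + ∑ s ∈ B, F (S.spt s, 0) := by
    intro F
    have hinj : ∀ a ∈ symmDiff A B, ∀ b ∈ symmDiff A B,
        ((S.spt a, 0) : S.Nd) = (S.spt b, 0) → a = b := fun a _ b _ hab => snd_inj hS hab
    rw [hK, sum_symmDiff2, hN, Finset.sum_image hinj, sum_symmDiff2, add_assoc]
  set V : Finset S.E1 := symmDiff (dig U l) ε with hV
  have hVc : V.card ≤ 6 * (S.m + 2) + 1 := by
    have h1 : V ⊆ dig U l ∪ ε := by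
      intro x hx
      rcases Finset.mem_symmDiff.1 hx with ⟨h1, _⟩ | ⟨h1, _⟩
      · exact Finset.mem_union_left _ h1
      · exact Finset.mem_union_right _ h1
    have h2 := Finset.card_le_card h1
    have h3 := Finset.card_union_le (dig U l) ε
    have h4 := h.hc l
    rw [← card_dig] at h4
    omega
  have hVp : ∀ E ∈ V, S.presA E.1.1 E.2 := by
    intro E hE
    rcases Finset.mem_symmDiff.1 hE with ⟨h1, _⟩ | ⟨h1, _⟩
    · exact h.hU _ (mem_dig.1 h1)
    · exact hε2 _ h1
  have hsub : K ⊆ R ∪ (symmDiff A B).image (fun s => ((S.spt s, 0) : S.Nd)) := by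
    intro x hx
    rcases Finset.mem_symmDiff.1 hx with ⟨h1, _⟩ | ⟨h1, _⟩
    · exact Finset.mem_union_left _ h1
    · exact Finset.mem_union_right _ h1
  have hKT : ∀ ρ ∈ K, ρ ∈ Tr := by
    intro ρ hρ
    rcases Finset.mem_union.1 (hsub hρ) with h1 | h1
    · exact h.hR _ h1
    · obtain ⟨s, _, rfl⟩ := Finset.mem_image.1 h1
      exact hT.spc s
  have hbig : S.big = 200 * (S.m + 2) := rfl
  have hNA : ∀ ρ ∈ K, ∀ ρ' ∈ K, S.NA (S.φ l) (2 * V.card) ρ ρ' := by
    intro ρ hρ ρ' hρ' n' hn'
    exact hgood (symmDiff A B) ρ (hsub hρ) ρ' (hsub hρ') n' (by omega)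
  have hz : ∀ v, S.bd (S.φ l) V v = ∑ ρ ∈ K, sgl (some (S.pr (S.φ l) ρ)) v + sgl z v := by
    intro v
    rw [hV, bd_symmDiff, hsum (fun ρ => sgl (some (S.pr (S.φ l) ρ)) v), ← bdG_eq]
    have h1 := h.hf (l, v)
    have h2 := hf v
    have h3 : ∀ s : S.Spc, S.word (S.spt s, 0) (l, v) = sgl (some ((S.spt s, 0) : S.V1)) v := by
      intro s
      rw [word_eq]
      simp [pr]
    have h4 : ∀ s : S.Spc, sgl (some (S.pr (S.φ l) (S.spt s, 0))) v =
        sgl (some ((S.spt s, 0) : S.V1)) v := by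
      intro s
      simp [pr]
    simp_rw [h3] at h1
    simp_rw [h4]
    have h5 : ∀ ρ : S.Nd, S.word ρ (l, v) = sgl (some (S.pr (S.φ l) ρ)) v := fun ρ => rfl
    simp_rw [h5] at h1
    have e1 := CharTwo.add_self_eq_zero (f (l, v))
    have e2 := CharTwo.add_self_eq_zero (∑ ρ ∈ R, sgl (some (S.pr (S.φ l) ρ)) v)
    have e3 := CharTwo.add_self_eq_zero (∑ s ∈ A, sgl (some ((S.spt s, 0) : S.V1)) v)
    have e4 := CharTwo.add_self_eq_zero (∑ s ∈ B, sgl (some ((S.spt s, 0) : S.V1)) v)
    have e5 := CharTwo.add_self_eq_zero (sgl z v)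
    linear_combination -h1 - h2 + e1 - e2 - e3 - e4 - e5
  obtain ⟨W, zz, w1, w2, w3, w4, w5, w6⟩ := lift hS hT (S.φ l) (hS.pres_iff l) V hVp
    (by omega) K hKT hNA z hz
  refine ⟨W, zz, w1.trans hVc, w2, w3, w4, ?_, ?_⟩
  · intro F
    rw [← hsum]
    exact transfer K zz W (fun w i => S.nd w.1 w.2 i) w5 F
  · rw [← hsum]
    exact w6

theorem rep_zero {Tr : Set S.Nd} {val : S.Nd → ZMod 2} (hS : S.OK) (hT : S.TrOK Tr val)
    {P : Finset (Obj S)} (hP : P.card ≤ S.m + 2) {β : ZMod 2}
    (h : ((fun _ => 0, β) : (S.Var → ZMod 2) × ZMod 2) ∈ S.Dset Tr val P) : β = 0 := by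
  classical
  obtain ⟨R, A, U, hR, h⟩ := h
  obtain ⟨l, hl, hgood⟩ := exists_good hS P hP R (hR.trans (by norm_num))
  obtain ⟨W, zz, w1, w2, w3, w4, w5, w6⟩ := half hS hT (by omega) h l hgood ∅ none ∅ (by simp)
    (by simp) (by intro v; simp [sgl, bd])
  rw [Option.map_eq_none_iff] at w4
  subst w4
  have h7 : β = _ := h.hβ
  rw [h7]
  simpa using w6

open Classical in
/-- the equations of `U` together with all digits of the abstract equations `W`, modulo two -/
noncomputable def newU (U : Finset S.Eqn) (W : Finset ((S.E × S.Q) × S.C)) : Finset S.Eqn :=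
  Finset.univ.filter fun E => (if E ∈ U then (1 : ZMod 2) else 0) +
    ∑ w ∈ W, (if E.2 = (w.1, S.φ E.1 w.2) then (1 : ZMod 2) else 0) ≠ 0

theorem mem_newU {U : Finset S.Eqn} {W : Finset ((S.E × S.Q) × S.C)} {E : S.Eqn}
    (h : E ∈ newU U W) : E ∈ U ∨ ∃ w ∈ W, E.2 = (w.1, S.φ E.1 w.2) := by
  classical
  have h1 := (Finset.mem_filter.1 h).2
  by_contra h2
  push Not at h2
  apply h1
  rw [if_neg h2.1, zero_add]
  apply Finset.sum_eq_zero
  intro w hw
  rw [if_neg (h2.2 w hw)]

theorem bdG_newU (U : Finset S.Eqn) (W : Finset ((S.E × S.Q) × S.C)) (v : S.Var) :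
    S.bdG (newU U W) v = S.bdG U v + ∑ w ∈ W, ∑ i : Fin 3, S.word (S.nd w.1 w.2 i) v := by
  classical
  have h1 : S.bdG (newU U W) v = ∑ E : S.Eqn, ((if E ∈ U then (1 : ZMod 2) else 0) +
      ∑ w ∈ W, (if E.2 = (w.1, S.φ E.1 w.2) then (1 : ZMod 2) else 0)) *
        ∑ i : Fin 3, if S.slot E i = v then (1 : ZMod 2) else 0 := by
    unfold bdG newU
    rw [Finset.sum_filter]
    apply Finset.sum_congr rfl
    intro E _
    rcases zmod2_cases ((if E ∈ U then (1 : ZMod 2) else 0) +
      ∑ w ∈ W, (if E.2 = (w.1, S.φ E.1 w.2) then (1 : ZMod 2) else 0)) with h | h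
    · rw [h, zero_mul, if_neg (by simp)]
    · rw [h, one_mul, if_pos (by simp)]
  rw [h1]
  simp_rw [add_mul]
  rw [Finset.sum_add_distrib]
  congr 1
  · simp only [ite_mul, one_mul, zero_mul, bdG]
    rw [Finset.sum_ite_mem, Finset.univ_inter]
  · simp_rw [Finset.sum_mul]
    rw [Finset.sum_comm]
    apply Finset.sum_congr rfl
    intro w _
    rw [Finset.sum_eq_single ((v.1, (w.1, S.φ v.1 w.2)) : S.Eqn)]
    · rw [if_pos rfl, one_mul]
      apply Finset.sum_congr rfl
      intro i _
      simp only [slot, word, pr, nd, sl]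
      obtain ⟨l, x⟩ := v
      simp only [Prod.mk.injEq, true_and, map_add]
    · intro E _ hE
      by_cases h2 : E.2 = (w.1, S.φ E.1 w.2)
      · rw [if_pos h2, one_mul]
        apply Finset.sum_eq_zero
        intro i _
        rw [if_neg]
        intro h3
        apply hE
        have h4 : E.1 = v.1 := congrArg Prod.fst h3
        rw [← h4, ← h2]
      · rw [if_neg h2, zero_mul]
    · intro h
      exact absurd (Finset.mem_univ _) h

open Classical in
theorem card_scope_dig (o : Obj S) (l : Fin S.m) :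
    (Finset.univ.filter fun x : S.V1 => (l, x) ∈ S.scope o).card ≤ 3 := by
  have h1 : ∀ (t : Finset S.Var), t.card ≤ 3 →
      (Finset.univ.filter fun x : S.V1 => (l, x) ∈ t).card ≤ 3 := by
    intro t ht
    refine le_trans ?_ ht
    apply Finset.card_le_card_of_injOn (fun x => (l, x))
    · intro x hx
      simpa using hx
    · intro x _ y _ hxy
      exact congrArg Prod.snd hxy
  cases o with
  | var w => exact h1 _ (by simp [scope])
  | eqn E =>
    apply h1
    simp only [scope]
    split_ifs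
    · exact Finset.card_image_le
    · simp
  | spc s =>
    have h2 : (Finset.univ.filter fun x : S.V1 => (l, x) ∈ S.scope (.spc s)) ⊆
        {((S.spt s, 0) : S.V1)} := by
      intro x hx
      simp only [Finset.mem_filter, Finset.mem_univ, true_and, scope, Finset.mem_image] at hx
      obtain ⟨l', hl'⟩ := hx
      exact Finset.mem_singleton.2 (congrArg Prod.snd hl').symm
    refine (Finset.card_le_card h2).trans (by simp)
  | nul => exact h1 _ (by simp [scope])

theorem main_reduce {Tr : Set S.Nd} {val : S.Nd → ZMod 2} (hS : S.OK) (hT : S.TrOK Tr val)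
    {P : Finset (Obj S)} (hP : P.card ≤ S.m + 2) {R : Finset S.Nd} (hR : R.card ≤ 2)
    {A : Finset S.Spc} {U : Finset S.Eqn} {f : S.Var → ZMod 2} {β : ZMod 2}
    (h : S.Rep Tr val P (6 * (S.m + 2)) R A U f β) : (f, β) ∈ S.Dset Tr val P := by
  classical
  obtain ⟨l, hl, hgood⟩ := exists_good hS P hP R hR
  obtain ⟨B, z, ε, hB, hε1, hε2, hf⟩ := digit_form hS P l hl f h.supp
  obtain ⟨W, zz, w1, w2, w3, w4, w5, w6⟩ := half hS hT le_rfl h l hgood B z ε hε1 hε2 hf
  have hF : ∀ v, f v = ∑ ρ ∈ zz.toFinset, S.word ρ v + ∑ s ∈ B, S.word (S.spt s, 0) v +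
      S.bdG (newU U W) v := by
    intro v
    rw [bdG_newU, ← w5 (fun ρ => S.word ρ v), h.hf v]
    have e0 : ∑ ρ ∈ zz.toFinset, S.word ρ v = zz.elim 0 (fun ρ => S.word ρ v) := by
      cases zz <;> simp
    rw [e0]
    have e1 := CharTwo.add_self_eq_zero (zz.elim 0 (fun ρ => S.word ρ v))
    have e2 := CharTwo.add_self_eq_zero (∑ s ∈ B, S.word (S.spt s, 0) v)
    linear_combination -e1 - e2
  refine ⟨zz.toFinset, B, newU U W, ?_, ?_, hB, ?_, ?_, hF, ?_, h.supp⟩
  · cases zz <;> simp
  · intro ρ hρ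
    exact w3 ρ (by simpa using hρ)
  · intro E hE
    rcases mem_newU hE with h1 | ⟨w, hw, h1⟩
    · exact h.hU E h1
    · have h2 := (hS.pres_iff E.1 w.1.1 w.2).1 (w2 w hw)
      unfold Pre
      rw [h1]
      exact h2
  · intro l'
    rw [← card_dig]
    rcases (dig (newU U W) l').eq_empty_or_nonempty with h0 | hne
    · rw [h0]
      simp
    · have hc1 : (dig (newU U W) l').card ≤ 12 * (S.m + 2) + 1 := by
        have h1 : dig (newU U W) l' ⊆ dig U l' ∪ W.image (fun w => (w.1, S.φ l' w.2)) := by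
          intro E hE
          rcases mem_newU (mem_dig.1 hE) with h1 | ⟨w, hw, h1⟩
          · exact Finset.mem_union_left _ (mem_dig.2 h1)
          · exact Finset.mem_union_right _ (Finset.mem_image.2 ⟨w, hw, h1.symm⟩)
        have h2 := Finset.card_le_card h1
        have h3 := Finset.card_union_le (dig U l') (W.image (fun w => (w.1, S.φ l' w.2)))
        have h4 : (W.image (fun w => (w.1, S.φ l' w.2))).card ≤ W.card := Finset.card_image_le
        have h5 := h.hc l'
        rw [← card_dig] at h5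
        omega
      have hbig : S.big = 200 * (S.m + 2) := rfl
      have hc2 := card_bd hS (S.φ l') (dig (newU U W) l') hne (by omega)
      have hc3 : (Finset.univ.filter fun v => S.bd (S.φ l') (dig (newU U W) l') v ≠ 0).card ≤
          3 * (S.m + 2) + 1 := by
        have h1 : (Finset.univ.filter fun v => S.bd (S.φ l') (dig (newU U W) l') v ≠ 0) ⊆
            (zz.toFinset.image (S.pr (S.φ l'))) ∪
            P.biUnion (fun o => Finset.univ.filter fun x : S.V1 => (l', x) ∈ S.scope o) := by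
          intro x hx
          have hx' := (Finset.mem_filter.1 hx).2
          rw [← bdG_eq] at hx'
          by_contra hcon
          simp only [Finset.mem_union, Finset.mem_image, Finset.mem_biUnion, Finset.mem_filter,
            Finset.mem_univ, true_and, not_or, not_exists, not_and] at hcon
          obtain ⟨hc1, hc2⟩ := hcon
          have f0 : f (l', x) = 0 := by
            by_contra hne
            obtain ⟨o, ho, hvo⟩ := h.supp _ hne
            exact hc2 o ho hvo
          have f1 : ∑ ρ ∈ zz.toFinset, S.word ρ (l', x) = 0 := by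
            apply Finset.sum_eq_zero
            intro ρ hρ
            unfold word
            rw [if_neg (hc1 ρ hρ)]
          have f2 : ∑ s ∈ B, S.word (S.spt s, 0) (l', x) = 0 := by
            apply Finset.sum_eq_zero
            intro s hs
            unfold word
            rw [if_neg]
            intro h'
            apply hc2 _ (hB s hs)
            unfold scope
            refine Finset.mem_image.2 ⟨l', Finset.mem_univ _, ?_⟩
            have h'' : S.pr (S.φ l') (S.spt s, 0) = x := h'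
            rw [← h'']
            simp [pr]
          have := hF (l', x)
          rw [f0, f1, f2] at this
          apply hx'
          rw [← sub_eq_zero] at this
          have h9 : S.bdG (newU U W) (l', x) = 0 := by
            linear_combination -this
          exact h9
        refine (Finset.card_le_card h1).trans ((Finset.card_union_le _ _).trans ?_)
        have h2 : (zz.toFinset.image (S.pr (S.φ l'))).card ≤ 1 := by
          refine Finset.card_image_le.trans ?_
          cases zz <;> simp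
        have h3 : (P.biUnion (fun o => Finset.univ.filter
            fun x : S.V1 => (l', x) ∈ S.scope o)).card ≤ P.card * 3 :=
          Finset.card_biUnion_le_card_mul _ _ _ (fun o _ => card_scope_dig o l')
        omega
      omega
  · have h1 := h.hβ
    rw [h1]
    have e0 : ∑ ρ ∈ zz.toFinset, val ρ = zz.elim 0 val := by
      cases zz <;> simp
    rw [e0]
    have e1 := CharTwo.add_self_eq_zero (zz.elim 0 val)
    have e2 := CharTwo.add_self_eq_zero (∑ s ∈ B, val (S.spt s, 0))
    linear_combination w6 - e1 - e2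

end Vale.Agent.P310.Sys
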