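import Vale.Agent.P310.LinExt
import Vale.Agent.P310.Main

/-!
P310, Level A, piece A10: the winning family of Duplicator from the reduction theorem.
-/

namespace Vale.Agent.P310.Sys

open scoped BigOperators

variable {S : Sys}

/-- the true nodes: the derived facts at all lifts, and the final node -/
def TrD (S : Sys) : Set S.Nd := {n | S.Der n.1.1 n.2 ∨ n = ((S.fin, 1), 0)}

/-- the values: `1` on the final node and `0` elsewhere -/
def valD (S : Sys) (n : S.Nd) : ZMod 2 := if n = ((S.fin, 1), 0) then 1 else 0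

theorem fin_slot (hS : S.OK) {p : S.E × S.Q} {c : S.C} {i : Fin 3}
    (h : S.nd p c i = ((S.fin, 1), 0)) : i = 2 ∧ S.ty p.1 0 = S.ty p.1 1 ∧
      S.sh p.1 0 = S.sh p.1 1 := by
  have h1 : S.ty p.1 i = S.fin := by
    have := congrArg (fun n : S.Nd => n.1.1) h
    exact this
  exact hS.fin_out p.1 i h1

theorem other_slot {i j l : Fin 3} (hij : i ≠ j) (hli : l ≠ i) (hlj : l ≠ j) (hi : i = 2) :
    (j = 0 ∧ l = 1) ∨ (j = 1 ∧ l = 0) := by
  subst hi
  revert hij hli hlj
  revert j l
  decide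

theorem der_same {p : S.E × S.Q} {c : S.C} {j l : Fin 3}
    (h0 : S.ty p.1 0 = S.ty p.1 1) (h1 : S.sh p.1 0 = S.sh p.1 1)
    (hjl : (j = 0 ∧ l = 1) ∨ (j = 1 ∧ l = 0)) (h : S.Der (S.ty p.1 j) (c + S.sh p.1 j)) :
    S.Der (S.ty p.1 l) (c + S.sh p.1 l) := by
  rcases hjl with ⟨rfl, rfl⟩ | ⟨rfl, rfl⟩
  · rw [← h0, ← h1]; exact h
  · rw [h0, h1]; exact h

theorem trOK (hS : S.OK) (hD : ¬ S.Der S.fin 0) : S.TrOK (TrD S) (valD S) where
  closed := by
    intro p c i j l hij hli hlj hp hi hj
    rcases hi with hi | hi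
    · rcases hj with hj | hj
      · exact Or.inl (Der.step p.1 c i j l hij hli hlj hp hi hj)
      · obtain ⟨h2, h3, h4⟩ := fin_slot hS hj
        have hs := other_slot hij.symm hlj hli h2
        exact Or.inl (der_same h3 h4 hs hi)
    · obtain ⟨h2, h3, h4⟩ := fin_slot hS hi
      have hs := other_slot hij hli hlj h2
      rcases hj with hj | hj
      · exact Or.inl (der_same h3 h4 hs hj)
      · obtain ⟨h5, -, -⟩ := fin_slot hS hj
        exact absurd (h2.trans h5.symm) hij
  sum := by
    intro p c hp hall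
    have key : ∀ i, S.nd p c i ≠ ((S.fin, 1), 0) := by
      intro i hi
      obtain ⟨h2, h3, h4⟩ := fin_slot hS hi
      subst h2
      have d0 : ∀ j : Fin 3, j ≠ 2 → S.Der (S.ty p.1 j) (c + S.sh p.1 j) := by
        intro j hj
        rcases hall j with h | h
        · exact h
        · exact absurd (fin_slot hS h).1 hj
      have := Der.step p.1 c 0 1 2 (by decide) (by decide) (by decide) hp (d0 0 (by decide))
        (d0 1 (by decide))
      apply hD
      have e1 : S.ty p.1 2 = S.fin := congrArg (fun n : S.Nd => n.1.1) hi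
      have e2 : c + S.sh p.1 2 = 0 := congrArg (fun n : S.Nd => n.2) hi
      rw [e1, e2] at this
      exact this
    apply Finset.sum_eq_zero
    intro i _
    simp [valD, key i]
  spc := by
    intro s
    cases s with
    | none => exact Or.inr rfl
    | some h => exact Or.inl Der.start

theorem dset_mono {Tr : Set S.Nd} {val : S.Nd → ZMod 2} {P P' : Finset (Obj S)} (h : P ⊆ P') :
    S.Dset Tr val P ⊆ S.Dset Tr val P' := by
  rintro p ⟨R, A, U, hR, hr⟩
  exact ⟨R, A, U, hR, ⟨hr.hR, fun s hs => h (hr.hA s hs), hr.hU, hr.hc, hr.hf, hr.hβ,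
    fun v hv => by obtain ⟨o, ho, hv⟩ := hr.supp v hv; exact ⟨o, h ho, hv⟩⟩⟩

/-- sums over symmetric differences in `ZMod 2` -/
theorem sum_symmDiff {X : Type} [DecidableEq X] (A B : Finset X) (f : X → ZMod 2) :
    ∑ x ∈ symmDiff A B, f x = ∑ x ∈ A, f x + ∑ x ∈ B, f x := by
  have h1 : ∑ x ∈ A, f x = ∑ x ∈ A \ B, f x + ∑ x ∈ A ∩ B, f x := by
    rw [← Finset.sum_union (Finset.disjoint_sdiff_inter A B), Finset.sdiff_union_inter]
  have h2 : ∑ x ∈ B, f x = ∑ x ∈ B \ A, f x + ∑ x ∈ A ∩ B, f x := by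
    rw [Finset.inter_comm, ← Finset.sum_union (Finset.disjoint_sdiff_inter B A),
      Finset.sdiff_union_inter]
  have h3 : ∑ x ∈ symmDiff A B, f x = ∑ x ∈ A \ B, f x + ∑ x ∈ B \ A, f x := by
    rw [symmDiff_def]
    exact Finset.sum_union (disjoint_sdiff_sdiff)
  rw [h1, h2, h3]
  have : ∑ x ∈ A ∩ B, f x + ∑ x ∈ A ∩ B, f x = 0 := CharTwo.add_self_eq_zero _
  linear_combination -this

theorem rep_add {Tr : Set S.Nd} {val : S.Nd → ZMod 2} {P : Finset (Obj S)} {b b' : ℕ}
    {R R' : Finset S.Nd} {A A' : Finset S.Spc} {U U' : Finset S.Eqn} {f f' : S.Var → ZMod 2}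
    {β β' : ZMod 2} (h : S.Rep Tr val P b R A U f β) (h' : S.Rep Tr val P b' R' A' U' f' β') :
    S.Rep Tr val P (b + b') (symmDiff R R') (symmDiff A A') (symmDiff U U')
      (fun v => f v + f' v) (β + β') where
  hR := by
    intro ρ hρ
    rcases Finset.mem_symmDiff.1 hρ with ⟨h1, _⟩ | ⟨h1, _⟩
    · exact h.hR _ h1
    · exact h'.hR _ h1
  hA := by
    intro ρ hρ
    rcases Finset.mem_symmDiff.1 hρ with ⟨h1, _⟩ | ⟨h1, _⟩
    · exact h.hA _ h1
    · exact h'.hA _ h1
  hU := by
    intro ρ hρ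
    rcases Finset.mem_symmDiff.1 hρ with ⟨h1, _⟩ | ⟨h1, _⟩
    · exact h.hU _ h1
    · exact h'.hU _ h1
  hc := by
    intro l
    have : (symmDiff U U').filter (fun E => E.1 = l) ⊆
        U.filter (fun E => E.1 = l) ∪ U'.filter (fun E => E.1 = l) := by
      intro E hE
      rw [Finset.mem_filter] at hE
      rw [Finset.mem_union, Finset.mem_filter, Finset.mem_filter]
      rcases Finset.mem_symmDiff.1 hE.1 with ⟨h1, _⟩ | ⟨h1, _⟩
      · exact Or.inl ⟨h1, hE.2⟩
      · exact Or.inr ⟨h1, hE.2⟩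
    exact (Finset.card_le_card this).trans
      ((Finset.card_union_le _ _).trans (Nat.add_le_add (h.hc l) (h'.hc l)))
  hf := by
    intro v
    unfold bdG
    rw [sum_symmDiff, sum_symmDiff, sum_symmDiff, h.hf v, h'.hf v]
    unfold bdG
    ring
  hβ := by
    rw [sum_symmDiff, sum_symmDiff, h.hβ, h'.hβ]
    ring
  supp := by
    intro v hv
    by_cases h0 : f v = 0
    · refine h'.supp v fun h1 => hv ?_
      change f v + f' v = 0
      rw [h0, h1, add_zero]
    · exact h.supp v h0

theorem card_symmDiff_le {X : Type} [DecidableEq X] {A B : Finset X} {a b : ℕ}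
    (ha : A.card ≤ a) (hb : B.card ≤ b) : (symmDiff A B).card ≤ a + b := by
  have : symmDiff A B ⊆ A ∪ B := by
    intro x hx
    rcases Finset.mem_symmDiff.1 hx with ⟨h1, _⟩ | ⟨h1, _⟩
    · exact Finset.mem_union_left _ h1
    · exact Finset.mem_union_right _ h1
  exact (Finset.card_le_card this).trans ((Finset.card_union_le _ _).trans (Nat.add_le_add ha hb))

theorem rep_le {Tr : Set S.Nd} {val : S.Nd → ZMod 2} {P : Finset (Obj S)} {b b' : ℕ}
    {R : Finset S.Nd} {A : Finset S.Spc} {U : Finset S.Eqn} {f : S.Var → ZMod 2} {β : ZMod 2}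
    (hb : b ≤ b') (h : S.Rep Tr val P b R A U f β) : S.Rep Tr val P b' R A U f β :=
  ⟨h.hR, h.hA, h.hU, fun l => (h.hc l).trans hb, h.hf, h.hβ, h.supp⟩

theorem dset_add {Tr : Set S.Nd} {val : S.Nd → ZMod 2} (hS : S.OK) (hT : S.TrOK Tr val)
    {P : Finset (Obj S)} (hP : P.card ≤ S.m + 2) {p p' : (S.Var → ZMod 2) × ZMod 2}
    (h : p ∈ S.Dset Tr val P) (h' : p' ∈ S.Dset Tr val P) : p + p' ∈ S.Dset Tr val P := by
  obtain ⟨R, A, U, hR, hr⟩ := h
  obtain ⟨R', A', U', hR', hr'⟩ := h'
  have := rep_add hr hr'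
  have h2 := main_reduce hS hT hP (card_symmDiff_le hR hR') (rep_le (by omega) this)
  exact h2

theorem dset_zero {Tr : Set S.Nd} {val : S.Nd → ZMod 2} {P : Finset (Obj S)} :
    (0 : (S.Var → ZMod 2) × ZMod 2) ∈ S.Dset Tr val P := by
  refine ⟨∅, ∅, ∅, by simp, ⟨by simp, by simp, by simp, by simp, ?_, by simp, ?_⟩⟩
  · intro v; simp [bdG]
  · intro v hv; exact absurd rfl hv

/-- the space of known forms as an additive group -/
def dgrp {Tr : Set S.Nd} {val : S.Nd → ZMod 2} (hS : S.OK) (hT : S.TrOK Tr val)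
    {P : Finset (Obj S)} (hP : P.card ≤ S.m + 2) :
    AddSubgroup ((S.Var → ZMod 2) × ZMod 2) where
  carrier := S.Dset Tr val P
  add_mem' := fun ha hb => dset_add hS hT hP ha hb
  zero_mem' := dset_zero
  neg_mem' := by
    intro x hx
    have : -x = x := by
      refine Prod.ext ?_ ?_
      · funext v
        exact CharTwo.neg_eq (x.1 v)
      · exact CharTwo.neg_eq x.2
    rw [this]; exact hx

/-- restriction: a known form of `insert o P` supported on `P` is a known form of `P` -/
theorem dset_restrict {Tr : Set S.Nd} {val : S.Nd → ZMod 2} (hS : S.OK) (hT : S.TrOK Tr val)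
    {P P' : Finset (Obj S)} (hP : P.card ≤ S.m + 2) (o : Obj S)
    (hPP : ∀ x ∈ P', x = o ∨ x ∈ P) {p : (S.Var → ZMod 2) × ZMod 2}
    (h : p ∈ S.Dset Tr val P') (hs : ∀ v, p.1 v ≠ 0 → ∃ o ∈ P, v ∈ S.scope o) :
    p ∈ S.Dset Tr val P := by
  obtain ⟨R, A, U, hR, hr⟩ := h
  by_cases hA : ∀ s ∈ A, Obj.spc s ∈ P
  · exact ⟨R, A, U, hR, ⟨hr.hR, hA, hr.hU, hr.hc, hr.hf, hr.hβ, hs⟩⟩
  · push Not at hA
    obtain ⟨s, hsA, hsP⟩ := hA
    have ho : Obj.spc s = o := by
      rcases hPP _ (hr.hA s hsA) with h | h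
      · exact h
      · exact absurd h hsP
    have hrest : ∀ s' ∈ A.erase s, Obj.spc s' ∈ P := by
      intro s' hs'
      rcases hPP _ (hr.hA s' (Finset.mem_of_mem_erase hs')) with h | h
      · exfalso
        rw [← ho] at h
        injection h with h
        exact (Finset.mem_erase.1 hs').1 h
      · exact h
    have hrep : S.Rep Tr val P (6 * (S.m + 2)) (symmDiff R {((S.spt s, 0) : S.Nd)}) (A.erase s) U
        p.1 p.2 := by
      refine ⟨?_, hrest, hr.hU, fun l => (hr.hc l).trans (by omega), ?_, ?_, hs⟩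
      · intro ρ hρ
        rcases Finset.mem_symmDiff.1 hρ with ⟨h1, _⟩ | ⟨h1, _⟩
        · exact hr.hR _ h1
        · rw [Finset.mem_singleton.1 h1]; exact hT.spc s
      · intro v
        rw [sum_symmDiff, Finset.sum_singleton, hr.hf v, ← Finset.add_sum_erase A _ hsA]
        ring
      · rw [sum_symmDiff, Finset.sum_singleton, hr.hβ, ← Finset.add_sum_erase A _ hsA]
        ring
    have hcard : (symmDiff R {((S.spt s, 0) : S.Nd)}).card ≤ 2 :=
      card_symmDiff_le (a := 1) (b := 1) hR (by simp)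
    exact main_reduce hS hT hP hcard hrep

theorem sum_ite_mul {X : Type} [Fintype X] [DecidableEq X] (x : X) (d : X → ZMod 2) :
    ∑ v, (if x = v then (1 : ZMod 2) else 0) * d v = d x := by
  simp

theorem exists_fam (hS : S.OK) (hD : ¬ S.Der S.fin 0) : Nonempty (Fam S) := by
  classical
  have hT := trOK hS hD
  refine ⟨⟨fun P => {d | ∀ p ∈ S.Dset (TrD S) (valD S) P, ∑ v, p.1 v * d v = p.2},
    ?_, ?_, ?_, ?_, ?_⟩⟩
  · refine ⟨fun _ => 0, fun p hp => ?_⟩
    have h0 : p.1 = fun _ => 0 := by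
      funext v
      by_contra hv
      obtain ⟨R, A, U, hR, hr⟩ := hp
      obtain ⟨o, ho, _⟩ := hr.supp v hv
      simp at ho
    have h1 : p.2 = 0 := by
      apply rep_zero hS hT (P := ∅) (by simp)
      rw [← h0]
      exact hp
    rw [h1]
    simp
  · intro P P' h d hd p hp
    exact hd p (dset_mono h hp)
  · intro P hP d hd o
    refine ⟨insert o P, Finset.subset_insert o P, Finset.mem_insert_self o P, ?_⟩
    have hP' : (insert o P).card ≤ S.m + 2 :=
      (Finset.card_insert_le o P).trans (by omega)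
    obtain ⟨d', h1, h2⟩ := lin_ext (dgrp hS hT hP') {v | ∃ o ∈ P, v ∈ S.scope o} d (by
      intro p hp hsupp
      have hp' : p ∈ S.Dset (TrD S) (valD S) (insert o P) := hp
      exact hd p (dset_restrict hS hT (hP.trans (by omega)) o
        (fun x hx => Finset.mem_insert.1 hx) hp' hsupp))
    exact ⟨d', fun p hp => h1 p hp, fun o' ho' v hv => h2 v ⟨o', ho', hv⟩⟩
  · intro P d hd E hE hpre
    have hmem : ((S.bdG {E}, 0) : (S.Var → ZMod 2) × ZMod 2) ∈
        S.Dset (TrD S) (valD S) P := by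
      refine ⟨∅, ∅, {E}, by simp, ⟨by simp, by simp, ?_, ?_, ?_, by simp, ?_⟩⟩
      · intro E' hE'; rw [Finset.mem_singleton.1 hE']; exact hpre
      · intro l
        exact (Finset.card_filter_le _ _).trans (by rw [Finset.card_singleton]; omega)
      · intro v; simp
      · intro v hv
        refine ⟨_, hE, ?_⟩
        simp only [scope, if_pos hpre]
        by_contra hc
        apply hv
        change S.bdG {E} v = 0
        unfold bdG
        rw [Finset.sum_singleton]
        apply Finset.sum_eq_zero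
        intro i _
        rw [if_neg]
        intro h
        exact hc (Finset.mem_image.2 ⟨i, Finset.mem_univ _, h⟩)
    have h1 := hd _ hmem
    simp only at h1
    rw [← h1]
    unfold bdG
    simp only [Finset.sum_singleton, Finset.sum_mul]
    rw [Finset.sum_comm]
    exact Finset.sum_congr rfl fun i _ => (sum_ite_mul (S.slot E i) d).symm
  · intro P d hd s hs
    have hval : valD S (S.spt s, 0) = S.tw true s := by
      cases s with
      | none => simp [valD, spt, tw]
      | some h =>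
        have : S.start ≠ S.fin := hS.start_ne
        simp [valD, spt, tw, this]
    have hmem : ((S.word (S.spt s, 0), valD S (S.spt s, 0)) : (S.Var → ZMod 2) × ZMod 2) ∈
        S.Dset (TrD S) (valD S) P := by
      refine ⟨∅, {s}, ∅, by simp, ⟨by simp, ?_, by simp, by simp, ?_, by simp, ?_⟩⟩
      · intro s' hs'; rw [Finset.mem_singleton.1 hs']; exact hs
      · intro v; simp [bdG]
      · intro v hv
        refine ⟨_, hs, ?_⟩
        have h2 : S.pr (S.φ v.1) (S.spt s, 0) = v.2 := by
          by_contra hc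
          apply hv
          change S.word (S.spt s, 0) v = 0
          unfold word
          rw [if_neg hc]
        unfold scope
        refine Finset.mem_image.2 ⟨v.1, Finset.mem_univ _, ?_⟩
        refine Prod.ext rfl ?_
        rw [← h2]
        simp [pr]
    have h1 := hd _ hmem
    simp only at h1
    rw [← hval, ← h1, Fintype.sum_prod_type]
    refine Finset.sum_congr rfl fun l _ => ?_
    rw [Finset.sum_eq_single ((S.spt s, 0) : S.V1)]
    · simp [word, pr]
    · intro b _ hb
      have : ¬ (S.pr (S.φ l) (S.spt s, 0) = b) := by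
        intro h; apply hb; rw [← h]; simp [pr]
      simp [word, this]
    · intro h; exact absurd (Finset.mem_univ _) h

end Vale.Agent.P310.Sys
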