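import Vale.Agent.P310.CDef

/-!
P310, Level C: completeness of the rules for the adjacency predicates.
-/

namespace Vale.Agent.P310

open scoped BigOperators

namespace CompAdj

variable {A : TM} {r q : ℕ} {D : (Fin 5 → ZMod q) → Prop}

/-- the assignment with the time `t` and the position `x` -/
def asg (t : Fin r → ZMod q) (x : Fin (r + 1) → ZMod q) : VV r → ZMod q :=
  Sum.elim t (Sum.elim x 0)

theorem ev_pn (t : Fin r → ZMod q) (x : Fin (r + 1) → ZMod q) (j : ℕ) :
    (pn r j).ev (asg t x) = dig x j := rfl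

theorem ev_head (t : Fin r → ZMod q) (x : Fin (r + 1) → ZMod q) :
    (fun i => (tp r (tv r) (pv r) i).ev (asg t x)) = Sum.elim t x := by
  funext i
  cases i <;> rfl

theorem ev_swap (t : Fin r → ZMod q) (x : Fin (r + 1) → ZMod q) :
    (fun i => (tp r (tv r) (psw r) i).ev (asg t x)) =
      Sum.elim t fun i : Fin (r + 1) => dig x (swn i.val) := by
  funext i
  cases i <;> rfl

theorem pj_val (j : ℕ) (hj : j ≤ r) : (pj r j).val = j := by
  simp only [pj, Fin.ofNat]
  exact Nat.mod_eq_of_lt (by omega)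

theorem dig_swap (hr : 15 ≤ r) (x : Fin (r + 1) → ZMod q) (j : ℕ) (hj : j ≤ 14) :
    dig (fun i : Fin (r + 1) => dig x (swn i.val)) j = dig x (swn j) := by
  show dig x (swn (pj r j).val) = dig x (swn j)
  rw [pj_val j (by omega)]

theorem larc_congr {d d' : ℕ → ZMod q} (h : ∀ j, j ≤ 14 → d j = d' j) :
    LArc D d ↔ LArc D d' := by
  have e1 : (fun j : Fin 6 => d j.val) = fun j : Fin 6 => d' j.val := by
    funext j
    exact h _ (by omega)
  have e2 : (fun j : Fin 6 => d (7 + j.val)) = fun j : Fin 6 => d' (7 + j.val) := by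
    funext j
    exact h _ (by omega)
  unfold LArc
  rw [h 14 (by omega), h 6 (by omega), h 13 (by omega), e1, e2]

theorem larc_swap (hr : 15 ≤ r) (x : Fin (r + 1) → ZMod q) :
    LArc D (dig fun i : Fin (r + 1) => dig x (swn i.val)) ↔
      LArc D fun j => dig x (swn j) :=
  larc_congr fun j hj => dig_swap hr x j hj

/-- truth of an equality atom -/
theorem holds_ae (hD : GoodD D) {M : PP A → (II r → ZMod q) → Prop} {v : VV r → ZMod q}
    (s : Bool) (a b : Tm (VV r)) :
    (ae r s a b : GAtm (PP A) (II r) (VV r)).holds D M v ↔ ((a.ev v = b.ev v) ↔ s = true) := by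
  have e : (fun j => ((![.c 0, a, b, b, b] : Fin 5 → Tm (VV r)) j).ev v) =
      ![((0 : ℕ) : ZMod q), a.ev v, b.ev v, b.ev v, b.ev v] := by
    funext j
    fin_cases j <;> rfl
  show ((D fun j => ((![.c 0, a, b, b, b] : Fin 5 → Tm (VV r)) j).ev v) ↔ s = true) ↔ _
  rw [e, hD.eq_iff]

theorem holds_am {M : PP A → (II r → ZMod q) → Prop} {v : VV r → ZMod q}
    (s : Bool) (j : Fin 6) :
    (am r s j : GAtm (PP A) (II r) (VV r)).holds D M v ↔
      (D ![((8 + j.val : ℕ) : ZMod q), (pn r 6).ev v, (pn r 13).ev v, (pn r j.val).ev v,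
        (pn r (7 + j.val)).ev v] ↔ s = true) := by
  have e : (fun i => ((![.c (8 + j.val), pn r 6, pn r 13, pn r j.val, pn r (7 + j.val)] :
        Fin 5 → Tm (VV r)) i).ev v) =
      ![((8 + j.val : ℕ) : ZMod q), (pn r 6).ev v, (pn r 13).ev v, (pn r j.val).ev v,
        (pn r (7 + j.val)).ev v] := by
    funext i
    fin_cases i <;> rfl
  show ((D fun i => ((![.c (8 + j.val), pn r 6, pn r 13, pn r j.val, pn r (7 + j.val)] :
        Fin 5 → Tm (VV r)) i).ev v) ↔ s = true) ↔ _
  rw [e]

theorem holds_ac {M : PP A → (II r → ZMod q) → Prop} {v : VV r → ZMod q}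
    (s : Bool) (π : Fin 4) :
    (ac r s π : GAtm (PP A) (II r) (VV r)).holds D M v ↔
      (D ![((4 + π.val : ℕ) : ZMod q), (pn r 14).ev v, (pn r 6).ev v, (pn r 13).ev v,
        (pn r 13).ev v] ↔ s = true) := by
  have e : (fun i => ((![.c (4 + π.val), pn r 14, pn r 6, pn r 13, pn r 13] :
        Fin 5 → Tm (VV r)) i).ev v) =
      ![((4 + π.val : ℕ) : ZMod q), (pn r 14).ev v, (pn r 6).ev v, (pn r 13).ev v,
        (pn r 13).ev v] := by
    funext i
    fin_cases i <;> rfl
  show ((D fun i => ((![.c (4 + π.val), pn r 14, pn r 6, pn r 13, pn r 13] :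
        Fin 5 → Tm (VV r)) i).ev v) ↔ s = true) ↔ _
  rw [e]

theorem holds_atb {M : PP A → (II r → ZMod q) → Prop} {v : VV r → ZMod q} (s : Bool) :
    (atb r s : GAtm (PP A) (II r) (VV r)).holds D M v ↔
      (D ![(pn r 1).ev v, (pn r 2).ev v, (pn r 3).ev v, (pn r 4).ev v, (pn r 5).ev v] ↔
        s = true) := by
  have e : (fun i => ((![pn r 1, pn r 2, pn r 3, pn r 4, pn r 5] :
        Fin 5 → Tm (VV r)) i).ev v) =
      ![(pn r 1).ev v, (pn r 2).ev v, (pn r 3).ev v, (pn r 4).ev v, (pn r 5).ev v] := by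
    funext i
    fin_cases i <;> rfl
  show ((D fun i => ((![pn r 1, pn r 2, pn r 3, pn r 4, pn r 5] :
        Fin 5 → Tm (VV r)) i).ev v) ↔ s = true) ↔ _
  rw [e]

/-- the interpretation `M` is closed under the rule `x` -/
def Cl (D : (Fin 5 → ZMod q) → Prop) (M : PP A → (II r → ZMod q) → Prop) (x : RR A r) : Prop :=
  ∀ v : VV r → ZMod q, (∀ a ∈ x.rule.2.2, a.holds D M v) →
    M x.rule.1 fun i => (x.rule.2.1 i).ev v

/-- `M` is closed under the rules of the adjacency predicates -/
structure ClAdj (D : (Fin 5 → ZMod q) → Prop) (M : PP A → (II r → ZMod q) → Prop) : Prop where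
  nca : ∀ π, Cl D M (.nca π)
  ncb : ∀ s, Cl D M (.ncb s)
  ncc : ∀ j, Cl D M (.ncc j)
  arc1 : ∀ π, Cl D M (.arc1 π)
  arc0m : ∀ j, Cl D M (.arc0m j)
  arc0c : Cl D M .arc0c
  adj1 : Cl D M .adj1
  adj2 : Cl D M .adj2
  adj0 : Cl D M .adj0

theorem clSat (x : RR A r) : Cl D (fun p y => (prog A r).Sat D p y) x := fun v hv =>
  (prog A r).sat_rule D x v hv

theorem clAdj_sat : ClAdj D (fun (p : PP A) (y : II r → ZMod q) => (prog A r).Sat D p y) :=
  ⟨fun _ => clSat _, fun _ => clSat _, fun _ => clSat _, fun _ => clSat _, fun _ => clSat _,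
    clSat _, clSat _, clSat _, clSat _⟩

variable {M : PP A → (II r → ZMod q) → Prop}

/-- a rule with head arguments `t`, `p` -/
theorem sat_of (ρ : RR A r) (hρ : Cl D M ρ) (p : PP A) (t : Fin r → ZMod q)
    (x : Fin (r + 1) → ZMod q)
    (h1 : ρ.rule.1 = p) (h2 : ρ.rule.2.1 = tp r (tv r) (pv r))
    (h3 : ∀ a ∈ ρ.rule.2.2, a.holds D M (asg t x)) :
    M p (Sum.elim t x) := by
  have h := hρ (asg t x) h3
  rw [h2, ev_head, h1] at h
  exact h

theorem sat_nc (hD : GoodD D) (hM : ClAdj D M) (π : Fin 4) (t : Fin r → ZMod q)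
    (x : Fin (r + 1) → ZMod q) (h : NC D π (dig x)) : M (.nc π) (Sum.elim t x) := by
  by_cases h1 : D ![((4 + π.val : ℕ) : ZMod q), dig x 14, dig x 6, dig x 13, dig x 13]
  · have h2 : ¬ ((π = 1 → D ![dig x 1, dig x 2, dig x 3, dig x 4, dig x 5]) ∧
        (π = 2 → ¬ D ![dig x 1, dig x 2, dig x 3, dig x 4, dig x 5]) ∧
        (π = 3 → ∀ j : Fin 6, dig x j.val = 0)) := fun h2 => h ⟨h1, h2⟩
    by_cases h3 : π = 1 → D ![dig x 1, dig x 2, dig x 3, dig x 4, dig x 5]
    · by_cases h4 : π = 2 → ¬ D ![dig x 1, dig x 2, dig x 3, dig x 4, dig x 5]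
      · have h5 : ¬ (π = 3 → ∀ j : Fin 6, dig x j.val = 0) := fun h5 => h2 ⟨h3, h4, h5⟩
        push Not at h5
        obtain ⟨h6, j, h7⟩ := h5
        refine sat_of (.ncc j) (hM.ncc j) _ t x (by rw [h6]; rfl) rfl ?_
        intro a ha
        have ha' : a = ae r false (pn r j.val) (.c 0) := by
          simpa [RR.rule] using ha
        rw [ha', holds_ae hD]
        simp only [ev_pn, Bool.false_eq_true, iff_false]
        show ¬ dig x j.val = ((0 : ℕ) : ZMod q)
        rw [Nat.cast_zero]
        exact h7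
      · push Not at h4
        obtain ⟨h6, h7⟩ := h4
        refine sat_of (.ncb false) (hM.ncb false) _ t x (by rw [h6]; rfl) rfl ?_
        intro a ha
        have ha' : a = atb r true := by
          simpa [RR.rule] using ha
        rw [ha', holds_atb]
        simp only [ev_pn, iff_true]
        exact h7
    · push Not at h3
      obtain ⟨h6, h7⟩ := h3
      refine sat_of (.ncb true) (hM.ncb true) _ t x (by rw [h6]; rfl) rfl ?_
      intro a ha
      have ha' : a = atb r false := by
        simpa [RR.rule] using ha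
      rw [ha', holds_atb]
      simp only [ev_pn, Bool.false_eq_true, iff_false]
      exact h7
  · refine sat_of (.nca π) (hM.nca π) _ t x rfl rfl ?_
    intro a ha
    have ha' : a = ac r false π := by
      simpa [RR.rule] using ha
    rw [ha', holds_ac]
    simp only [ev_pn, Bool.false_eq_true, iff_false]
    exact h1

/-- the condition of number `π` -/
theorem larc_iff (d : ℕ → ZMod q) :
    LArc D d ↔ (∀ j : Fin 6, D ![((8 + j.val : ℕ) : ZMod q), d 6, d 13, d j.val, d (7 + j.val)]) ∧
      ∃ π : Fin 4, ¬ NC D π d := by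
  have e : (∃ π : Fin 4, ¬ NC D π d) ↔
      (D ![((4 : ℕ) : ZMod q), d 14, d 6, d 13, d 13] ∨
    (D ![((5 : ℕ) : ZMod q), d 14, d 6, d 13, d 13] ∧ D ![d 1, d 2, d 3, d 4, d 5]) ∨
    (D ![((6 : ℕ) : ZMod q), d 14, d 6, d 13, d 13] ∧ ¬ D ![d 1, d 2, d 3, d 4, d 5]) ∨
    (D ![((7 : ℕ) : ZMod q), d 14, d 6, d 13, d 13] ∧ ∀ j : Fin 6, d j.val = 0)) := by
    unfold NC
    simp only [not_not]
    constructor
    · rintro ⟨π, h1, h2, h3, h4⟩
      fin_cases π
      · exact Or.inl h1
      · exact Or.inr (Or.inl ⟨h1, h2 rfl⟩)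
      · exact Or.inr (Or.inr (Or.inl ⟨h1, h3 rfl⟩))
      · exact Or.inr (Or.inr (Or.inr ⟨h1, h4 rfl⟩))
    · rintro (h | ⟨h1, h2⟩ | ⟨h1, h2⟩ | ⟨h1, h2⟩)
      · exact ⟨0, h, by simp⟩
      · exact ⟨1, h1, fun _ => h2, by simp, by simp⟩
      · exact ⟨2, h1, by simp, fun _ => h2, by simp⟩
      · exact ⟨3, h1, by simp, by simp, fun _ => h2⟩
  rw [e]
  rfl

theorem sat_arc (hD : GoodD D) (hM : ClAdj D M) (b : Bool) (t : Fin r → ZMod q)
    (x : Fin (r + 1) → ZMod q) (h : b = true ↔ LArc D (dig x)) : M (.arc b) (Sum.elim t x) := by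
  cases b with
  | true =>
    have h1 : LArc D (dig x) := h.mp rfl
    obtain ⟨h2, π, h3⟩ := (larc_iff _).mp h1
    refine sat_of (.arc1 π) (hM.arc1 π) _ t x rfl rfl ?_
    intro a ha
    have ha' : a ∈ ((List.finRange 6).map (fun j => am r true j) ++ [ac r true π] ++ acs r π :
      List (GAtm (PP A) (II r) (VV r))) := ha
    rw [List.mem_append, List.mem_append, List.mem_map, List.mem_singleton] at ha'
    unfold NC at h3
    rw [not_not] at h3
    obtain ⟨h4, h5, h6, h7⟩ := h3
    rcases ha' with (⟨j, _, rfl⟩ | rfl) | ha'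
    · rw [holds_am]
      simp only [ev_pn, iff_true]
      exact h2 j
    · rw [holds_ac]
      simp only [ev_pn, iff_true]
      exact h4
    · unfold acs at ha'
      split_ifs at ha' with g1 g2 g3
      · exact absurd ha' List.not_mem_nil
      · rw [List.mem_singleton] at ha'
        rw [ha', holds_atb]
        simp only [ev_pn, iff_true]
        exact h5 g2
      · rw [List.mem_singleton] at ha'
        rw [ha', holds_atb]
        simp only [ev_pn, Bool.false_eq_true, iff_false]
        exact h6 g3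
      · rw [List.mem_map] at ha'
        obtain ⟨j, _, rfl⟩ := ha'
        have g4 : π = 3 := by
          fin_cases π
          · exact absurd rfl g1
          · exact absurd rfl g2
          · exact absurd rfl g3
          · rfl
        rw [holds_ae hD]
        simp only [ev_pn, iff_true]
        show dig x j.val = ((0 : ℕ) : ZMod q)
        rw [Nat.cast_zero]
        exact h7 g4 j
  | false =>
    have h1 : ¬ LArc D (dig x) := fun h1 => by simpa using h.mpr h1
    rw [larc_iff] at h1
    by_cases h2 : ∀ j : Fin 6,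
        D ![((8 + j.val : ℕ) : ZMod q), dig x 6, dig x 13, dig x j.val, dig x (7 + j.val)]
    · have h3 : ∀ π : Fin 4, NC D π (dig x) := by
        intro π
        by_contra h3
        exact h1 ⟨h2, π, h3⟩
      refine sat_of .arc0c hM.arc0c _ t x rfl rfl ?_
      intro a ha
      have ha' : a ∈ ((List.finRange 4).map fun π => pa r (.nc π) (tv r) (pv r) :
        List (GAtm (PP A) (II r) (VV r))) := ha
      rw [List.mem_map] at ha'
      obtain ⟨π, _, rfl⟩ := ha'
      show M (.nc π) fun i => (tp r (tv r) (pv r) i).ev (asg t x)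
      rw [ev_head]
      exact sat_nc hD hM π t x (h3 π)
    · push Not at h2
      obtain ⟨j, h2⟩ := h2
      refine sat_of (.arc0m j) (hM.arc0m j) _ t x rfl rfl ?_
      intro a ha
      have ha' : a = am r false j := by
        simpa [RR.rule] using ha
      rw [ha', holds_am]
      simp only [ev_pn, Bool.false_eq_true, iff_false]
      exact h2

end CompAdj

open CompAdj in
/-- completeness for an arbitrary interpretation closed under the rules of the adjacency
predicates -/
theorem comp_adj_gen {A : TM} {r q : ℕ} {D : (Fin 5 → ZMod q) → Prop}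
    {M : PP A → (II r → ZMod q) → Prop} (hr : 15 ≤ r)
    (hD : GoodD D) (hM : CompAdj.ClAdj D M) (t : Fin r → ZMod q) (x : Fin (r + 1) → ZMod q)
    (b : Bool) (hb : b = true ↔ LAdj D (dig x)) :
    M (.adj b) (Sum.elim t x) := by
  cases b with
  | true =>
    have h1 : LAdj D (dig x) := hb.mp rfl
    rcases h1 with h1 | h1
    · refine sat_of .adj1 hM.adj1 _ t x rfl rfl ?_
      intro a ha
      have ha' : a = pa r (.arc true) (tv r) (pv r) := by
        simpa [RR.rule] using ha
      rw [ha']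
      show M (.arc true) fun i => (tp r (tv r) (pv r) i).ev (asg t x)
      rw [ev_head]
      exact sat_arc hD hM true t x (by simpa using h1)
    · refine sat_of .adj2 hM.adj2 _ t x rfl rfl ?_
      intro a ha
      have ha' : a = pa r (.arc true) (tv r) (psw r) := by
        simpa [RR.rule] using ha
      rw [ha']
      show M (.arc true) fun i => (tp r (tv r) (psw r) i).ev (asg t x)
      rw [ev_swap]
      exact sat_arc hD hM true t _ (by simpa using (larc_swap hr x).mpr h1)
  | false =>
    have h1 : ¬ LAdj D (dig x) := fun h1 => by simpa using hb.mpr h1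
    unfold LAdj at h1
    push Not at h1
    obtain ⟨h1, h2⟩ := h1
    refine sat_of .adj0 hM.adj0 _ t x rfl rfl ?_
    intro a ha
    have ha' : a = pa r (.arc false) (tv r) (pv r) ∨ a = pa r (.arc false) (tv r) (psw r) := by
      simpa [RR.rule] using ha
    rcases ha' with rfl | rfl
    · show M (.arc false) fun i => (tp r (tv r) (pv r) i).ev (asg t x)
      rw [ev_head]
      exact sat_arc hD hM false t x (by simpa using h1)
    · show M (.arc false) fun i => (tp r (tv r) (psw r) i).ev (asg t x)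
      rw [ev_swap]
      exact sat_arc hD hM false t _ (by simpa using fun h => h2 ((larc_swap hr x).mp h))

theorem comp_adj {A : TM} {r q : ℕ} {D : (Fin 5 → ZMod q) → Prop} (hr : 15 ≤ r)
    (hD : GoodD D) (t : Fin r → ZMod q) (x : Fin (r + 1) → ZMod q)
    (b : Bool) (hb : b = true ↔ LAdj D (dig x)) :
    (prog A r).Sat D (.adj b : PP A) (Sum.elim t x) :=
  comp_adj_gen hr hD CompAdj.clAdj_sat t x b hb

end Vale.Agent.P310
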