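import Vale.Agent.P310.CDef
import Vale.Agent.P310.CompAdj

/-!
P310, Level C: completeness, all facts of the initial configuration are derived.
-/

namespace Vale.Agent.P310

open scoped BigOperators

namespace CInit

variable {A : TM} {r q : ℕ} {D : (Fin 5 → ZMod q) → Prop} {u : List Bool}

theorem ae_holds (hD : GoodD D) (M : PP A → (II r → ZMod q) → Prop) (v : VV r → ZMod q)
    (s : Bool) (a b : Tm (VV r)) :
    (ae r s a b : GAtm (PP A) (II r) (VV r)).holds D M v ↔ ((a.ev v = b.ev v) ↔ s = true) := by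
  have h : (fun j : Fin 5 => ((![.c 0, a, b, b, b] : Fin 5 → Tm (VV r)) j).ev v) =
      ![((0 : ℕ) : ZMod q), a.ev v, b.ev v, b.ev v, b.ev v] := by
    funext j
    fin_cases j <;> rfl
  show ((D fun j => ((![.c 0, a, b, b, b] : Fin 5 → Tm (VV r)) j).ev v) ↔ s = true) ↔ _
  rw [h, hD.eq_iff]

theorem ae_false (hD : GoodD D) (M : PP A → (II r → ZMod q) → Prop) (v : VV r → ZMod q)
    (a b : Tm (VV r)) (h : a.ev v ≠ b.ev v) :
    (ae r false a b : GAtm (PP A) (II r) (VV r)).holds D M v := by
  rw [ae_holds hD]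
  simpa using h

theorem pj_val (j : ℕ) (hj : j ≤ r) : (pj r j).val = j := by
  unfold pj
  simp only [Fin.ofNat]
  exact Nat.mod_eq_of_lt (by omega)

/-- valuation with position `x` -/
def vx (x : Fin (r + 1) → ZMod q) : VV r → ZMod q := Sum.elim 0 (Sum.elim x 0)

theorem ev_tz (v : VV r → ZMod q) (i : Fin r) : (tz r i).ev v = 0 := by
  simp [tz, Tm.ev]

theorem ev_pz (v : VV r → ZMod q) (i : Fin (r + 1)) : (pz r i).ev v = 0 := by
  simp [pz, Tm.ev]

theorem ev_pv (x : Fin (r + 1) → ZMod q) (i : Fin (r + 1)) : (pv r i).ev (vx x) = x i := rfl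

theorem ev_pn (x : Fin (r + 1) → ZMod q) (j : ℕ) : (pn r j).ev (vx x) = x (pj r j) := rfl

theorem ev_c (v : VV r → ZMod q) (n : ℕ) : (Tm.c n : Tm (VV r)).ev v = (n : ZMod q) := rfl

theorem ev_tp (t : Fin r → Tm (VV r)) (p : Fin (r + 1) → Tm (VV r)) (v : VV r → ZMod q) :
    (fun i => (tp r t p i).ev v) = Sum.elim (fun i => (t i).ev v) (fun i => (p i).ev v) := by
  funext i
  cases i <;> rfl

theorem ev_tz_p (p : Fin (r + 1) → Tm (VV r)) (v : VV r → ZMod q) (w : Fin (r + 1) → ZMod q)
    (hw : ∀ i, (p i).ev v = w i) :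
    (fun i => (tp r (tz r) p i).ev v) = Sum.elim (0 : Fin r → ZMod q) w := by
  rw [ev_tp]
  have h1 : (fun i => (tz r i).ev v) = (0 : Fin r → ZMod q) := funext fun i => ev_tz v i
  have h2 : (fun i => (p i).ev v) = w := funext hw
  rw [h1, h2]

/-- application of a rule whose head has time zero -/
theorem app (x : RR A r) (v : VV r → ZMod q) (p : Fin (r + 1) → Tm (VV r))
    (hx : x.rule.2.1 = tp r (tz r) p) (w : Fin (r + 1) → ZMod q) (hw : ∀ i, (p i).ev v = w i)
    (hb : ∀ a ∈ x.rule.2.2, a.holds D ((prog A r).Sat D) v) :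
    (prog A r).Sat D (x.rule.1 : PP A) (Sum.elim (0 : Fin r → ZMod q) w) := by
  have h := GProg.sat_rule (prog A r) D x v hb
  have e : (fun i => (((prog A r).ha x) i).ev v) = Sum.elim (0 : Fin r → ZMod q) w := by
    show (fun i => (x.rule.2.1 i).ev v) = _
    rw [hx]
    exact ev_tz_p p v w hw
  rw [e] at h
  exact h

theorem sum_split (x : Fin (r + 1) → ZMod q) :
    num q x = (∑ i : Fin r, (x i.castSucc).val * q ^ i.val) + (x (Fin.last r)).val * q ^ r := by
  unfold num
  rw [Fin.sum_univ_castSucc]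
  rfl

theorem low_lt [NeZero q] (x : Fin (r + 1) → ZMod q) :
    (∑ i : Fin r, (x i.castSucc).val * q ^ i.val) < q ^ r :=
  num_lt q fun i : Fin r => x i.castSucc

theorem hpow (hq2 : 2 ≤ q) (j : ℕ) (hj : 15 ≤ j) : 2 * q ^ 14 ≤ q ^ j := by
  calc 2 * q ^ 14 ≤ q * q ^ 14 := Nat.mul_le_mul_right _ hq2
    _ = q ^ 15 := by ring
    _ ≤ q ^ j := Nat.pow_le_pow_right (by omega) hj

theorem tp_some (z : ℕ) (b : Bool) (h : u[z]? = some b) : (A.init u).tp 0 (z : ℤ) = A.bit b := by
  simp only [TM.init]
  rw [if_pos ⟨trivial, by positivity⟩, Int.toNat_natCast, h]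
  rfl

theorem tp_none (z : ℕ) (h : u.length ≤ z) : (A.init u).tp 0 (z : ℤ) = A.blank := by
  simp only [TM.init]
  rw [if_pos ⟨trivial, by positivity⟩, Int.toNat_natCast, List.getElem?_eq_none h]
  rfl

theorem tp_neg (z : ℤ) (h : z < 0) : (A.init u).tp 0 z = A.blank := by
  simp only [TM.init]
  rw [if_neg (fun hc => absurd hc.2 (by omega))]

/-- the content of a cell of the input tape in the right block -/
theorem cell0_in [Fact q.Prime] (hr : 15 ≤ r) (hD : GoodD D) (hu : InpOK D u)
    (x : Fin (r + 1) → ZMod q) (htop : x (Fin.last r) = 1)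
    (hbl : ∀ j : Fin (r + 1), 15 ≤ j.val → j.val < r → x j = 0)
    (h14 : dig x 14 = 0 ∨ dig x 14 = 1) (z : ℕ)
    (hz : z = ∑ j ∈ Finset.range 15, (dig x j).val * q ^ j) :
    (prog A r).Sat D (.ct 0 ((A.init u).tp 0 (z : ℤ)) : PP A)
      (Sum.elim (0 : Fin r → ZMod q) x) := by
  obtain ⟨b, hb⟩ : ∃ b : Bool, b = true ↔ LAdj D (dig x) := by
    by_cases h : LAdj D (dig x)
    · exact ⟨true, by simp [h]⟩
    · exact ⟨false, by simp [h]⟩
  have hbit := hu.bit (dig x) b h14 hb
  obtain ⟨h, hh⟩ : ∃ h : Bool, dig x 14 = (h.toNat : ZMod q) := by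
    rcases h14 with h | h
    · exact ⟨false, by simp [h]⟩
    · exact ⟨true, by simp [h]⟩
  have epin : ∀ i, (pin r h i).ev (vx x) = x i := by
    intro i
    unfold pin
    split_ifs with c1 c2 c3
    · have : i = Fin.last r := Fin.ext c1
      rw [this, htop, ev_c]
      simp
    · rfl
    · have : i = pj r 14 := by
        apply Fin.ext
        rw [pj_val _ (by omega)]
        exact c3
      rw [this, ev_c, ← hh]
      rfl
    · have : x i = 0 := hbl i (by omega) (by omega)
      rw [this, ev_c]
      simp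
  rw [← hz] at hbit
  rw [tp_some z b hbit]
  refine app (.inp b h : RR A r) (vx x) (pin r h) rfl x epin ?_
  intro a ha
  have ha' : a = pa r (.adj b) (tz r) (pin r h) := by
    simpa only [RR.rule, List.mem_singleton] using ha
  rw [ha']
  show (prog A r).Sat D (.adj b : PP A) (fun i => (tp r (tz r) (pin r h) i).ev (vx x))
  rw [ev_tz_p _ _ x epin]
  exact comp_adj hr hD 0 x b hb

theorem low_eq (hr : 15 ≤ r) (x : Fin (r + 1) → ZMod q)
    (hbl : ∀ j : Fin (r + 1), 15 ≤ j.val → j.val < r → x j = 0) :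
    (∑ i : Fin r, (x i.castSucc).val * q ^ i.val) =
      ∑ j ∈ Finset.range 15, (dig x j).val * q ^ j := by
  obtain ⟨s, rfl⟩ : ∃ s, r = 15 + s := ⟨r - 15, by omega⟩
  rw [Fin.sum_univ_add]
  have h2 : (∑ i : Fin s, (x (Fin.natAdd 15 i).castSucc).val *
      q ^ (Fin.natAdd 15 i).val) = 0 := by
    refine Finset.sum_eq_zero fun i _ => ?_
    have : x (Fin.natAdd 15 i).castSucc = 0 :=
      hbl _ (by simp) (by simp)
    rw [this]
    simp
  rw [h2, add_zero, Finset.sum_range]
  refine Finset.sum_congr rfl fun i _ => ?_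
  have : dig x i.val = x (Fin.castAdd s i).castSucc := by
    unfold dig
    congr 1
    apply Fin.ext
    rw [pj_val _ (by omega)]
    simp
  rw [this]
  simp

theorem cell0_mid [Fact q.Prime] (hr : 15 ≤ r) (hD : GoodD D) (hu : InpOK D u)
    (x : Fin (r + 1) → ZMod q) (htop : x (Fin.last r) = 1) (z : ℕ)
    (hz : z = ∑ i : Fin r, (x i.castSucc).val * q ^ i.val) :
    (prog A r).Sat D (.ct 0 ((A.init u).tp 0 (z : ℤ)) : PP A)
      (Sum.elim (0 : Fin r → ZMod q) x) := by
  have hq2 : 2 ≤ q := (Fact.out : q.Prime).two_le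
  by_cases hbl : ∃ j : Fin (r + 1), 15 ≤ j.val ∧ j.val < r ∧ x j ≠ 0
  · obtain ⟨j, h15, hjr, hj⟩ := hbl
    have hlen : u.length ≤ z := by
      rw [hu.len, hz]
      have h1 : (x j).val * q ^ j.val ≤
          ∑ i : Fin r, (x i.castSucc).val * q ^ i.val :=
        Finset.single_le_sum
          (f := fun i : Fin r => (x i.castSucc).val * q ^ i.val)
          (fun _ _ => Nat.zero_le _) (Finset.mem_univ (⟨j.val, hjr⟩ : Fin r))
      have h2 : 1 ≤ (x j).val := Nat.one_le_iff_ne_zero.mpr
        (by rwa [Ne, ZMod.val_eq_zero])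
      have h3 := hpow hq2 j.val h15
      have h4 : 1 * q ^ j.val ≤ (x j).val * q ^ j.val := Nat.mul_le_mul_right _ h2
      omega
    rw [tp_none z hlen]
    refine app (.bl1 j h15 hjr : RR A r) (vx x) (pv r) rfl x (fun _ => rfl) ?_
    intro a ha
    have ha' : a = ae r false (.v (.inr (.inl j))) (.c 0) := by
      simpa only [RR.rule, List.mem_singleton] using ha
    rw [ha']
    apply ae_false hD
    intro hc
    apply hj
    have : x j = ((0 : ℕ) : ZMod q) := hc
    simpa using this
  · push Not at hbl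
    have hsum := low_eq hr x hbl
    rw [hsum] at hz
    by_cases h14 : dig x 14 = 0 ∨ dig x 14 = 1
    · exact cell0_in hr hD hu x htop hbl h14 z hz
    · push Not at h14
      have hlen : u.length ≤ z := by
        rw [hu.len, hz]
        have h1 : (dig x 14).val * q ^ 14 ≤
            ∑ j ∈ Finset.range 15, (dig x j).val * q ^ j :=
          Finset.single_le_sum (f := fun j => (dig x j).val * q ^ j)
            (fun _ _ => Nat.zero_le _) (Finset.mem_range.mpr (by norm_num))
        have h2 : (dig x 14).val ≠ 0 := by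
          rw [Ne, ZMod.val_eq_zero]
          exact h14.1
        have h3 : (dig x 14).val ≠ 1 := by
          intro hc
          apply h14.2
          apply ZMod.val_injective q
          rw [hc, ZMod.val_one'' (by omega)]
        have h4 : 2 * q ^ 14 ≤ (dig x 14).val * q ^ 14 :=
          Nat.mul_le_mul_right _ (by omega)
        omega
      rw [tp_none z hlen]
      refine app (.bl3 : RR A r) (vx x) (pv r) rfl x (fun _ => rfl) ?_
      intro a ha
      have ha' : a = ae r false (pn r 14) (.c 0) ∨ a = ae r false (pn r 14) (.c 1) := by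
        simpa only [RR.rule, List.mem_cons, List.not_mem_nil, or_false] using ha
      rcases ha' with rfl | rfl
      · apply ae_false hD
        intro hc
        apply h14.1
        have : dig x 14 = ((0 : ℕ) : ZMod q) := hc
        simpa using this
      · apply ae_false hD
        intro hc
        apply h14.2
        have : dig x 14 = ((1 : ℕ) : ZMod q) := hc
        simpa using this

theorem cell0 [Fact q.Prime] (hr : 15 ≤ r) (hD : GoodD D) (hu : InpOK D u)
    (x : Fin (r + 1) → ZMod q) :
    (prog A r).Sat D (.ct 0 ((A.init u).tp 0 ((num q x : ℤ) - (q : ℤ) ^ r)) : PP A)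
      (Sum.elim (0 : Fin r → ZMod q) x) := by
  have hq2 : 2 ≤ q := (Fact.out : q.Prime).two_le
  have h1 := sum_split x
  have h2 := low_lt x
  by_cases htop : x (Fin.last r) = 1
  · have hz : ((num q x : ℤ) - (q : ℤ) ^ r) =
        ((∑ i : Fin r, (x i.castSucc).val * q ^ i.val : ℕ) : ℤ) := by
      rw [h1, htop, ZMod.val_one'' (by omega), one_mul]
      push_cast
      ring
    rw [hz]
    exact cell0_mid hr hD hu x htop _ rfl
  · have hb : (A.init u).tp 0 ((num q x : ℤ) - (q : ℤ) ^ r) = A.blank := by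
      by_cases hneg : 0 ≤ ((num q x : ℤ) - (q : ℤ) ^ r)
      · have h3 : (x (Fin.last r)).val ≠ 0 := by
          intro hc
          rw [hc, zero_mul, add_zero] at h1
          have : (num q x : ℤ) < (q : ℤ) ^ r := by
            rw [h1]
            exact_mod_cast h2
          omega
        have h4 : (x (Fin.last r)).val ≠ 1 := by
          intro hc
          apply htop
          apply ZMod.val_injective q
          rw [hc, ZMod.val_one'' (by omega)]
        have h5 : 2 * q ^ r ≤ (x (Fin.last r)).val * q ^ r :=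
          Nat.mul_le_mul_right _ (by omega)
        have h6 := hpow hq2 r hr
        have h7 : ((num q x : ℤ) - (q : ℤ) ^ r) = ((num q x - q ^ r : ℕ) : ℤ) := by
          rw [Nat.cast_sub (by omega)]
          push_cast
          ring
        rw [h7]
        apply tp_none
        rw [hu.len]
        omega
      · exact tp_neg _ (by omega)
    rw [hb]
    refine app (.bl2 : RR A r) (vx x) (pv r) rfl x (fun _ => rfl) ?_
    intro a ha
    have ha' : a = ae r false (pn r r) (.c 1) := by
      simpa only [RR.rule, List.mem_singleton] using ha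
    rw [ha']
    apply ae_false hD
    intro hc
    apply htop
    have e1 : pj r r = Fin.last r := Fin.ext (pj_val _ le_rfl)
    have hc' : x (pj r r) = ((1 : ℕ) : ZMod q) := hc
    rw [e1] at hc'
    simpa using hc'

theorem head0 [Fact q.Prime] (i : Fin (A.nt + 1)) (x : Fin (r + 1) → ZMod q)
    (h0 : num q x = q ^ r) :
    (prog A r).Sat D (.hd i : PP A) (Sum.elim (0 : Fin r → ZMod q) x) := by
  have hq2 : 2 ≤ q := (Fact.out : q.Prime).two_le
  have h1 := sum_split x
  have h2 := low_lt x
  have h3 : (x (Fin.last r)).val = 1 := by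
    rcases Nat.lt_trichotomy (x (Fin.last r)).val 1 with h | h | h
    · have : (x (Fin.last r)).val = 0 := by omega
      rw [this, zero_mul] at h1
      omega
    · exact h
    · have : 2 * q ^ r ≤ (x (Fin.last r)).val * q ^ r := Nat.mul_le_mul_right _ h
      omega
  have h4 : num q (fun i : Fin r => x i.castSucc) = 0 := by
    have : num q (fun i : Fin r => x i.castSucc) =
      ∑ i : Fin r, (x i.castSucc).val * q ^ i.val := rfl
    rw [h3, one_mul] at h1
    omega
  have h5 := (num_eq_zero_iff q _).mp h4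
  refine app (.hd0 i : RR A r) (vx x) (p1 r) rfl x (fun j => ?_) ?_
  · refine Fin.lastCases ?_ (fun j => ?_) j
    · have : x (Fin.last r) = 1 := by
        apply ZMod.val_injective q
        rw [h3, ZMod.val_one'' (by omega)]
      rw [this]
      simp [p1, Tm.ev]
    · have : x j.castSucc = 0 := congrFun h5 j
      rw [this]
      have hj : j.val ≠ r := by omega
      simp [p1, Tm.ev, hj]
  · intro a ha
    simp [RR.rule] at ha

end CInit

theorem comp_init {A : TM} {r q : ℕ} [Fact q.Prime] {D : (Fin 5 → ZMod q) → Prop} {u : List Bool}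
    (hr : 15 ≤ r) (hD : GoodD D) (hu : InpOK D u) :
    Facts A r D u (0 : Fin r → ZMod q) := by
  have hrun : A.run u (num q (0 : Fin r → ZMod q)) = A.init u := by
    rw [num_zero]
    rfl
  unfold Facts
  rw [hrun]
  refine ⟨?_, ?_, ?_⟩
  · exact CInit.app (.st0 : RR A r) (CInit.vx 0) (pz r) rfl 0 (fun i => CInit.ev_pz _ i) (by
      intro a ha
      simp [RR.rule] at ha)
  · intro i x hx
    apply CInit.head0
    have : (A.init u).hd i = 0 := rfl
    rw [this, add_zero] at hx
    exact_mod_cast hx
  · intro i x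
    by_cases hi : i = 0
    · subst hi
      exact CInit.cell0 hr hD hu x
    · have hb : (A.init u).tp i ((num q x : ℤ) - (q : ℤ) ^ r) = A.blank := by
        simp only [TM.init]
        rw [if_neg (fun hc => hi hc.1)]
      rw [hb]
      exact CInit.app (.bl4 i hi : RR A r) (CInit.vx x) (pv r) rfl x (fun _ => rfl) (by
        intro a ha
        simp [RR.rule] at ha)

end Vale.Agent.P310
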