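import Vale.Agent.P310.CDef

/-!
P310, Level C: completeness, one step of the machine.
-/

namespace Vale.Agent.P310

open scoped BigOperators

namespace CompStep

variable {A : TM} {r q : ℕ} {D : (Fin 5 → ZMod q) → Prop} {u : List Bool}

theorem run_succ (A : TM) (u : List Bool) (t : ℕ) : A.run u (t + 1) = A.step (A.run u t) := by
  rw [TM.run, TM.run, Function.iterate_succ_apply']

theorem toInt_le (d : Dir) : |d.toInt| ≤ 1 := by
  cases d <;> simp [Dir.toInt]

theorem ae_holds (hD : GoodD D) {M : PP A → (II r → ZMod q) → Prop} {s : Bool} {a b : Tm (VV r)}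
    {v : VV r → ZMod q} :
    (ae r s a b : GAtm (PP A) (II r) (VV r)).holds D M v ↔ (a.ev v = b.ev v ↔ s = true) := by
  have e : (fun j => ((![.c 0, a, b, b, b] : Fin 5 → Tm (VV r)) j).ev v) =
      ![((0 : ℕ) : ZMod q), a.ev v, b.ev v, b.ev v, b.ev v] := by
    funext j
    fin_cases j <;> rfl
  show (D (fun j => ((![.c 0, a, b, b, b] : Fin 5 → Tm (VV r)) j).ev v) ↔ s = true) ↔ _
  rw [e, hD.eq_iff]

theorem pa_holds {M : PP A → (II r → ZMod q) → Prop} {p : PP A} {t : Fin r → Tm (VV r)}
    {x : Fin (r + 1) → Tm (VV r)} {v : VV r → ZMod q} {y : II r → ZMod q}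
    (h : Sum.elim (fun i => (t i).ev v) (fun i => (x i).ev v) = y) (hM : M p y) :
    (pa r p t x : GAtm (PP A) (II r) (VV r)).holds D M v := by
  show M p fun i => (tp r t x i).ev v
  have e : (fun i => (tp r t x i).ev v) = y := by
    rw [← h]
    funext i
    cases i <;> rfl
  rw [e]
  exact hM

/-- the valuation -/
def val (t : Fin r → ZMod q) (p p' : Fin (r + 1) → ZMod q) : VV r → ZMod q :=
  Sum.elim t (Sum.elim p p')

theorem ev_tv (t : Fin r → ZMod q) (p p' : Fin (r + 1) → ZMod q) :
    (fun i => (tv r i).ev (val t p p')) = t := rfl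

theorem ev_pv (t : Fin r → ZMod q) (p p' : Fin (r + 1) → ZMod q) :
    (fun i => (pv r i).ev (val t p p')) = p := rfl

theorem ev_pw (t : Fin r → ZMod q) (p p' : Fin (r + 1) → ZMod q) :
    (fun i => (pw r i).ev (val t p p')) = p' := rfl

theorem ev_pz (t : Fin r → ZMod q) (p p' : Fin (r + 1) → ZMod q) :
    (fun i => (pz r i).ev (val t p p')) = 0 := by
  funext i
  simp [pz, Tm.ev]

theorem ev_ts {t t' : Fin r → ZMod q} {c : Fin r} (hc : SuccAt c t t')
    (p p' : Fin (r + 1) → ZMod q) : (fun i => (ts r c i).ev (val t p p')) = t' := by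
  obtain ⟨h1, h2, h3⟩ := hc
  funext i
  rw [ts]
  split
  · rename_i h
    show t i + 1 = t' i
    rcases h.lt_or_eq with h | h
    · rw [(h1 i h).1, (h1 i h).2]
    · rw [h, h2.2]
  · rename_i h
    show t i = t' i
    exact (h3 i (not_le.1 h)).symm

theorem ev_ps {p x : Fin (r + 1) → ZMod q} {c : Fin (r + 1)} (hc : SuccAt c p x)
    (t : Fin r → ZMod q) (p' : Fin (r + 1) → ZMod q) :
    (fun i => (ps r c i).ev (val t p p')) = x := by
  obtain ⟨h1, h2, h3⟩ := hc
  funext i
  rw [ps]
  split
  · rename_i h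
    show p i + 1 = x i
    rcases h.lt_or_eq with h | h
    · rw [(h1 i h).1, (h1 i h).2]
    · rw [h, h2.2]
  · rename_i h
    show p i = x i
    exact (h3 i (not_le.1 h)).symm

theorem carT_holds (hD : GoodD D) {M : PP A → (II r → ZMod q) → Prop} {t t' : Fin r → ZMod q}
    {c : Fin r} (hc : SuccAt c t t') (p p' : Fin (r + 1) → ZMod q) :
    ∀ a ∈ (carT r c : List (GAtm (PP A) (II r) (VV r))), a.holds D M (val t p p') := by
  intro a ha
  rw [carT, List.mem_append] at ha
  rcases ha with ha | ha
  · rw [List.mem_map] at ha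
    obtain ⟨i, hi, rfl⟩ := ha
    have hi' : i < c := by simpa using hi
    rw [ae_holds hD]
    have : (Tm.s (.inl i) : Tm (VV r)).ev (val t p p') = t i + 1 := rfl
    rw [this, (hc.1 i hi').1]
    simp [Tm.ev]
  · rw [List.mem_singleton] at ha
    subst ha
    rw [ae_holds hD]
    have : (Tm.s (.inl c) : Tm (VV r)).ev (val t p p') = t c + 1 := rfl
    rw [this]
    have h2 := hc.2.1.1
    simp [Tm.ev, h2]

theorem carP_holds (hD : GoodD D) {M : PP A → (II r → ZMod q) → Prop}
    {p x : Fin (r + 1) → ZMod q} {c : Fin (r + 1)} (hc : SuccAt c p x) (t : Fin r → ZMod q)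
    (p' : Fin (r + 1) → ZMod q) :
    ∀ a ∈ (carP r c : List (GAtm (PP A) (II r) (VV r))), a.holds D M (val t p p') := by
  intro a ha
  rw [carP, List.mem_append] at ha
  rcases ha with ha | ha
  · rw [List.mem_map] at ha
    obtain ⟨i, hi, rfl⟩ := ha
    have hi' : i < c := by simpa using hi
    rw [ae_holds hD]
    have : (Tm.s (.inr (.inl i)) : Tm (VV r)).ev (val t p p') = p i + 1 := rfl
    rw [this, (hc.1 i hi').1]
    simp [Tm.ev]
  · rw [List.mem_singleton] at ha
    subst ha
    rw [ae_holds hD]
    have : (Tm.s (.inr (.inl c)) : Tm (VV r)).ev (val t p p') = p c + 1 := rfl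
    rw [this]
    have h2 := hc.2.1.1
    simp [Tm.ev, h2]

theorem rds_holds {M : PP A → (II r → ZMod q) → Prop} {t : Fin r → ZMod q}
    {a : Fin (A.nt + 1) → A.Sy} (h : ∀ i, M (.rd i (a i)) (Sum.elim t 0))
    (p p' : Fin (r + 1) → ZMod q) :
    ∀ b ∈ (rds r a : List (GAtm (PP A) (II r) (VV r))), b.holds D M (val t p p') := by
  intro b hb
  rw [rds, List.mem_map] at hb
  obtain ⟨i, -, rfl⟩ := hb
  refine pa_holds ?_ (h i)
  rw [ev_tv, ev_pz]

/-- `M` is closed under the rule `rr` -/
def Cl (D : (Fin 5 → ZMod q) → Prop) (M : PP A → (II r → ZMod q) → Prop) (rr : RR A r) : Prop :=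
  ∀ v : VV r → ZMod q, (∀ a ∈ rr.rule.2.2, a.holds D M v) →
    M rr.rule.1 fun i => (rr.rule.2.1 i).ev v

/-- the rules for a step of the machine -/
def Used : RR A r → Prop
  | .rd _ _ => True
  | .nhd _ _ => True
  | .st _ _ _ _ _ => True
  | .wr _ _ _ _ _ _ => True
  | .mvN _ _ _ _ _ _ _ => True
  | .mvR _ _ _ _ _ _ _ _ => True
  | .mvL _ _ _ _ _ _ _ _ => True
  | .keep _ _ _ => True
  | _ => False

/-- application of a rule -/
theorem apply_gen {M : PP A → (II r → ZMod q) → Prop} {rr : RR A r} (hM : Cl D M rr)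
    (v : VV r → ZMod q) (h : ∀ a ∈ rr.rule.2.2, a.holds D M v) {p : PP A} {y : II r → ZMod q}
    (hp : rr.rule.1 = p) (hy : (fun i => (rr.rule.2.1 i).ev v) = y) : M p y := by
  subst hp
  subst hy
  exact hM v h

/-- application of a rule -/
theorem apply_rule (rr : RR A r) (v : VV r → ZMod q)
    (h : ∀ a ∈ rr.rule.2.2, a.holds D ((prog A r).Sat D) v) {p : PP A} {y : II r → ZMod q}
    (hp : rr.rule.1 = p) (hy : (fun i => (rr.rule.2.1 i).ev v) = y) :
    (prog A r).Sat D p y := by
  subst hp
  subst hy
  exact (prog A r).sat_rule D rr v h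

theorem ev_tp (t : Fin r → Tm (VV r)) (x : Fin (r + 1) → Tm (VV r)) (v : VV r → ZMod q) :
    (fun i => (tp r t x i).ev v) = Sum.elim (fun i => (t i).ev v) (fun i => (x i).ev v) := by
  funext i
  cases i <;> rfl

end CompStep

open CompStep

variable {A : TM} {r q : ℕ} [Fact q.Prime] {D : (Fin 5 → ZMod q) → Prop} {u : List Bool}

theorem hd_le (A : TM) (u : List Bool) (t : ℕ) (i : Fin (A.nt + 1)) :
    |(A.run u t).hd i| ≤ t := by
  induction t with
  | zero => simp [TM.run, TM.init]
  | succ t ih =>
    rw [run_succ, TM.step]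
    split
    · push_cast
      linarith
    · refine (abs_add_le _ _).trans ?_
      push_cast
      exact add_le_add ih (toInt_le _)

/-- a step of the machine, for an arbitrary interpretation closed under the rules of a step -/
theorem CompStep.core (hD : GoodD D) (M : PP A → (II r → ZMod q) → Prop)
    (hM : ∀ rr : RR A r, CompStep.Used rr → CompStep.Cl D M rr) (t t' : Fin r → ZMod q)
    (c : Fin r) (hc : SuccAt c t t') (h1 : (A.run u (num q t)).st ≠ A.qa)
    (h2 : (A.run u (num q t)).st ≠ A.qr)
    (h : M (.st (A.run u (num q t)).st : PP A) (Sum.elim t 0) ∧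
      (∀ (i : Fin (A.nt + 1)) (x : Fin (r + 1) → ZMod q),
        (num q x : ℤ) = (q : ℤ) ^ r + (A.run u (num q t)).hd i →
          M (.hd i : PP A) (Sum.elim t x)) ∧
      ∀ (i : Fin (A.nt + 1)) (x : Fin (r + 1) → ZMod q),
        M (.ct i ((A.run u (num q t)).tp i ((num q x : ℤ) - (q : ℤ) ^ r)) : PP A)
          (Sum.elim t x)) :
    M (.st (A.run u (num q t')).st : PP A) (Sum.elim t' 0) ∧
      (∀ (i : Fin (A.nt + 1)) (x : Fin (r + 1) → ZMod q),
        (num q x : ℤ) = (q : ℤ) ^ r + (A.run u (num q t')).hd i →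
          M (.hd i : PP A) (Sum.elim t' x)) ∧
      ∀ (i : Fin (A.nt + 1)) (x : Fin (r + 1) → ZMod q),
        M (.ct i ((A.run u (num q t')).tp i ((num q x : ℤ) - (q : ℤ) ^ r)) : PP A)
          (Sum.elim t' x) := by
  have hq : 2 ≤ q := (Fact.out : q.Prime).two_le
  have : NeZero q := ⟨by omega⟩
  have hn : num q t' = num q t + 1 := (succ_iff q t t').2 ⟨c, hc⟩
  obtain ⟨C, hC⟩ : ∃ C, C = A.run u (num q t) := ⟨_, rfl⟩
  obtain ⟨fst, fhd, fct⟩ := h
  have hle : ∀ i, |C.hd i| ≤ num q t := by rw [hC]; exact fun i => hd_le A u _ i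
  rw [← hC] at fst fhd fct h1 h2
  have hstep : A.run u (num q t') = A.step C := by rw [hn, run_succ, hC]
  have hlt : num q t < q ^ r := num_lt q t
  -- the position of a head
  have hpos : ∀ i, ∃ x : Fin (r + 1) → ZMod q, (num q x : ℤ) = (q : ℤ) ^ r + C.hd i := by
    intro i
    have b1 := abs_le.1 (hle i)
    have b2 : (num q t : ℤ) < (q : ℤ) ^ r := by exact_mod_cast hlt
    obtain ⟨n, hn⟩ := Int.eq_ofNat_of_zero_le (show 0 ≤ (q : ℤ) ^ r + C.hd i by linarith)
    have b3 : n < q ^ (r + 1) := by
      have b4 : (n : ℤ) < (q : ℤ) ^ (r + 1) := by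
        rw [← hn, pow_succ]
        have b5 : (2 : ℤ) ≤ q := by exact_mod_cast hq
        have b6 : (0 : ℤ) ≤ (q : ℤ) ^ r := by positivity
        nlinarith
      exact_mod_cast b4
    obtain ⟨x, hx⟩ := exists_num q n b3
    exact ⟨x, by rw [hx, hn]⟩
  choose x0 hx0 using hpos
  have sh : ∀ i, M (.hd i : PP A) (Sum.elim t (x0 i)) := fun i => fhd i _ (hx0 i)
  -- the symbols read
  obtain ⟨a, ha⟩ : ∃ a : Fin (A.nt + 1) → A.Sy, a = fun i => C.tp i (C.hd i) := ⟨_, rfl⟩
  have srd : ∀ i, M (.rd i (a i) : PP A) (Sum.elim t 0) := by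
    intro i
    refine apply_gen (hM (.rd i (a i)) trivial) (val t (x0 i) 0) ?_ rfl ?_
    · intro b hb
      simp only [RR.rule, List.mem_cons, List.not_mem_nil, or_false] at hb
      rcases hb with rfl | rfl
      · exact pa_holds (by rw [ev_tv, ev_pv]) (sh i)
      · refine pa_holds (by rw [ev_tv, ev_pv]) ?_
        have := fct i (x0 i)
        rw [hx0 i, add_sub_cancel_left] at this
        rw [ha]
        exact this
    · simp only [RR.rule]
      rw [ev_tp, ev_tv, ev_pz]
  -- positions different from the one of the head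
  have snh : ∀ i (x : Fin (r + 1) → ZMod q), x ≠ x0 i →
      M (.nhd i : PP A) (Sum.elim t x) := by
    intro i x hx
    obtain ⟨j, hj⟩ := Function.ne_iff.1 hx
    refine apply_gen (hM (.nhd i j) trivial) (val t (x0 i) x) ?_ rfl ?_
    · intro b hb
      simp only [RR.rule, List.mem_cons, List.not_mem_nil, or_false] at hb
      rcases hb with rfl | rfl
      · exact pa_holds (by rw [ev_tv, ev_pv]) (sh i)
      · refine (ae_holds hD (M := M)).2 ?_
        have e1 : (Tm.v (.inr (.inl j)) : Tm (VV r)).ev (val t (x0 i) x) = x0 i j := rfl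
        have e2 : (Tm.v (.inr (.inr j)) : Tm (VV r)).ev (val t (x0 i) x) = x j := rfl
        rw [e1, e2]
        simp [hj.symm]
    · simp only [RR.rule]
      rw [ev_tp, ev_tv, ev_pw]
  have hS : A.step C = (let o := A.tr C.st a
      { st := o.1
        hd := fun i => C.hd i + (o.2.2 i).toInt
        tp := fun i => Function.update (C.tp i) (C.hd i) (o.2.1 i) }) := by
    rw [TM.step, if_neg (by push Not; exact ⟨h1, h2⟩), ha]
  -- common part of the bodies
  have common : ∀ (p p' : Fin (r + 1) → ZMod q) (b : GAtm (PP A) (II r) (VV r)),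
      (b ∈ (carT r c : List (GAtm (PP A) (II r) (VV r))) ∨
        b = pa r (.st C.st) (tv r) (pz r) ∨ b ∈ rds r a) →
      b.holds D M (val t p p') := by
    intro p p' b hb
    rcases hb with hb | rfl | hb
    · exact carT_holds hD hc p p' b hb
    · exact pa_holds (by rw [ev_tv, ev_pz]) fst
    · exact rds_holds srd p p' b hb
  refine ⟨?_, ?_, ?_⟩
  · -- state
    rw [hstep, hS]
    refine apply_gen (hM (.st c C.st a h1 h2) trivial) (val t 0 0) ?_ rfl ?_
    · intro b hb
      simp only [RR.rule, List.mem_append, List.mem_singleton] at hb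
      exact common 0 0 b (by tauto)
    · simp only [RR.rule]
      rw [ev_tp, ev_ts hc, ev_pz]
  · -- heads
    intro i x hx
    rw [hstep, hS] at hx
    simp only at hx
    cases hd : (A.tr C.st a).2.2 i with
    | N =>
      rw [hd] at hx
      have e : x = x0 i := by
        apply num_injective q
        have := hx0 i
        simp only [Dir.toInt] at hx
        omega
      refine apply_gen (hM (.mvN c C.st a h1 h2 i hd) trivial) (val t x 0) ?_ rfl ?_
      · intro b hb
        simp only [RR.rule, List.mem_append, List.mem_cons, List.not_mem_nil, or_false] at hb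
        rcases hb with (hb | hb | rfl) | hb
        · exact common _ _ b (.inl hb)
        · exact common _ _ b (.inr (.inl hb))
        · exact pa_holds (by rw [ev_tv, ev_pv, e]) (sh i)
        · exact common _ _ b (.inr (.inr hb))
      · simp only [RR.rule]
        rw [ev_tp, ev_ts hc, ev_pv]
    | R =>
      rw [hd] at hx
      obtain ⟨c', hc'⟩ : ∃ j, SuccAt j (x0 i) x := by
        rw [← succ_iff]
        have := hx0 i
        simp only [Dir.toInt] at hx
        omega
      refine apply_gen (hM (.mvR c C.st a h1 h2 i hd c') trivial) (val t (x0 i) 0) ?_ rfl ?_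
      · intro b hb
        simp only [RR.rule, List.mem_append, List.mem_cons, List.not_mem_nil, or_false] at hb
        rcases hb with ((hb | hb) | hb | rfl) | hb
        · exact common _ _ b (.inl hb)
        · exact carP_holds hD hc' t 0 b hb
        · exact common _ _ b (.inr (.inl hb))
        · exact pa_holds (by rw [ev_tv, ev_pv]) (sh i)
        · exact common _ _ b (.inr (.inr hb))
      · simp only [RR.rule]
        rw [ev_tp, ev_ts hc, ev_ps hc']
    | L =>
      rw [hd] at hx
      obtain ⟨c', hc'⟩ : ∃ j, SuccAt j x (x0 i) := by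
        rw [← succ_iff]
        have := hx0 i
        simp only [Dir.toInt] at hx
        omega
      refine apply_gen (hM (.mvL c C.st a h1 h2 i hd c') trivial) (val t x 0) ?_ rfl ?_
      · intro b hb
        simp only [RR.rule, List.mem_append, List.mem_cons, List.not_mem_nil, or_false] at hb
        rcases hb with ((hb | hb) | hb | rfl) | hb
        · exact common _ _ b (.inl hb)
        · exact carP_holds hD hc' t 0 b hb
        · exact common _ _ b (.inr (.inl hb))
        · exact pa_holds (by rw [ev_tv, ev_ps hc']) (sh i)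
        · exact common _ _ b (.inr (.inr hb))
      · simp only [RR.rule]
        rw [ev_tp, ev_ts hc, ev_pv]
  · -- contents
    intro i x
    rw [hstep, hS]
    simp only
    by_cases hx : x = x0 i
    · have e : (num q x : ℤ) - (q : ℤ) ^ r = C.hd i := by
        rw [hx, hx0 i, add_sub_cancel_left]
      rw [e, Function.update_self]
      refine apply_gen (hM (.wr c C.st a h1 h2 i) trivial) (val t x 0) ?_ rfl ?_
      · intro b hb
        simp only [RR.rule, List.mem_append, List.mem_cons, List.not_mem_nil, or_false] at hb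
        rcases hb with (hb | hb | rfl) | hb
        · exact common _ _ b (.inl hb)
        · exact common _ _ b (.inr (.inl hb))
        · exact pa_holds (by rw [ev_tv, ev_pv, hx]) (sh i)
        · exact common _ _ b (.inr (.inr hb))
      · simp only [RR.rule]
        rw [ev_tp, ev_ts hc, ev_pv]
    · have e : (num q x : ℤ) - (q : ℤ) ^ r ≠ C.hd i := by
        intro e
        apply hx
        apply num_injective q
        have := hx0 i
        omega
      rw [Function.update_of_ne e]
      refine apply_gen (hM (.keep c i (C.tp i ((num q x : ℤ) - (q : ℤ) ^ r))) trivial) (val t x 0) ?_ rfl ?_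
      · intro b hb
        simp only [RR.rule, List.mem_append, List.mem_cons, List.not_mem_nil, or_false] at hb
        rcases hb with hb | rfl | rfl
        · exact common _ _ b (.inl hb)
        · exact pa_holds (by rw [ev_tv, ev_pv]) (fct i x)
        · exact pa_holds (by rw [ev_tv, ev_pv]) (snh i x hx)
      · simp only [RR.rule]
        rw [ev_tp, ev_ts hc, ev_pv]

theorem comp_step (hr : 15 ≤ r) (hD : GoodD D) (t t' : Fin r → ZMod q) (c : Fin r)
    (hc : SuccAt c t t') (h1 : (A.run u (num q t)).st ≠ A.qa)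
    (h2 : (A.run u (num q t)).st ≠ A.qr) (h : Facts A r D u t) : Facts A r D u t' :=
  CompStep.core hD ((prog A r).Sat D) (fun rr _ v hv => (prog A r).sat_rule D rr v hv) t t' c hc
    h1 h2 h

end Vale.Agent.P310
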