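import Vale.Agent.P310.Sim

/-!
P310, Level A [A1b]: the Duplicator criterion; renaming the vertices.
-/

namespace Vale.Agent.P310

open Finset SimAux

theorem Sim.of_game {V W : Type} [Fintype V] [Fintype W] {k : ℕ} {G : SimpleGraph V}
    {H : SimpleGraph W} (R : (Fin k → V) → (Fin k → W) → Prop)
    (hat : ∀ x y, R x y → ∀ i j, (x i = x j ↔ y i = y j) ∧ (G.Adj (x i) (x j) ↔ H.Adj (y i) (y j)))
    (hforth : ∀ x y, R x y → ∃ σ : V ≃ W, ∀ z i,
      R (Function.update x i z) (Function.update y i (σ z)))
    (x : Fin k → V) (y : Fin k → W) (h : R x y) : Sim G H x y := by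
  intro r
  induction r generalizing x y with
  | zero => exact color_zero.mpr (hat x y h)
  | succ r ih =>
      obtain ⟨σ, hσ⟩ := hforth x y h
      exact color_succ.mpr ⟨ih x y h, σ, fun z i => ih _ _ (hσ z i)⟩

/-- Duplicator criterion. -/
theorem WLEquiv.of_game {V : Type} [Fintype V] {k : ℕ} {G H : SimpleGraph V}
    (R : (Fin k → V) → (Fin k → V) → Prop)
    (hat : ∀ x y, R x y → ∀ i j, (x i = x j ↔ y i = y j) ∧ (G.Adj (x i) (x j) ↔ H.Adj (y i) (y j)))
    (hforth : ∀ x y, R x y → ∃ σ : V ≃ V, ∀ z i,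
      R (Function.update x i z) (Function.update y i (σ z)))
    (τ : (Fin k → V) ≃ (Fin k → V)) (hτ : ∀ x, R x (τ x)) : WLEquiv k G H := by
  intro r
  rw [map_univ_eq_iff]
  exact ⟨τ, fun x => Sim.of_game R hat hforth x (τ x) (hτ x) r⟩

theorem color_map {V W : Type} [Fintype V] [Fintype W] {k : ℕ} (e : V ≃ W) (G : SimpleGraph V) :
    ∀ (r : ℕ) (x : Fin k → V), color k (G.map e.toEmbedding) r (fun i => e (x i)) =
      color k G r x := by
  intro r x
  refine (Sim.of_game (G := G) (H := G.map e.toEmbedding)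
    (fun (x : Fin k → V) (y : Fin k → W) => y = fun i => e (x i)) ?_ ?_ x _ rfl r).symm
  · rintro x y rfl i j
    refine ⟨e.injective.eq_iff.symm, ?_⟩
    exact (SimpleGraph.map_adj_apply (G := G) (f := e.toEmbedding)).symm
  · rintro x y rfl
    refine ⟨e, fun z i => ?_⟩
    funext j
    by_cases h : j = i
    · subst h
      rw [Function.update_self, Function.update_self]
    · rw [Function.update_of_ne h, Function.update_of_ne h]

/-- invariance under renaming the vertices of both graphs -/
theorem WLEquiv.map_iff {V W : Type} [Fintype V] [Fintype W] {k : ℕ} (e : V ≃ W)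
    (G H : SimpleGraph V) : WLEquiv k (G.map e.toEmbedding) (H.map e.toEmbedding) ↔
      WLEquiv k G H := by
  have key : ∀ (G : SimpleGraph V) (r : ℕ),
      (univ : Finset (Fin k → W)).val.map (color k (G.map e.toEmbedding) r)
        = (univ : Finset (Fin k → V)).val.map (color k G r) := by
    intro G r
    symm
    rw [map_univ_eq_iff]
    exact ⟨(Equiv.refl (Fin k)).arrowCongr e, fun x => (color_map e G r x).symm⟩
  unfold WLEquiv
  simp only [key]

end Vale.Agent.P310
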