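import Vale.Agent.P310.Obj
import Vale.Agent.P310.Game

/-!
P310, Level A, piece A11: a winning family for Duplicator gives equivalent graphs.
-/

namespace Vale.Agent.P310.Sys

open scoped BigOperators

variable {S : Sys}

/-- object of a basic vertex -/
def ob0 : S.Kind0 → S.A → Obj S
  | .var x l _, a => .var (l, (x, a))
  | .eqn p l _, a => .eqn (l, (p, a))
  | .spc s _, _ => .spc s

open Classical in
/-- the action of a difference on a basic vertex -/
noncomputable def act0 (d : S.Var → ZMod 2) : S.Kind0 → S.A → S.Kind0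
  | .var x l b, a => .var x l (b + d (l, (x, a)))
  | .eqn p l f, a => .eqn p l
      (if S.presA p.1 a then (fun i => f i + d (S.slot (l, (p, a)) i)) else f)
  | .spc s f, _ => .spc s (fun l => f l + d (l, (S.spt s, 0)))

/-- object of a vertex -/
def obK : S.Kind → S.A → Obj S
  | .base κ, a => ob0 κ a
  | .leaf κ _, a => ob0 κ a

/-- the action on all kinds -/
noncomputable def actK (d : S.Var → ZMod 2) : S.Kind → S.A → S.Kind
  | .base κ, a => .base (act0 d κ a)
  | .leaf κ j, a => .leaf (act0 d κ a) j

theorem act0_ok (d : S.Var → ZMod 2) (κ : S.Kind0) (a : S.A) : (act0 d κ a).ok = κ.ok := by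
  cases κ <;> rfl

theorem ob0_act0 (d : S.Var → ZMod 2) (κ : S.Kind0) (a : S.A) :
    ob0 (act0 d κ a) a = ob0 κ a := by
  cases κ <;> rfl

theorem obK_actK (d : S.Var → ZMod 2) (κ : S.Kind) (a : S.A) :
    obK (actK d κ a) a = obK κ a := by
  cases κ <;> exact ob0_act0 _ _ _

theorem zadd (x y : ZMod 2) : x + y + y = x := by
  rw [add_assoc, CharTwo.add_self_eq_zero, add_zero]

theorem act0_act0 (d : S.Var → ZMod 2) (κ : S.Kind0) (a : S.A) :
    act0 d (act0 d κ a) a = κ := by
  cases κ with
  | var x l b => simp only [act0, zadd]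
  | eqn p l f =>
    simp only [act0]
    congr 1
    by_cases h : S.presA p.1 a
    · simp only [if_pos h, zadd]
    · simp only [if_neg h]
  | spc s f => simp only [act0, zadd]

theorem actK_actK (d : S.Var → ZMod 2) (κ : S.Kind) (a : S.A) :
    actK d (actK d κ a) a = κ := by
  cases κ <;> simp only [actK, act0_act0]

theorem act0_congr {d d' : S.Var → ZMod 2} (κ : S.Kind0) (a : S.A)
    (h : ∀ v ∈ S.scope (ob0 κ a), d v = d' v) : act0 d κ a = act0 d' κ a := by
  classical
  cases κ with
  | var x l b =>
    simp only [act0]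
    rw [h (l, (x, a)) (by simp [ob0, scope])]
  | eqn p l f =>
    simp only [act0]
    by_cases hp : S.presA p.1 a
    · simp only [if_pos hp]
      congr 1
      funext i
      rw [h (S.slot (l, (p, a)) i)]
      have hP : S.Pre (l, (p, a)) := hp
      simp only [ob0, scope, if_pos hP]
      exact Finset.mem_image_of_mem _ (Finset.mem_univ _)
    · simp only [if_neg hp]
  | spc s f =>
    simp only [act0]
    congr 1
    funext l
    rw [h (l, (S.spt s, 0))]
    simp only [ob0, scope]
    exact Finset.mem_image_of_mem (fun l : Fin S.m => ((l, (S.spt s, 0)) : S.Var))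
      (Finset.mem_univ l)

theorem actK_congr {d d' : S.Var → ZMod 2} (κ : S.Kind) (a : S.A)
    (h : ∀ v ∈ S.scope (obK κ a), d v = d' v) : actK d κ a = actK d' κ a := by
  cases κ with
  | base κ => exact congrArg RKind.base (act0_congr κ a h)
  | leaf κ j => exact congrArg (fun t => RKind.leaf t j) (act0_congr κ a h)

/-! ### Vertices -/

variable {KK : Type} (em : S.Kind ↪ KK)

open Classical in
/-- object of a vertex -/
noncomputable def obV (v : KK × S.A) : Obj S :=
  if h : ∃ κ, v.1 = em κ then obK h.choose v.2 else .nul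

open Classical in
/-- action on the vertices -/
noncomputable def actV (d : S.Var → ZMod 2) (v : KK × S.A) : KK × S.A :=
  if h : ∃ κ, v.1 = em κ then (em (actK d h.choose v.2), v.2) else v

theorem obV_em (κ : S.Kind) (a : S.A) : obV em (em κ, a) = obK κ a := by
  classical
  have h : ∃ κ', em κ = em κ' := ⟨κ, rfl⟩
  have h2 : h.choose = κ := em.injective h.choose_spec.symm
  unfold obV
  rw [dif_pos (show ∃ κ', (em κ, a).1 = em κ' from h)]
  exact congrArg (fun t => obK t a) h2

theorem actV_em (d : S.Var → ZMod 2) (κ : S.Kind) (a : S.A) :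
    actV em d (em κ, a) = (em (actK d κ a), a) := by
  classical
  have h : ∃ κ', em κ = em κ' := ⟨κ, rfl⟩
  have h2 : h.choose = κ := em.injective h.choose_spec.symm
  unfold actV
  rw [dif_pos (show ∃ κ', (em κ, a).1 = em κ' from h)]
  exact congrArg (fun t => ((em (actK d t a), a) : KK × S.A)) h2

theorem obV_not {v : KK × S.A} (h : ¬ ∃ κ, v.1 = em κ) : obV em v = .nul := by
  classical
  exact dif_neg h

theorem actV_not (d : S.Var → ZMod 2) {v : KK × S.A} (h : ¬ ∃ κ, v.1 = em κ) :
    actV em d v = v := by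
  classical
  exact dif_neg h

theorem obV_actV (d : S.Var → ZMod 2) (v : KK × S.A) : obV em (actV em d v) = obV em v := by
  by_cases h : ∃ κ, v.1 = em κ
  · obtain ⟨u, a⟩ := v
    obtain ⟨κ, rfl⟩ := h
    rw [actV_em, obV_em, obV_em, obK_actK]
  · rw [actV_not em d h]

theorem actV_actV (d : S.Var → ZMod 2) (v : KK × S.A) : actV em d (actV em d v) = v := by
  by_cases h : ∃ κ, v.1 = em κ
  · obtain ⟨u, a⟩ := v
    obtain ⟨κ, rfl⟩ := h
    rw [actV_em, actV_em, actK_actK]
  · rw [actV_not em d h, actV_not em d h]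

theorem actV_inj (d : S.Var → ZMod 2) : Function.Injective (actV em d) :=
  Function.LeftInverse.injective (actV_actV em d)

theorem actV_congr {d d' : S.Var → ZMod 2} (v : KK × S.A)
    (h : ∀ w ∈ S.scope (obV em v), d w = d' w) : actV em d v = actV em d' v := by
  by_cases hu : ∃ κ, v.1 = em κ
  · obtain ⟨u, a⟩ := v
    obtain ⟨κ, rfl⟩ := hu
    rw [obV_em] at h
    rw [actV_em, actV_em, actK_congr κ a h]
  · rw [actV_not em d hu, actV_not em d' hu]

/-! ### Adjacency -/

theorem tw_add (hh : Bool) (s : S.Spc) : S.tw hh s + S.tw true s = S.tw (!hh) s := by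
  cases s <;> cases hh <;> simp [tw, CharTwo.add_self_eq_zero]

theorem arc_act {hh : Bool} {d : S.Var → ZMod 2} {κ κ' : S.Kind} {a a' : S.A}
    (h : S.Arc hh κ a κ' a')
    (he : ∀ E : S.Eqn, Obj.eqn E = obK κ a → S.Pre E → ∑ i, d (S.slot E i) = 0)
    (hs : ∀ s : S.Spc, Obj.spc s = obK κ a → ∑ l : Fin S.m, d (l, (S.spt s, 0)) = S.tw true s) :
    S.Arc (!hh) (actK d κ a) a (actK d κ' a') a' := by
  classical
  cases h with
  | eqn p l f a i hp hf =>
    have h1 : ∑ i, d (S.slot (l, (p, a)) i) = 0 := he (l, (p, a)) rfl hp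
    have h2 : ∑ i, (f i + d (S.slot (l, (p, a)) i)) = 0 := by
      rw [Finset.sum_add_distrib, h1, hf, add_zero]
    have h3 := Arc.eqn (S := S) (hh := !hh) p l (fun i => f i + d (S.slot (l, (p, a)) i)) a i hp h2
    have h4 : actK d (.base (.eqn p l f)) a =
        .base (.eqn p l (fun i => f i + d (S.slot (l, (p, a)) i))) := by
      simp only [actK, act0, if_pos hp]
    rw [h4]
    exact h3
  | spc s f l hf =>
    have h1 := hs s rfl
    have h2 : ∑ l, (f l + d (l, (S.spt s, 0))) = S.tw (!hh) s := by
      rw [Finset.sum_add_distrib, h1, hf, tw_add]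
    exact Arc.spc (S := S) (hh := !hh) s (fun l => f l + d (l, (S.spt s, 0))) l h2
  | leaf κ j a hj =>
    refine Arc.leaf (S := S) (hh := !hh) (act0 d κ a) j a ?_
    rw [act0_ok]
    exact hj

theorem adj_act {hh : Bool} {d : S.Var → ZMod 2} {v w : KK × S.A}
    (h : (S.gr hh em).Adj v w)
    (he : ∀ E : S.Eqn, (Obj.eqn E = obV em v ∨ Obj.eqn E = obV em w) → S.Pre E →
      ∑ i, d (S.slot E i) = 0)
    (hs : ∀ s : S.Spc, (Obj.spc s = obV em v ∨ Obj.spc s = obV em w) →
      ∑ l : Fin S.m, d (l, (S.spt s, 0)) = S.tw true s) :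
    (S.gr (!hh) em).Adj (actV em d v) (actV em d w) := by
  obtain ⟨u, a⟩ := v
  obtain ⟨u', a'⟩ := w
  obtain ⟨κ, κ', h1, h2, h3⟩ := h
  simp only at h1 h2 h3
  subst h1 h2
  rw [actV_em, actV_em]
  simp only [obV_em] at he hs
  refine ⟨actK d κ a, actK d κ' a', rfl, rfl, ?_⟩
  rcases h3 with h3 | h3
  · exact Or.inl (arc_act h3 (fun E hE => he E (Or.inl hE)) (fun s h => hs s (Or.inl h)))
  · exact Or.inr (arc_act h3 (fun E hE => he E (Or.inr hE)) (fun s h => hs s (Or.inr h)))

/-! ### The game -/

theorem Fam.exists_sol (F : Fam S) [DecidableEq (Obj S)] (n : ℕ) (hn : n ≤ S.m + 1)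
    (o : Fin n → Obj S) : ∃ d, d ∈ F.Sol (Finset.univ.image o) := by
  induction n with
  | zero =>
    obtain ⟨d, hd⟩ := F.ne
    exact ⟨d, by simpa using hd⟩
  | succ n ih =>
    obtain ⟨d, hd⟩ := ih (by omega) (fun i => o i.castSucc)
    obtain ⟨P', h1, h2, d', hd', -⟩ := F.ext (Finset.univ.image fun i : Fin n => o i.castSucc)
      (le_trans Finset.card_image_le (by simp; omega)) d hd (o (Fin.last n))
    refine ⟨d', F.mono _ P' ?_ hd'⟩
    intro x hx
    obtain ⟨i, -, rfl⟩ := Finset.mem_image.1 hx
    induction i using Fin.lastCases with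
    | last => exact h2
    | cast i => exact h1 (Finset.mem_image_of_mem _ (Finset.mem_univ _))

theorem Fam.wlEquiv (F : Fam S) {KK : Type} [Fintype KK] (em : S.Kind ↪ KK) :
    WLEquiv (S.m + 1) (S.gr false em) (S.gr true em) := by
  classical
  have hsol : ∀ o : Fin (S.m + 1) → Obj S, ∃ d, d ∈ F.Sol (Finset.univ.image o) :=
    fun o => F.exists_sol (S.m + 1) le_rfl o
  choose D hD using hsol
  let τ : (Fin (S.m + 1) → KK × S.A) → (Fin (S.m + 1) → KK × S.A) :=
    fun x i => actV em (D (fun j => obV em (x j))) (x i)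
  have hτo : ∀ x, (fun j => obV em (τ x j)) = fun j => obV em (x j) := by
    intro x
    funext j
    exact obV_actV em _ _
  have hτi : Function.Involutive τ := by
    intro x
    funext i
    show actV em (D (fun j => obV em (τ x j))) (τ x i) = x i
    rw [hτo x]
    exact actV_actV em _ _
  refine WLEquiv.of_game
    (fun x y => ∃ d, d ∈ F.Sol (Finset.univ.image fun i => obV em (x i)) ∧
      ∀ i, y i = actV em d (x i)) ?_ ?_ hτi.toPerm ?_
  · rintro x y ⟨d, hd, hy⟩ i j
    have hmem : ∀ i, obV em (x i) ∈ Finset.univ.image fun i => obV em (x i) :=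
      fun i => Finset.mem_image_of_mem _ (Finset.mem_univ _)
    have he : ∀ E : S.Eqn, (Obj.eqn E = obV em (x i) ∨ Obj.eqn E = obV em (x j)) → S.Pre E →
        ∑ i, d (S.slot E i) = 0 := by
      intro E hE hP
      refine F.eqn _ d hd E ?_ hP
      rcases hE with hE | hE <;> rw [hE] <;> exact hmem _
    have hs : ∀ s : S.Spc, (Obj.spc s = obV em (x i) ∨ Obj.spc s = obV em (x j)) →
        ∑ l : Fin S.m, d (l, (S.spt s, 0)) = S.tw true s := by
      intro s hs
      refine F.spc _ d hd s ?_
      rcases hs with hs | hs <;> rw [hs] <;> exact hmem _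
    constructor
    · rw [hy i, hy j]
      exact (actV_inj em d).eq_iff.symm
    · rw [hy i, hy j]
      constructor
      · intro h
        exact adj_act em h he hs
      · intro h
        have := adj_act em (d := d) h (by simpa only [obV_actV] using he)
          (by simpa only [obV_actV] using hs)
        simpa only [actV_actV, Bool.not_true] using this
  · rintro x y ⟨d, hd, hy⟩
    have hcard : (Finset.univ.image fun i => obV em (x i)).card ≤ S.m + 1 :=
      le_trans Finset.card_image_le (by simp)
    have hext := fun o => F.ext _ hcard d hd o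
    choose P' hP1 hP2 d' hd' hag using hext
    have hinv : Function.Involutive (fun z : KK × S.A => actV em (d' (obV em z)) z) := by
      intro z
      simp only [obV_actV, actV_actV]
    refine ⟨hinv.toPerm, ?_⟩
    intro z i
    refine ⟨d' (obV em z), F.mono _ (P' (obV em z)) ?_ (hd' (obV em z)), ?_⟩
    · intro o ho
      obtain ⟨j, -, rfl⟩ := Finset.mem_image.1 ho
      by_cases hj : j = i
      · subst hj
        rw [Function.update_self]
        exact hP2 _
      · rw [Function.update_of_ne hj]
        exact hP1 _ (Finset.mem_image_of_mem _ (Finset.mem_univ _))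
    · intro j
      by_cases hj : j = i
      · subst hj
        rw [Function.update_self, Function.update_self]
        rfl
      · rw [Function.update_of_ne hj, Function.update_of_ne hj, hy j]
        refine actV_congr em (x j) ?_
        intro w hw
        exact (hag (obV em z) (obV em (x j))
          (Finset.mem_image_of_mem _ (Finset.mem_univ _)) w hw).symm
  · intro x
    exact ⟨D (fun j => obV em (x j)), hD _, fun i => rfl⟩

end Vale.Agent.P310.Sys
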