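import Vale.Agent.P310.Sys

/-!
P310, Level A: objects, linear forms, representations (definitions only).
-/

namespace Vale.Agent.P310.Sys

open scoped BigOperators

variable (S : Sys)

/-! ### One digit -/

/-- the variable in slot `i` of `E` is in no other equation of `U` -/
def Priv (ψ : S.C →+ S.A) (U : Finset S.E1) (E : S.E1) (i : Fin 3) : Prop :=
  ∀ E' ∈ U, ∀ i' : Fin 3, S.sl ψ E' i' = S.sl ψ E i → E' = E

/-- sum of the equations of `U` (as a linear form over `ZMod 2`) -/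
def bd (ψ : S.C →+ S.A) (U : Finset S.E1) : S.V1 → ZMod 2 :=
  fun v => ∑ E ∈ U, ∑ i : Fin 3, if S.sl ψ E i = v then 1 else 0

/-- the form of a single variable or `0` -/
def sgl {X : Type} [DecidableEq X] : Option X → X → ZMod 2
  | none, _ => 0
  | some x, v => if x = v then 1 else 0

/-- non-accidental pair of nodes at a digit -/
def NA (ψ : S.C →+ S.A) (n : ℕ) (ρ ρ' : S.Nd) : Prop :=
  ∀ n' ≤ n, ∀ d : S.C, S.Near n' ρ.1 ρ'.1 d → ψ ρ'.2 = ψ (ρ.2 + d) → ρ'.2 = ρ.2 + d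

/-- A set of true nodes closed under the two-of-three rule, with consistent values. -/
structure TrOK (Tr : Set S.Nd) (val : S.Nd → ZMod 2) : Prop where
  closed : ∀ (p : S.E × S.Q) (c : S.C) (i j l : Fin 3), i ≠ j → l ≠ i → l ≠ j → S.pres p.1 c →
    S.nd p c i ∈ Tr → S.nd p c j ∈ Tr → S.nd p c l ∈ Tr
  sum : ∀ (p : S.E × S.Q) (c : S.C), S.pres p.1 c → (∀ i, S.nd p c i ∈ Tr) →
    ∑ i, val (S.nd p c i) = 0
  spc : ∀ s : S.Spc, ((S.spt s, 0) : S.Nd) ∈ Tr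

/-! ### All digits -/

/-- objects: what a pebble can lie on -/
inductive Obj (S : Sys) : Type
  | var (v : S.Var)
  | eqn (E : S.Eqn)
  | spc (s : S.Spc)
  | nul

/-- slot `i` of an equation -/
def slot (E : S.Eqn) (i : Fin 3) : S.Var := (E.1, S.sl (S.φ E.1) E.2 i)

/-- presence of an equation -/
def Pre (E : S.Eqn) : Prop := S.presA E.2.1.1 E.2.2

open Classical in
/-- variables seen by an object -/
noncomputable def scope : Obj S → Finset S.Var
  | .var v => {v}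
  | .eqn E => if S.Pre E then Finset.univ.image (S.slot E) else ∅
  | .spc s => Finset.univ.image fun l : Fin S.m => ((l, (S.spt s, 0)) : S.Var)
  | .nul => ∅

/-- the word of a node -/
def word (n : S.Nd) : S.Var → ZMod 2 := fun v => if S.pr (S.φ v.1) n = v.2 then 1 else 0

/-- sum of the equations of `U` -/
def bdG (U : Finset S.Eqn) : S.Var → ZMod 2 :=
  fun v => ∑ E ∈ U, ∑ i : Fin 3, if S.slot E i = v then 1 else 0

/-- representation of a form by words of true nodes, special equations belonging to `P` and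
few equations per digit -/
structure Rep (Tr : Set S.Nd) (val : S.Nd → ZMod 2) (P : Finset (Obj S)) (b : ℕ)
    (R : Finset S.Nd) (A : Finset S.Spc) (U : Finset S.Eqn) (f : S.Var → ZMod 2)
    (β : ZMod 2) : Prop where
  hR : ∀ ρ ∈ R, ρ ∈ Tr
  hA : ∀ s ∈ A, Obj.spc s ∈ P
  hU : ∀ E ∈ U, S.Pre E
  hc : ∀ l : Fin S.m, (U.filter fun E => E.1 = l).card ≤ b
  hf : ∀ v, f v = ∑ ρ ∈ R, S.word ρ v + ∑ s ∈ A, S.word (S.spt s, 0) v + S.bdG U v
  hβ : β = ∑ ρ ∈ R, val ρ + ∑ s ∈ A, val (S.spt s, 0)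
  supp : ∀ v, f v ≠ 0 → ∃ o ∈ P, v ∈ S.scope o

/-- the space of known forms on the objects of `P` -/
def Dset (Tr : Set S.Nd) (val : S.Nd → ZMod 2) (P : Finset (Obj S)) :
    Set ((S.Var → ZMod 2) × ZMod 2) :=
  {p | ∃ R A U, R.card ≤ 1 ∧ S.Rep Tr val P (3 * (S.m + 2)) R A U p.1 p.2}

/-- A winning family for Duplicator. -/
structure Fam (S : Sys) where
  Sol : Finset (Obj S) → Set (S.Var → ZMod 2)
  ne : (Sol ∅).Nonempty
  mono : ∀ P P' : Finset (Obj S), P ⊆ P' → Sol P' ⊆ Sol P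
  ext : ∀ (P : Finset (Obj S)), P.card ≤ S.m + 1 → ∀ d ∈ Sol P, ∀ o : Obj S,
    ∃ P' : Finset (Obj S), P ⊆ P' ∧ o ∈ P' ∧
    ∃ d' ∈ Sol P', ∀ o' ∈ P, ∀ v ∈ S.scope o', d' v = d v
  eqn : ∀ (P : Finset (Obj S)), ∀ d ∈ Sol P, ∀ E : S.Eqn, Obj.eqn E ∈ P → S.Pre E →
    ∑ i, d (S.slot E i) = 0
  spc : ∀ (P : Finset (Obj S)), ∀ d ∈ Sol P, ∀ s : S.Spc, Obj.spc s ∈ P →
    ∑ l : Fin S.m, d (l, (S.spt s, 0)) = S.tw true s

end Vale.Agent.P310.Sys
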