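import Vale.Agent.P310.Sim
import Vale.Agent.P310.Obj

/-!
P310, Level A: the number of leaves identifies the kind of a vertex.
-/

namespace Vale.Agent.P310

open scoped BigOperators

namespace Sys

variable {S : Sys}

namespace Kd

variable {KK : Type}

/-- Neighbours of a leaf vertex. -/
theorem adj_leaf (hh : Bool) (em : S.Kind ↪ KK) (κ : S.Kind0) (j : Fin S.Lam) (a : S.A)
    (w : KK × S.A) (h : (S.gr hh em).Adj (em (.leaf κ j), a) w) :
    w = (em (.base κ), a) ∧ j.val < S.lam κ.ok := by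
  obtain ⟨κ1, κ2, h1, h2, h3⟩ := h
  obtain rfl : RKind.leaf κ j = κ1 := em.injective h1
  obtain ⟨w1, w2⟩ := w
  simp only at h2 h3
  subst h2
  rcases h3 with h3 | h3
  · cases h3
  · cases h3 with
    | leaf _ _ _ hj => exact ⟨rfl, hj⟩

theorem leaf_adj_base (hh : Bool) (em : S.Kind ↪ KK) (κ : S.Kind0) (j : Fin S.Lam) (a : S.A)
    (hj : j.val < S.lam κ.ok) :
    (S.gr hh em).Adj (em (.base κ), a) (em (.leaf κ j), a) :=
  ⟨.base κ, .leaf κ j, rfl, rfl, Or.inl (.leaf κ j a hj)⟩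

theorem dg_leaf (hh : Bool) (em : S.Kind ↪ KK) (κ : S.Kind0) (j : Fin S.Lam) (a : S.A)
    (hj : j.val < S.lam κ.ok) : dg (S.gr hh em) (em (.leaf κ j), a) = 1 := by
  unfold dg
  rw [Nat.card_eq_one_iff_unique]
  refine ⟨⟨?_⟩, ⟨⟨(em (.base κ), a), (leaf_adj_base hh em κ j a hj).symm⟩⟩⟩
  rintro ⟨w, hw⟩ ⟨w', hw'⟩
  apply Subtype.ext
  exact (adj_leaf hh em κ j a w hw).1.trans (adj_leaf hh em κ j a w' hw').1.symm

theorem dg_base (hS : S.OK) (hh : Bool) (em : S.Kind ↪ KK) (κ : S.Kind0) (a : S.A) :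
    dg (S.gr hh em) (em (.base κ), a) ≠ 1 := by
  intro h
  unfold dg at h
  rw [Nat.card_eq_one_iff_unique] at h
  obtain ⟨⟨hs⟩, -⟩ := h
  have hL := hS.lam_le κ.ok
  have h2 := hS.two_le_lam κ.ok
  have h0 := leaf_adj_base hh em κ ⟨0, by omega⟩ a (by show 0 < _; omega)
  have h1 := leaf_adj_base hh em κ ⟨1, by omega⟩ a (by show 1 < _; omega)
  have h3 := hs ⟨_, h0⟩ ⟨_, h1⟩
  have h4 := congrArg (fun z => z.1.1) h3
  have h5 := em.injective h4
  injection h5 with _ h6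
  exact absurd (congrArg Fin.val h6) (by simp)

theorem lf_leaf (hS : S.OK) (hh : Bool) (em : S.Kind ↪ KK) (κ : S.Kind0) (j : Fin S.Lam) (a : S.A) :
    lf (S.gr hh em) (em (.leaf κ j), a) = 0 := by
  unfold lf
  rw [Nat.card_eq_zero]
  left
  refine ⟨?_⟩
  rintro ⟨w, hw, hd⟩
  rw [(adj_leaf hh em κ j a w hw).1] at hd
  exact dg_base hS hh em κ a hd

theorem lf_out (hh : Bool) (em : S.Kind ↪ KK) (v : KK × S.A) (hv : ∀ κ, v.1 ≠ em κ) :
    lf (S.gr hh em) v = 0 := by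
  unfold lf
  rw [Nat.card_eq_zero]
  left
  refine ⟨?_⟩
  rintro ⟨w, ⟨κ, κ', h1, h2, h3⟩, hd⟩
  exact hv κ h1

end Kd

open Kd

/-- A vertex of base kind `κ` has exactly `lam κ.ok` neighbours of degree one. -/
theorem lf_base (hS : S.OK) (hh : Bool) {KK : Type} [Fintype KK] (em : S.Kind ↪ KK)
    (κ : S.Kind0) (a : S.A) : lf (S.gr hh em) (em (.base κ), a) = S.lam κ.ok := by
  unfold lf
  have hL := hS.lam_le κ.ok
  rw [← Nat.card_fin (S.lam κ.ok)]
  refine (Nat.card_eq_of_bijective (f := fun j : Fin (S.lam κ.ok) =>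
    (⟨(em (.leaf κ ⟨j.val, by omega⟩), a),
      leaf_adj_base hh em κ ⟨j.val, by omega⟩ a j.isLt,
      dg_leaf hh em κ ⟨j.val, by omega⟩ a j.isLt⟩ :
      {w // (S.gr hh em).Adj (em (.base κ), a) w ∧ dg (S.gr hh em) w = 1})) ⟨?_, ?_⟩).symm
  · intro j j' h
    have h4 := congrArg (fun z => z.1.1) h
    have h5 := em.injective h4
    injection h5 with _ h6
    have h7 := congrArg Fin.val h6
    exact Fin.ext h7
  · rintro ⟨⟨w1, w2⟩, ⟨κ1, κ2, h1, h2, h3⟩, hd⟩
    obtain rfl : RKind.base κ = κ1 := em.injective h1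
    simp only at h2 h3
    subst h2
    rcases h3 with h3 | h3
    · cases h3 with
      | eqn p l f _ i h h' => exact absurd hd (dg_base hS hh em _ _)
      | spc s f l h => exact absurd hd (dg_base hS hh em _ _)
      | leaf _ j _ hj => exact ⟨⟨j.val, hj⟩, rfl⟩
    · cases h3 with
      | eqn p l f _ i h h' => exact absurd hd (dg_base hS hh em _ _)
      | spc s f l h => exact absurd hd (dg_base hS hh em _ _)

theorem sim_kind (hS : S.OK) {KK : Type} [Fintype KK] (em : S.Kind ↪ KK) {k : ℕ} (hk : 2 ≤ k)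
    {x y : Fin k → KK × S.A} (h : Sim (S.gr false em) (S.gr true em) x y) (i : Fin k)
    (κ : S.Kind0) (hx : (x i).1 = em (.base κ)) :
    ∃ κ' : S.Kind0, κ'.ok = κ.ok ∧ (y i).1 = em (.base κ') := by
  have h1 := Sim.lf_eq hk h i
  have h2 : lf (S.gr false em) (x i) = S.lam κ.ok := by
    have : x i = (em (.base κ), (x i).2) := by rw [← hx]
    rw [this]
    exact lf_base hS false em κ _
  rw [h2] at h1
  have h3 := hS.two_le_lam κ.ok
  by_cases hv : ∀ κ', (y i).1 ≠ em κ'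
  · rw [lf_out true em (y i) hv] at h1
    omega
  · push Not at hv
    obtain ⟨κ', hκ'⟩ := hv
    have h4 : y i = (em κ', (y i).2) := by rw [← hκ']
    rw [h4] at h1
    cases κ' with
    | base κ' =>
      rw [lf_base hS true em κ' _] at h1
      exact ⟨κ', (hS.lam_inj h1).symm, hκ'⟩
    | leaf κ' j =>
      rw [lf_leaf hS true em κ' j _] at h1
      omega

end Sys

end Vale.Agent.P310
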