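import Vale.Agent.P310.Obj

/-!
P310, Level A, piece A5: injectivity of the slots, uniqueness of the shift of short walks, and the
leaf lemma (a nonempty small set of equations at one digit has an equation with two private
variables avoiding a given variable).
-/

namespace Vale.Agent.P310

open scoped BigOperators

namespace Sys

variable {S : Sys}

/-- product of the letters of a word in a group -/
private theorem lift_mk_list {α G : Type} [Group G] (f : α → G) (L : List (α × Bool)) :
    FreeGroup.lift f (FreeGroup.mk L) =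
      (L.map fun x => cond x.2 (f x.1) (f x.1)⁻¹).prod := FreeGroup.lift_mk

theorem grp_list (hS : S.OK) (L : List ((S.E × Fin 3) × Bool)) (hne : L ≠ [])
    (hred : FreeGroup.IsReduced L) (hlen : L.length ≤ S.big) :
    (L.map fun x => cond x.2 (S.g x.1.1 x.1.2) (S.g x.1.1 x.1.2)⁻¹).prod ≠ 1 := by
  have h1 : (FreeGroup.mk L).toWord = L := by
    rw [FreeGroup.toWord_mk, hred.reduce_eq]
  have h2 : FreeGroup.mk L ≠ 1 := by
    intro h
    rw [h, FreeGroup.toWord_one] at h1
    exact hne h1.symm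
  have h3 : (FreeGroup.mk L).norm ≤ S.big := by
    rw [FreeGroup.norm, h1]
    exact hlen
  have h4 := hS.grp _ h2 h3
  rwa [lift_mk_list] at h4

theorem two_le_big : 2 ≤ S.big := by
  unfold big
  omega

theorem g_inj (hS : S.OK) (e : S.E) (i j : Fin 3) (h : S.g e i = S.g e j) : i = j := by
  by_contra hij
  refine grp_list hS [((e, i), true), ((e, j), false)] (by simp) ?_ two_le_big ?_
  · simp only [FreeGroup.IsReduced, List.isChain_cons_cons, List.isChain_singleton, and_true]
    intro h'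
    exact absurd (congrArg Prod.snd h') hij
  · simp [h]

theorem near_word {n : ℕ} {x y : S.LT} {d : S.C} (h : S.Near n x y d) :
    ∃ w : FreeGroup (S.E × Fin 3), w.norm ≤ 2 * n ∧
      y.2 = x.2 * FreeGroup.lift (fun p : S.E × Fin 3 => S.g p.1 p.2) w ∧
      Multiplicative.ofAdd d =
        FreeGroup.lift (fun p : S.E × Fin 3 => Multiplicative.ofAdd (S.sh p.1 p.2)) w := by
  induction h with
  | refl n x => exact ⟨1, by simp, by simp, by simp⟩
  | @step n x d p i j _ ih =>
    obtain ⟨w, h1, h2, h3⟩ := ih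
    refine ⟨w * ((FreeGroup.of (p.1, i))⁻¹ * FreeGroup.of (p.1, j)), ?_, ?_, ?_⟩
    · have ha := FreeGroup.norm_mul_le w ((FreeGroup.of (p.1, i))⁻¹ * FreeGroup.of (p.1, j))
      have hb := FreeGroup.norm_mul_le (FreeGroup.of (p.1, i))⁻¹ (FreeGroup.of (p.1, j))
      rw [FreeGroup.norm_inv_eq, FreeGroup.norm_of, FreeGroup.norm_of] at hb
      omega
    · rw [map_mul, map_mul, map_inv, FreeGroup.lift_apply_of, FreeGroup.lift_apply_of,
        ← mul_assoc, ← h2]
      simp only [lt]
      group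
    · rw [map_mul, map_mul, map_inv, FreeGroup.lift_apply_of, FreeGroup.lift_apply_of, ← h3,
        ← ofAdd_neg, ← ofAdd_add, ← ofAdd_add]
      congr 1
      abel

theorem near_unique (hS : S.OK) {n : ℕ} (hn : 4 * n ≤ S.big) {x y : S.LT} {d d' : S.C}
    (h : S.Near n x y d) (h' : S.Near n x y d') : d = d' := by
  obtain ⟨w, h1, h2, h3⟩ := near_word h
  obtain ⟨w', h1', h2', h3'⟩ := near_word h'
  have hw : w = w' := by
    by_contra hne
    have h4 : w * w'⁻¹ ≠ 1 := fun h => hne (mul_inv_eq_one.mp h)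
    have h5 : (w * w'⁻¹).norm ≤ S.big := by
      have := FreeGroup.norm_mul_le w w'⁻¹
      rw [FreeGroup.norm_inv_eq] at this
      omega
    refine hS.grp _ h4 h5 ?_
    rw [map_mul, map_inv, mul_inv_eq_one]
    exact mul_left_cancel (h2.symm.trans h2')
  rw [← hw, ← h3] at h3'
  exact (Multiplicative.ofAdd.injective h3').symm

theorem near_mono {n n' : ℕ} (hn : n ≤ n') {x y : S.LT} {d : S.C} (h : S.Near n x y d) :
    S.Near n' x y d := by
  induction h generalizing n' with
  | refl n x => exact Near.refl n' x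
  | @step n x d p i j _ ih =>
    obtain ⟨k, rfl⟩ : ∃ k, n' = k + 1 := ⟨n' - 1, by omega⟩
    exact Near.step p i j (ih (by omega))

theorem near_trans {n n' : ℕ} {x y z : S.LT} {d d' : S.C} (h : S.Near n x y d)
    (h' : S.Near n' y z d') : S.Near (n + n') x z (d + d') := by
  induction h' with
  | refl n' y =>
    rw [add_zero]
    exact near_mono (by omega) h
  | @step n' y d' p i j _ ih =>
    have h1 := Near.step p i j (ih h)
    have h2 : d + d' + S.sh p.1 j - S.sh p.1 i = d + (d' + S.sh p.1 j - S.sh p.1 i) := by abel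
    rw [h2] at h1
    exact h1

theorem near_symm {n : ℕ} {x y : S.LT} {d : S.C} (h : S.Near n x y d) : S.Near n y x (-d) := by
  induction h with
  | refl n x =>
    rw [neg_zero]
    exact Near.refl n x
  | @step n x d p i j _ ih =>
    have h1 : S.Near (0 + 1) (S.lt p j) (S.lt p i) (0 + S.sh p.1 i - S.sh p.1 j) :=
      Near.step p j i (Near.refl 0 _)
    have h2 := near_trans h1 ih
    have h3 : 0 + 1 + n = n + 1 := by omega
    have h4 : 0 + S.sh p.1 i - S.sh p.1 j + -d = -(d + S.sh p.1 j - S.sh p.1 i) := by abel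
    rwa [h3, h4] at h2

/-- slots of one equation are different variables -/
theorem sl_inj (hS : S.OK) (ψ : S.C →+ S.A) (E : S.E1) {i j : Fin 3}
    (h : S.sl ψ E i = S.sl ψ E j) : i = j := by
  have h1 : E.1.2 * S.g E.1.1 i = E.1.2 * S.g E.1.1 j := congrArg (fun v => v.1.2) h
  exact g_inj hS _ _ _ (mul_left_cancel h1)

/-- An equation is determined by its type, one of its slots and the variable in it. -/
theorem sl_det (ψ : S.C →+ S.A) {E E' : S.E1} {i i' : Fin 3} (he : E.1.1 = E'.1.1) (hi : i = i')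
    (h : S.sl ψ E i = S.sl ψ E' i') : E = E' := by
  subst hi
  obtain ⟨⟨e, q⟩, a⟩ := E
  obtain ⟨⟨e', q'⟩, a'⟩ := E'
  dsimp only at he
  subst he
  simp only [sl, lt, Prod.mk.injEq, mul_left_inj, add_left_inj, true_and] at h
  rw [h.1, h.2]

/-- No infinite non-backtracking walk inside a small set of equations. -/
private theorem walk_false (hS : S.OK) (ψ : S.C →+ S.A) (U : Finset S.E1)
    (hc : 2 * U.card ≤ S.big) (E0 : S.E1) (i0 : Fin 3)
    (h0 : ∃ j, j ≠ i0 ∧ ¬ S.Priv ψ U E0 j)
    (h1 : ∀ E ∈ U, E ≠ E0 → ∀ i, ∃ j, j ≠ i ∧ ¬ S.Priv ψ U E j) :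
    ∀ (n : ℕ) (V : Finset S.E1), V ⊆ U → (U \ V).card ≤ n → E0 ∈ V → ∀ (E : S.E1) (i : Fin 3),
      E ∈ V → (E = E0 → i = i0) →
      (∀ E' ∈ V, ∃ L : List ((S.E × Fin 3) × Bool), FreeGroup.IsReduced L ∧
        (∀ x ∈ L.getLast?, x = ((E.1.1, i), false)) ∧ L.length + 2 ≤ 2 * V.card ∧
        E.1.2 = E'.1.2 *
          (L.map fun x => cond x.2 (S.g x.1.1 x.1.2) (S.g x.1.1 x.1.2)⁻¹).prod) → False := by
  have key : ∀ (V : Finset S.E1), V ⊆ U → E0 ∈ V → ∀ (E : S.E1) (i : Fin 3),
      E ∈ V → (E = E0 → i = i0) →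
      (∀ E' ∈ V, ∃ L : List ((S.E × Fin 3) × Bool), FreeGroup.IsReduced L ∧
        (∀ x ∈ L.getLast?, x = ((E.1.1, i), false)) ∧ L.length + 2 ≤ 2 * V.card ∧
        E.1.2 = E'.1.2 *
          (L.map fun x => cond x.2 (S.g x.1.1 x.1.2) (S.g x.1.1 x.1.2)⁻¹).prod) →
      ∃ (E'' : S.E1) (i'' : Fin 3), E'' ∈ U ∧ E'' ∉ V ∧
      (∀ E' ∈ V, ∃ L : List ((S.E × Fin 3) × Bool), FreeGroup.IsReduced L ∧
        (∀ x ∈ L.getLast?, x = ((E''.1.1, i''), false)) ∧ L.length + 2 ≤ 2 * (V.card + 1) ∧
        E''.1.2 = E'.1.2 *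
          (L.map fun x => cond x.2 (S.g x.1.1 x.1.2) (S.g x.1.1 x.1.2)⁻¹).prod) := by
    intro V hV hE0 E i hE hi hL
    obtain ⟨j, hji, hj⟩ : ∃ j, j ≠ i ∧ ¬ S.Priv ψ U E j := by
      by_cases h : E = E0
      · rw [hi h, h]
        exact h0
      · exact h1 E (hV hE) h i
    unfold Priv at hj
    push Not at hj
    obtain ⟨E'', hE'', i'', hsl, hne⟩ := hj
    have hq : E.1.2 * S.g E.1.1 j * (S.g E''.1.1 i'')⁻¹ = E''.1.2 := by
      have : E''.1.2 * S.g E''.1.1 i'' = E.1.2 * S.g E.1.1 j := congrArg (fun v => v.1.2) hsl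
      rw [← this, mul_inv_cancel_right]
    have hext : ∀ E' ∈ V, ∃ L : List ((S.E × Fin 3) × Bool), L ≠ [] ∧ FreeGroup.IsReduced L ∧
        (∀ x ∈ L.getLast?, x = ((E''.1.1, i''), false)) ∧ L.length + 2 ≤ 2 * (V.card + 1) ∧
        E''.1.2 = E'.1.2 *
          (L.map fun x => cond x.2 (S.g x.1.1 x.1.2) (S.g x.1.1 x.1.2)⁻¹).prod := by
      intro E' hE'
      obtain ⟨L, hr, hlast, hlen, hprod⟩ := hL E' hE'
      refine ⟨L ++ [((E.1.1, j), true), ((E''.1.1, i''), false)], by simp, ?_, ?_, ?_, ?_⟩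
      · unfold FreeGroup.IsReduced
        rw [List.isChain_append]
        refine ⟨hr, ?_, ?_⟩
        · simp only [List.isChain_cons_cons, List.isChain_singleton, and_true]
          intro h'
          refine absurd (sl_det ψ (congrArg Prod.fst h').symm (congrArg Prod.snd h').symm hsl) hne
        · intro x hx y hy
          rw [hlast x hx]
          simp only [List.head?_cons, Option.mem_def, Option.some.injEq] at hy
          rw [← hy]
          intro h'
          exact absurd (congrArg Prod.snd h').symm hji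
      · intro x hx
        simpa [eq_comm] using hx
      · simp only [List.length_append, List.length_cons, List.length_nil]
        omega
      · rw [List.map_append, List.prod_append, ← mul_assoc, ← hprod, ← hq]
        simp [mul_assoc]
    refine ⟨E'', i'', hE'', ?_, ?_⟩
    · intro hmem
      obtain ⟨L, hne', hr, _, hlen, hprod⟩ := hext E'' hmem
      have hVU := Finset.card_le_card hV
      refine grp_list hS L hne' hr (by omega) ?_
      exact (mul_eq_left.mp hprod.symm)
    · intro E' hE'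
      obtain ⟨L, _, hr, hlast, hlen, hprod⟩ := hext E' hE'
      exact ⟨L, hr, hlast, hlen, hprod⟩
  intro n
  induction n with
  | zero =>
    intro V hV hn hE0 E i hE hi hL
    obtain ⟨E'', i'', hU'', hV'', _⟩ := key V hV hE0 E i hE hi hL
    have : E'' ∈ U \ V := Finset.mem_sdiff.mpr ⟨hU'', hV''⟩
    rw [Finset.card_eq_zero.mp (Nat.le_zero.mp hn)] at this
    simp at this
  | succ n ih =>
    intro V hV hn hE0 E i hE hi hL
    obtain ⟨E'', i'', hU'', hV'', hL''⟩ := key V hV hE0 E i hE hi hL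
    have hcard : (insert E'' V).card = V.card + 1 := Finset.card_insert_of_notMem hV''
    refine ih (insert E'' V) ?_ ?_ (Finset.mem_insert_of_mem hE0) E'' i''
      (Finset.mem_insert_self _ _) ?_ ?_
    · intro x hx
      rcases Finset.mem_insert.mp hx with rfl | hx
      · exact hU''
      · exact hV hx
    · have hss : U \ insert E'' V ⊂ U \ V := by
        refine ⟨?_, ?_⟩
        · intro x hx
          rw [Finset.mem_sdiff, Finset.mem_insert] at hx
          rw [Finset.mem_sdiff]
          exact ⟨hx.1, fun h => hx.2 (Or.inr h)⟩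
        · intro hsub
          have := hsub (Finset.mem_sdiff.mpr ⟨hU'', hV''⟩)
          rw [Finset.mem_sdiff] at this
          exact this.2 (Finset.mem_insert_self _ _)
      have := Finset.card_lt_card hss
      omega
    · intro h
      exact absurd (h ▸ hE0) hV''
    · intro E' hE'
      rw [hcard]
      rcases Finset.mem_insert.mp hE' with rfl | hE'
      · refine ⟨[], FreeGroup.IsReduced.nil, by simp, ?_, by simp⟩
        simp
      · exact hL'' E' hE'

theorem exists_leaf (hS : S.OK) (ψ : S.C →+ S.A) (U : Finset S.E1) (hU : U.Nonempty)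
    (hc : 2 * U.card ≤ S.big) (z : Option S.V1) :
    ∃ E ∈ U, ∃ i j : Fin 3, i ≠ j ∧ S.Priv ψ U E i ∧ S.Priv ψ U E j ∧
      some (S.sl ψ E i) ≠ z ∧ some (S.sl ψ E j) ≠ z := by
  by_contra hcon
  push Not at hcon
  -- two slots different from a given one
  have two : ∀ i : Fin 3, ∃ j j' : Fin 3, j ≠ i ∧ j' ≠ i ∧ j ≠ j' := by decide
  have start : ∀ (E0 : S.E1) (i0 : Fin 3), E0 ∈ U → (∃ j, j ≠ i0 ∧ ¬ S.Priv ψ U E0 j) →
      (∀ E ∈ U, E ≠ E0 → ∀ i, ∃ j, j ≠ i ∧ ¬ S.Priv ψ U E j) → False := by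
    intro E0 i0 hE0 h0 h1
    refine walk_false hS ψ U hc E0 i0 h0 h1 _ {E0} (Finset.singleton_subset_iff.mpr hE0) le_rfl
      (Finset.mem_singleton_self _) E0 i0 (Finset.mem_singleton_self _) (fun _ => rfl) ?_
    intro E' hE'
    rw [Finset.mem_singleton] at hE'
    subst hE'
    exact ⟨[], FreeGroup.IsReduced.nil, by simp, by simp, by simp⟩
  by_cases hz : ∃ E0 ∈ U, ∃ i0, some (S.sl ψ E0 i0) = z ∧ S.Priv ψ U E0 i0
  · obtain ⟨E0, hE0, i0, hz0, hp0⟩ := hz
    refine start E0 i0 hE0 ?_ ?_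
    · obtain ⟨j, j', hj, hj', hjj⟩ := two i0
      have hjz : some (S.sl ψ E0 j) ≠ z := by
        intro h
        rw [← hz0, Option.some.injEq] at h
        exact hj (sl_inj hS ψ E0 h)
      have hjz' : some (S.sl ψ E0 j') ≠ z := by
        intro h
        rw [← hz0, Option.some.injEq] at h
        exact hj' (sl_inj hS ψ E0 h)
      by_cases hp : S.Priv ψ U E0 j
      · refine ⟨j', hj', fun hp' => ?_⟩
        exact hjz' (hcon E0 hE0 j j' hjj hp hp' hjz)
      · exact ⟨j, hj, hp⟩
    · intro E hE hne i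
      obtain ⟨j, j', hj, hj', hjj⟩ := two i
      have hno : ∀ i', some (S.sl ψ E i') ≠ z := by
        intro i' h
        rw [← hz0, Option.some.injEq] at h
        exact hne (hp0 E hE i' h)
      by_cases hp : S.Priv ψ U E j
      · refine ⟨j', hj', fun hp' => ?_⟩
        exact hno j' (hcon E hE j j' hjj hp hp' (hno j))
      · exact ⟨j, hj, hp⟩
  · push Not at hz
    have hall : ∀ E ∈ U, ∀ i, ∃ j, j ≠ i ∧ ¬ S.Priv ψ U E j := by
      intro E hE i
      obtain ⟨j, j', hj, hj', hjj⟩ := two i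
      by_cases hp : S.Priv ψ U E j
      · refine ⟨j', hj', fun hp' => ?_⟩
        have hjz : some (S.sl ψ E j) ≠ z := fun h => hz E hE j h hp
        exact hz E hE j' (hcon E hE j j' hjj hp hp' hjz) hp'
      · exact ⟨j, hj, hp⟩
    obtain ⟨E0, hE0⟩ := hU
    exact start E0 0 hE0 (hall E0 hE0 0) (fun E hE _ => hall E hE)

end Sys

end Vale.Agent.P310
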