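import Vale.Agent.P310.WL

/-!
P310, Level A [A1a]: the relation `Sim` (equal colours in all rounds).
-/

namespace Vale.Agent.P310

open Finset

namespace SimAux

/-- Equality of the multisets of values is a bijection that matches values. -/
theorem map_univ_eq_iff {V W : Type} {α : Type} [Fintype V] [Fintype W] (f : V → α) (g : W → α) :
    (univ : Finset V).val.map f = (univ : Finset W).val.map g ↔
      ∃ σ : V ≃ W, ∀ y, f y = g (σ y) := by
  classical
  constructor
  · intro h
    have hc : ∀ c : α, Fintype.card {y // f y = c} = Fintype.card {w // g w = c} := by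
      intro c
      have h1 := congrArg (Multiset.count c) h
      rw [Multiset.count_map, Multiset.count_map] at h1
      rw [Fintype.card_subtype, Fintype.card_subtype]
      have e1 : Multiset.card ((univ : Finset V).val.filter fun a => c = f a)
          = ((univ : Finset V).filter fun y => f y = c).card := by
        rw [Finset.card_def, Finset.filter_val]
        congr 1
        exact Multiset.filter_congr fun x _ => eq_comm
      have e2 : Multiset.card ((univ : Finset W).val.filter fun a => c = g a)
          = ((univ : Finset W).filter fun y => g y = c).card := by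
        rw [Finset.card_def, Finset.filter_val]
        congr 1
        exact Multiset.filter_congr fun x _ => eq_comm
      rw [← e1, ← e2]
      exact h1
    let σ : V ≃ W := (Equiv.sigmaFiberEquiv f).symm.trans
      ((Equiv.sigmaCongrRight fun c => Fintype.equivOfCardEq (hc c)).trans
        (Equiv.sigmaFiberEquiv g))
    refine ⟨σ, fun y => ?_⟩
    have : σ y = ((Fintype.equivOfCardEq (hc (f y))) ⟨y, rfl⟩ : {w // g w = f y}).1 := rfl
    rw [this]
    exact (((Fintype.equivOfCardEq (hc (f y))) ⟨y, rfl⟩ : {w // g w = f y}).2).symm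
  · rintro ⟨σ, hσ⟩
    have h1 : (univ : Finset V).val.map f = ((univ : Finset V).val.map σ).map g := by
      rw [Multiset.map_map]
      exact Multiset.map_congr rfl fun y _ => hσ y
    rw [h1]
    congr 1
    have := congrArg Finset.val (Finset.map_univ_equiv σ)
    rw [Finset.map_val] at this
    exact this

section
variable {V W : Type} [Fintype V] [Fintype W] {G : SimpleGraph V} {H : SimpleGraph W} {k : ℕ}

theorem color_zero {a : Fin k → V} {b : Fin k → W} :
    color k G 0 a = color k H 0 b ↔
      ∀ i j, (a i = a j ↔ b i = b j) ∧ (G.Adj (a i) (a j) ↔ H.Adj (b i) (b j)) := by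
  constructor
  · intro h i j
    have := congrFun (congrFun h i) j
    simp only [color, Prod.mk.injEq, eq_iff_iff] at this
    exact this
  · intro h
    funext i j
    simp only [color, Prod.mk.injEq, eq_iff_iff]
    exact h i j

theorem color_succ {r : ℕ} {a : Fin k → V} {b : Fin k → W} :
    color k G (r + 1) a = color k H (r + 1) b ↔
      color k G r a = color k H r b ∧ ∃ σ : V ≃ W, ∀ y i,
        color k G r (Function.update a i y) = color k H r (Function.update b i (σ y)) := by
  change ((color k G r a, _) : Color k r × Multiset (Fin k → Color k r)) = (color k H r b, _) ↔ _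
  rw [Prod.mk.injEq, map_univ_eq_iff]
  constructor
  · rintro ⟨h1, σ, hσ⟩
    exact ⟨h1, σ, fun y i => congrFun (hσ y) i⟩
  · rintro ⟨h1, σ, hσ⟩
    exact ⟨h1, σ, fun y => funext fun i => hσ y i⟩

theorem color_mono {r s : ℕ} (hrs : r ≤ s) {a : Fin k → V} {b : Fin k → W}
    (h : color k G s a = color k H s b) : color k G r a = color k H r b := by
  induction s, hrs using Nat.le_induction with
  | base => exact h
  | succ s _ ih => exact ih (color_succ.mp h).1

end

/-- pigeonhole: a sequence of elements of a finite type has a value that is taken infinitely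
often -/
theorem exists_frequent {X : Type*} [Finite X] (f : ℕ → X) :
    ∃ x, ∀ n, ∃ m, n ≤ m ∧ f m = x := by
  obtain ⟨x, hx⟩ := Finite.exists_infinite_fiber f
  refine ⟨x, fun n => ?_⟩
  have h2 : (f ⁻¹' {x}).Infinite := Set.infinite_coe_iff.mp hx
  obtain ⟨m, hm, hnm⟩ := h2.exists_gt n
  exact ⟨m, hnm.le, hm⟩

end SimAux

open SimAux

theorem Sim.forth' {V W : Type} [Fintype V] [Fintype W] {k : ℕ} {G : SimpleGraph V}
    {H : SimpleGraph W} {x : Fin k → V} {y : Fin k → W} (h : Sim G H x y) :
    ∃ σ : V ≃ W, ∀ (z : V) (i : Fin k),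
      Sim G H (Function.update x i z) (Function.update y i (σ z)) := by
  have h1 : ∀ r, ∃ σ : V ≃ W, ∀ z i,
      color k G r (Function.update x i z) = color k H r (Function.update y i (σ z)) :=
    fun r => (color_succ.mp (h (r + 1))).2
  choose σ hσ using h1
  obtain ⟨τ, hτ⟩ := exists_frequent σ
  refine ⟨τ, fun z i r => ?_⟩
  obtain ⟨m, hm, rfl⟩ := hτ r
  exact color_mono hm (hσ m z i)

theorem Sim.forth {V W : Type} [Fintype V] [Fintype W] {k : ℕ} {G : SimpleGraph V}
    {H : SimpleGraph W} {x : Fin k → V} {y : Fin k → W} (h : Sim G H x y) (_hk : 0 < k) :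
    ∃ σ : V ≃ W, ∀ (z : V) (i : Fin k),
      Sim G H (Function.update x i z) (Function.update y i (σ z)) := h.forth'

theorem Sim.eq_iff {V W : Type} [Fintype V] [Fintype W] {k : ℕ} {G : SimpleGraph V}
    {H : SimpleGraph W} {x : Fin k → V} {y : Fin k → W} (h : Sim G H x y) (i j : Fin k) :
    x i = x j ↔ y i = y j := (color_zero.mp (h 0) i j).1

theorem Sim.adj_iff {V W : Type} [Fintype V] [Fintype W] {k : ℕ} {G : SimpleGraph V}
    {H : SimpleGraph W} {x : Fin k → V} {y : Fin k → W} (h : Sim G H x y) (i j : Fin k) :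
    G.Adj (x i) (x j) ↔ H.Adj (y i) (y j) := (color_zero.mp (h 0) i j).2

theorem Sim.symm {V W : Type} [Fintype V] [Fintype W] {k : ℕ} {G : SimpleGraph V}
    {H : SimpleGraph W} {x : Fin k → V} {y : Fin k → W} (h : Sim G H x y) : Sim H G y x :=
  fun r => (h r).symm

/-- number of neighbours -/
noncomputable def dg {V : Type} (G : SimpleGraph V) (v : V) : ℕ := Nat.card {w // G.Adj v w}

/-- number of neighbours of degree one -/
noncomputable def lf {V : Type} (G : SimpleGraph V) (v : V) : ℕ :=
  Nat.card {w // G.Adj v w ∧ dg G w = 1}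

theorem SimAux.exists_ne {k : ℕ} (hk : 2 ≤ k) (i : Fin k) : ∃ j : Fin k, i ≠ j := by
  by_cases h : i.val = 0
  · refine ⟨⟨1, by omega⟩, fun e => ?_⟩
    have h2 := congrArg Fin.val e
    simp only at h2
    omega
  · refine ⟨⟨0, by omega⟩, fun e => h ?_⟩
    have h2 := congrArg Fin.val e
    simpa using h2

theorem Sim.dg_eq {V W : Type} [Fintype V] [Fintype W] {k : ℕ} (hk : 2 ≤ k) {G : SimpleGraph V}
    {H : SimpleGraph W} {x : Fin k → V} {y : Fin k → W} (h : Sim G H x y) (i : Fin k) :
    dg G (x i) = dg H (y i) := by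
  obtain ⟨j, hij⟩ := SimAux.exists_ne hk i
  obtain ⟨σ, hσ⟩ := h.forth'
  refine Nat.card_congr (σ.subtypeEquiv fun z => ?_)
  have := (hσ z j).adj_iff i j
  rw [Function.update_of_ne hij, Function.update_of_ne hij, Function.update_self,
    Function.update_self] at this
  exact this

theorem Sim.lf_eq {V W : Type} [Fintype V] [Fintype W] {k : ℕ} (hk : 2 ≤ k) {G : SimpleGraph V}
    {H : SimpleGraph W} {x : Fin k → V} {y : Fin k → W} (h : Sim G H x y) (i : Fin k) :
    lf G (x i) = lf H (y i) := by
  obtain ⟨j, hij⟩ := SimAux.exists_ne hk i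
  obtain ⟨σ, hσ⟩ := h.forth'
  refine Nat.card_congr (σ.subtypeEquiv fun z => ?_)
  have h1 := (hσ z j).adj_iff i j
  rw [Function.update_of_ne hij, Function.update_of_ne hij, Function.update_self,
    Function.update_self] at h1
  have h2 := (hσ z j).dg_eq hk j
  rw [Function.update_self, Function.update_self] at h2
  rw [h1, h2]

/-- from equivalence of the graphs to a bijection of the tuples -/
theorem WLEquiv.exists_equiv {V W : Type} [Fintype V] [Fintype W] {k : ℕ} {G : SimpleGraph V}
    {H : SimpleGraph W} (h : WLEquiv k G H) :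
    ∃ F : (Fin k → V) ≃ (Fin k → W), ∀ x, Sim G H x (F x) := by
  have h1 : ∀ r, ∃ F : (Fin k → V) ≃ (Fin k → W), ∀ x, color k G r x = color k H r (F x) :=
    fun r => (map_univ_eq_iff _ _).mp (h r)
  choose F hF using h1
  obtain ⟨E, hE⟩ := exists_frequent F
  refine ⟨E, fun x r => ?_⟩
  obtain ⟨m, hm, rfl⟩ := hE r
  exact color_mono hm (hF m x)

/-- from equivalence of the graphs to one pair of similar tuples through any tuple -/
theorem WLEquiv.exists_sim {V W : Type} [Fintype V] [Fintype W] {k : ℕ} {G : SimpleGraph V}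
    {H : SimpleGraph W} (h : WLEquiv k G H) (x : Fin k → V) : ∃ y : Fin k → W, Sim G H x y := by
  obtain ⟨F, hF⟩ := h.exists_equiv
  exact ⟨F x, hF x⟩

end Vale.Agent.P310
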