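import Vale.Agent.P310.Obj
import Vale.Agent.P310.Sim
import Vale.Agent.P310.Leaf
import Vale.Agent.P310.Kinds

/-!
P310, Level A, piece A13: the Spoiler direction of the core theorem.
-/

namespace Vale.Agent.P310.Sys

open scoped BigOperators

variable {S : Sys}

theorem spo_adj_eqn (hh : Bool) {KK : Type} (em : S.Kind ↪ KK) (P : S.E × S.Q) (l l' : Fin S.m)
    (f : Fin 3 → ZMod 2) (a a' : S.A) (X : S.LT) (b : ZMod 2) :
    (S.gr hh em).Adj (em (.base (.eqn P l f)), a) (em (.base (.var X l' b)), a') ↔
      S.presA P.1 a ∧ ∑ i, f i = 0 ∧ ∃ i : Fin 3, X = S.lt P i ∧ l' = l ∧ b = f i ∧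
        a' = a + S.φ l (S.sh P.1 i) := by
  constructor
  · rintro ⟨κ, κ', h1, h2, h3⟩
    have e1 := em.injective h1
    have e2 := em.injective h2
    subst e1
    subst e2
    rcases h3 with h3 | h3
    · cases h3 with
      | eqn p l f a i hp hf => exact ⟨hp, hf, i, rfl, rfl, rfl, rfl⟩
    · cases h3
  · rintro ⟨hp, hf, i, rfl, rfl, rfl, rfl⟩
    exact ⟨_, _, rfl, rfl, Or.inl (Arc.eqn P l' f a i hp hf)⟩

theorem spo_adj_spc (hh : Bool) {KK : Type} (em : S.Kind ↪ KK) (s : S.Spc) (l : Fin S.m)
    (f : Fin S.m → ZMod 2) (a a' : S.A) (X : S.LT) (b : ZMod 2) :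
    (S.gr hh em).Adj (em (.base (.spc s f)), a) (em (.base (.var X l b)), a') ↔
      ∑ l, f l = S.tw hh s ∧ a = 0 ∧ a' = 0 ∧ X = S.spt s ∧ b = f l := by
  constructor
  · rintro ⟨κ, κ', h1, h2, h3⟩
    have e1 := em.injective h1
    have e2 := em.injective h2
    subst e1
    subst e2
    rcases h3 with h3 | h3
    · generalize hκ : (RKind.base (RKind0.spc s f) : S.Kind) = κ1 at h3
      generalize hκ' : (RKind.base (RKind0.var X l b) : S.Kind) = κ2 at h3
      cases h3 with
      | eqn => cases hκ
      | leaf => cases hκ'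
      | spc s' f' l' hf =>
        cases hκ
        cases hκ'
        exact ⟨hf, rfl, rfl, rfl, rfl⟩
    · cases h3
  · rintro ⟨hf, rfl, rfl, rfl, rfl⟩
    exact ⟨_, _, rfl, rfl, Or.inl (Arc.spc s f l hf)⟩

/-- exchange of all the pebbles, digit by digit -/
theorem spo_exch {V : Type} [Fintype V] {m : ℕ} {G H : SimpleGraph V}
    (P Q : Fin m → V → V → Prop)
    (hst : ∀ (l : Fin m) (x y : Fin (m + 1) → V) (p q : Fin (m + 1)), p ≠ q → Sim G H x y →
      P l (x p) (y p) → ∃ v w, Q l v w ∧ Sim G H (Function.update x q v) (Function.update y q w))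
    (x y : Fin (m + 1) → V) (τ : Fin m → Fin (m + 1)) (hτ : Function.Injective τ)
    (hs : Sim G H x y) (hP : ∀ l, P l (x (τ l)) (y (τ l))) :
    ∃ (x' y' : Fin (m + 1) → V) (τ' : Fin m → Fin (m + 1)), Function.Injective τ' ∧
      Sim G H x' y' ∧ ∀ l, Q l (x' (τ' l)) (y' (τ' l)) := by
  have key : ∀ n : ℕ, n ≤ m → ∃ (x' y' : Fin (m + 1) → V) (τ' : Fin m → Fin (m + 1)),
      Function.Injective τ' ∧ Sim G H x' y' ∧ (∀ l : Fin m, l.val < n → Q l (x' (τ' l)) (y' (τ' l)))
      ∧ (∀ l : Fin m, n ≤ l.val → P l (x' (τ' l)) (y' (τ' l))) := by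
    intro n
    induction n with
    | zero =>
      intro _
      exact ⟨x, y, τ, hτ, hs, fun l hl => absurd hl (Nat.not_lt_zero _), fun l _ => hP l⟩
    | succ n ih =>
      intro hn
      obtain ⟨x1, y1, τ1, hτ1, hs1, hQ1, hP1⟩ := ih (by omega)
      obtain ⟨q, hq⟩ : ∃ q : Fin (m + 1), ∀ l, τ1 l ≠ q := by
        by_contra hcon
        push Not at hcon
        have hsur : Function.Surjective τ1 := fun q => hcon q
        have := Fintype.card_le_of_surjective τ1 hsur
        simp at this
      let l0 : Fin m := ⟨n, by omega⟩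
      obtain ⟨v, w, hvw, hsim⟩ := hst l0 x1 y1 (τ1 l0) q (hq l0) hs1 (hP1 l0 le_rfl)
      refine ⟨Function.update x1 q v, Function.update y1 q w, Function.update τ1 l0 q, ?_, hsim,
        ?_, ?_⟩
      · intro a b hab
        by_cases ha : a = l0
        · by_cases hb : b = l0
          · rw [ha, hb]
          · subst ha
            rw [Function.update_self, Function.update_of_ne hb] at hab
            exact absurd hab.symm (hq b)
        · by_cases hb : b = l0
          · subst hb
            rw [Function.update_self, Function.update_of_ne ha] at hab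
            exact absurd hab (hq a)
          · rw [Function.update_of_ne ha, Function.update_of_ne hb] at hab
            exact hτ1 hab
      · intro l hl
        by_cases hll : l = l0
        · subst hll
          simp only [Function.update_self]
          exact hvw
        · rw [Function.update_of_ne hll, Function.update_of_ne (hq l), Function.update_of_ne (hq l)]
          apply hQ1
          have : l.val ≠ n := fun hh => hll (Fin.ext hh)
          omega
      · intro l hl
        have hll : l ≠ l0 := by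
          intro hh
          rw [hh] at hl
          exact absurd hl (by simp [l0])
        rw [Function.update_of_ne hll, Function.update_of_ne (hq l), Function.update_of_ne (hq l)]
        exact hP1 l (by omega)
  obtain ⟨x', y', τ', h1, h2, h3, _⟩ := key m le_rfl
  exact ⟨x', y', τ', h1, h2, fun l => h3 l l.isLt⟩

/-- placing pebbles, digit by digit, around a fixed one -/
theorem spo_place {V : Type} [Fintype V] {m : ℕ} {G H : SimpleGraph V}
    (Q : Fin m → V → V → Prop) (s s' : V)
    (hst : ∀ (l : Fin m) (x y : Fin (m + 1) → V) (q : Fin (m + 1)), Fin.last m ≠ q → Sim G H x y →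
      x (Fin.last m) = s → y (Fin.last m) = s' →
      ∃ v w, Q l v w ∧ Sim G H (Function.update x q v) (Function.update y q w))
    (x y : Fin (m + 1) → V) (hs : Sim G H x y) (hx : x (Fin.last m) = s)
    (hy : y (Fin.last m) = s') :
    ∃ (x' y' : Fin (m + 1) → V), Sim G H x' y' ∧ ∀ l : Fin m, Q l (x' l.castSucc) (y' l.castSucc) := by
  have key : ∀ n : ℕ, n ≤ m → ∃ (x' y' : Fin (m + 1) → V), Sim G H x' y' ∧
      x' (Fin.last m) = s ∧ y' (Fin.last m) = s' ∧
      (∀ l : Fin m, l.val < n → Q l (x' l.castSucc) (y' l.castSucc)) := by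
    intro n
    induction n with
    | zero =>
      intro _
      exact ⟨x, y, hs, hx, hy, fun l hl => absurd hl (Nat.not_lt_zero _)⟩
    | succ n ih =>
      intro hn
      obtain ⟨x1, y1, hs1, hx1, hy1, hQ1⟩ := ih (by omega)
      let l0 : Fin m := ⟨n, by omega⟩
      have hne : Fin.last m ≠ l0.castSucc := (Fin.castSucc_lt_last l0).ne'
      obtain ⟨v, w, hvw, hsim⟩ := hst l0 x1 y1 l0.castSucc hne hs1 hx1 hy1
      refine ⟨Function.update x1 l0.castSucc v, Function.update y1 l0.castSucc w, hsim, ?_, ?_, ?_⟩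
      · rw [Function.update_of_ne hne]; exact hx1
      · rw [Function.update_of_ne hne]; exact hy1
      · intro l hl
        by_cases hll : l = l0
        · subst hll
          simp only [Function.update_self]
          exact hvw
        · have h1 : l.castSucc ≠ l0.castSucc := fun hh => hll (Fin.castSucc_injective m hh)
          rw [Function.update_of_ne h1, Function.update_of_ne h1]
          apply hQ1
          have : l.val ≠ n := fun hh => hll (Fin.ext hh)
          omega
  obtain ⟨x', y', h2, _, _, h3⟩ := key m le_rfl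
  exact ⟨x', y', h2, fun l => h3 l l.isLt⟩

/-- one step: response of Duplicator to a vertex of base kind adjacent to nothing in particular -/
theorem spo_resp (hS : S.OK) {KK : Type} [Fintype KK] (em : S.Kind ↪ KK)
    (hm : 2 ≤ S.m + 1) {x y : Fin (S.m + 1) → KK × S.A}
    (h : Sim (S.gr false em) (S.gr true em) x y) (q : Fin (S.m + 1)) (κ : S.Kind0) (a : S.A) :
    ∃ (κ' : S.Kind0) (a' : S.A), κ'.ok = κ.ok ∧
      Sim (S.gr false em) (S.gr true em) (Function.update x q (em (.base κ), a))
        (Function.update y q (em (.base κ'), a')) := by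
  obtain ⟨σ, hσ⟩ := h.forth (by omega)
  have h1 := hσ (em (.base κ), a) q
  obtain ⟨κ', hk1, hk2⟩ := sim_kind hS em hm h1 q κ (by rw [Function.update_self])
  rw [Function.update_self] at hk2
  refine ⟨κ', (σ (em (.base κ), a)).2, hk1, ?_⟩
  rw [← hk2]
  exact h1

/-- the pair of vertices is the same variable with bits `b`, `b'` -/
def spoV {KK : Type} (em : S.Kind ↪ KK) (X : S.LT) (l : Fin S.m) (a : S.A) (b b' : ZMod 2)
    (v w : KK × S.A) : Prop :=
  v = (em (.base (.var X l b)), a) ∧ w = (em (.base (.var X l b')), a)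

/-- the pair of vertices is the same equation with bits `f`, `f'` -/
def spoE {KK : Type} (em : S.Kind ↪ KK) (P : S.E × S.Q) (l : Fin S.m) (a : S.A)
    (f f' : Fin 3 → ZMod 2) (v w : KK × S.A) : Prop :=
  v = (em (.base (.eqn P l f)), a) ∧ w = (em (.base (.eqn P l f')), a)

theorem spo_lt_inj (hS : S.OK) (P : S.E × S.Q) (i j : Fin 3) (h : S.lt P i = S.lt P j) :
    i = j := by
  apply g_inj hS P.1
  have := congrArg Prod.snd h
  exact mul_left_cancel this

theorem spo_var_eqn (hS : S.OK) {KK : Type} [Fintype KK] (em : S.Kind ↪ KK)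
    (hm : 2 ≤ S.m + 1) {x y : Fin (S.m + 1) → KK × S.A}
    (h : Sim (S.gr false em) (S.gr true em) x y) (p q : Fin (S.m + 1)) (hpq : p ≠ q)
    (P : S.E × S.Q) (l : Fin S.m) (a : S.A) (i : Fin 3) (b b' : ZMod 2)
    (hp : S.presA P.1 a)
    (hv : spoV em (S.lt P i) l (a + S.φ l (S.sh P.1 i)) b b' (x p) (y p))
    (f : Fin 3 → ZMod 2) (hf : ∑ i, f i = 0) (hfb : f i = b) :
    ∃ f' : Fin 3 → ZMod 2, ∑ i, f' i = 0 ∧ f' i = b' ∧
      Sim (S.gr false em) (S.gr true em) (Function.update x q (em (.base (.eqn P l f)), a))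
        (Function.update y q (em (.base (.eqn P l f')), a)) := by
  obtain ⟨κ', a', hk, hs⟩ := spo_resp hS em hm h q (.eqn P l f) a
  have hadj := hs.adj_iff q p
  rw [Function.update_self, Function.update_self, Function.update_of_ne hpq,
    Function.update_of_ne hpq, hv.1, hv.2] at hadj
  have h1 : (S.gr false em).Adj (em (.base (.eqn P l f)), a)
      (em (.base (.var (S.lt P i) l b)), a + S.φ l (S.sh P.1 i)) :=
    (spo_adj_eqn _ _ _ _ _ _ _ _ _ _).2 ⟨hp, hf, i, rfl, rfl, hfb.symm, rfl⟩
  have h2 := hadj.1 h1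
  cases κ' with
  | var X l' b => simp [RKind0.ok] at hk
  | spc s f => simp [RKind0.ok] at hk
  | eqn P' l' f' =>
    simp only [RKind0.ok, ROKind.eqn.injEq] at hk
    obtain ⟨rfl, rfl⟩ := hk
    rw [spo_adj_eqn] at h2
    obtain ⟨hp', hf', i', hi1, _, hi2, hi3⟩ := h2
    obtain rfl := spo_lt_inj hS _ _ _ hi1
    have ha : a' = a := (add_right_cancel hi3).symm
    subst ha
    exact ⟨f', hf', hi2.symm, hs⟩

theorem spo_eqn_var (hS : S.OK) {KK : Type} [Fintype KK] (em : S.Kind ↪ KK)
    (hm : 2 ≤ S.m + 1) {x y : Fin (S.m + 1) → KK × S.A}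
    (h : Sim (S.gr false em) (S.gr true em) x y) (p q : Fin (S.m + 1)) (hpq : p ≠ q)
    (P : S.E × S.Q) (l : Fin S.m) (a : S.A) (i : Fin 3)
    (hp : S.presA P.1 a) (f f' : Fin 3 → ZMod 2) (hf : ∑ i, f i = 0)
    (hv : spoE em P l a f f' (x p) (y p)) :
    Sim (S.gr false em) (S.gr true em)
      (Function.update x q (em (.base (.var (S.lt P i) l (f i))), a + S.φ l (S.sh P.1 i)))
      (Function.update y q (em (.base (.var (S.lt P i) l (f' i))), a + S.φ l (S.sh P.1 i))) := by
  obtain ⟨κ', a', hk, hs⟩ := spo_resp hS em hm h q (.var (S.lt P i) l (f i))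
    (a + S.φ l (S.sh P.1 i))
  have hadj := hs.adj_iff p q
  rw [Function.update_self, Function.update_self, Function.update_of_ne hpq,
    Function.update_of_ne hpq, hv.1, hv.2] at hadj
  have h1 : (S.gr false em).Adj (em (.base (.eqn P l f)), a)
      (em (.base (.var (S.lt P i) l (f i))), a + S.φ l (S.sh P.1 i)) :=
    (spo_adj_eqn _ _ _ _ _ _ _ _ _ _).2 ⟨hp, hf, i, rfl, rfl, rfl, rfl⟩
  have h2 := hadj.1 h1
  cases κ' with
  | eqn P' l' f' => simp [RKind0.ok] at hk
  | spc s f => simp [RKind0.ok] at hk
  | var X l' b' =>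
    simp only [RKind0.ok, ROKind.var.injEq] at hk
    obtain ⟨rfl, rfl⟩ := hk
    rw [spo_adj_eqn] at h2
    obtain ⟨_, _, i', hi1, _, hi2, hi3⟩ := h2
    obtain rfl := spo_lt_inj hS _ _ _ hi1
    subst hi2
    subst hi3
    exact hs

/-- the main claim, by induction on the derivation -/
theorem spo_main (hS : S.OK) {KK : Type} [Fintype KK] (em : S.Kind ↪ KK) (hm : 2 ≤ S.m)
    (t : S.T) (c : S.C) (hd : S.Der t c) :
    ∀ (h : S.Q) (x y : Fin (S.m + 1) → KK × S.A) (τ : Fin S.m → Fin (S.m + 1)),
      Function.Injective τ → Sim (S.gr false em) (S.gr true em) x y →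
      ∀ b b' : Fin S.m → ZMod 2,
      (∀ l, spoV em (t, h) l (S.φ l c) (b l) (b' l) (x (τ l)) (y (τ l))) →
      ∑ l, (b l + b' l) = 0 := by
  induction hd with
  | start =>
    intro h x y τ hτ hs b b' hv
    obtain ⟨q, hq⟩ : ∃ q : Fin (S.m + 1), ∀ l, τ l ≠ q := by
      by_contra hcon
      push Not at hcon
      have hsur : Function.Surjective τ := fun q => hcon q
      have := Fintype.card_le_of_surjective τ hsur
      simp at this
    let l0 : Fin S.m := ⟨0, by omega⟩
    let l1 : Fin S.m := ⟨1, by omega⟩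
    have h10 : l1 ≠ l0 := by
      intro hh
      have := congrArg Fin.val hh
      simp [l0, l1] at this
    let f : Fin S.m → ZMod 2 := Function.update b l0 (b l0 + ∑ l, b l)
    have hf : ∑ l, f l = 0 := by
      have e1 : ∑ l, f l = ∑ l, b l + ∑ l, b l := by
        have e2 : ∀ l, f l = b l + if l = l0 then ∑ l, b l else 0 := by
          intro l
          by_cases hl : l = l0
          · subst hl
            simp [f]
          · simp [f, hl]
        simp only [e2, Finset.sum_add_distrib]
        simp
      rw [e1]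
      exact CharTwo.add_self_eq_zero _
    obtain ⟨κ', a', hk, hs1⟩ := spo_resp hS em (by omega) hs q (.spc (some h) f) 0
    cases κ' with
    | eqn P' l' f' => simp [RKind0.ok] at hk
    | var X l' b' => simp [RKind0.ok] at hk
    | spc s f' =>
      simp only [RKind0.ok, ROKind.spc.injEq] at hk
      subst hk
      have hadj : ∀ l, (f l = b l ↔ (∑ l, f' l = 0 ∧ a' = 0 ∧ b' l = f' l)) := by
        intro l
        have := hs1.adj_iff q (τ l)
        rw [Function.update_self, Function.update_self, Function.update_of_ne (hq l),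
          Function.update_of_ne (hq l), (hv l).1, (hv l).2, spo_adj_spc, spo_adj_spc] at this
        simp only [map_zero, tw, spt, true_and] at this
        constructor
        · intro hb
          have := this.1 ⟨hf, hb.symm⟩
          exact this
        · intro hb
          exact (this.2 hb).2.symm
      have h1 := (hadj l1).1 (by simp [f, h10])
      have hall : ∀ l, l ≠ l0 → b' l = f' l := fun l hl => ((hadj l).1 (by simp [f, hl])).2.2
      have h0 := hadj l0
      have e0 : f l0 = b l0 + ∑ l, b l := by simp [f]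
      have e1 : ∑ l, b' l = ∑ l, f' l + (b' l0 + f' l0) := by
        have e2 : ∀ l, b' l = f' l + if l = l0 then b' l0 + f' l0 else 0 := by
          intro l
          by_cases hl : l = l0
          · subst hl
            simp only [if_true]
            have : f' l0 + (b' l0 + f' l0) = b' l0 + (f' l0 + f' l0) := by ring
            rw [this, CharTwo.add_self_eq_zero, add_zero]
          · simp [hl, hall l hl]
        conv_lhs => rw [Finset.sum_congr rfl fun l _ => e2 l]
        rw [Finset.sum_add_distrib]
        simp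
      rw [h1.1, zero_add] at e1
      rw [Finset.sum_add_distrib, e1]
      rw [e0] at h0
      generalize (∑ l, b l) = B at h0 ⊢
      have h2 : (b l0 + B = b l0) ↔ b' l0 = f' l0 := by
        rw [h0]
        simp [h1.1, h1.2.1]
      clear h0
      have gen : ∀ B u v w : ZMod 2, ((u + B = u) ↔ v = w) → B + (v + w) = 0 := by decide
      exact gen B _ _ _ h2
  | step e c i j l hij hli hlj hpres hdi hdj ihi ihj =>
    intro h x y τ hτ hs b b' hv
    let P : S.E × S.Q := (e, h * (S.g e l)⁻¹)
    have hP : S.lt P l = (S.ty e l, h) := by simp [P, lt]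
    have hpr : ∀ d : Fin S.m, S.presA P.1 (S.φ d c) := fun d => (hS.pres_iff d e c).1 hpres
    -- from variables to equations
    obtain ⟨x1, y1, τ1, hτ1, hs1, hQ1⟩ := spo_exch
      (P := fun d v w => spoV em (S.lt P l) d (S.φ d c + S.φ d (S.sh P.1 l)) (b d) (b' d) v w)
      (Q := fun d v w => ∃ f f' : Fin 3 → ZMod 2, (∑ i, f i = 0 ∧ ∑ i, f' i = 0 ∧ f l = b d ∧
        f' l = b' d) ∧ spoE em P d (S.φ d c) f f' v w)
      (by
        intro d x y p q hpq hs hv
        let f : Fin 3 → ZMod 2 := fun i' => if i' = l then b d else if i' = i then b d else 0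
        have hf : ∑ i, f i = 0 := by
          have : ∀ (u : ZMod 2) (l i j : Fin 3), i ≠ j → l ≠ i → l ≠ j →
              ∑ i' : Fin 3, (if i' = l then u else if i' = i then u else 0) = 0 := by decide
          exact this (b d) l i j hij hli hlj
        obtain ⟨f', hf', hfb', hs'⟩ := spo_var_eqn hS em (by omega) hs p q hpq P d (S.φ d c) l
          (b d) (b' d) (hpr d) hv f hf (by simp [f])
        exact ⟨_, _, ⟨f, f', ⟨hf, hf', by simp [f], hfb'⟩, rfl, rfl⟩, hs'⟩)
      x y τ hτ hs
      (by
        intro d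
        have := hv d
        rw [hP, ← map_add]
        exact this)
    choose f f' hff hE using hQ1
    -- from equations to variables
    have hback : ∀ (i : Fin 3), (∀ (h : S.Q) (x y : Fin (S.m + 1) → KK × S.A)
        (τ : Fin S.m → Fin (S.m + 1)),
        Function.Injective τ → Sim (S.gr false em) (S.gr true em) x y →
        ∀ b b' : Fin S.m → ZMod 2,
        (∀ l, spoV em (S.ty e i, h) l (S.φ l (c + S.sh e i)) (b l) (b' l) (x (τ l)) (y (τ l))) →
        ∑ l, (b l + b' l) = 0) → ∑ d, (f d i + f' d i) = 0 := by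
      intro i ih
      obtain ⟨x2, y2, τ2, hτ2, hs2, hQ2⟩ := spo_exch
        (P := fun d v w => spoE em P d (S.φ d c) (f d) (f' d) v w)
        (Q := fun d v w => spoV em (S.lt P i) d (S.φ d c + S.φ d (S.sh P.1 i)) (f d i) (f' d i) v w)
        (by
          intro d x y p q hpq hs hv
          exact ⟨_, _, ⟨rfl, rfl⟩, spo_eqn_var hS em (by omega) hs p q hpq P d (S.φ d c) i (hpr d)
            (f d) (f' d) (hff d).1 hv⟩)
        x1 y1 τ1 hτ1 hs1 hE
      apply ih (P.2 * S.g e i) x2 y2 τ2 hτ2 hs2 (fun d => f d i) (fun d => f' d i)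
      intro d
      have := hQ2 d
      rw [map_add]
      exact this
    have hi := hback i ihi
    have hj := hback j ihj
    have hsum : ∀ d, b d + b' d = (f d i + f' d i) + (f d j + f' d j) := by
      intro d
      obtain ⟨h1, h2, h3, h4⟩ := hff d
      rw [← h3, ← h4]
      have gen : ∀ (u : Fin 3 → ZMod 2), ∑ i, u i = 0 → u l = u i + u j := by
        intro u hu
        have : ∀ (a b c : ZMod 2) (l i j : Fin 3), i ≠ j → l ≠ i → l ≠ j →
            a + b + c = 0 → ![a, b, c] l = ![a, b, c] i + ![a, b, c] j := by decide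
        have hu' : u = ![u 0, u 1, u 2] := by
          ext k
          fin_cases k <;> rfl
        rw [Fin.sum_univ_three] at hu
        rw [hu']
        exact this (u 0) (u 1) (u 2) l i j hij hli hlj hu
      rw [gen _ h1, gen _ h2]
      ring
    rw [Finset.sum_congr rfl fun d _ => hsum d, Finset.sum_add_distrib, hi, hj, add_zero]

theorem not_wlEquiv (hS : S.OK) {KK : Type} [Fintype KK] (em : S.Kind ↪ KK)
    (hD : S.Der S.fin 0) : ¬ WLEquiv (S.m + 1) (S.gr false em) (S.gr true em) := by
  intro hE
  obtain ⟨kap, hk, _⟩ := hS.code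
  have hm : 2 ≤ S.m := by omega
  obtain ⟨y0, hs0⟩ := hE.exists_sim
    (fun _ : Fin (S.m + 1) => ((em (.base (.spc none 0)), 0) : KK × S.A))
  obtain ⟨κ', hk1, hk2⟩ := sim_kind hS em (by omega) hs0 (Fin.last S.m) (.spc none 0) rfl
  cases κ' with
  | eqn P' l' f' => simp [RKind0.ok] at hk1
  | var X l' b' => simp [RKind0.ok] at hk1
  | spc s f' =>
    simp only [RKind0.ok, ROKind.spc.injEq] at hk1
    subst hk1
    obtain ⟨x1, y1, hs1, hQ⟩ := spo_place
      (Q := fun l v w => spoV em (S.spt none) l 0 0 (f' l) v w ∧ ∑ l, f' l = 1)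
      ((em (.base (.spc none 0)), 0) : KK × S.A) (y0 (Fin.last S.m))
      (by
        intro l x y q hq hs hx hy
        obtain ⟨κ1, a1, hk3, hs3⟩ := spo_resp hS em (by omega) hs q (.var (S.spt none) l 0) 0
        have hadj := hs3.adj_iff (Fin.last S.m) q
        rw [Function.update_self, Function.update_self, Function.update_of_ne hq,
          Function.update_of_ne hq, hx, hy] at hadj
        have h1 : (S.gr false em).Adj (em (.base (.spc none 0)), 0)
            (em (.base (.var (S.spt none) l 0)), 0) :=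
          (spo_adj_spc _ _ _ _ _ _ _ _ _).2 ⟨by simp [tw], rfl, rfl, rfl, rfl⟩
        have h2 := hadj.1 h1
        cases κ1 with
        | eqn P' l' f' => simp [RKind0.ok] at hk3
        | spc s f' => simp [RKind0.ok] at hk3
        | var X l' b1 =>
          simp only [RKind0.ok, ROKind.var.injEq] at hk3
          obtain ⟨rfl, rfl⟩ := hk3
          have e : y0 (Fin.last S.m) = (em (.base (.spc none f')), (y0 (Fin.last S.m)).2) := by
            rw [← hk2]
          rw [e, spo_adj_spc] at h2
          obtain ⟨h3, h4, h5, _, h6⟩ := h2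
          subst h5
          subst h6
          exact ⟨_, _, ⟨⟨rfl, rfl⟩, by simpa [tw] using h3⟩, hs3⟩)
      _ y0 hs0 rfl rfl
    have := spo_main hS em hm S.fin 0 hD 1 x1 y1 Fin.castSucc (Fin.castSucc_injective _) hs1
      (fun _ => 0) f' (by
        intro l
        rw [map_zero]
        exact (hQ l).1)
    simp only [zero_add] at this
    rw [(hQ ⟨0, by omega⟩).2] at this
    exact absurd this (by decide)

end Vale.Agent.P310.Sys
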