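import Vale.Agent.P310.Close
import Vale.Agent.P310.Dup
import Vale.Agent.P310.Spoil

/-!
P310, Level A: the core theorem.
-/

namespace Vale.Agent.P310

namespace Sys

variable {S : Sys}

/-- CORE THEOREM of Level A. -/
theorem core (hS : S.OK) {KK : Type} [Fintype KK] (em : S.Kind ↪ KK) :
    WLEquiv (S.m + 1) (S.gr false em) (S.gr true em) ↔ ¬ S.Der S.fin 0 := by
  constructor
  · intro h hD
    exact not_wlEquiv hS em hD h
  · intro hD
    obtain ⟨F⟩ := exists_fam hS hD
    exact F.wlEquiv em

end Sys

end Vale.Agent.P310
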