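import Vale.Agent.P310.CDef

/-!
P310, Level C: the encoding of the pair of graphs of the table is described by the table.
-/

namespace Vale.Agent.P310

open scoped BigOperators

theorem vdig_injective (q : ℕ) [NeZero q] : Function.Injective (vdig : Vx q → Fin 7 → ZMod q) := by
  rintro ⟨a, b, c⟩ ⟨a', b', c'⟩ h
  unfold vdig at h
  have h1 := congrFun h (Fin.last 6)
  rw [Fin.snoc_last, Fin.snoc_last] at h1
  have h2 : ∀ j : Fin 6, co (b, c) j = co (b', c') j := by
    intro j
    have := congrFun h (Fin.castSucc j)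
    rwa [Fin.snoc_castSucc, Fin.snoc_castSucc] at this
  have h3 : a = a' := by
    have := congrArg ZMod.val h1
    rw [ZMod.val_natCast_of_lt a.2, ZMod.val_natCast_of_lt a'.2] at this
    exact Fin.ext this
  have h4 : c = c' := by
    have := h2 0
    simpa [co] using this
  have h5 : b = b' := by
    funext j
    have := h2 j.succ
    simpa [co] using this
  rw [h3, h4, h5]

/-- numbering of the vertices -/
noncomputable def vnum (q : ℕ) [NeZero q] : Vx q ≃ Fin (q ^ 7) :=
  Equiv.ofBijective (fun u => ⟨num q (vdig u), num_lt q _⟩) (by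
    rw [Fintype.bijective_iff_injective_and_card]
    refine ⟨fun u v h => ?_, ?_⟩
    · exact vdig_injective q (num_injective q (congrArg Fin.val h))
    · simp only [Fintype.card_prod, Fintype.card_fin, Fintype.card_fun, ZMod.card]
      ring)

theorem vnum_val (q : ℕ) [NeZero q] (u : Vx q) : (vnum q u).val = num q (vdig u) := rfl

/-- the vertex with given digits -/
def vof {q : ℕ} [NeZero q] (d : Fin 7 → ZMod q) : Vx q :=
  (⟨(d 6).val, ZMod.val_lt _⟩, fun j => d ⟨j.val + 1, by omega⟩, d 0)

theorem co_vof {q : ℕ} [NeZero q] (d : Fin 7 → ZMod q) (j : Fin 6) :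
    co (vof d).2 j = d j.castSucc := by
  unfold co vof
  refine Fin.cases ?_ (fun i => ?_) j
  · rfl
  · rfl

theorem kind_vof {q : ℕ} [NeZero q] (d : Fin 7 → ZMod q) :
    (((vof d).1.val : ℕ) : ZMod q) = d 6 := by
  simp [vof]

theorem vdig_vof {q : ℕ} [NeZero q] (d : Fin 7 → ZMod q) : vdig (vof d) = d := by
  funext j
  unfold vdig
  refine Fin.lastCases ?_ (fun i => ?_) j
  · rw [Fin.snoc_last, kind_vof]
    rfl
  · rw [Fin.snoc_castSucc, co_vof]

theorem adjBits_length {n : ℕ} (G : SimpleGraph (Fin n)) : (adjBits G).length = n * n := by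
  simp [adjBits]

theorem adjBits_get {n : ℕ} (G : SimpleGraph (Fin n)) (a b : Fin n) (c : Bool)
    (h : c = true ↔ G.Adj a b) : (adjBits G)[b.val + n * a.val]? = some c := by
  have hn : 0 < n := lt_of_le_of_lt (Nat.zero_le _) b.2
  have hlt : b.val + n * a.val < n * n := by
    have h1 := a.2
    have h2 := b.2
    calc b.val + n * a.val < n + n * a.val := by omega
      _ = n * (a.val + 1) := by ring
      _ ≤ n * n := Nat.mul_le_mul_left _ h1
  unfold adjBits
  rw [List.getElem?_ofFn, dif_pos hlt]
  have e1 : (⟨b.val + n * a.val, hlt⟩ : Fin (n * n)).divNat = a := by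
    apply Fin.ext
    simp only [Fin.coe_divNat]
    rw [Nat.add_mul_div_left _ _ hn, Nat.div_eq_of_lt b.2, zero_add]
  have e2 : (⟨b.val + n * a.val, hlt⟩ : Fin (n * n)).modNat = b := by
    apply Fin.ext
    simp only [Fin.coe_modNat]
    rw [Nat.add_mul_mod_self_left, Nat.mod_eq_of_lt b.2]
  rw [e1, e2]
  congr 1
  cases c with
  | true => simpa using h
  | false => simpa using h

theorem lt_pow_of {q : ℕ} [NeZero q] (a b : Fin 7 → ZMod q) :
    num q a + q ^ 7 * num q b < q ^ 14 := by
  have h1 := num_lt q a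
  have h2 := num_lt q b
  calc num q a + q ^ 7 * num q b < q ^ 7 + q ^ 7 * num q b := by omega
    _ = q ^ 7 * (num q b + 1) := by ring
    _ ≤ q ^ 7 * q ^ 7 := Nat.mul_le_mul_left _ h2
    _ = q ^ 14 := by ring

theorem index_eq {q : ℕ} (d : ℕ → ZMod q) :
    ∑ j ∈ Finset.range 15, (d j).val * q ^ j =
      num q (fun j : Fin 7 => d j.val) + q ^ 7 * num q (fun j : Fin 7 => d (7 + j.val)) +
        q ^ 14 * (d 14).val := by
  unfold num
  simp only [Finset.sum_range_succ, Fin.sum_univ_succ, Finset.range_zero, Finset.sum_empty]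
  simp
  ring

/-- the edges of the graph in terms of digits -/
theorem lAdj_iff {q : ℕ} [Fact q.Prime] {D : (Fin 5 → ZMod q) → Prop} (hD : GoodD D)
    (d : ℕ → ZMod q) (h : Bool) (h14 : d 14 = (h.toNat : ZMod q)) :
    LAdj D d ↔ (tgr D h).Adj (vof fun j : Fin 7 => d (7 + j.val)) (vof fun j : Fin 7 => d j.val) := by
  set A : Vx q := vof fun j : Fin 7 => d j.val with hA
  set B : Vx q := vof fun j : Fin 7 => d (7 + j.val) with hB
  have kA : ((A.1.val : ℕ) : ZMod q) = d 6 := kind_vof _
  have kB : ((B.1.val : ℕ) : ZMod q) = d 13 := kind_vof _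
  have cA : co A.2 = fun j : Fin 6 => d j.val := by
    funext j
    exact co_vof _ j
  have cB : co B.2 = fun j : Fin 6 => d (7 + j.val) := by
    funext j
    exact co_vof _ j
  have e1 : LArc D d ↔ arcD D (h.toNat : ZMod q) (A.1.val : ZMod q) (co A.2) (B.1.val : ZMod q)
      (co B.2) := by
    unfold LArc
    rw [kA, kB, cA, cB, h14]
  have e2 : (LArc D fun j => d (swn j)) ↔ arcD D (h.toNat : ZMod q) (B.1.val : ZMod q) (co B.2)
      (A.1.val : ZMod q) (co A.2) := by
    unfold LArc
    rw [kA, kB, cA, cB, ← h14]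
    have s14 : swn 14 = 14 := by decide
    have s6 : swn 6 = 13 := by decide
    have s13 : swn 13 = 6 := by decide
    have s1 : (fun j : Fin 6 => d (swn j.val)) = fun j : Fin 6 => d (7 + j.val) := by
      funext j
      have : swn j.val = 7 + j.val := by
        unfold swn
        rw [if_pos (by omega)]
        omega
      rw [this]
    have s2 : (fun j : Fin 6 => d (swn (7 + j.val))) = fun j : Fin 6 => d j.val := by
      funext j
      have : swn (7 + j.val) = j.val := by
        unfold swn
        rw [if_neg (by omega), if_pos (by omega)]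
        omega
      rw [this]
    simp only [s14, s6, s13, s1, s2]
  unfold LAdj
  rw [e1, e2]
  constructor
  · intro hh
    refine ⟨?_, hh.symm⟩
    intro hBA
    rw [hBA] at hh
    rcases hh with hh | hh
    all_goals
      obtain ⟨-, hh⟩ := hh
      rcases hh with h0 | ⟨h0, -⟩ | ⟨h0, -⟩ | ⟨h0, -⟩
      · exact hD.irr 0 _ _ h0
      · exact hD.irr 1 _ _ h0
      · exact hD.irr 2 _ _ h0
      · exact hD.irr 3 _ _ h0
  · rintro ⟨-, hh⟩
    exact hh.symm

theorem inpOK_enc {q : ℕ} [Fact q.Prime] {D : (Fin 5 → ZMod q) → Prop} (hD : GoodD D) :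
    ∃ e : Vx q ≃ Fin (q ^ 7),
      InpOK D (enc ((tgr D false).map e.toEmbedding) ((tgr D true).map e.toEmbedding)) := by
  have : NeZero q := ⟨(Fact.out : q.Prime).ne_zero⟩
  refine ⟨vnum q, ?_, ?_⟩
  · unfold enc
    rw [List.length_append, adjBits_length, adjBits_length]
    ring
  · intro d b hd hb
    set A : Vx q := vof fun j : Fin 7 => d j.val with hA
    set B : Vx q := vof fun j : Fin 7 => d (7 + j.val) with hB
    have nA : num q (fun j : Fin 7 => d j.val) = (vnum q A).val := by
      rw [vnum_val, hA, vdig_vof]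
    have nB : num q (fun j : Fin 7 => d (7 + j.val)) = (vnum q B).val := by
      rw [vnum_val, hB, vdig_vof]
    have hlt := lt_pow_of (q := q) (fun j : Fin 7 => d j.val) (fun j : Fin 7 => d (7 + j.val))
    rw [index_eq]
    have q14 : q ^ 14 = q ^ 7 * q ^ 7 := by ring
    have q1 : 1 < q := (Fact.out : q.Prime).one_lt
    rcases hd with hd | hd
    · have h1 := lAdj_iff hD d false (by rw [hd]; simp)
      rw [hd, ZMod.val_zero, mul_zero, add_zero]
      unfold enc
      rw [List.getElem?_append_left (by rw [adjBits_length, ← q14]; exact hlt), nA, nB]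
      apply adjBits_get
      rw [hb, h1]
      exact SimpleGraph.map_adj_apply.symm
    · have h1 := lAdj_iff hD d true (by rw [hd]; simp)
      have : Fact (1 < q) := ⟨q1⟩
      rw [hd, ZMod.val_one, mul_one]
      unfold enc
      rw [List.getElem?_append_right (by rw [adjBits_length, ← q14]; omega), adjBits_length,
        ← q14, Nat.add_sub_cancel, nA, nB]
      apply adjBits_get
      rw [hb, h1]
      exact SimpleGraph.map_adj_apply.symm

end Vale.Agent.P310
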