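import Vale.Agent.P310.Girth

/-!
P310 [A2]: finite groups without short relations.
-/

namespace Vale.Agent.P310

theorem exists_group (ι : Type) [Fintype ι] [DecidableEq ι] (N : ℕ) :
    ∃ (Q : Type) (_ : Group Q) (_ : Fintype Q) (_ : DecidableEq Q) (g : ι → Q),
      ∀ w : FreeGroup ι, w ≠ 1 → w.norm ≤ N → FreeGroup.lift g w ≠ 1 :=
  exists_girth ι N

end Vale.Agent.P310
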