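import Vale.Agent.P310.TDefs

/-!
P310, Level B (table version): compilation of a Datalog program into a shift-invariant Horn
system.
-/

namespace Vale.Agent.P310

open scoped BigOperators

namespace TComp

variable {J ρ v : ℕ}

/-- bound for the length of the bodies -/
def bmax (Pg : TProg J ρ v) : ℕ := Finset.univ.sup fun r => (Pg.body r).length

/-- types of the Horn system -/
inductive X (Pg : TProg J ρ v) : Type
  | st
  | pub
  | tr
  | tab (s : Bool)
  | pd (p : Pg.P)
  | sub (r : Pg.R) (k : Option (Fin (bmax Pg)))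
  | ap (r : Pg.R) (k : Fin (bmax Pg))
  | lo (r : Pg.R) (k : Fin (bmax Pg))
  | bd (r : Pg.R) (k : Fin (bmax Pg + 1))
  | hd (r : Pg.R)
  | goal

/-- loading rules -/
inductive Ld (Pg : TProg J ρ v) : Type
  | pub
  | tr
  | tab (s : Bool)
  | sub (r : Pg.R) (k : Option (Fin (bmax Pg)))
  | lo (r : Pg.R) (k : Fin (bmax Pg))
  | bd (r : Pg.R)
  | pd (r : Pg.R)
  | goal

/-- conjunctions -/
inductive Cj (Pg : TProg J ρ v) : Type
  | ap (r : Pg.R) (k : Fin (bmax Pg))
  | bd (r : Pg.R) (k : Fin (bmax Pg))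
  | hd (r : Pg.R)

/-- directions -/
abbrev Dir (J ρ v : ℕ) := Fin J ⊕ (Fin ρ ⊕ Fin v)

noncomputable instance (Pg : TProg J ρ v) : DecidableEq (X Pg) := Classical.decEq _
noncomputable instance (Pg : TProg J ρ v) : DecidableEq (Ld Pg) := Classical.decEq _
noncomputable instance (Pg : TProg J ρ v) : DecidableEq (Cj Pg) := Classical.decEq _

noncomputable instance (Pg : TProg J ρ v) : Fintype (X Pg) :=
  Fintype.ofInjective
    (fun t : X Pg => (match t with
      | .st => Sum.inl 0
      | .pub => Sum.inl 1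
      | .tr => Sum.inl 2
      | .goal => Sum.inl 3
      | .tab s => Sum.inr (Sum.inl s)
      | .pd p => Sum.inr (Sum.inr (Sum.inl p))
      | .sub r k => Sum.inr (Sum.inr (Sum.inr (Sum.inl (r, k))))
      | .ap r k => Sum.inr (Sum.inr (Sum.inr (Sum.inr (Sum.inl (r, k)))))
      | .lo r k => Sum.inr (Sum.inr (Sum.inr (Sum.inr (Sum.inr (Sum.inl (r, k))))))
      | .bd r k => Sum.inr (Sum.inr (Sum.inr (Sum.inr (Sum.inr (Sum.inr (Sum.inl (r, k)))))))
      | .hd r => Sum.inr (Sum.inr (Sum.inr (Sum.inr (Sum.inr (Sum.inr (Sum.inr r)))))) :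
      Fin 4 ⊕ Bool ⊕ Pg.P ⊕ (Pg.R × Option (Fin (bmax Pg))) ⊕ (Pg.R × Fin (bmax Pg)) ⊕
        (Pg.R × Fin (bmax Pg)) ⊕ (Pg.R × Fin (bmax Pg + 1)) ⊕ Pg.R))
    (by
      intro a b hab
      cases a <;> cases b <;> simp_all)

noncomputable instance (Pg : TProg J ρ v) : Fintype (Ld Pg) :=
  Fintype.ofInjective
    (fun t : Ld Pg => (match t with
      | .pub => Sum.inl 0
      | .tr => Sum.inl 1
      | .goal => Sum.inl 2
      | .tab s => Sum.inr (Sum.inl s)
      | .sub r k => Sum.inr (Sum.inr (Sum.inl (r, k)))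
      | .lo r k => Sum.inr (Sum.inr (Sum.inr (Sum.inl (r, k))))
      | .bd r => Sum.inr (Sum.inr (Sum.inr (Sum.inr (Sum.inl r))))
      | .pd r => Sum.inr (Sum.inr (Sum.inr (Sum.inr (Sum.inr r)))) :
      Fin 3 ⊕ Bool ⊕ (Pg.R × Option (Fin (bmax Pg))) ⊕ (Pg.R × Fin (bmax Pg)) ⊕ Pg.R ⊕ Pg.R))
    (by
      intro a b hab
      cases a <;> cases b <;> simp_all)

noncomputable instance (Pg : TProg J ρ v) : Fintype (Cj Pg) :=
  Fintype.ofInjective
    (fun t : Cj Pg => (match t with
      | .ap r k => Sum.inl (r, k)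
      | .bd r k => Sum.inr (Sum.inl (r, k))
      | .hd r => Sum.inr (Sum.inr r) :
      (Pg.R × Fin (bmax Pg)) ⊕ (Pg.R × Fin (bmax Pg)) ⊕ Pg.R))
    (by
      intro a b hab
      cases a <;> cases b <;> simp_all)

/-- the atom number `k` of the rule `r` -/
def atm (Pg : TProg J ρ v) (r : Pg.R) (k : Fin (bmax Pg)) : Option (Atm Pg.P ρ v) :=
  (Pg.body r)[k.val]?

/-- arguments of the atom number `k` (`none`: of the head) -/
def arg (Pg : TProg J ρ v) (r : Pg.R) : Option (Fin (bmax Pg)) → Fin ρ → Aff v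
  | none => Pg.ha r
  | some k => match atm Pg r k with
    | some a => a.ar
    | none => fun _ => ⟨0, fun _ => 0⟩

/-- type of the predicate of the atom number `k` -/
def src (Pg : TProg J ρ v) (r : Pg.R) (k : Fin (bmax Pg)) : X Pg :=
  match atm Pg r k with
  | some a => (match a.pr with
    | .inl p => .pd p
    | .inr s => .tab s)
  | none => .tr

/-- unit shifts -/
def eb (j : Fin J) : Fin J → ℕ := fun j' => if j' = j then 1 else 0
/-- unit shifts -/
def ey (j : Fin ρ) : Fin (ρ + v) → ℕ := Fin.append (fun j' => if j' = j then 1 else 0) (fun _ => 0)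
/-- unit shifts -/
def ex (i : Fin v) : Fin (ρ + v) → ℕ := Fin.append (fun _ => 0) (fun i' => if i' = i then 1 else 0)

/-- unit shift in a direction -/
def unit : Dir J ρ v → (Fin J → ℕ) × (Fin (ρ + v) → ℕ)
  | .inl j => (eb j, 0)
  | .inr (.inl j) => (0, ey j)
  | .inr (.inr i) => (0, ex i)

/-- flooding shifts of the types -/
def fsh (hJ : J ≤ ρ) (Pg : TProg J ρ v) : X Pg → Dir J ρ v → (Fin J → ℕ) × (Fin (ρ + v) → ℕ)
  | .pub, .inl j => (eb j, ey (Fin.castLE hJ j))
  | .pub, .inr (.inl j) => (0, if j.val < J then 0 else ey j)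
  | .pub, .inr (.inr i) => (0, ex i)
  | .tab _, .inl j => (eb j, 0)
  | .tr, d => unit d
  | .goal, d => unit d
  | .pd _, .inr (.inr i) => (0, ex i)
  | .sub _ _, .inl j => (eb j, 0)
  | .sub r k, .inr (.inr i) =>
      (0, Fin.append (fun j => (arg Pg r k j).m i) (fun i' => if i' = i then 1 else 0))
  | .lo _ _, .inr (.inl j) => (0, ey j)
  | _, _ => (0, 0)

/-- the Horn system of a program -/
noncomputable def horn (hJ : J ≤ ρ) (Pg : TProg J ρ v) : THorn J (ρ + v) where
  X := X Pg
  U := (X Pg × Dir J ρ v) ⊕ Ld Pg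
  Jn := Cj Pg
  us
    | .inl (t, _) => t
    | .inr .pub => .st
    | .inr .tr => .st
    | .inr (.tab _) => .pub
    | .inr (.sub _ _) => .st
    | .inr (.lo r k) => .ap r k
    | .inr (.bd _) => .tr
    | .inr (.pd r) => .hd r
    | .inr .goal => .pd Pg.goal
  ut
    | .inl (t, _) => t
    | .inr .pub => .pub
    | .inr .tr => .tr
    | .inr (.tab s) => .tab s
    | .inr (.sub r k) => .sub r k
    | .inr (.lo r k) => .lo r k
    | .inr (.bd r) => .bd r 0
    | .inr (.pd r) => .pd (Pg.hd r)
    | .inr .goal => .goal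
  usb := fun _ => 0
  utb
    | .inl (t, d) => (fsh hJ Pg t d).1
    | .inr _ => 0
  usg := fun _ => 0
  utg
    | .inl (t, d) => (fsh hJ Pg t d).2
    | .inr (.sub r k) => Fin.append (fun j => (arg Pg r k j).c) (fun _ => 0)
    | .inr _ => 0
  uc
    | .inr (.tab true) => .tab
    | .inr (.tab false) => .ntab
    | _ => .all
  ja
    | .ap r k => src Pg r k
    | .bd r k => .bd r k.castSucc
    | .hd r => .bd r (Fin.last _)
  jb
    | .ap r k => .sub r (some k)
    | .bd r k => .lo r k
    | .hd r => .sub r none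
  jc
    | .ap r k => .ap r k
    | .bd r k => .bd r k.succ
    | .hd r => .hd r
  start := .st
  goal := .goal

/-- the predicate arguments -/
def yy {q : ℕ} (c : TCtx J (ρ + v) q) : Fin ρ → ZMod q := fun j => c.2 (Fin.castAdd v j)
/-- the rule variables -/
def xx {q : ℕ} (c : TCtx J (ρ + v) q) : Fin v → ZMod q := fun i => c.2 (Fin.natAdd ρ i)

/-- truth of the atom number `k` of the rule `r` -/
def AH (hJ : J ≤ ρ) (Pg : TProg J ρ v) (q : ℕ) (D : (Fin J → ZMod q) → Prop) (r : Pg.R)
    (k : Fin (bmax Pg)) (y : Fin ρ → ZMod q) : Prop :=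
  match atm Pg r k with
  | some a => (match a.pr with
    | .inl p => Pg.Holds hJ q D p y
    | .inr s => tabHolds hJ D s y)
  | none => True

/-- the explicit model -/
def M (hJ : J ≤ ρ) (Pg : TProg J ρ v) (q : ℕ) (D : (Fin J → ZMod q) → Prop) :
    X Pg → (Fin J → ZMod q) → (Fin ρ → ZMod q) → (Fin v → ZMod q) → Prop
  | .st, b, y, x => b = 0 ∧ y = 0 ∧ x = 0
  | .pub, b, y, _ => ∀ j, b j = y (Fin.castLE hJ j)
  | .tr, _, _, _ => True
  | .tab s, _, y, _ => tabHolds hJ D s y
  | .pd p, _, y, _ => Pg.Holds hJ q D p y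
  | .sub r k, _, y, x => y = evA q (arg Pg r k) x
  | .ap r k, _, y, x => AH hJ Pg q D r k y ∧ y = evA q (arg Pg r (some k)) x
  | .lo r k, _, _, x => AH hJ Pg q D r k (evA q (arg Pg r (some k)) x)
  | .bd r k, _, _, x => ∀ k' : Fin (bmax Pg), k'.val < k.val →
      AH hJ Pg q D r k' (evA q (arg Pg r (some k')) x)
  | .hd r, _, y, x => (∀ k' : Fin (bmax Pg), AH hJ Pg q D r k' (evA q (arg Pg r (some k')) x)) ∧
      y = evA q (Pg.ha r) x
  | .goal, _, _, _ => ∃ y, Pg.Holds hJ q D Pg.goal y

variable (hJ : J ≤ ρ) (Pg : TProg J ρ v) (q : ℕ) (D : (Fin J → ZMod q) → Prop)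

theorem yy_add (c : TCtx J (ρ + v) q) (b : Fin J → ℕ) (g : Fin (ρ + v) → ℕ) :
    yy (c + tshift q b g) = yy c + fun j => ((g (Fin.castAdd v j) : ℕ) : ZMod q) := rfl

theorem xx_add (c : TCtx J (ρ + v) q) (b : Fin J → ℕ) (g : Fin (ρ + v) → ℕ) :
    xx (c + tshift q b g) = xx c + fun i => ((g (Fin.natAdd ρ i) : ℕ) : ZMod q) := rfl

theorem bb_add (c : TCtx J (ρ + v) q) (b : Fin J → ℕ) (g : Fin (ρ + v) → ℕ) :
    (c + tshift q b g).1 = c.1 + fun j => ((b j : ℕ) : ZMod q) := rfl

theorem evA_add (f : Fin ρ → Aff v) (x : Fin v → ZMod q) (i : Fin v) :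
    evA q f (x + fun i' => if i' = i then 1 else 0) = evA q f x + fun j => ((f j).m i : ZMod q) := by
  funext j
  simp only [evA, Aff.ev, Pi.add_apply, mul_add, Finset.sum_add_distrib, mul_ite, mul_one, mul_zero,
    Finset.sum_ite_eq', Finset.mem_univ, if_true]
  ring

theorem evA_zero (f : Fin ρ → Aff v) : evA q f 0 = fun j => ((f j).c : ZMod q) := by
  funext j
  simp [evA, Aff.ev]

theorem M_src (r : Pg.R) (k : Fin (bmax Pg)) (b : Fin J → ZMod q) (y : Fin ρ → ZMod q)
    (x : Fin v → ZMod q) : M hJ Pg q D (src Pg r k) b y x ↔ AH hJ Pg q D r k y := by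
  unfold src AH
  cases atm Pg r k with
  | none => simp [M]
  | some a =>
    simp only
    cases a.pr with
    | inl p => simp [M]
    | inr s => simp [M]

theorem AH_of_mem (r : Pg.R) (x : Fin v → ZMod q)
    (h : ∀ k' : Fin (bmax Pg), AH hJ Pg q D r k' (evA q (arg Pg r (some k')) x)) :
    Pg.Holds hJ q D (Pg.hd r) (evA q (Pg.ha r) x) := by
  have key : ∀ a ∈ Pg.body r, ∃ k : Fin (bmax Pg), atm Pg r k = some a := by
    intro a ha
    obtain ⟨n, hn, rfl⟩ := List.mem_iff_getElem.1 ha
    have hb : (Pg.body r).length ≤ bmax Pg :=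
      Finset.le_sup (f := fun r => (Pg.body r).length) (Finset.mem_univ r)
    refine ⟨⟨n, lt_of_lt_of_le hn hb⟩, ?_⟩
    simp [atm, hn]
  refine TProg.Holds.rule r x ?_ ?_
  · intro a ha p hp
    obtain ⟨k, hk⟩ := key a ha
    have := h k
    unfold AH arg at this
    simp only [hk, hp] at this
    exact this
  · intro a ha s hs
    obtain ⟨k, hk⟩ := key a ha
    have := h k
    unfold AH arg at this
    simp only [hk, hs] at this
    exact this

theorem AH_mem (r : Pg.R) (k : Fin (bmax Pg)) (a : Atm Pg.P ρ v)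
    (hk : atm Pg r k = some a) : a ∈ Pg.body r := by
  unfold atm at hk
  exact List.mem_of_getElem? hk

/-! ### Soundness -/

theorem M_flood (t : X Pg) (d : Dir J ρ v) (c : TCtx J (ρ + v) q)
    (h : M hJ Pg q D t c.1 (yy c) (xx c)) :
    M hJ Pg q D t (c + tshift q (fsh hJ Pg t d).1 (fsh hJ Pg t d).2).1
      (yy (c + tshift q (fsh hJ Pg t d).1 (fsh hJ Pg t d).2))
      (xx (c + tshift q (fsh hJ Pg t d).1 (fsh hJ Pg t d).2)) := by
  rw [yy_add, xx_add, bb_add]
  have e0 : ∀ {n : ℕ} (f : Fin n → ZMod q), (f + fun _ => (0 : ZMod q)) = f := by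
    intro n f
    funext i
    simp
  cases t with
  | st => simpa [fsh, M, e0] using h
  | pub =>
    rcases d with j | j | i
    · simp only [fsh, M, eb, ey, Fin.append_left, Pi.add_apply] at h ⊢
      intro j'
      rw [h j']
      by_cases hj : j' = j
      · simp [hj]
      · have : ¬ Fin.castLE hJ j' = Fin.castLE hJ j := by
          intro h'
          exact hj (Fin.castLE_injective hJ h')
        simp [hj, this]
    · simp only [fsh, M] at h ⊢
      intro j'
      by_cases hj : j.val < J
      · simpa [hj] using h j'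
      · have : ¬ Fin.castLE hJ j' = j := by
          intro h'
          apply hj
          rw [← h']
          simp
        simp [hj, ey, this, h j']
    · simp only [fsh, M, ex, Fin.append_left, Pi.add_apply] at h ⊢
      intro j'
      simpa using h j'
  | tr => trivial
  | tab s =>
    rcases d with j | j | i <;> simpa [fsh, M, e0] using h
  | pd p =>
    rcases d with j | j | i <;> simpa [fsh, M, e0, ex, Fin.append_left] using h
  | sub r k =>
    rcases d with j | j | i
    · simpa [fsh, M, e0] using h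
    · simpa [fsh, M, e0] using h
    · simp only [fsh, M, Fin.append_left, Fin.append_right] at h ⊢
      rw [h, ← evA_add]
      congr 2
      funext i'
      split_ifs <;> simp
  | ap r k => simpa [fsh, M, e0] using h
  | lo r k =>
    rcases d with j | j | i <;> simpa [fsh, M, e0, ey, Fin.append_right] using h
  | bd r k => simpa [fsh, M, e0] using h
  | hd r => simpa [fsh, M, e0] using h
  | goal => exact h

theorem shift_zero (c : TCtx J (ρ + v) q) : c + tshift q (0 : Fin J → ℕ) (0 : Fin (ρ + v) → ℕ) = c := by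
  apply Prod.ext
  · funext j
    simp [tshift]
  · funext j
    simp [tshift]

theorem add_zf {n : ℕ} (f : Fin n → ZMod q) : (f + fun _ => (0 : ZMod q)) = f := by
  funext i
  simp

theorem sound (t : (horn hJ Pg).X) (c : TCtx J (ρ + v) q) (h : (horn hJ Pg).Der q D t c) :
    M hJ Pg q D t c.1 (yy c) (xx c) := by
  induction h with
  | start => exact ⟨rfl, rfl, rfl⟩
  | un r c hc _ ih =>
    have ih' : M hJ Pg q D ((horn hJ Pg).us r) c.1 (yy c) (xx c) := by
      have e := shift_zero (J := J) (ρ := ρ) (v := v) q c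
      have e2 : c + tshift q ((horn hJ Pg).usb r) ((horn hJ Pg).usg r) = c := e
      rw [e2] at ih
      exact ih
    rcases r with ⟨t, d⟩ | l
    · exact M_flood hJ Pg q D t d c ih'
    · rw [yy_add, xx_add, bb_add]
      cases l with
      | pub =>
        obtain ⟨h1, h2, h3⟩ := ih'
        rw [h1, h2]
        intro j
        simp [horn]
      | tr => trivial
      | tab s =>
        have h1 : ∀ j, c.1 j = yy c (Fin.castLE hJ j) := ih'
        have h2 : (fun j => yy c (Fin.castLE hJ j)) = c.1 := by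
          funext j
          exact (h1 j).symm
        have h3 : tabHolds hJ D s (yy c) := by
          unfold tabHolds
          rw [h2]
          cases s with
          | true =>
            have : D c.1 := hc
            simp [this]
          | false =>
            have : ¬ D c.1 := hc
            simp [this]
        simpa [M, horn, add_zf] using h3
      | sub r k =>
        obtain ⟨h1, h2, h3⟩ := ih'
        have e1 : (xx c + fun i => ((Fin.append (fun j => (arg Pg r k j).c) (fun _ : Fin v => 0)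
            (Fin.natAdd ρ i) : ℕ) : ZMod q)) = 0 := by
          funext i
          simp [h3, Fin.append_right]
        have e2 : (yy c + fun j => ((Fin.append (fun j => (arg Pg r k j).c) (fun _ : Fin v => 0)
            (Fin.castAdd v j) : ℕ) : ZMod q)) = evA q (arg Pg r k) 0 := by
          rw [evA_zero, h2]
          funext j
          simp [Fin.append_left]
        change (yy c + fun j => ((Fin.append (fun j => (arg Pg r k j).c) (fun _ : Fin v => 0)
            (Fin.castAdd v j) : ℕ) : ZMod q)) = evA q (arg Pg r k)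
            (xx c + fun i => ((Fin.append (fun j => (arg Pg r k j).c) (fun _ : Fin v => 0)
            (Fin.natAdd ρ i) : ℕ) : ZMod q))
        rw [e1, e2]
      | lo r k =>
        obtain ⟨h1, h2⟩ := ih'
        rw [h2] at h1
        simpa [M, horn, add_zf] using h1
      | bd r =>
        intro k' hk'
        exact absurd hk' (by simp)
      | pd r =>
        obtain ⟨h1, h2⟩ := ih'
        have := AH_of_mem hJ Pg q D r _ h1
        rw [← h2] at this
        simpa [M, horn, add_zf] using this
      | goal => exact ⟨_, ih'⟩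
  | cj j c _ _ ih1 ih2 =>
    cases j with
    | ap r k =>
      exact ⟨(M_src hJ Pg q D r k c.1 (yy c) (xx c)).1 ih1, ih2⟩
    | bd r k =>
      intro k' hk'
      have h1 : k'.val < k.val ∨ k' = k := by
        have : k'.val < k.val + 1 := hk'
        rcases Nat.lt_succ_iff_lt_or_eq.1 this with h | h
        · exact Or.inl h
        · exact Or.inr (Fin.ext h)
      rcases h1 with h1 | rfl
      · exact ih1 k' h1
      · exact ih2
    | hd r =>
      exact ⟨fun k' => ih1 k' k'.isLt, ih2⟩

/-! ### Completeness -/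

theorem der_flood (t : X Pg) (d : Dir J ρ v) (c : TCtx J (ρ + v) q)
    (h : (horn hJ Pg).Der q D t c) :
    (horn hJ Pg).Der q D t (c + tshift q (fsh hJ Pg t d).1 (fsh hJ Pg t d).2) := by
  have e2 : c + tshift q ((horn hJ Pg).usb (.inl (t, d))) ((horn hJ Pg).usg (.inl (t, d))) = c :=
    shift_zero (J := J) (ρ := ρ) (v := v) q c
  exact THorn.Der.un (H := horn hJ Pg) (.inl (t, d)) c trivial (by rw [e2]; exact h)

theorem der_nsmul (t : X Pg) (d : Dir J ρ v) (c : TCtx J (ρ + v) q)
    (h : (horn hJ Pg).Der q D t c) (n : ℕ) :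
    (horn hJ Pg).Der q D t (c + n • tshift q (fsh hJ Pg t d).1 (fsh hJ Pg t d).2) := by
  induction n with
  | zero => simpa using h
  | succ n ih =>
    rw [succ_nsmul, ← add_assoc]
    exact der_flood hJ Pg q D t d _ ih

theorem der_smul [NeZero q] (t : X Pg) (d : Dir J ρ v) (c : TCtx J (ρ + v) q)
    (h : (horn hJ Pg).Der q D t c) (z : ZMod q) :
    (horn hJ Pg).Der q D t (c + z • tshift q (fsh hJ Pg t d).1 (fsh hJ Pg t d).2) := by
  have h1 := der_nsmul hJ Pg q D t d c h z.val
  rw [← Nat.cast_smul_eq_nsmul (ZMod q), ZMod.natCast_zmod_val] at h1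
  exact h1

theorem der_sum [NeZero q] (t : X Pg) (c : TCtx J (ρ + v) q)
    (h : (horn hJ Pg).Der q D t c) (z : Dir J ρ v → ZMod q) (s : Finset (Dir J ρ v)) :
    (horn hJ Pg).Der q D t
      (c + ∑ d ∈ s, z d • tshift q (fsh hJ Pg t d).1 (fsh hJ Pg t d).2) := by
  classical
  induction s using Finset.induction_on with
  | empty => simpa using h
  | insert d s hd ih =>
    rw [Finset.sum_insert hd, add_comm (z d • _), ← add_assoc]
    exact der_smul hJ Pg q D t d _ ih (z d)

/-- from one context to another one, by a combination of the flooding shifts -/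
theorem der_move [NeZero q] (t : X Pg) (c c' : TCtx J (ρ + v) q)
    (h : (horn hJ Pg).Der q D t c) (z : Dir J ρ v → ZMod q)
    (hb : ∀ j, c'.1 j = c.1 j + ∑ d, z d * ((fsh hJ Pg t d).1 j : ZMod q))
    (hy : ∀ j, yy c' j = yy c j + ∑ d, z d * ((fsh hJ Pg t d).2 (Fin.castAdd v j) : ZMod q))
    (hx : ∀ i, xx c' i = xx c i + ∑ d, z d * ((fsh hJ Pg t d).2 (Fin.natAdd ρ i) : ZMod q)) :
    (horn hJ Pg).Der q D t c' := by
  have h1 := der_sum hJ Pg q D t c h z Finset.univ
  have h2 : c' = c + ∑ d, z d • tshift q (fsh hJ Pg t d).1 (fsh hJ Pg t d).2 := by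
    apply Prod.ext
    · funext j
      rw [hb j]
      simp [Prod.fst_sum, Finset.sum_apply, tshift]
    · funext l
      refine Fin.addCases (fun j => ?_) (fun i => ?_) l
      · have := hy j
        unfold yy at this
        rw [this]
        simp [Prod.snd_sum, Finset.sum_apply, tshift]
      · have := hx i
        unfold xx at this
        rw [this]
        simp [Prod.snd_sum, Finset.sum_apply, tshift]
  rw [h2]
  exact h1

/-- context with given components -/
def mk {q : ℕ} (b : Fin J → ZMod q) (y : Fin ρ → ZMod q) (x : Fin v → ZMod q) :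
    TCtx J (ρ + v) q := (b, Fin.append y x)

theorem mk_fst (b : Fin J → ZMod q) (y : Fin ρ → ZMod q) (x : Fin v → ZMod q) :
    (mk b y x).1 = b := rfl

theorem yy_mk (b : Fin J → ZMod q) (y : Fin ρ → ZMod q) (x : Fin v → ZMod q) :
    yy (mk b y x) = y := by
  funext j
  simp [yy, mk]

theorem xx_mk (b : Fin J → ZMod q) (y : Fin ρ → ZMod q) (x : Fin v → ZMod q) :
    xx (mk b y x) = x := by
  funext j
  simp [xx, mk]

theorem mk_eta (c : TCtx J (ρ + v) q) : mk c.1 (yy c) (xx c) = c := by
  apply Prod.ext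
  · rfl
  · exact Fin.append_castAdd_natAdd

theorem der_load (l : Ld Pg) (c : TCtx J (ρ + v) q)
    (hc : ((horn hJ Pg).uc (.inr l)).holds D c.1)
    (h : (horn hJ Pg).Der q D ((horn hJ Pg).us (.inr l)) c) :
    (horn hJ Pg).Der q D ((horn hJ Pg).ut (.inr l))
      (c + tshift q ((horn hJ Pg).utb (.inr l)) ((horn hJ Pg).utg (.inr l))) := by
  have e2 : c + tshift q ((horn hJ Pg).usb (.inr l)) ((horn hJ Pg).usg (.inr l)) = c :=
    shift_zero (J := J) (ρ := ρ) (v := v) q c
  exact THorn.Der.un (H := horn hJ Pg) (.inr l) c hc (by rw [e2]; exact h)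

variable [NeZero q]

theorem der_tr (b : Fin J → ZMod q) (y : Fin ρ → ZMod q) (x : Fin v → ZMod q) :
    (horn hJ Pg).Der q D (.tr : X Pg) (mk b y x) := by
  have h0 : (horn hJ Pg).Der q D (.tr : X Pg) (0 + tshift q 0 0) :=
    der_load hJ Pg q D .tr 0 trivial THorn.Der.start
  rw [shift_zero] at h0
  refine der_move hJ Pg q D _ 0 _ h0 (Sum.elim b (Sum.elim y x)) ?_ ?_ ?_
  · intro j
    simp [mk_fst, fsh, unit, eb, Fintype.sum_sum_type]
  · intro j
    simp [mk, yy, fsh, unit, ey, ex, Fintype.sum_sum_type, Fin.append_left]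
  · intro i
    simp [mk, xx, fsh, unit, ey, ex, Fintype.sum_sum_type, Fin.append_right]

theorem der_pub (b : Fin J → ZMod q) (y : Fin ρ → ZMod q) (x : Fin v → ZMod q)
    (hby : ∀ j, b j = y (Fin.castLE hJ j)) :
    (horn hJ Pg).Der q D (.pub : X Pg) (mk b y x) := by
  have h0 : (horn hJ Pg).Der q D (.pub : X Pg) (0 + tshift q 0 0) :=
    der_load hJ Pg q D .pub 0 trivial THorn.Der.start
  rw [shift_zero] at h0
  refine der_move hJ Pg q D _ 0 _ h0 (Sum.elim b (Sum.elim y x)) ?_ ?_ ?_
  · intro j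
    simp [mk_fst, fsh, eb, Fintype.sum_sum_type]
  · intro j
    by_cases hj : j.val < J
    · have e1 : ∀ j' : Fin J, (j = Fin.castLE hJ j') ↔ j' = ⟨j.val, hj⟩ := by
        intro j'
        constructor
        · rintro rfl
          rfl
        · rintro rfl
          rfl
      have e2 : ∀ j' : Fin ρ, ((if j'.val < J then (0 : Fin (ρ + v) → ℕ) else ey j')
          (Fin.castAdd v j)) = 0 := by
        intro j'
        by_cases h' : j'.val < J
        · simp [h']
        · have : j ≠ j' := by
            rintro rfl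
            exact h' hj
          simp [h', ey, Fin.append_left, this]
      simp only [yy_mk, fsh, Fintype.sum_sum_type, Sum.elim_inl, Sum.elim_inr, e2]
      simp only [ey, ex, Fin.append_left, e1]
      simp only [Nat.cast_zero, mul_zero, Finset.sum_const_zero, add_zero, Nat.cast_ite,
        Nat.cast_one, mul_ite, mul_one, Finset.sum_ite_eq', Finset.mem_univ, if_true]
      rw [hby ⟨j.val, hj⟩]
      simp [yy]
    · have e1 : ∀ j' : Fin J, ¬ (j = Fin.castLE hJ j') := by
        rintro j' rfl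
        apply hj
        simp
      have e2 : ∀ j' : Fin ρ, ((if j'.val < J then (0 : Fin (ρ + v) → ℕ) else ey j')
          (Fin.castAdd v j)) = if j = j' then 1 else 0 := by
        intro j'
        by_cases h' : j'.val < J
        · have : j ≠ j' := by
            rintro rfl
            exact hj h'
          simp [h', this]
        · simp [h', ey, Fin.append_left]
      simp only [yy_mk, fsh, Fintype.sum_sum_type, Sum.elim_inl, Sum.elim_inr, e2]
      simp only [ey, ex, Fin.append_left, e1]
      simp [yy]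
  · intro i
    have e2 : ∀ j' : Fin ρ, ((if j'.val < J then (0 : Fin (ρ + v) → ℕ) else ey j')
        (Fin.natAdd ρ i)) = 0 := by
      intro j'
      by_cases h' : j'.val < J
      · simp [h']
      · simp [h', ey, Fin.append_right]
    simp only [xx_mk, fsh, Fintype.sum_sum_type, Sum.elim_inl, Sum.elim_inr, e2]
    simp [xx, ey, ex, Fin.append_right]

theorem der_tab (s : Bool) (b : Fin J → ZMod q) (y : Fin ρ → ZMod q) (x : Fin v → ZMod q)
    (h : tabHolds hJ D s y) : (horn hJ Pg).Der q D (.tab s : X Pg) (mk b y x) := by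
  have h1 := der_pub hJ Pg q D (fun j => y (Fin.castLE hJ j)) y x (fun j => rfl)
  have h2 : (horn hJ Pg).Der q D (.tab s : X Pg)
      (mk (fun j => y (Fin.castLE hJ j)) y x + tshift q 0 0) := by
    refine der_load hJ Pg q D (.tab s) _ ?_ h1
    rw [mk_fst]
    unfold tabHolds at h
    cases s with
    | true => exact h.2 rfl
    | false =>
      intro h'
      exact absurd (h.1 h') (by simp)
  rw [shift_zero] at h2
  refine der_move hJ Pg q D _ _ _ h2
    (Sum.elim (fun j => b j - y (Fin.castLE hJ j)) (fun _ => 0)) ?_ ?_ ?_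
  · intro j
    simp [mk_fst, fsh, eb, Fintype.sum_sum_type]
  · intro j
    simp [yy_mk, fsh, Fintype.sum_sum_type]
  · intro i
    simp [xx_mk, fsh, Fintype.sum_sum_type]

theorem der_sub (r : Pg.R) (k : Option (Fin (bmax Pg))) (b : Fin J → ZMod q)
    (x : Fin v → ZMod q) :
    (horn hJ Pg).Der q D (.sub r k : X Pg) (mk b (evA q (arg Pg r k) x) x) := by
  have h0 : (horn hJ Pg).Der q D (.sub r k : X Pg) (0 + tshift q (0 : Fin J → ℕ)
      (Fin.append (fun j => (arg Pg r k j).c) (fun _ => 0))) :=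
    der_load hJ Pg q D (.sub r k) 0 trivial THorn.Der.start
  refine der_move hJ Pg q D _ _ _ h0 (Sum.elim b (Sum.elim 0 x)) ?_ ?_ ?_
  · intro j
    simp [mk_fst, fsh, eb, Fintype.sum_sum_type, tshift]
  · intro j
    simp [mk, yy, fsh, Fintype.sum_sum_type, tshift, Fin.append_left, evA, Aff.ev, mul_comm]
  · intro i
    simp [mk, xx, fsh, Fintype.sum_sum_type, tshift, Fin.append_right]

theorem der_lo (r : Pg.R) (k : Fin (bmax Pg)) (x : Fin v → ZMod q)
    (h : ∀ b x', (horn hJ Pg).Der q D (src Pg r k) (mk b (evA q (arg Pg r (some k)) x) x'))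
    (b : Fin J → ZMod q) (y : Fin ρ → ZMod q) :
    (horn hJ Pg).Der q D (.lo r k : X Pg) (mk b y x) := by
  have h1 : (horn hJ Pg).Der q D (.ap r k : X Pg) (mk b (evA q (arg Pg r (some k)) x) x) :=
    THorn.Der.cj (H := horn hJ Pg) (Cj.ap r k) _ (h b x) (der_sub hJ Pg q D r (some k) b x)
  have h2 : (horn hJ Pg).Der q D (.lo r k : X Pg)
      (mk b (evA q (arg Pg r (some k)) x) x + tshift q 0 0) :=
    der_load hJ Pg q D (.lo r k) _ trivial h1
  rw [shift_zero] at h2
  refine der_move hJ Pg q D _ _ _ h2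
    (Sum.elim 0 (Sum.elim (fun j => y j - evA q (arg Pg r (some k)) x j) 0)) ?_ ?_ ?_
  · intro j
    simp [mk_fst, fsh, Fintype.sum_sum_type]
  · intro j
    simp [yy_mk, fsh, ey, Fintype.sum_sum_type, Fin.append_left]
  · intro i
    simp [xx_mk, fsh, ey, Fintype.sum_sum_type, Fin.append_right]

theorem der_bd (r : Pg.R) (x : Fin v → ZMod q)
    (h : ∀ k : Fin (bmax Pg), ∀ b x', (horn hJ Pg).Der q D (src Pg r k)
      (mk b (evA q (arg Pg r (some k)) x) x'))
    (b : Fin J → ZMod q) (y : Fin ρ → ZMod q) (k : Fin (bmax Pg + 1)) :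
    (horn hJ Pg).Der q D (.bd r k : X Pg) (mk b y x) := by
  induction k using Fin.induction with
  | zero =>
    have h2 : (horn hJ Pg).Der q D (.bd r 0 : X Pg) (mk b y x + tshift q 0 0) :=
      der_load hJ Pg q D (.bd r) _ trivial (der_tr hJ Pg q D b y x)
    rw [shift_zero] at h2
    exact h2
  | succ k ih =>
    exact THorn.Der.cj (H := horn hJ Pg) (Cj.bd r k) _ ih (der_lo hJ Pg q D r k x (h k) b y)

theorem der_pd (p : Pg.P) (y : Fin ρ → ZMod q) (h : Pg.Holds hJ q D p y) :
    ∀ (b : Fin J → ZMod q) (x : Fin v → ZMod q),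
      (horn hJ Pg).Der q D (.pd p : X Pg) (mk b y x) := by
  induction h with
  | rule r x h1 h2 ih =>
    intro b x'
    have hsrc : ∀ k : Fin (bmax Pg), ∀ b x', (horn hJ Pg).Der q D (src Pg r k)
        (mk b (evA q (arg Pg r (some k)) x) x') := by
      intro k b x'
      unfold src arg
      cases hk : atm Pg r k with
      | none =>
        simp only [hk]
        exact der_tr hJ Pg q D _ _ _
      | some a =>
        have hm := AH_mem Pg r k a hk
        simp only [hk]
        cases hp : a.pr with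
        | inl p => exact ih a hm p hp b x'
        | inr s => exact der_tab hJ Pg q D s _ _ _ (h2 a hm s hp)
    have h3 := der_bd hJ Pg q D r x hsrc b (evA q (Pg.ha r) x) (Fin.last _)
    have h4 : (horn hJ Pg).Der q D (.hd r : X Pg) (mk b (evA q (Pg.ha r) x) x) :=
      THorn.Der.cj (H := horn hJ Pg) (Cj.hd r) _ h3 (der_sub hJ Pg q D r none b x)
    have h5 : (horn hJ Pg).Der q D (.pd (Pg.hd r) : X Pg)
        (mk b (evA q (Pg.ha r) x) x + tshift q 0 0) :=
      der_load hJ Pg q D (.pd r) _ trivial h4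
    rw [shift_zero] at h5
    refine der_move hJ Pg q D _ _ _ h5 (Sum.elim 0 (Sum.elim 0 (fun i => x' i - x i))) ?_ ?_ ?_
    · intro j
      simp [mk_fst, fsh, Fintype.sum_sum_type]
    · intro j
      simp [yy_mk, fsh, ex, Fintype.sum_sum_type, Fin.append_left]
    · intro i
      simp [xx_mk, fsh, ex, Fintype.sum_sum_type, Fin.append_right]

theorem der_goal (y : Fin ρ → ZMod q) (h : Pg.Holds hJ q D Pg.goal y) :
    (horn hJ Pg).Der q D (.goal : X Pg) 0 := by
  have h1 := der_pd hJ Pg q D Pg.goal y h 0 0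
  have h2 : (horn hJ Pg).Der q D (.goal : X Pg) (mk 0 y 0 + tshift q 0 0) :=
    der_load hJ Pg q D .goal _ trivial h1
  rw [shift_zero] at h2
  refine der_move hJ Pg q D _ _ _ h2 (Sum.elim 0 (Sum.elim (fun j => - y j) 0)) ?_ ?_ ?_
  · intro j
    simp [mk_fst, fsh, unit, Fintype.sum_sum_type]
  · intro j
    simp [mk, yy, fsh, unit, ey, ex, Fintype.sum_sum_type, Fin.append_left]
  · intro i
    simp [mk, xx, fsh, unit, ey, ex, Fintype.sum_sum_type, Fin.append_right]

end TComp

/-- Every program compiles to a Horn system. -/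
theorem TProg.exists_horn {J ρ v : ℕ} (hJ : J ≤ ρ) (Pg : TProg J ρ v) :
    ∃ H : THorn J (ρ + v), ∀ (q : ℕ) [Fact q.Prime] (D : (Fin J → ZMod q) → Prop),
      H.Der q D H.goal 0 ↔ ∃ y, Pg.Holds hJ q D Pg.goal y := by
  refine ⟨TComp.horn hJ Pg, ?_⟩
  intro q hq D
  have : NeZero q := ⟨hq.out.ne_zero⟩
  constructor
  · intro h
    exact TComp.sound hJ Pg q D _ _ h
  · rintro ⟨y, hy⟩
    exact TComp.der_goal hJ Pg q D y hy

end Vale.Agent.P310
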