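import Vale.Agent.P310.TDefs

/-!
P310, Level B [B2], table version: compile a Horn system into a uniform two-of-three system.
-/

namespace Vale.Agent.P310

open scoped BigOperators

namespace THornU

/-- types of the compiled system -/
inductive HT (X Jn : Type) (L : ℕ) : Type
  | x (a : X)
  | c (j : Jn) (i : Fin 3)
  | s (i : Fin (L + 1))
  | f (i : Fin (L + 1))
  deriving DecidableEq, Fintype

/-- equation types of the compiled system -/
inductive HE (U Jn : Type) (L : ℕ) : Type
  | u (r : U)
  | ia (j : Jn)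
  | ib (j : Jn)
  | gt (j : Jn)
  | io (j : Jn)
  | ss (i : Fin L)
  | so
  | fi
  | ff (i : Fin L)
  deriving DecidableEq, Fintype

variable {J κ : ℕ} (H : THorn J κ) (L : ℕ)

/-- the source (slots 0 and 1) and the target (slot 2) of a diode; the three slots of a gate -/
def hty : HE H.U H.Jn L → Fin 3 → HT H.X H.Jn L
  | .u r => ![.x (H.us r), .x (H.us r), .x (H.ut r)]
  | .ia j => ![.x (H.ja j), .x (H.ja j), .c j 0]
  | .ib j => ![.x (H.jb j), .x (H.jb j), .c j 1]
  | .gt j => ![.c j 0, .c j 1, .c j 2]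
  | .io j => ![.c j 2, .c j 2, .x (H.jc j)]
  | .ss i => ![.s i.castSucc, .s i.castSucc, .s i.succ]
  | .so => ![.s (Fin.last L), .s (Fin.last L), .x H.start]
  | .fi => ![.x H.goal, .x H.goal, .f (Fin.last L)]
  | .ff i => ![.f i.succ, .f i.succ, .f i.castSucc]

/-- shifts of the public coordinate -/
def hshb : HE H.U H.Jn L → Fin 3 → Fin J → ℕ
  | .u r => ![H.usb r, H.usb r, H.utb r]
  | _ => 0

/-- shifts of the other coordinates -/
def hshg : HE H.U H.Jn L → Fin 3 → Fin κ → ℕ
  | .u r => ![H.usg r, H.usg r, H.utg r]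
  | _ => 0

/-- conditions -/
def hcnd : HE H.U H.Jn L → TCnd
  | .u r => H.uc r
  | _ => .all

/-- the compiled system -/
def usys : TUSys J κ where
  T := HT H.X H.Jn L
  E := HE H.U H.Jn L
  ty := hty H L
  shb := hshb H L
  shg := hshg H L
  cnd := hcnd H L
  start := .s 0
  fin := .f 0

/-- potential -/
def pot : HT H.X H.Jn L → ℕ
  | .x _ => L
  | .c _ _ => L
  | .s i => i.val
  | .f i => i.val

theorem usys_ok : (usys H L).OK L where
  fin_out := by
    intro e i h
    change HE H.U H.Jn L at e
    change hty H L e i = HT.f 0 at h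
    cases e with
    | u r => fin_cases i <;> simp [hty] at h
    | ia j => fin_cases i <;> simp [hty] at h
    | ib j => fin_cases i <;> simp [hty] at h
    | gt j => fin_cases i <;> simp [hty] at h
    | io j => fin_cases i <;> simp [hty] at h
    | ss j => fin_cases i <;> simp [hty] at h
    | so => fin_cases i <;> simp [hty] at h
    | fi =>
      fin_cases i
      · simp [hty] at h
      · simp [hty] at h
      · exact ⟨rfl, rfl, rfl, rfl⟩
    | ff j =>
      fin_cases i
      · simp [hty, Fin.succ_ne_zero] at h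
      · simp [hty, Fin.succ_ne_zero] at h
      · exact ⟨rfl, rfl, rfl, rfl⟩
  start_ne := by
    intro h
    change (HT.s 0 : HT H.X H.Jn L) = HT.f 0 at h
    cases h
  iso := by
    refine ⟨pot H L, rfl, rfl, ?_, ?_⟩
    · intro e i h j
      change HE H.U H.Jn L at e
      change pot H L (hty H L e i) < L at h
      cases e with
      | u r => fin_cases i <;> simp [hty, pot] at h
      | _ => exact ⟨rfl, rfl⟩
    · intro e i j
      change HE H.U H.Jn L at e
      change pot H L (hty H L e i) ≤ pot H L (hty H L e j) + 1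
      cases e with
      | u r => fin_cases i <;> fin_cases j <;> simp [hty, pot]
      | ia r => fin_cases i <;> fin_cases j <;> simp [hty, pot]
      | ib r => fin_cases i <;> fin_cases j <;> simp [hty, pot]
      | gt r => fin_cases i <;> fin_cases j <;> simp [hty, pot]
      | io r => fin_cases i <;> fin_cases j <;> simp [hty, pot]
      | ss r => fin_cases i <;> fin_cases j <;> simp [hty, pot] <;> omega
      | so => fin_cases i <;> fin_cases j <;> simp [hty, pot]
      | fi => fin_cases i <;> fin_cases j <;> simp [hty, pot]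
      | ff r => fin_cases i <;> fin_cases j <;> simp [hty, pot] <;> omega

/-- the model used for soundness -/
def model (q : ℕ) (D : (Fin J → ZMod q) → Prop) : HT H.X H.Jn L → TCtx J κ q → Prop
  | .x a, c => H.Der q D a c
  | .c j i, c => match i with
    | 0 => H.Der q D (H.ja j) c
    | 1 => H.Der q D (H.jb j) c
    | 2 => H.Der q D (H.ja j) c ∧ H.Der q D (H.jb j) c
  | .s _, c => c = 0
  | .f _, c => H.Der q D H.goal c

/-- two of three for a diode -/
theorem diode {P : Fin 3 → Prop} (h01 : P 0 ↔ P 1) (h2 : P 0 → P 2) {i j l : Fin 3} (hij : i ≠ j)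
    (hli : l ≠ i) (hlj : l ≠ j) (hi : P i) (hj : P j) : P l := by
  fin_cases i <;> fin_cases j <;> fin_cases l <;> simp_all

theorem gate {P : Fin 3 → Prop} (h1 : P 0 → P 1 → P 2) (h2 : P 2 → P 0) (h3 : P 2 → P 1)
    {i j l : Fin 3} (hij : i ≠ j)
    (hli : l ≠ i) (hlj : l ≠ j) (hi : P i) (hj : P j) : P l := by
  fin_cases i <;> fin_cases j <;> fin_cases l <;> simp_all

/-- The node in slot `i` for the equation type `e` at `c`. -/
def at' (q : ℕ) (D : (Fin J → ZMod q) → Prop) (e : HE H.U H.Jn L) (c : TCtx J κ q) (i : Fin 3) : Prop :=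
  model H L q D (hty H L e i) (c + tshift q (hshb H L e i) (hshg H L e i))

theorem model_closed (q : ℕ) (D : (Fin J → ZMod q) → Prop) (e : HE H.U H.Jn L) (c : TCtx J κ q) {i j l : Fin 3}
    (hij : i ≠ j) (hli : l ≠ i) (hlj : l ≠ j) (hc : (hcnd H L e).holds D c.1)
    (hi : at' H L q D e c i) (hj : at' H L q D e c j) : at' H L q D e c l := by
  have hz : c + tshift q (0 : Fin J → ℕ) (0 : Fin κ → ℕ) = c := by
    unfold tshift
    ext <;> simp
  cases e with
  | u r =>
    refine diode (P := at' H L q D (.u r) c) Iff.rfl ?_ hij hli hlj hi hj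
    intro h
    exact THorn.Der.un r c hc h
  | ia r =>
    refine diode (P := at' H L q D (.ia r) c) Iff.rfl ?_ hij hli hlj hi hj
    exact fun h => h
  | ib r =>
    refine diode (P := at' H L q D (.ib r) c) Iff.rfl ?_ hij hli hlj hi hj
    exact fun h => h
  | gt r =>
    refine gate (P := at' H L q D (.gt r) c) ?_ ?_ ?_ hij hli hlj hi hj
    · exact fun h1 h2 => ⟨h1, h2⟩
    · exact fun h => h.1
    · exact fun h => h.2
  | io r =>
    refine diode (P := at' H L q D (.io r) c) Iff.rfl ?_ hij hli hlj hi hj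
    rintro ⟨h1, h2⟩
    exact THorn.Der.cj r _ h1 h2
  | ss r =>
    refine diode (P := at' H L q D (.ss r) c) Iff.rfl ?_ hij hli hlj hi hj
    exact fun h => h
  | so =>
    refine diode (P := at' H L q D .so c) Iff.rfl ?_ hij hli hlj hi hj
    intro h
    have h' : c + tshift q (0 : Fin J → ℕ) (0 : Fin κ → ℕ) = 0 := h
    show H.Der q D H.start (c + tshift q (0 : Fin J → ℕ) (0 : Fin κ → ℕ))
    rw [h']
    exact THorn.Der.start
  | fi =>
    refine diode (P := at' H L q D .fi c) Iff.rfl ?_ hij hli hlj hi hj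
    exact fun h => h
  | ff r =>
    refine diode (P := at' H L q D (.ff r) c) Iff.rfl ?_ hij hli hlj hi hj
    exact fun h => h

section

variable (m : ℕ) (Q : Type) [Group Q] [Fintype Q] [DecidableEq Q]
  (g : (usys H L).E → Fin 3 → Q) (q : ℕ) [NeZero q] (D : (Fin J → ZMod q) → Prop)

/-- derivability in the compiled system -/
def UD (t : HT H.X H.Jn L) (c : TCtx J κ q) : Prop := ((usys H L).sys m Q g q D).Der t c

theorem sound (t : ((usys H L).sys m Q g q D).T) (c : ((usys H L).sys m Q g q D).C)
    (h : ((usys H L).sys m Q g q D).Der t c) : model H L q D t c := by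
  induction h with
  | start => exact (rfl : (0 : TCtx J κ q) = 0)
  | step e c i j l hij hli hlj hp _ _ h1 h2 =>
    exact model_closed H L q D e c hij hli hlj hp h1 h2

theorem step (e : HE H.U H.Jn L) (c : TCtx J κ q) (i j l : Fin 3) (hij : i ≠ j) (hli : l ≠ i)
    (hlj : l ≠ j) (hc : (hcnd H L e).holds D c.1)
    (hi : UD H L m Q g q D (hty H L e i) (c + tshift q (hshb H L e i) (hshg H L e i)))
    (hj : UD H L m Q g q D (hty H L e j) (c + tshift q (hshb H L e j) (hshg H L e j))) :
    UD H L m Q g q D (hty H L e l) (c + tshift q (hshb H L e l) (hshg H L e l)) :=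
  Sys.Der.step (S := (usys H L).sys m Q g q D) e c i j l hij hli hlj hc hi hj

theorem step0 (e : HE H.U H.Jn L) (c : TCtx J κ q) (hs : ∀ i, hshb H L e i = 0 ∧ hshg H L e i = 0)
    (hc : (hcnd H L e).holds D c.1)
    (hi : UD H L m Q g q D (hty H L e 0) c)
    (hj : UD H L m Q g q D (hty H L e 1) c) :
    UD H L m Q g q D (hty H L e 2) c := by
  have hz : ∀ i, c + tshift q (hshb H L e i) (hshg H L e i) = c := by
    intro i
    rw [(hs i).1, (hs i).2]
    unfold tshift
    ext <;> simp
  have := step H L m Q g q D e c 0 1 2 (by decide) (by decide) (by decide) hc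
    (by rw [hz]; exact hi) (by rw [hz]; exact hj)
  rwa [hz] at this

theorem start_chain (n : ℕ) (hn : n < L + 1) : UD H L m Q g q D (.s ⟨n, hn⟩) 0 := by
  induction n with
  | zero => exact Sys.Der.start
  | succ n ih =>
    have h := ih (by omega)
    exact step0 H L m Q g q D (.ss ⟨n, by omega⟩) 0 (fun _ => ⟨rfl, rfl⟩) trivial h h

theorem fin_chain (h : UD H L m Q g q D (.x H.goal) 0) (n : ℕ) (hn : n < L + 1) :
    UD H L m Q g q D (.f ⟨L - n, by omega⟩) 0 := by
  induction n with
  | zero => exact step0 H L m Q g q D .fi 0 (fun _ => ⟨rfl, rfl⟩) trivial h h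
  | succ n ih =>
    have h := ih (by omega)
    have e1 : (⟨L - n, by omega⟩ : Fin (L + 1)) = Fin.succ (⟨L - (n + 1), by omega⟩ : Fin L) := by
      ext
      simp
      omega
    rw [e1] at h
    exact step0 H L m Q g q D (.ff ⟨L - (n + 1), by omega⟩) 0 (fun _ => ⟨rfl, rfl⟩) trivial h h

theorem complete (a : H.X) (c : TCtx J κ q) (h : H.Der q D a c) : UD H L m Q g q D (.x a) c := by
  induction h with
  | start =>
    have h := start_chain H L m Q g q D L (by omega)
    exact step0 H L m Q g q D .so 0 (fun _ => ⟨rfl, rfl⟩) trivial h h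
  | un r c hc _ ih =>
    exact step H L m Q g q D (.u r) c 0 1 2 (by decide) (by decide) (by decide) hc ih ih
  | cj j c _ _ iha ihb =>
    have h0 := step0 H L m Q g q D (.ia j) c (fun _ => ⟨rfl, rfl⟩) trivial iha iha
    have h1 := step0 H L m Q g q D (.ib j) c (fun _ => ⟨rfl, rfl⟩) trivial ihb ihb
    have h2 := step0 H L m Q g q D (.gt j) c (fun _ => ⟨rfl, rfl⟩) trivial h0 h1
    exact step0 H L m Q g q D (.io j) c (fun _ => ⟨rfl, rfl⟩) trivial h2 h2

theorem main : ((usys H L).sys m Q g q D).Der (usys H L).fin 0 ↔ H.Der q D H.goal 0 := by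
  constructor
  · intro h
    exact sound H L m Q g q D (.f 0) 0 h
  · intro h
    have h1 := fin_chain H L m Q g q D (complete H L m Q g q D _ _ h) L (by omega)
    have e1 : (⟨L - L, by omega⟩ : Fin (L + 1)) = 0 := by
      ext
      simp
    rw [e1] at h1
    exact h1

end

end THornU

theorem THorn.exists_usys {J κ : ℕ} (H : THorn J κ) (L : ℕ) : ∃ U : TUSys J κ, U.OK L ∧
    ∀ (m : ℕ) (Q : Type) [Group Q] [Fintype Q] [DecidableEq Q] (g : U.E → Fin 3 → Q) (q : ℕ)
      [NeZero q] (D : (Fin J → ZMod q) → Prop),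
      (U.sys m Q g q D).Der U.fin 0 ↔ H.Der q D H.goal 0 :=
  ⟨THornU.usys H L, THornU.usys_ok H L, fun m Q _ _ _ g q _ D => THornU.main H L m Q g q D⟩

end Vale.Agent.P310
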