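import Mathlib

/-!
P310, Level A [A3]: the Reed-Solomon count.
-/

namespace Vale.Agent.P310

open Finset Polynomial

theorem rs_code (q : ℕ) [Fact q.Prime] (n m : ℕ) (hm : m ≤ q) (c : Fin n → ZMod q) (hc : c ≠ 0) :
    (Finset.univ.filter fun l : Fin m => ∑ i, c i * ((l.val : ZMod q) ^ i.val) = 0).card
      ≤ n - 1 := by
  classical
  set p : (ZMod q)[X] := ∑ i : Fin n, C (c i) * X ^ i.val with hp
  have hcoef : ∀ i : Fin n, p.coeff i.val = c i := by
    intro i
    rw [hp, Polynomial.finsetSum_coeff]
    rw [Finset.sum_eq_single i]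
    · rw [Polynomial.coeff_C_mul_X_pow, if_pos rfl]
    · intro j _ hj
      rw [Polynomial.coeff_C_mul_X_pow, if_neg]
      intro h
      exact hj (Fin.ext h.symm)
    · intro h
      exact absurd (Finset.mem_univ i) h
  have hp0 : p ≠ 0 := by
    intro h
    apply hc
    funext i
    rw [← hcoef i, h]; simp
  have hn : 0 < n := by
    rcases Nat.eq_zero_or_pos n with h | h
    · subst h
      exact absurd (_root_.funext fun i : Fin 0 => i.elim0) hc
    · exact h
  have hdeg : p.natDegree ≤ n - 1 := by
    rw [hp]
    refine Polynomial.natDegree_sum_le_of_forall_le _ _ fun i _ => ?_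
    refine (Polynomial.natDegree_C_mul_X_pow_le _ _).trans ?_
    have := i.isLt
    omega
  have hinj : Set.InjOn (fun l : Fin m => (l.val : ZMod q))
      (Finset.univ.filter fun l : Fin m => ∑ i, c i * ((l.val : ZMod q) ^ i.val) = 0) := by
    intro a _ b _ hab
    have h1 : (a.val : ZMod q) = (b.val : ZMod q) := hab
    rw [ZMod.natCast_eq_natCast_iff'] at h1
    rw [Nat.mod_eq_of_lt (lt_of_lt_of_le a.isLt hm), Nat.mod_eq_of_lt (lt_of_lt_of_le b.isLt hm)] at h1
    exact Fin.ext h1
  calc (Finset.univ.filter fun l : Fin m => ∑ i, c i * ((l.val : ZMod q) ^ i.val) = 0).card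
      = ((Finset.univ.filter fun l : Fin m => ∑ i, c i * ((l.val : ZMod q) ^ i.val) = 0).image
          (fun l : Fin m => (l.val : ZMod q))).card := (Finset.card_image_of_injOn hinj).symm
    _ ≤ p.roots.toFinset.card := by
        refine Finset.card_le_card fun x hx => ?_
        obtain ⟨l, hl, rfl⟩ := Finset.mem_image.mp hx
        rw [Multiset.mem_toFinset, Polynomial.mem_roots hp0, Polynomial.IsRoot.def]
        rw [hp, Polynomial.eval_finsetSum]
        have := (Finset.mem_filter.mp hl).2
        rw [← this]
        refine Finset.sum_congr rfl fun i _ => ?_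
        simp
    _ ≤ Multiset.card p.roots := Multiset.toFinset_card_le _
    _ ≤ p.natDegree := Polynomial.card_roots' p
    _ ≤ n - 1 := hdeg

end Vale.Agent.P310
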