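import Vale.Agent.P310.TDefs
import Vale.Agent.P310.RS

/-!
P310, Level B: the system attached to a uniform system (table version) satisfies the hypotheses of Level A.
-/

namespace Vale.Agent.P310

open scoped BigOperators

theorem TUSys.near_aux {J κ : ℕ} (U : TUSys J κ) (m : ℕ) (Q : Type) [Group Q] [Fintype Q]
    [DecidableEq Q] (g : U.E → Fin 3 → Q) (q : ℕ) [NeZero q] (D : (Fin J → ZMod q) → Prop) (L : ℕ) (u : U.T → ℕ)
    (h1 : ∀ e i, u (U.ty e i) < L → ∀ j, U.shb e j = 0 ∧ U.shg e j = 0)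
    (h2 : ∀ e i j, u (U.ty e i) ≤ u (U.ty e j) + 1)
    {n : ℕ} {x y : (U.sys m Q g q D).LT} {d : (U.sys m Q g q D).C}
    (h : (U.sys m Q g q D).Near n x y d) (hx : u x.1 = 0) (hn : n ≤ L) :
    d = 0 ∧ u y.1 ≤ n := by
  induction h with
  | refl n x => exact ⟨rfl, by rw [hx]; exact Nat.zero_le _⟩
  | @step n x d p i j hnear ih =>
    obtain ⟨hd, hu⟩ := ih hx (by omega)
    have hu' : u (U.ty p.1 i) ≤ n := hu
    have hz := h1 p.1 i (by omega)
    have hs : ∀ k, (U.sys m Q g q D).sh p.1 k = 0 := by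
      intro k
      obtain ⟨ha, hb⟩ := hz k
      change tshift q (U.shb p.1 k) (U.shg p.1 k) = 0
      rw [ha, hb]
      ext <;> simp [tshift]
    refine ⟨?_, ?_⟩
    · rw [hs, hs, hd]
      simp
    · have := h2 p.1 j i
      change u (U.ty p.1 j) ≤ n + 1
      omega

theorem TUSys.sys_ok {J κ : ℕ} (U : TUSys J κ) (m : ℕ) (hU : U.OK (200 * (m + 2))) (hm : 6 * κ + 2 < m)
    (Q : Type) [Group Q] [Fintype Q] [DecidableEq Q] (g : U.E → Fin 3 → Q)
    (hg : ∀ w : FreeGroup (U.E × Fin 3), w ≠ 1 → w.norm ≤ 200 * (m + 2) →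
      FreeGroup.lift (fun p : U.E × Fin 3 => g p.1 p.2) w ≠ 1)
    (q : ℕ) [Fact q.Prime] (hq : m ≤ q) (D : (Fin J → ZMod q) → Prop) : (U.sys m Q g q D).OK where
  pres_iff := fun l e c => Iff.rfl
  grp := hg
  code := by
    refine ⟨κ, hm, ?_⟩
    intro c hc
    by_cases hc1 : c.1 = 0
    · have hc2 : c.2 ≠ 0 := by
        intro h
        exact hc (Prod.ext hc1 h)
      refine le_trans (Finset.card_le_card ?_) (le_trans (rs_code q κ m hq c.2 hc2)
        (Nat.sub_le κ 1))
      intro l hl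
      have hl2 := (Finset.mem_filter.mp hl).2
      exact Finset.mem_filter.mpr ⟨Finset.mem_univ _, congrArg Prod.snd hl2⟩
    · refine le_trans (le_of_eq ?_) (Nat.zero_le κ)
      rw [Finset.card_eq_zero, Finset.filter_eq_empty_iff]
      intro l _ hl
      exact hc1 (congrArg Prod.fst hl)
  fin_out := by
    intro e i h
    obtain ⟨h1, h2, h3, h4⟩ := hU.fin_out e i h
    refine ⟨h1, h2, ?_⟩
    change tshift q (U.shb e 0) (U.shg e 0) = tshift q (U.shb e 1) (U.shg e 1)
    rw [h3, h4]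
  start_ne := hU.start_ne
  iso := by
    obtain ⟨u, hu1, hu2, h1, h2⟩ := hU.iso
    intro n hn s x d h
    refine (TUSys.near_aux U m Q g q D _ u h1 h2 h ?_ hn).1
    cases s with
    | none => exact hu2
    | some t => exact hu1
  lam_inj := by
    intro a b hab
    have h : (Fintype.equivFin (ROKind U.T U.E Q m) a).val + 2 =
      (Fintype.equivFin (ROKind U.T U.E Q m) b).val + 2 := hab
    exact (Fintype.equivFin (ROKind U.T U.E Q m)).injective (Fin.ext (by omega))
  two_le_lam := by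
    intro o
    exact Nat.le_add_left 2 _
  lam_le := by
    intro o
    have h := (Fintype.equivFin (ROKind U.T U.E Q m) o).isLt
    change (Fintype.equivFin (ROKind U.T U.E Q m) o).val + 2 ≤
      Fintype.card (ROKind U.T U.E Q m) + 2
    omega

end Vale.Agent.P310
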