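import Vale.Agent.P310.Core
import Vale.Agent.P310.Group
import Vale.Agent.P310.TSysOK
import Vale.Agent.P310.TCompile
import Vale.Agent.P310.THornU

/-!
P310, Level B, table version: assembly of Levels A and B.
-/

namespace Vale.Agent.P310

open scoped BigOperators

theorem tlevelB {J ρ v : ℕ} (hJ : J ≤ ρ) (Pg : TProg J ρ v) (m : ℕ) (hm : 6 * (ρ + v) + 2 < m) :
    ∃ (U : TUSys J (ρ + v)) (Q : Type) (_ : Group Q) (_ : Fintype Q) (_ : DecidableEq Q)
      (g : U.E → Fin 3 → Q), (∀ e i j, g e i = g e j → i = j) ∧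
      ∀ (q : ℕ) [Fact q.Prime] (D : (Fin J → ZMod q) → Prop), m ≤ q → (U.sys m Q g q D).OK ∧
      ∀ {KK : Type} [Fintype KK] (em : (U.sys m Q g q D).Kind ↪ KK),
        WLEquiv (m + 1) ((U.sys m Q g q D).gr false em) ((U.sys m Q g q D).gr true em) ↔
          ¬ ∃ y, Pg.Holds hJ q D Pg.goal y := by
  obtain ⟨H, hH⟩ := Pg.exists_horn hJ
  obtain ⟨U, hU, hUH⟩ := H.exists_usys (200 * (m + 2))
  obtain ⟨Q, i1, i2, i3, g, hg⟩ := exists_group (U.E × Fin 3) (200 * (m + 2))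
  refine ⟨U, Q, i1, i2, i3, fun e i => g (e, i), ?_, ?_⟩
  · intro e i j h
    obtain ⟨q, hmq, hq⟩ := Nat.exists_infinite_primes m
    haveI : Fact q.Prime := ⟨hq⟩
    have hOK := U.sys_ok m hU hm Q (fun e i => g (e, i)) hg q hmq (fun _ => True)
    exact Sys.g_inj hOK e i j h
  · intro q hq D hmq
    have hOK := U.sys_ok m hU hm Q (fun e i => g (e, i)) hg q hmq D
    refine ⟨hOK, ?_⟩
    intro KK _ em
    have h1 := Sys.core hOK em
    have h2 : (U.sys m Q (fun e i => g (e, i)) q D).Der U.fin 0 ↔ H.Der q D H.goal 0 :=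
      hUH m Q (fun e i => g (e, i)) q D
    have h3 := hH q D
    rw [← h3, ← h2]
    exact h1

end Vale.Agent.P310
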