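import Vale.Agent.P310.TDefs

/-!
P310, Level C: the arcs of the graphs of a uniform system (table version) in closed form. Between
two kinds there is an arc from `a` to `a'` iff `a' = a + δ` and a condition on `a` holds, where `δ`
and the condition depend only on the two kinds, and not on the table.
-/

namespace Vale.Agent.P310

open scoped BigOperators

/-- The arcs as an explicit disjunction. -/
theorem Sys.arc_iff (S : Sys) (hh : Bool) (k : S.Kind) (a : S.A) (k' : S.Kind) (a' : S.A) :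
    S.Arc hh k a k' a' ↔
      (∃ (p : S.E × S.Q) (l : Fin S.m) (f : Fin 3 → ZMod 2) (i : Fin 3),
        k = .base (.eqn p l f) ∧ k' = .base (.var (S.lt p i) l (f i)) ∧ ∑ i, f i = 0 ∧
          S.presA p.1 a ∧ a' = a + S.φ l (S.sh p.1 i)) ∨
      (∃ (s : S.Spc) (f : Fin S.m → ZMod 2) (l : Fin S.m),
        k = .base (.spc s f) ∧ k' = .base (.var (S.spt s) l (f l)) ∧ ∑ l, f l = S.tw hh s ∧
          a = 0 ∧ a' = 0) ∨
      (∃ (κ : S.Kind0) (j : Fin S.Lam), k = .base κ ∧ k' = .leaf κ j ∧ j.val < S.lam κ.ok ∧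
        a' = a) := by
  constructor
  · intro h
    cases h with
    | eqn p l f a i h1 h2 => exact Or.inl ⟨p, l, f, i, rfl, rfl, h2, h1, rfl⟩
    | spc s f l h1 => exact Or.inr (Or.inl ⟨s, f, l, rfl, rfl, h1, rfl, rfl⟩)
    | leaf κ j a h1 => exact Or.inr (Or.inr ⟨κ, j, rfl, rfl, h1, rfl⟩)
  · rintro (⟨p, l, f, i, rfl, rfl, h2, h1, rfl⟩ | ⟨s, f, l, rfl, rfl, h1, rfl, rfl⟩ |
      ⟨κ, j, rfl, rfl, h1, rfl⟩)
    · exact .eqn p l f a i h1 h2
    · exact .spc s f l h1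
    · exact .leaf κ j _ h1

/-- conditions on the second component of a vertex -/
inductive TPC : Type
  | never
  | zero
  | all
  | tab
  | ntab
  deriving DecidableEq

/-- the digit values of a table system -/
abbrev TA (J q : ℕ) := (Fin J → ZMod q) × ZMod q

/-- meaning of a condition; `D` is the table -/
def TPC.holds {J q : ℕ} (D : (Fin J → ZMod q) → Prop) : TPC → TA J q → Prop
  | .never, _ => False
  | .zero, a => a = 0
  | .all, _ => True
  | .tab, a => D a.1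
  | .ntab, a => ¬ D a.1

/-- condition of a presence condition -/
def TPC.ofCnd : TCnd → TPC
  | .all => .all
  | .tab => .tab
  | .ntab => .ntab

theorem TPC.holds_ofCnd {J q : ℕ} (D : (Fin J → ZMod q) → Prop) (c : TCnd) (a : TA J q) :
    (TPC.ofCnd c).holds D a ↔ c.holds D a.1 := by
  cases c <;> rfl

/-- number of leaf indices of a table system -/
noncomputable abbrev TUSys.lamB {J κ : ℕ} (U : TUSys J κ) (m : ℕ) (Q : Type) [Fintype Q] : ℕ :=
  Fintype.card (ROKind U.T U.E Q m) + 2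

/-- kinds of the vertices of a table system; they depend neither on the field nor on the table -/
abbrev TUSys.K {J κ : ℕ} (U : TUSys J κ) (m : ℕ) (Q : Type) [Fintype Q] : Type :=
  RKind U.T U.E Q m (U.lamB m Q)

section

variable {J κ : ℕ} (U : TUSys J κ) (m : ℕ) (Q : Type) [Group Q] [Fintype Q] [DecidableEq Q]
  (g : U.E → Fin 3 → Q) (q : ℕ) [NeZero q]

/-- arcs of the graph `hh` for the table `D` -/
def TUSys.arc (D : (Fin J → ZMod q) → Prop) (hh : Bool) (k : U.K m Q) (a : TA J q) (k' : U.K m Q)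
    (a' : TA J q) : Prop :=
  (U.sys m Q g q D).Arc hh k a k' a'

/-- lifted type of a special equation -/
def TUSys.spt1 (s : Option Q) : U.T × Q :=
  match s with
  | some h => (U.start, h)
  | none => (U.fin, 1)

/-- right hand side of a special equation -/
def tw1 (hh : Bool) : Option Q → ZMod 2
  | some _ => 0
  | none => if hh then 1 else 0

/-- first kind of arc -/
def TUSys.P1 (k k' : U.K m Q) (p : U.E × Q) (l : Fin m) (i : Fin 3) : Prop :=
  ∃ (f : Fin 3 → ZMod 2),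
    k = .base (.eqn p l f) ∧ k' = .base (.var (U.ty p.1 i, p.2 * g p.1 i) l (f i)) ∧ ∑ i, f i = 0

/-- second kind of arc -/
def TUSys.P2 (hh : Bool) (k k' : U.K m Q) : Prop :=
  ∃ (s : Option Q) (f : Fin m → ZMod 2) (l : Fin m),
    k = .base (.spc s f) ∧ k' = .base (.var (U.spt1 Q s) l (f l)) ∧ ∑ l, f l = tw1 Q hh s

/-- number of leaves of a vertex of a given kind -/
noncomputable def TUSys.lam1 (o : ROKind U.T U.E Q m) : ℕ :=
  (Fintype.equivFin (ROKind U.T U.E Q m) o).val + 2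

/-- third kind of arc -/
def TUSys.P3 (k k' : U.K m Q) : Prop :=
  ∃ (κ : RKind0 U.T U.E Q m) (j : Fin (U.lamB m Q)), k = .base κ ∧ k' = .leaf κ j ∧
    j.val < U.lam1 m Q κ.ok

theorem tarc_iff (D : (Fin J → ZMod q) → Prop) (hh : Bool) (k : U.K m Q) (a : TA J q)
    (k' : U.K m Q) (a' : TA J q) : U.arc m Q g q D hh k a k' a' ↔
      (∃ p l i, U.P1 m Q g k k' p l i ∧ (U.cnd p.1).holds D a.1 ∧
        a' = a + tdigit J κ m q l (tshift q (U.shb p.1 i) (U.shg p.1 i))) ∨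
      (U.P2 m Q hh k k' ∧ a = 0 ∧ a' = 0) ∨ (U.P3 m Q k k' ∧ a' = a) := by
  have hspt : ∀ s, (U.sys m Q g q D).spt s = U.spt1 Q s := by
    intro s
    cases s <;> rfl
  have htw : ∀ s, (U.sys m Q g q D).tw hh s = tw1 Q hh s := by
    intro s
    cases s <;> rfl
  refine (Sys.arc_iff (U.sys m Q g q D) hh k a k' a').trans ?_
  constructor
  · rintro (⟨p, l, f, i, h1, h2, h3, h4, h5⟩ | ⟨s, f, l, h1, h2, h3, h4, h5⟩ |
      ⟨κ, j, h1, h2, h3, h4⟩)
    · exact Or.inl ⟨p, l, i, ⟨f, h1, h2, h3⟩, h4, h5⟩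
    · refine Or.inr (Or.inl ⟨⟨s, f, l, h1, ?_, h3.trans (htw s)⟩, h4, h5⟩)
      rw [← hspt s]
      exact h2
    · exact Or.inr (Or.inr ⟨⟨κ, j, h1, h2, h3⟩, h4⟩)
  · rintro (⟨p, l, i, ⟨f, h1, h2, h3⟩, h4, h5⟩ | ⟨⟨s, f, l, h1, h2, h3⟩, h4, h5⟩ |
      ⟨⟨κ, j, h1, h2, h3⟩, h4⟩)
    · exact Or.inl ⟨p, l, f, i, h1, h2, h3, h4, h5⟩
    · refine Or.inr (Or.inl ⟨s, f, l, h1, ?_, h3.trans (htw s).symm, h4, h5⟩)
      rw [hspt s]
      exact h2
    · exact Or.inr (Or.inr ⟨κ, j, h1, h2, h3, h4⟩)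

omit [DecidableEq Q] in
theorem P1_unique (hg : ∀ e i j, g e i = g e j → i = j) {k k' : U.K m Q} {p p' : U.E × Q}
    {l l' : Fin m} {i i' : Fin 3} (h : U.P1 m Q g k k' p l i) (h' : U.P1 m Q g k k' p' l' i') :
    p = p' ∧ l = l' ∧ i = i' := by
  obtain ⟨f, h1, h2, _⟩ := h
  obtain ⟨f', h1', h2', _⟩ := h'
  rw [h1] at h1'
  rw [h2] at h2'
  simp only [RKind.base.injEq, RKind0.eqn.injEq, RKind0.var.injEq, Prod.mk.injEq] at h1' h2'
  obtain ⟨rfl, rfl, rfl⟩ := h1'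
  exact ⟨rfl, rfl, hg p.1 i i' (mul_left_cancel h2'.1.2)⟩

theorem tarc_form1 (hg : ∀ e i j, g e i = g e j → i = j) (k k' : U.K m Q) :
    ∃ δ : TA J q, ∀ hh, ∃ π : TPC, ∀ D a a', U.arc m Q g q D hh k a k' a' ↔
      π.holds D a ∧ a' = a + δ := by
  classical
  by_cases hP1 : ∃ p l i, U.P1 m Q g k k' p l i
  · obtain ⟨p, l, i, h⟩ := hP1
    refine ⟨tdigit J κ m q l (tshift q (U.shb p.1 i) (U.shg p.1 i)), fun hh =>
      ⟨TPC.ofCnd (U.cnd p.1), fun D a a' => ?_⟩⟩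
    rw [tarc_iff, TPC.holds_ofCnd]
    constructor
    · rintro (⟨p', l', i', h', h4, h5⟩ | ⟨⟨s, f, l, h1, h2, h3⟩, h4, h5⟩ |
        ⟨⟨κ, j, h1, h2, h3⟩, h4⟩)
      · obtain ⟨rfl, rfl, rfl⟩ := P1_unique U m Q g hg h h'
        exact ⟨h4, h5⟩
      · obtain ⟨f, h1', _⟩ := h
        rw [h1'] at h1
        simp at h1
      · obtain ⟨f, _, h2', _⟩ := h
        rw [h2'] at h2
        simp at h2
    · rintro ⟨h1, h2⟩
      exact Or.inl ⟨p, l, i, h, h1, h2⟩
  · by_cases hP3 : U.P3 m Q k k'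
    · refine ⟨0, fun hh => ⟨.all, fun D a a' => ?_⟩⟩
      rw [tarc_iff]
      constructor
      · rintro (⟨p', l', i', h', h4, h5⟩ | ⟨⟨s, f, l, h1, h2, h3⟩, h4, h5⟩ | ⟨_, h4⟩)
        · exact absurd ⟨p', l', i', h'⟩ hP1
        · exact ⟨trivial, by rw [h4, h5, add_zero]⟩
        · exact ⟨trivial, by rw [h4, add_zero]⟩
      · rintro ⟨_, h2⟩
        exact Or.inr (Or.inr ⟨hP3, by rw [h2, add_zero]⟩)
    · refine ⟨0, fun hh => ?_⟩
      by_cases hP2 : U.P2 m Q hh k k'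
      · refine ⟨.zero, fun D a a' => ?_⟩
        rw [tarc_iff]
        constructor
        · rintro (⟨p', l', i', h', h4, h5⟩ | ⟨_, h4, h5⟩ | ⟨h3, h4⟩)
          · exact absurd ⟨p', l', i', h'⟩ hP1
          · exact ⟨h4, by rw [h4, h5, add_zero]⟩
          · exact absurd h3 hP3
        · rintro ⟨h1, h2⟩
          have h1' : a = 0 := h1
          exact Or.inr (Or.inl ⟨hP2, h1', by rw [h2, h1', add_zero]⟩)
      · refine ⟨.never, fun D a a' => ?_⟩
        rw [tarc_iff]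
        constructor
        · rintro (⟨p', l', i', h', h4, h5⟩ | ⟨h3, h4, h5⟩ | ⟨h3, h4⟩)
          · exact absurd ⟨p', l', i', h'⟩ hP1
          · exact absurd h3 hP2
          · exact absurd h3 hP3
        · rintro ⟨h1, _⟩
          exact h1.elim

/-- Closed form of the arcs. -/
theorem exists_tarc_form (hg : ∀ e i j, g e i = g e j → i = j) :
    ∃ (δ : U.K m Q → U.K m Q → TA J q) (π : Bool → U.K m Q → U.K m Q → TPC),
      ∀ D hh k k' a a', U.arc m Q g q D hh k a k' a' ↔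
        (π hh k k').holds D a ∧ a' = a + δ k k' := by
  choose δ h using tarc_form1 U m Q g q hg
  choose π h using h
  exact ⟨δ, fun hh κ κ' => π κ κ' hh, fun D hh κ κ' a a' => h κ κ' hh D a a'⟩

end

end Vale.Agent.P310
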