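import Mathlib

/-!
P310, Level C: vectors of digits in base `q` and their successor.
-/

namespace Vale.Agent.P310

open scoped BigOperators

/-- the number with base `q` digits `x`; digit `0` is the least significant one -/
def num (q : ℕ) {R : ℕ} (x : Fin R → ZMod q) : ℕ := ∑ i, (x i).val * q ^ i.val

theorem num_succ_eq (q : ℕ) {R : ℕ} (x : Fin (R + 1) → ZMod q) :
    num q x = (x 0).val + q * num q (fun i : Fin R => x i.succ) := by
  unfold num
  rw [Fin.sum_univ_succ, Finset.mul_sum]
  congr 1
  · simp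
  · refine Finset.sum_congr rfl fun i _ => ?_
    simp only [Fin.val_succ, pow_succ]
    ring

theorem num_fin_zero (q : ℕ) (x : Fin 0 → ZMod q) : num q x = 0 := by
  simp [num]

theorem num_lt (q : ℕ) [NeZero q] {R : ℕ} (x : Fin R → ZMod q) : num q x < q ^ R := by
  induction R with
  | zero => simp [num]
  | succ R ih =>
    rw [num_succ_eq]
    have h1 := ih (fun i => x i.succ)
    have h2 := ZMod.val_lt (x 0)
    have h3 : q * (num q (fun i : Fin R => x i.succ) + 1) ≤ q * q ^ R :=
      Nat.mul_le_mul_left _ h1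
    rw [pow_succ, mul_comm (q ^ R) q]
    have h4 : q * (num q (fun i : Fin R => x i.succ) + 1) =
      q * num q (fun i : Fin R => x i.succ) + q := by ring
    omega

/-- comparison of a two-part base `q` expansion -/
theorem digit_unique {q a b u v : ℕ} (ha : a < q) (hb : b < q) (h : a + q * u = b + q * v) :
    a = b ∧ u = v := by
  have hq : 0 < q := by omega
  have h1 : (a + q * u) % q = (b + q * v) % q := by rw [h]
  rw [Nat.add_mul_mod_self_left, Nat.add_mul_mod_self_left, Nat.mod_eq_of_lt ha,
    Nat.mod_eq_of_lt hb] at h1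
  subst h1
  refine ⟨rfl, ?_⟩
  have h2 : q * u = q * v := by omega
  exact Nat.eq_of_mul_eq_mul_left hq h2

theorem num_injective (q : ℕ) [NeZero q] {R : ℕ} : Function.Injective (num q : (Fin R → ZMod q) → ℕ) := by
  induction R with
  | zero =>
    intro x y _
    exact Subsingleton.elim _ _
  | succ R ih =>
    intro x y h
    rw [num_succ_eq, num_succ_eq] at h
    obtain ⟨h1, h2⟩ := digit_unique (ZMod.val_lt _) (ZMod.val_lt _) h
    have h3 := ih h2
    funext i
    refine Fin.cases ?_ (fun j => ?_) i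
    · exact ZMod.val_injective q h1
    · exact congrFun h3 j

theorem exists_num (q : ℕ) [NeZero q] {R : ℕ} (n : ℕ) (hn : n < q ^ R) :
    ∃ x : Fin R → ZMod q, num q x = n := by
  induction R generalizing n with
  | zero =>
    refine ⟨fun i => i.elim0, ?_⟩
    rw [num_fin_zero]
    simp at hn
    omega
  | succ R ih =>
    have hq : 0 < q := Nat.pos_of_ne_zero (NeZero.ne q)
    have h1 : n / q < q ^ R := by
      rw [Nat.div_lt_iff_lt_mul hq, ← pow_succ]
      exact hn
    obtain ⟨x, hx⟩ := ih (n / q) h1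
    refine ⟨Fin.cons ((n % q : ℕ) : ZMod q) x, ?_⟩
    rw [num_succ_eq]
    simp only [Fin.cons_zero, Fin.cons_succ]
    have h2 : num q (fun i : Fin R => x i) = n / q := hx
    rw [h2, ZMod.val_natCast, Nat.mod_mod]
    exact Nat.mod_add_div n q

theorem num_surj (q : ℕ) [NeZero q] {R : ℕ} (n : ℕ) : n < q ^ R ↔
    ∃ x : Fin R → ZMod q, num q x = n :=
  ⟨exists_num q n, by rintro ⟨x, rfl⟩; exact num_lt q x⟩

theorem num_zero (q : ℕ) {R : ℕ} : num q (0 : Fin R → ZMod q) = 0 := by
  simp [num]

theorem num_eq_zero_iff (q : ℕ) [NeZero q] {R : ℕ} (x : Fin R → ZMod q) :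
    num q x = 0 ↔ x = 0 := by
  rw [← num_zero q (R := R)]
  exact (num_injective q).eq_iff

/-- `y` is the successor of `x`, the carry stopping at the digit `j` -/
def SuccAt {q R : ℕ} (j : Fin R) (x y : Fin R → ZMod q) : Prop :=
  (∀ i, i < j → x i + 1 = 0 ∧ y i = 0) ∧ (x j + 1 ≠ 0 ∧ y j = x j + 1) ∧ ∀ i, j < i → y i = x i

theorem val_add_one_eq (q : ℕ) [NeZero q] (a : ZMod q) (h : a + 1 ≠ 0) :
    (a + 1).val = a.val + 1 := by
  have h1 := ZMod.val_lt a
  by_cases h2 : a.val + 1 < q
  · have h3 : ((a.val + 1 : ℕ) : ZMod q) = a + 1 := by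
      push_cast
      rw [ZMod.natCast_zmod_val]
    rw [← h3, ZMod.val_natCast, Nat.mod_eq_of_lt h2]
  · exfalso
    apply h
    have h3 : a.val + 1 = q := by omega
    have h4 : ((a.val + 1 : ℕ) : ZMod q) = a + 1 := by
      push_cast
      rw [ZMod.natCast_zmod_val]
    rw [← h4, h3, ZMod.natCast_self]

theorem val_of_add_one_eq_zero (q : ℕ) [NeZero q] (a : ZMod q) (h : a + 1 = 0) :
    a.val + 1 = q := by
  have h1 := ZMod.val_lt a
  by_contra h2
  have h3 : a.val + 1 < q := by omega
  have h4 : ((a.val + 1 : ℕ) : ZMod q) = a + 1 := by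
    push_cast
    rw [ZMod.natCast_zmod_val]
  rw [h] at h4
  have h5 := congrArg ZMod.val h4
  rw [ZMod.val_natCast, Nat.mod_eq_of_lt h3, ZMod.val_zero] at h5
  omega

theorem succAt_zero_iff {q R : ℕ} (x y : Fin (R + 1) → ZMod q) :
    SuccAt 0 x y ↔ (x 0 + 1 ≠ 0 ∧ y 0 = x 0 + 1) ∧
      (fun i : Fin R => y i.succ) = fun i : Fin R => x i.succ := by
  constructor
  · rintro ⟨_, h2, h3⟩
    exact ⟨h2, funext fun i => h3 _ (Fin.succ_pos i)⟩
  · rintro ⟨h1, h2⟩
    refine ⟨fun i hi => absurd hi (Fin.not_lt_zero i), h1, fun i hi => ?_⟩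
    obtain ⟨j, rfl⟩ := Fin.exists_succ_eq.mpr hi.ne'
    exact congrFun h2 j

theorem succAt_succ_iff {q R : ℕ} (j : Fin R) (x y : Fin (R + 1) → ZMod q) :
    SuccAt j.succ x y ↔ (x 0 + 1 = 0 ∧ y 0 = 0) ∧
      SuccAt j (fun i : Fin R => x i.succ) (fun i : Fin R => y i.succ) := by
  constructor
  · rintro ⟨h1, h2, h3⟩
    exact ⟨h1 0 (Fin.succ_pos j), fun i hi => h1 i.succ (Fin.succ_lt_succ_iff.mpr hi), h2,
      fun i hi => h3 i.succ (Fin.succ_lt_succ_iff.mpr hi)⟩
  · rintro ⟨h0, h1, h2, h3⟩
    refine ⟨fun i hi => ?_, h2, fun i hi => ?_⟩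
    · revert hi
      refine Fin.cases (fun _ => h0) (fun i hi => ?_) i
      exact h1 i (Fin.succ_lt_succ_iff.mp hi)
    · revert hi
      refine Fin.cases (fun hi => absurd hi (Fin.not_lt_zero _)) (fun i hi => ?_) i
      exact h3 i (Fin.succ_lt_succ_iff.mp hi)

/-- The successor in terms of the digits. -/
theorem succ_iff (q : ℕ) [NeZero q] {R : ℕ} (x y : Fin R → ZMod q) :
    num q y = num q x + 1 ↔ ∃ j, SuccAt j x y := by
  induction R with
  | zero =>
    rw [num_fin_zero, num_fin_zero]
    constructor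
    · intro h
      omega
    · rintro ⟨j, _⟩
      exact j.elim0
  | succ R ih =>
    rw [num_succ_eq, num_succ_eq]
    have hx := ZMod.val_lt (x 0)
    have hy := ZMod.val_lt (y 0)
    have key : (∃ j, SuccAt j x y) ↔ ((x 0 + 1 ≠ 0 ∧ y 0 = x 0 + 1) ∧
        (fun i : Fin R => y i.succ) = fun i : Fin R => x i.succ) ∨ ((x 0 + 1 = 0 ∧ y 0 = 0) ∧
        num q (fun i : Fin R => y i.succ) = num q (fun i : Fin R => x i.succ) + 1) := by
      rw [ih, Fin.exists_fin_succ, succAt_zero_iff]
      simp only [succAt_succ_iff, exists_and_left]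
    rw [key]
    by_cases h0 : x 0 + 1 = 0
    · have h1 := val_of_add_one_eq_zero q _ h0
      constructor
      · intro h
        right
        have h2 : (y 0).val + q * num q (fun i : Fin R => y i.succ) =
            0 + q * (num q (fun i : Fin R => x i.succ) + 1) := by
          rw [h]
          ring_nf
          omega
        obtain ⟨h3, h4⟩ := digit_unique hy (Nat.pos_of_ne_zero (NeZero.ne q)) h2
        exact ⟨⟨h0, (ZMod.val_eq_zero _).mp h3⟩, h4⟩
      · rintro (⟨⟨h2, _⟩, _⟩ | ⟨⟨_, h2⟩, h3⟩)
        · exact absurd h0 h2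
        · rw [h2, h3, ZMod.val_zero]
          have : q * (num q (fun i : Fin R => x i.succ) + 1) =
            q * num q (fun i : Fin R => x i.succ) + q := by ring
          omega
    · have h1 := val_add_one_eq q _ h0
      constructor
      · intro h
        left
        have h2 : (y 0).val + q * num q (fun i : Fin R => y i.succ) =
            (x 0 + 1).val + q * num q (fun i : Fin R => x i.succ) := by
          rw [h, h1]
          ring
        obtain ⟨h3, h4⟩ := digit_unique hy (ZMod.val_lt _) h2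
        exact ⟨⟨h0, ZMod.val_injective q h3⟩, num_injective q h4⟩
      · rintro (⟨⟨_, h2⟩, h3⟩ | ⟨⟨h2, _⟩, _⟩)
        · rw [h3, h2, h1]
          ring
        · exact absurd h2 h0

/-- the vector is the last one -/
theorem num_add_one_eq_iff (q : ℕ) [NeZero q] {R : ℕ} (x : Fin R → ZMod q) :
    num q x + 1 = q ^ R ↔ ∀ i, x i + 1 = 0 := by
  induction R with
  | zero => simp [num_fin_zero]
  | succ R ih =>
    rw [Fin.forall_fin_succ, ← ih, num_succ_eq, pow_succ]
    have hx := ZMod.val_lt (x 0)
    have hn := num_lt q (fun i : Fin R => x i.succ)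
    have hq : 0 < q := Nat.pos_of_ne_zero (NeZero.ne q)
    constructor
    · intro h
      have h2 : ((x 0).val) + q * num q (fun i : Fin R => x i.succ) =
          (q - 1) + q * (q ^ R - 1) := by
        have e1 : q * (q ^ R - 1) + q = q ^ R * q := by
          have : 1 ≤ q ^ R := Nat.one_le_pow _ _ hq
          calc q * (q ^ R - 1) + q = q * ((q ^ R - 1) + 1) := by ring
            _ = q * q ^ R := by rw [Nat.sub_add_cancel this]
            _ = q ^ R * q := mul_comm _ _
        omega
      obtain ⟨h3, h4⟩ := digit_unique hx (by omega) h2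
      constructor
      · by_contra h5
        have h6 := val_add_one_eq q _ h5
        have h7 := ZMod.val_lt (x 0 + 1)
        omega
      · rw [h4]
        have : 1 ≤ q ^ R := Nat.one_le_pow _ _ hq
        omega
    · rintro ⟨h1, h2⟩
      have h3 := val_of_add_one_eq_zero q _ h1
      calc (x 0).val + q * num q (fun i : Fin R => x i.succ) + 1
          = ((x 0).val + 1) + q * num q (fun i : Fin R => x i.succ) := by ring
        _ = q * (num q (fun i : Fin R => x i.succ) + 1) := by rw [h3]; ring
        _ = q ^ R * q := by rw [h2]; ring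

theorem num_append (q : ℕ) {R S : ℕ} (x : Fin R → ZMod q) (y : Fin S → ZMod q) :
    num q (Fin.append x y) = num q x + q ^ R * num q y := by
  unfold num
  rw [Fin.sum_univ_add, Finset.mul_sum]
  congr 1
  · refine Finset.sum_congr rfl fun i _ => ?_
    simp
  · refine Finset.sum_congr rfl fun i _ => ?_
    simp only [Fin.append_right, Fin.val_natAdd, pow_add]
    ring

theorem num_cons (q : ℕ) {R : ℕ} (a : ZMod q) (x : Fin R → ZMod q) :
    num q (Fin.cons a x : Fin (R + 1) → ZMod q) = a.val + q * num q x := by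
  rw [num_succ_eq]
  simp

end Vale.Agent.P310
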