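import Vale.Agent.P310.Guard
import Vale.Agent.P310.Vec
import Vale.Agent.P310.TArc

/-!
P310, Level C: guards over table literals. A table literal is `(s, a)` with `a : Fin 5 → τ` five
terms; it is true iff (the table holds at the values of the five terms) has the truth value `s`.
Everything is generic in the type `τ` of terms, with constants `cst` and a successor `sc`.
-/

namespace Vale.Agent.P310

open scoped BigOperators

/-! ### Tables from relations -/

/-- the table whose first coordinate is a tag and which is the relation `rels c` on the last four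
coordinates for the tag `c` -/
def tabOf {q N : ℕ} (rels : Fin N → (Fin 4 → ZMod q) → Prop) (b : Fin 5 → ZMod q) : Prop :=
  ∃ c : Fin N, b 0 = (c.val : ZMod q) ∧ rels c (fun i => b i.succ)

theorem tabOf_iff {q N : ℕ} (hN : N ≤ q) (rels : Fin N → (Fin 4 → ZMod q) → Prop) (c : Fin N)
    (b : Fin 5 → ZMod q) (hb : b 0 = (c.val : ZMod q)) :
    tabOf rels b ↔ rels c (fun i => b i.succ) := by
  constructor
  · rintro ⟨c', h1, h2⟩
    rw [hb] at h1
    have h3 : c.val % q = c'.val % q := (ZMod.natCast_eq_natCast_iff' _ _ _).mp h1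
    rw [Nat.mod_eq_of_lt (c.2.trans_le hN), Nat.mod_eq_of_lt (c'.2.trans_le hN)] at h3
    rwa [Fin.ext h3]
  · intro h
    exact ⟨c, hb, h⟩

namespace TG

variable {τ : Type} (cst : ℕ → τ) (sc : τ → τ)

/-- table literals -/
abbrev Lit (τ : Type) := Bool × (Fin 5 → τ)

/-- truth of a literal -/
def lh {q : ℕ} (D : (Fin 5 → ZMod q) → Prop) (ev : τ → ZMod q) (l : Lit τ) : Prop :=
  D (fun j => ev (l.2 j)) ↔ l.1 = true

/-- complement of a literal -/
def cl (l : Lit τ) : Lit τ := (!l.1, l.2)

theorem lh_cl {q : ℕ} (D : (Fin 5 → ZMod q) → Prop) (ev : τ → ZMod q) (l : Lit τ) :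
    lh D ev (cl l) ↔ ¬ lh D ev l := by
  obtain ⟨s, a⟩ := l
  unfold lh cl
  cases s <;> simp

/-- the literal `rel c (x, y, z, t)` -/
def rl (s : Bool) (c : ℕ) (x y z t : τ) : Gd (Lit τ) := .lit (s, ![cst c, x, y, z, t])

/-- equality: tag `0` -/
def eqG (a b : τ) : Gd (Lit τ) := rl cst true 0 a b (cst 0) (cst 0)

/-- inequality -/
def neG (a b : τ) : Gd (Lit τ) := rl cst false 0 a b (cst 0) (cst 0)

/-- equality of vectors -/
def eqV {R : ℕ} (x y : Fin R → τ) : Gd (Lit τ) := .all fun i => eqG cst (x i) (y i)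

/-- inequality of vectors -/
def neV {R : ℕ} (x y : Fin R → τ) : Gd (Lit τ) := .any fun i => neG cst (x i) (y i)

/-- successor of a vector, with the carry stopping at `j` -/
def saG {R : ℕ} (j : Fin R) (x y : Fin R → τ) : Gd (Lit τ) :=
  .all fun i => if i < j then .and (eqG cst (sc (x i)) (cst 0)) (eqG cst (y i) (cst 0))
    else if i = j then .and (neG cst (sc (x i)) (cst 0)) (eqG cst (y i) (sc (x i)))
    else eqG cst (y i) (x i)

/-- successor of a vector -/
def suG {R : ℕ} (x y : Fin R → τ) : Gd (Lit τ) := .any fun j => saG cst sc j x y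

section sem

variable {q : ℕ} (D : (Fin 5 → ZMod q) → Prop) (ev : τ → ZMod q)
  (hc : ∀ n, ev (cst n) = (n : ZMod q)) (hs : ∀ t, ev (sc t) = ev t + 1)

include hc in
theorem ev_vec (c : ℕ) (x y z t : τ) : (fun j => ev ((![cst c, x, y, z, t] : Fin 5 → τ) j)) =
    (![(c : ZMod q), ev x, ev y, ev z, ev t] : Fin 5 → ZMod q) := by
  funext j
  fin_cases j
  · exact hc c
  all_goals rfl

include hc in
theorem holds_rl (s : Bool) (c : ℕ) (x y z t : τ) :
    (rl cst s c x y z t).holds (lh D ev) ↔
      (D ![(c : ZMod q), ev x, ev y, ev z, ev t] ↔ s = true) := by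
  change (D (fun j => ev ((![cst c, x, y, z, t] : Fin 5 → τ) j)) ↔ s = true) ↔ _
  rw [ev_vec cst ev hc]

variable (hD : ∀ x y z t : ZMod q, D ![(0 : ZMod q), x, y, z, t] ↔ x = y)

include hc hD

theorem holds_eqG (a b : τ) : (eqG cst a b).holds (lh D ev) ↔ ev a = ev b := by
  rw [eqG, holds_rl cst D ev hc]
  rw [Nat.cast_zero, hD]
  simp

theorem holds_neG (a b : τ) : (neG cst a b).holds (lh D ev) ↔ ev a ≠ ev b := by
  rw [neG, holds_rl cst D ev hc]
  rw [Nat.cast_zero, hD]
  simp

theorem holds_eqV {R : ℕ} (x y : Fin R → τ) :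
    (eqV cst x y).holds (lh D ev) ↔ (fun i => ev (x i)) = fun i => ev (y i) := by
  rw [eqV, Gd.holds_all, funext_iff]
  exact forall_congr' fun i => holds_eqG cst D ev hc hD _ _

theorem holds_neV {R : ℕ} (x y : Fin R → τ) :
    (neV cst x y).holds (lh D ev) ↔ (fun i => ev (x i)) ≠ fun i => ev (y i) := by
  rw [neV, Gd.holds_any, Ne, funext_iff, not_forall]
  exact exists_congr fun i => holds_neG cst D ev hc hD _ _

include hs

theorem holds_saG {R : ℕ} (j : Fin R) (x y : Fin R → τ) :
    (saG cst sc j x y).holds (lh D ev) ↔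
      SuccAt j (fun i => ev (x i)) (fun i => ev (y i)) := by
  have hE := holds_eqG cst D ev hc hD
  have hN := holds_neG cst D ev hc hD
  rw [saG, Gd.holds_all]
  constructor
  · intro h
    refine ⟨fun i hi => ?_, ?_, fun i hi => ?_⟩
    · have h1 := h i
      rw [if_pos hi] at h1
      obtain ⟨h2, h3⟩ := h1
      have h4 := (hE _ _).mp h2
      have h5 := (hE _ _).mp h3
      rw [hs, hc, Nat.cast_zero] at h4
      rw [hc, Nat.cast_zero] at h5
      exact ⟨h4, h5⟩
    · have h1 := h j
      rw [if_neg (lt_irrefl j), if_pos rfl] at h1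
      obtain ⟨h2, h3⟩ := h1
      have h4 := (hN _ _).mp h2
      have h5 := (hE _ _).mp h3
      rw [hs, hc, Nat.cast_zero] at h4
      rw [hs] at h5
      exact ⟨h4, h5⟩
    · have h1 := h i
      rw [if_neg (not_lt.mpr hi.le), if_neg hi.ne'] at h1
      exact (hE _ _).mp h1
  · rintro ⟨h1, ⟨h2, h3⟩, h4⟩ i
    by_cases hi : i < j
    · rw [if_pos hi]
      refine ⟨(hE _ _).mpr ?_, (hE _ _).mpr ?_⟩
      · rw [hs, hc, Nat.cast_zero]
        exact (h1 i hi).1
      · rw [hc, Nat.cast_zero]
        exact (h1 i hi).2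
    · rw [if_neg hi]
      by_cases hij : i = j
      · subst hij
        rw [if_pos rfl]
        refine ⟨(hN _ _).mpr ?_, (hE _ _).mpr ?_⟩
        · rw [hs, hc, Nat.cast_zero]
          exact h2
        · rw [hs]
          exact h3
      · rw [if_neg hij]
        exact (hE _ _).mpr (h4 i (lt_of_le_of_ne (not_lt.mp hi) (Ne.symm hij)))

theorem holds_suG [NeZero q] {R : ℕ} (x y : Fin R → τ) :
    (suG cst sc x y).holds (lh D ev) ↔
      num q (fun i => ev (y i)) = num q (fun i => ev (x i)) + 1 := by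
  rw [suG, Gd.holds_any, succ_iff]
  exact exists_congr fun j => holds_saG cst sc D ev hc hs hD j x y

end sem

end TG

end Vale.Agent.P310
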