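import Vale.Agent.P310.TM
import Vale.Agent.P310.TGuard

/-!
P310, Level C [C2]: the graphs of a uniform system are given by a table.
-/

namespace Vale.Agent.P310

open scoped BigOperators

namespace TB

section

variable {κ : ℕ} (U : TUSys 5 κ) (m : ℕ) (Q : Type) [Fintype Q]
  (q : ℕ) (em : U.K m Q ↪ ZMod q)
  (δ : U.K m Q → U.K m Q → TA 5 q) (π : Bool → U.K m Q → U.K m Q → TPC)

open Classical in
/-- the shift between two kinds given by their indices -/
noncomputable def dl (x x' : ZMod q) : TA 5 q :=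
  if h : (∃ k, em k = x) ∧ ∃ k', em k' = x' then δ h.1.choose h.2.choose else 0

open Classical in
/-- the condition between two kinds given by their indices -/
noncomputable def pc (hh : Bool) (x x' : ZMod q) : TPC :=
  if h : (∃ k, em k = x) ∧ ∃ k', em k' = x' then π hh h.1.choose h.2.choose else .never

theorem dl_em (k k' : U.K m Q) : dl U m Q q em δ (em k) (em k') = δ k k' := by
  have h : (∃ l, em l = em k) ∧ ∃ l', em l' = em k' := ⟨⟨k, rfl⟩, ⟨k', rfl⟩⟩
  rw [dl, dif_pos h, em.injective h.1.choose_spec, em.injective h.2.choose_spec]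

theorem pc_em (hh : Bool) (k k' : U.K m Q) : pc U m Q q em π hh (em k) (em k') = π hh k k' := by
  have h : (∃ l, em l = em k) ∧ ∃ l', em l' = em k' := ⟨⟨k, rfl⟩, ⟨k', rfl⟩⟩
  rw [pc, dif_pos h, em.injective h.1.choose_spec, em.injective h.2.choose_spec]

theorem pc_ne (hh : Bool) (x x' : ZMod q) (h : pc U m Q q em π hh x x' ≠ .never) :
    ∃ k k', em k = x ∧ em k' = x' := by
  by_contra h'
  apply h
  rw [pc, dif_neg]
  rintro ⟨⟨k, h1⟩, k', h2⟩
  exact h' ⟨k, k', h1, h2⟩

/-- number of the condition -/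
def pcn : TPC → ℕ
  | .never => 4
  | .all => 0
  | .tab => 1
  | .ntab => 2
  | .zero => 3

/-- the relations of the table -/
noncomputable def rels (c : Fin 14) (y : Fin 4 → ZMod q) : Prop :=
  if c.val = 0 then y 0 = y 1
  else if c.val < 4 then False
  else if c.val < 8 then y 1 ≠ y 2 ∧
    ((y 0 = 0 ∧ pcn (pc U m Q q em π false (y 1) (y 2)) + 4 = c.val) ∨
      (y 0 ≠ 0 ∧ pcn (pc U m Q q em π true (y 1) (y 2)) + 4 = c.val))
  else y 3 = y 2 + co (dl U m Q q em δ (y 0) (y 1)) ⟨c.val - 8, by omega⟩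

/-- the table -/
noncomputable def table : (Fin 5 → ZMod q) → Prop := tabOf (rels U m Q q em δ π)

variable (hq : 14 ≤ q)

include hq

theorem table_eq (a b c d : ZMod q) :
    table U m Q q em δ π ![((0 : ℕ) : ZMod q), a, b, c, d] ↔ a = b := by
  rw [table, tabOf_iff hq _ (0 : Fin 14) _ (by simp)]
  simp [rels]

theorem table_sh (j : Fin 6) (x y z t : ZMod q) :
    table U m Q q em δ π ![((8 + j.val : ℕ) : ZMod q), x, y, z, t] ↔
      t = z + co (dl U m Q q em δ x y) j := by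
  have hc : 8 + j.val < 14 := by omega
  rw [table, tabOf_iff hq _ (⟨8 + j.val, hc⟩ : Fin 14) _ (by simp)]
  have h1 : ¬ 8 + j.val = 0 := by omega
  have h2 : ¬ 8 + j.val < 4 := by omega
  have h3 : ¬ 8 + j.val < 8 := by omega
  have h4 : (⟨8 + j.val - 8, by omega⟩ : Fin 6) = j := by
    ext
    simp only
    omega
  unfold rels
  simp only [h1, h2, h3, h4, if_false]
  rfl

theorem table_pc (p : Fin 4) (h x y t : ZMod q) :
    table U m Q q em δ π ![((4 + p.val : ℕ) : ZMod q), h, x, y, t] ↔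
      x ≠ y ∧ ((h = 0 ∧ pcn (pc U m Q q em π false x y) = p.val) ∨
        (h ≠ 0 ∧ pcn (pc U m Q q em π true x y) = p.val)) := by
  have hc : 4 + p.val < 14 := by omega
  rw [table, tabOf_iff hq _ (⟨4 + p.val, hc⟩ : Fin 14) _ (by simp)]
  have h1 : ¬ 4 + p.val = 0 := by omega
  have h2 : ¬ 4 + p.val < 4 := by omega
  have h3 : 4 + p.val < 8 := by omega
  unfold rels
  simp only [h1, h2, h3, if_false, if_true]
  have h5 : ∀ n : ℕ, n + 4 = 4 + p.val ↔ n = p.val := fun n => by omega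
  simp only [h5]
  rfl

theorem good_table : GoodD (table U m Q q em δ π) where
  eq_iff := table_eq U m Q q em δ π hq
  irr := by
    intro p h ν h1
    rw [table_pc U m Q q em δ π hq] at h1
    exact h1.1 rfl

omit hq in
theorem cons_co (a : TA 5 q) : (![co a 1, co a 2, co a 3, co a 4, co a 5] : Fin 5 → ZMod q) =
    a.1 := by
  funext i
  fin_cases i <;> rfl

omit hq in
theorem co_eq_iff (a a' : TA 5 q) (d : TA 5 q) :
    (∀ j, co a' j = co a j + co d j) ↔ a' = a + d := by
  constructor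
  · intro h
    refine Prod.ext (funext fun j => ?_) ?_
    · exact h j.succ
    · exact h 0
  · rintro rfl j
    refine Fin.cases ?_ (fun j => ?_) j <;> rfl

omit hq in
theorem co_zero_iff (a : TA 5 q) : (∀ j, co a j = 0) ↔ a = 0 := by
  constructor
  · intro h
    refine Prod.ext (funext fun j => ?_) ?_
    · exact h j.succ
    · exact h 0
  · rintro rfl j
    refine Fin.cases ?_ (fun j => ?_) j <;> rfl

/-- arcs of the table in terms of indices -/
theorem arcD_iff (hh : Bool) (x x' : ZMod q) (a a' : TA 5 q) :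
    arcD (table U m Q q em δ π) (hh.toNat : ZMod q) x (co a) x' (co a') ↔
      x ≠ x' ∧ (pc U m Q q em π hh x x').holds (table U m Q q em δ π) a ∧
        a' = a + dl U m Q q em δ x x' := by
  have hne : ((1 : ℕ) : ZMod q) ≠ 0 := by
    intro h
    have h1 := (ZMod.natCast_eq_zero_iff 1 q).mp h
    have h2 := Nat.le_of_dvd one_pos h1
    omega
  have hp : ∀ p : Fin 4, table U m Q q em δ π
      ![((4 + p.val : ℕ) : ZMod q), (hh.toNat : ZMod q), x, x', x'] ↔
      x ≠ x' ∧ pcn (pc U m Q q em π hh x x') = p.val := by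
    intro p
    rw [table_pc U m Q q em δ π hq]
    cases hh
    · simp
    · have : ((Bool.toNat true : ℕ) : ZMod q) ≠ 0 := hne
      simp only [this, false_and, false_or, ne_eq, not_false_eq_true, true_and]
  unfold arcD
  have h0 := hp 0
  have h1 := hp 1
  have h2 := hp 2
  have h3 := hp 3
  simp only [Fin.val_zero, Fin.val_one, Fin.val_two, add_zero] at h0 h1 h2
  have h3' : ((4 + (3 : Fin 4).val : ℕ) : ZMod q) = ((7 : ℕ) : ZMod q) := rfl
  rw [h3'] at h3
  have h1' : ((4 + 1 : ℕ) : ZMod q) = ((5 : ℕ) : ZMod q) := rfl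
  rw [h1'] at h1
  have h2' : ((4 + 2 : ℕ) : ZMod q) = ((6 : ℕ) : ZMod q) := rfl
  rw [h2'] at h2
  rw [h0, h1, h2, h3, cons_co q]
  simp only [table_sh U m Q q em δ π hq]
  rw [co_eq_iff q, co_zero_iff q]
  constructor
  · rintro ⟨h4, ⟨h5, h6⟩ | ⟨⟨h5, h6⟩, h7⟩ | ⟨⟨h5, h6⟩, h7⟩ | ⟨⟨h5, h6⟩, h7⟩⟩
    · refine ⟨h5, ?_, h4⟩
      generalize pc U m Q q em π hh x x' = p at h6
      cases p <;> simp [pcn] at h6
      trivial
    · refine ⟨h5, ?_, h4⟩
      generalize pc U m Q q em π hh x x' = p at h6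
      cases p <;> simp [pcn] at h6
      exact h7
    · refine ⟨h5, ?_, h4⟩
      generalize pc U m Q q em π hh x x' = p at h6
      cases p <;> simp [pcn] at h6
      exact h7
    · refine ⟨h5, ?_, h4⟩
      generalize pc U m Q q em π hh x x' = p at h6
      have h8 : pcn p = 3 := h6
      cases p <;> simp [pcn] at h8
      exact h7
  · rintro ⟨h5, h6, h4⟩
    refine ⟨h4, ?_⟩
    generalize pc U m Q q em π hh x x' = p at h6
    cases p with
    | never => exact h6.elim
    | all => exact Or.inl ⟨h5, rfl⟩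
    | tab => exact Or.inr (Or.inl ⟨⟨h5, rfl⟩, h6⟩)
    | ntab => exact Or.inr (Or.inr (Or.inl ⟨⟨h5, rfl⟩, h6⟩))
    | zero => exact Or.inr (Or.inr (Or.inr ⟨⟨h5, rfl⟩, h6⟩))

end

end TB

theorem exists_table {κ : ℕ} (U : TUSys 5 κ) (m : ℕ) (Q : Type) [Group Q] [Fintype Q]
    [DecidableEq Q] (g : U.E → Fin 3 → Q) (hg : ∀ e i j, g e i = g e j → i = j) :
    ∃ q0 : ℕ, ∀ (q : ℕ) [Fact q.Prime], q0 ≤ q → ∃ D : (Fin 5 → ZMod q) → Prop, GoodD D ∧
      ∃ em : (U.sys m Q g q D).Kind ↪ Fin q,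
        ∀ hh : Bool, (U.sys m Q g q D).gr hh em = (tgr D hh : SimpleGraph (Vx q)) := by
  classical
  refine ⟨14 + Nat.card (U.K m Q), fun q hqp hq => ?_⟩
  have : NeZero q := ⟨hqp.out.ne_zero⟩
  have : Finite (U.K m Q) := by
    have : Fintype (U.K m Q) := inferInstanceAs (Fintype (RKind U.T U.E Q m (U.lamB m Q)))
    infer_instance
  have : Fintype (U.K m Q) := Fintype.ofFinite _
  have hcard : Fintype.card (U.K m Q) ≤ Fintype.card (Fin q) := by
    rw [Fintype.card_fin, ← Nat.card_eq_fintype_card]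
    omega
  obtain ⟨em0⟩ := Function.Embedding.nonempty_of_card_le hcard
  let fe : Fin q ↪ ZMod q := ⟨fun x => (x.val : ZMod q), fun x y h => by
    have h1 := (ZMod.natCast_eq_natCast_iff' _ _ _).mp h
    rw [Nat.mod_eq_of_lt x.2, Nat.mod_eq_of_lt y.2] at h1
    exact Fin.ext h1⟩
  let em : U.K m Q ↪ ZMod q := em0.trans fe
  obtain ⟨δ, π, hf⟩ := exists_tarc_form U m Q g q hg
  have hq14 : 14 ≤ q := by omega
  refine ⟨TB.table U m Q q em δ π, TB.good_table U m Q q em δ π hq14, em0, fun hh => ?_⟩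
  have hem : ∀ (k : U.K m Q) (x : Fin q), em k = (x.val : ZMod q) ↔ x = em0 k := by
    intro k x
    constructor
    · intro h
      exact (fe.injective h).symm
    · rintro rfl
      rfl
  have key : ∀ u v : Vx q, arcD (TB.table U m Q q em δ π) (hh.toNat : ZMod q)
      (u.1.val : ZMod q) (co u.2) (v.1.val : ZMod q) (co v.2) ↔
      ∃ k k', u.1 = em0 k ∧ v.1 = em0 k' ∧ k ≠ k' ∧
        U.arc m Q g q (TB.table U m Q q em δ π) hh k u.2 k' v.2 := by
    intro u v
    rw [TB.arcD_iff U m Q q em δ π hq14]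
    constructor
    · rintro ⟨h1, h2, h3⟩
      obtain ⟨k, k', h4, h5⟩ := TB.pc_ne U m Q q em π hh _ _ (by
        intro h
        rw [h] at h2
        exact h2.elim)
      refine ⟨k, k', (hem _ _).mp h4, (hem _ _).mp h5, ?_, (hf _ _ _ _ _ _).mpr ⟨?_, ?_⟩⟩
      · rintro rfl
        exact h1 (h4.symm.trans h5)
      · rw [← h4, ← h5, TB.pc_em] at h2
        exact h2
      · rw [← h4, ← h5, TB.dl_em] at h3
        exact h3
    · rintro ⟨k, k', h1, h2, h3, h4⟩
      obtain ⟨h5, h6⟩ := (hf _ _ _ _ _ _).mp h4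
      have h7 := (hem k u.1).mpr h1
      have h8 := (hem k' v.1).mpr h2
      refine ⟨?_, ?_, ?_⟩
      · rw [← h7, ← h8]
        exact fun h => h3 (em.injective h)
      · rw [← h7, ← h8, TB.pc_em]
        exact h5
      · rw [← h7, ← h8, TB.dl_em]
        exact h6
  have hirr : ∀ k a a', ¬ U.arc m Q g q (TB.table U m Q q em δ π) hh k a k a' := by
    intro k a a' h
    rcases (tarc_iff U m Q g q _ _ _ _ _ _).mp h with ⟨p, l, i, ⟨f, h1, h2, _⟩, _⟩ |
      ⟨⟨s, f, l, h1, h2, _⟩, _⟩ | ⟨⟨κ, j, h1, h2, _⟩, _⟩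
    · rw [h1] at h2
      simp at h2
    · rw [h1] at h2
      simp at h2
    · rw [h1] at h2
      simp at h2
  ext u v
  constructor
  · rintro ⟨k, k', h1, h2, h3⟩
    have hkk : (k : U.K m Q) ≠ k' := by
      rintro rfl
      rcases h3 with h3 | h3
      · exact hirr _ _ _ h3
      · exact hirr _ _ _ h3
    refine ⟨?_, ?_⟩
    · rintro rfl
      exact hkk (em0.injective (h1.symm.trans h2))
    · rcases h3 with h3 | h3
      · exact Or.inl ((key u v).mpr ⟨k, k', h1, h2, hkk, h3⟩)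
      · exact Or.inr ((key v u).mpr ⟨k', k, h2, h1, hkk.symm, h3⟩)
  · rintro ⟨_, h | h⟩
    · obtain ⟨k, k', h1, h2, _, h3⟩ := (key u v).mp h
      exact ⟨k, k', h1, h2, Or.inl h3⟩
    · obtain ⟨k', k, h2, h1, _, h3⟩ := (key v u).mp h
      exact ⟨k, k', h1, h2, Or.inr h3⟩

end Vale.Agent.P310
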