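import Vale.Agent.P310.ProgGoal
import Vale.Agent.P310.Enc
import Vale.Agent.P310.Adapt
import Vale.Agent.P310.Table
import Vale.Agent.P310.TLevelB
import Vale.Agent.P310.Game

/-!
P310, Level C [C11]: the lower bound at one `k`.
-/

namespace Vale.Agent.P310

open scoped BigOperators

/-- after halting nothing changes -/
theorem TM.run_halt (A : TM) (u : List Bool) {t : ℕ}
    (h : (A.run u t).st = A.qa ∨ (A.run u t).st = A.qr) {s : ℕ} (hs : t ≤ s) :
    A.run u s = A.run u t := by
  induction s, hs using Nat.le_induction with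
  | base => rfl
  | succ s hs ih =>
    have h1 : A.run u (s + 1) = A.step (A.run u s) := by
      unfold TM.run
      rw [Function.iterate_succ_apply']
    rw [h1, ih, TM.step, if_pos h]

theorem TM.not_both (A : TM) (u : List Bool) {t t' : ℕ} (h : (A.run u t).st = A.qr)
    (h' : (A.run u t').st = A.qa) : False := by
  have h1 := A.run_halt u (Or.inr h) (le_max_left t t')
  have h2 := A.run_halt u (Or.inl h') (le_max_right t t')
  rw [h1] at h2
  rw [← h2, h] at h'
  exact A.qa_ne_qr h'.symm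

theorem diag (r : ℕ) (hr : 15 ≤ r) (m : ℕ) (hm : 6 * ((2 * r + 1) + (3 * r + 2)) + 2 < m)
    (A : TM) (T : ℕ → ℕ) (hA : A.DecidesWL (m + 1) T) :
    ∃ q0 : ℕ, ∀ q : ℕ, q.Prime → q0 ≤ q → q ^ r ≤ T (q ^ 7) := by
  have hI : Fintype.card (II r) = 2 * r + 1 := by
    simp only [Fintype.card_sum, Fintype.card_fin]
    omega
  have hV : Fintype.card (VV r) = 3 * r + 2 := by
    simp only [Fintype.card_sum, Fintype.card_fin]
    omega
  have hI5 : 5 ≤ Fintype.card (II r) := by omega
  obtain ⟨Pg', hPg'⟩ := GProg.exists_tprog hI5 (prog A r)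
  obtain ⟨U, Q, i1, i2, i3, g, hg, hB⟩ := tlevelB hI5 Pg' m (by rw [hI, hV]; exact hm)
  obtain ⟨q0, hT⟩ := exists_table U m Q g hg
  refine ⟨max q0 m, fun q hq hq0 => ?_⟩
  have : Fact q.Prime := ⟨hq⟩
  obtain ⟨D, hD, em, hem⟩ := hT q (le_trans (le_max_left _ _) hq0)
  obtain ⟨e, hu⟩ := inpOK_enc hD
  by_contra hlt
  have hlt' : T (q ^ 7) < q ^ r := not_le.mp hlt
  have h1 := hA (q ^ 7) ((tgr D false).map e.toEmbedding) ((tgr D true).map e.toEmbedding)
  have h2 := (hB q D (le_trans (le_max_right _ _) hq0)).2 em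
  rw [hem false, hem true, hPg' q D] at h2
  have h3 : (∃ y, (prog A r).Sat D (.goal : PP A) y) ↔ _ := sat_goal_iff hr hD hu
  have h4 : WLEquiv (m + 1) ((tgr D false).map e.toEmbedding) ((tgr D true).map e.toEmbedding) ↔
      ¬ ∃ t < q ^ r, (A.run (enc ((tgr D false).map e.toEmbedding)
        ((tgr D true).map e.toEmbedding)) t).st = A.qa := by
    rw [WLEquiv.map_iff, ← h3]
    exact h2
  by_cases hW : WLEquiv (m + 1) ((tgr D false).map e.toEmbedding)
      ((tgr D true).map e.toEmbedding)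
  · rw [if_pos hW] at h1
    exact h4.mp hW ⟨_, hlt', h1⟩
  · rw [if_neg hW] at h1
    have h5 : ∃ t < q ^ r, (A.run (enc ((tgr D false).map e.toEmbedding)
        ((tgr D true).map e.toEmbedding)) t).st = A.qa := by
      by_contra h6
      exact hW (h4.mpr h6)
    obtain ⟨t, _, h6⟩ := h5
    exact A.not_both _ h1 h6

end Vale.Agent.P310
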