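import Vale.Agent.P310.CDefN
import Vale.Agent.P310.Enc

/-!
P310, Level C for all `n`, piece N8: the input word of the pair of graphs of the table with
isolated vertices added.
-/

namespace Vale.Agent.P310

open scoped BigOperators

/-- numbering of the vertices, inside a larger set of vertices -/
noncomputable def vemb (q : ℕ) [NeZero q] {n : ℕ} (h : q ^ 7 ≤ n) : Vx q ↪ Fin n where
  toFun u := Fin.castLE h (vnum q u)
  inj' := by
    intro u v huv
    exact (vnum q).injective (Fin.castLE_injective h huv)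

theorem vemb_val (q : ℕ) [NeZero q] {n : ℕ} (h : q ^ 7 ≤ n) (u : Vx q) :
    (vemb q h u).val = num q (vdig u) := rfl

theorem jv_eq {q : ℕ} (d : ℕ → ZMod q) :
    jv d = num q (fun j : Fin 7 => d j.val) + q ^ 7 * (d 7).val := by
  unfold jv num
  simp only [Finset.sum_range_succ, Fin.sum_univ_succ, Finset.range_zero, Finset.sum_empty]
  simp
  ring

theorem iv_eq {q : ℕ} (d : ℕ → ZMod q) :
    iv d = num q (fun j : Fin 7 => d (8 + j.val)) + q ^ 7 * (d 15).val := by
  unfold iv num
  simp only [Finset.sum_range_succ, Fin.sum_univ_succ, Finset.range_zero, Finset.sum_empty]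
  simp
  ring

theorem map_adj_iff {q : ℕ} [Fact q.Prime] {D : (Fin 5 → ZMod q) → Prop} (hD : GoodD D) {n : ℕ}
    (h1 : q ^ 7 ≤ n) (d : ℕ → ZMod q) (h : Bool) (h16 : d 16 = (h.toNat : ZMod q))
    (hj : jv d < n) (hi : iv d < n) :
    haveI : NeZero q := ⟨(Fact.out : q.Prime).ne_zero⟩
    (((tgr D h).map (vemb q h1)).Adj ⟨iv d, hi⟩ ⟨jv d, hj⟩ ↔
      d 7 = 0 ∧ d 15 = 0 ∧ LAdj D (pdg d)) := by
  haveI : NeZero q := ⟨(Fact.out : q.Prime).ne_zero⟩
  have key : ∀ (u : Vx q) (e : Fin 7 → ZMod q) (c : ZMod q),
      num q (vdig u) = num q e + q ^ 7 * c.val → c = 0 := by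
    intro u e c hc
    have h2 := num_lt q (vdig u)
    by_contra hne
    have h3 : 1 ≤ c.val := by
      have := (ZMod.val_ne_zero c).2 hne
      omega
    have h4 : q ^ 7 * 1 ≤ q ^ 7 * c.val := Nat.mul_le_mul_left _ h3
    omega
  constructor
  · intro hadj
    obtain ⟨u', v', hG, hu, hv⟩ := (SimpleGraph.map_adj (vemb q h1) (tgr D h) _ _).mp hadj
    have hu1 : num q (vdig u') = iv d := congrArg Fin.val hu
    have hv1 : num q (vdig v') = jv d := congrArg Fin.val hv
    rw [iv_eq] at hu1
    rw [jv_eq] at hv1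
    have h15 := key u' _ _ hu1
    have h7 := key v' _ _ hv1
    refine ⟨h7, h15, ?_⟩
    rw [h15, ZMod.val_zero, mul_zero, add_zero] at hu1
    rw [h7, ZMod.val_zero, mul_zero, add_zero] at hv1
    have hu2 : u' = vof fun j : Fin 7 => d (8 + j.val) := by
      apply vdig_injective q
      rw [vdig_vof]
      exact num_injective q hu1
    have hv2 : v' = vof fun j : Fin 7 => d j.val := by
      apply vdig_injective q
      rw [vdig_vof]
      exact num_injective q hv1
    have h14 : pdg d 14 = (h.toNat : ZMod q) := by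
      rw [← h16]
      rfl
    rw [lAdj_iff hD (pdg d) h h14]
    have e1 : (fun j : Fin 7 => pdg d (7 + j.val)) = fun j : Fin 7 => d (8 + j.val) := by
      funext j
      unfold pdg
      rw [if_neg (by omega), if_pos (by omega)]
      congr 1
      omega
    have e2 : (fun j : Fin 7 => pdg d j.val) = fun j : Fin 7 => d j.val := by
      funext j
      unfold pdg
      rw [if_pos (by omega)]
    rw [e1, e2, ← hu2, ← hv2]
    exact hG
  · rintro ⟨h7, h15, hL⟩
    have h14 : pdg d 14 = (h.toNat : ZMod q) := by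
      rw [← h16]
      rfl
    rw [lAdj_iff hD (pdg d) h h14] at hL
    have e1 : (fun j : Fin 7 => pdg d (7 + j.val)) = fun j : Fin 7 => d (8 + j.val) := by
      funext j
      unfold pdg
      rw [if_neg (by omega), if_pos (by omega)]
      congr 1
      omega
    have e2 : (fun j : Fin 7 => pdg d j.val) = fun j : Fin 7 => d j.val := by
      funext j
      unfold pdg
      rw [if_pos (by omega)]
    rw [e1, e2] at hL
    refine (SimpleGraph.map_adj (vemb q h1) (tgr D h) _ _).mpr ⟨_, _, hL, ?_, ?_⟩
    · apply Fin.ext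
      rw [vemb_val, vdig_vof]
      have h3 := iv_eq d
      rw [h15, ZMod.val_zero, mul_zero, add_zero] at h3
      exact h3.symm
    · apply Fin.ext
      rw [vemb_val, vdig_vof]
      have h3 := jv_eq d
      rw [h7, ZMod.val_zero, mul_zero, add_zero] at h3
      exact h3.symm

theorem inpN_enc {q : ℕ} [Fact q.Prime] {D : (Fin 5 → ZMod q) → Prop} (hD : GoodD D) (n : ℕ)
    (h1 : q ^ 7 ≤ n) (h2 : n < q ^ 8) :
    ∃ f : Vx q ↪ Fin n, InpN D n (enc ((tgr D false).map f) ((tgr D true).map f)) := by
  haveI : NeZero q := ⟨(Fact.out : q.Prime).ne_zero⟩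
  have q1 : 1 < q := (Fact.out : q.Prime).one_lt
  refine ⟨vemb q h1, ?_, ?_⟩
  · unfold enc
    rw [List.length_append, adjBits_length, adjBits_length]
    ring
  · intro d b hj hi hd hb
    have hlt : jv d + n * iv d < n * n := by
      calc jv d + n * iv d < n + n * iv d := by omega
        _ = n * (iv d + 1) := by ring
        _ ≤ n * n := Nat.mul_le_mul_left _ hi
    rcases hd with hd | hd
    · have h3 := map_adj_iff hD h1 d false (by rw [hd]; simp) hj hi
      have e : (d 16).val * n ^ 2 + iv d * n + jv d = jv d + n * iv d := by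
        rw [hd, ZMod.val_zero]
        ring
      rw [e]
      unfold enc
      rw [List.getElem?_append_left (by rw [adjBits_length]; exact hlt)]
      exact adjBits_get _ ⟨iv d, hi⟩ ⟨jv d, hj⟩ b (hb.trans h3.symm)
    · have h3 := map_adj_iff hD h1 d true (by rw [hd]; simp) hj hi
      have : Fact (1 < q) := ⟨q1⟩
      have e : (d 16).val * n ^ 2 + iv d * n + jv d = n * n + (jv d + n * iv d) := by
        rw [hd, ZMod.val_one]
        ring
      rw [e]
      unfold enc
      rw [List.getElem?_append_right (by rw [adjBits_length]; omega), adjBits_length,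
        Nat.add_sub_cancel_left]
      exact adjBits_get _ ⟨iv d, hi⟩ ⟨jv d, hj⟩ b (hb.trans h3.symm)

end Vale.Agent.P310
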