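import Vale.Agent.P310.CDefN
import Vale.Agent.P310.CompAdj
import Vale.Agent.P310.CompStep

/-!
P310, Level C for all `n`: completeness of the old rules for arbitrary interpretations.
-/

namespace Vale.Agent.P310

open scoped BigOperators

variable {A : TM} {r q : ℕ} [Fact q.Prime] {D : (Fin 5 → ZMod q) → Prop} {u : List Bool}

omit [Fact q.Prime] in
/-- `comp_adj_gen` of `CompAdj` with the hypothesis for all old rules which are not replaced -/
theorem comp_adj_all (hr : 15 ≤ r) (hD : GoodD D) (M : PP A → (II r → ZMod q) → Prop)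
    (hM : ∀ x : RR A r, ¬ x.isInit → x.Holds D M) (t : Fin r → ZMod q)
    (x : Fin (r + 1) → ZMod q) (b : Bool) (hb : b = true ↔ LAdj D (dig x)) :
    M (.adj b : PP A) (Sum.elim t x) :=
  comp_adj_gen hr hD
    ⟨fun _ => hM _ not_false, fun _ => hM _ not_false, fun _ => hM _ not_false,
      fun _ => hM _ not_false, fun _ => hM _ not_false, hM _ not_false, hM _ not_false,
      hM _ not_false, hM _ not_false⟩ t x b hb

theorem comp_step_gen (hr : 15 ≤ r) (hD : GoodD D) (M : PP A → (II r → ZMod q) → Prop)
    (hM : ∀ x : RR A r, ¬ x.isInit → x.Holds D M) (t t' : Fin r → ZMod q) (c : Fin r)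
    (hc : SuccAt c t t') (h1 : (A.run u (num q t)).st ≠ A.qa)
    (h2 : (A.run u (num q t)).st ≠ A.qr) (h : FactsM u M t) : FactsM u M t' := by
  refine CompStep.core hD M (fun rr hr => ?_) t t' c hc h1 h2 h
  refine hM rr ?_
  cases rr <;> simp_all [CompStep.Used, RR.isInit]

end Vale.Agent.P310
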