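import Vale.Agent.P310.CDefN
import Vale.Agent.P310.CompStep

/-!
P310, Level C [N5]: completeness of the scan of the input cells.
-/

namespace Vale.Agent.P310

open scoped BigOperators

namespace PosN

variable {A : TM} {r q n : ℕ} {D : (Fin 5 → ZMod q) → Prop}

/-! ### digits -/

/-- digit `e` of `J` -/
def dg (q J e : ℕ) : ZMod q := ((J / q ^ e : ℕ) : ZMod q)

theorem val_dg (J e : ℕ) : (dg q J e).val = J / q ^ e % q := ZMod.val_natCast _ _

theorem dg_zero (e : ℕ) : dg q 0 e = 0 := by
  simp [dg]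

theorem sum_digits (q J k : ℕ) :
    ∑ e ∈ Finset.range k, (J / q ^ e % q) * q ^ e = J % q ^ k := by
  induction k with
  | zero => simp [Nat.mod_one]
  | succ k ih =>
    rw [Finset.sum_range_succ, ih, Nat.mod_pow_succ]
    ring

/-- the vector of the eight digits of `J` -/
def dv (q J : ℕ) : Fin 8 → ZMod q := fun e => dg q J e.val

theorem num_dv {J : ℕ} (hJ : J < q ^ 8) : num q (dv q J) = J := by
  unfold num dv
  simp only [val_dg]
  rw [Fin.sum_univ_eq_sum_range (fun e => J / q ^ e % q * q ^ e) 8, sum_digits,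
    Nat.mod_eq_of_lt hJ]

theorem jv_eq (d : ℕ → ZMod q) : jv d = num q fun e : Fin 8 => d e.val := by
  unfold jv num
  rw [← Fin.sum_univ_eq_sum_range (fun x => (d x).val * q ^ x) 8]

theorem iv_eq (d : ℕ → ZMod q) : iv d = num q fun e : Fin 8 => d (8 + e.val) := by
  unfold iv num
  rw [← Fin.sum_univ_eq_sum_range (fun x => (d (8 + x)).val * q ^ x) 8]

/-- successor on digits -/
theorem digSucc [NeZero q] {J : ℕ} (hJ : J + 1 < q ^ 8) :
    ∃ c : Fin 8, SuccAt c (dv q J) (dv q (J + 1)) := by
  rw [← succ_iff, num_dv hJ, num_dv (by omega)]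

theorem ne_digit [NeZero q] {J N : ℕ} (hJ : J < q ^ 8) (hN : N < q ^ 8) (h : J ≠ N) :
    ∃ e : Fin 8, dg q J e.val ≠ dg q N e.val := by
  by_contra h'
  push Not at h'
  apply h
  have h1 : dv q J = dv q N := funext fun e => h' e
  rw [← num_dv hJ, h1, num_dv hN]

/-- the time block with column `J`, row `I` and graph `H` -/
def mk (r J I : ℕ) (H : ZMod q) : Fin r → ZMod q := fun i =>
  if i.val < 8 then dg q J i.val else if i.val < 16 then dg q I (i.val - 8) else
    if i.val = 16 then H else 0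

theorem dgt_mk_lo (hr : 17 ≤ r) (J I : ℕ) (H : ZMod q) {e : ℕ} (he : e < 8) :
    dgt (mk r J I H) e = dg q J e := by
  have h1 : e < r := by omega
  simp [dgt, mk, h1, he]

theorem dgt_mk_hi (hr : 17 ≤ r) (J I : ℕ) (H : ZMod q) {e : ℕ} (he : e < 8) :
    dgt (mk r J I H) (8 + e) = dg q I e := by
  have h1 : 8 + e < r := by omega
  have h2 : ¬ 8 + e < 8 := by omega
  have h3 : 8 + e < 16 := by omega
  simp [dgt, mk, h1, h3]

theorem dgt_mk_16 (hr : 17 ≤ r) (J I : ℕ) (H : ZMod q) : dgt (mk r J I H) 16 = H := by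
  have h1 : 16 < r := by omega
  simp [dgt, mk, h1]

theorem eq_mk [NeZero q] (t : Fin r → ZMod q)
    (h4 : ∀ j : Fin r, 17 ≤ j.val → t j = 0) :
    t = mk r (jv (dgt t)) (iv (dgt t)) (dgt t 16) := by
  have h5 : (fun e : Fin 8 => dgt t e.val) = dv q (jv (dgt t)) := by
    apply num_injective q
    have h6 : jv (dgt t) < q ^ 8 := by
      rw [jv_eq]
      exact num_lt q _
    rw [num_dv h6, jv_eq]
  have h7 : (fun e : Fin 8 => dgt t (8 + e.val)) = dv q (iv (dgt t)) := by
    apply num_injective q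
    have h6 : iv (dgt t) < q ^ 8 := by
      rw [iv_eq]
      exact num_lt q _
    rw [num_dv h6, iv_eq]
  funext i
  have hi : dgt t i.val = t i := by
    simp [dgt, i.2]
  by_cases h8 : i.val < 8
  · have := congrFun h5 ⟨i.val, h8⟩
    simp only [mk, h8, if_true]
    rw [← hi]
    exact this
  · by_cases h9 : i.val < 16
    · have h10 := congrFun h7 ⟨i.val - 8, by omega⟩
      simp only [mk, h8, h9, if_true, if_false]
      rw [← hi]
      have h11 : 8 + (i.val - 8) = i.val := by omega
      simp only [h11] at h10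
      exact h10
    · by_cases h10 : i.val = 16
      · simp only [mk, h10, if_true]
        rw [← hi, h10]
        simp
      · simp only [mk, h8, h9, h10, if_false]
        exact h4 i (by omega)

/-! ### atoms -/

theorem holds_map (M : PN A → (II r → ZMod q) → Prop) (v : VV r → ZMod q)
    (a : GAtm (PP A) (II r) (VV r)) :
    (a.map PN.old).holds D M v ↔ a.holds D (fun p => M (.old p)) v := by
  cases a <;> rfl

theorem ev_tn (t : Fin r → ZMod q) (p p' : Fin (r + 1) → ZMod q) (j : ℕ) :
    (tn r j).ev (CompStep.val t p p') = dgt t j := by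
  unfold tn dgt
  split
  · rfl
  · simp [Tm.ev]

theorem al_holds (hD : GoodN D n) (M : PN A → (II r → ZMod q) → Prop) (v : VV r → ZMod q)
    (s : Bool) (e : Fin 8) (a : Tm (VV r)) :
    (al r s e a : GAtm (PN A) (II r) (VV r)).holds D M v ↔
      ((a.ev v).val = (n - 1) / q ^ e.val % q ↔ s = true) := by
  have h : (fun j : Fin 5 => ((![.c (16 + e.val), a, a, a, a] : Fin 5 → Tm (VV r)) j).ev v) =
      ![((16 + e.val : ℕ) : ZMod q), a.ev v, a.ev v, a.ev v, a.ev v] := by
    funext j
    fin_cases j <;> rfl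
  show ((D fun j => ((![.c (16 + e.val), a, a, a, a] : Fin 5 → Tm (VV r)) j).ev v) ↔ s = true) ↔ _
  rw [h, hD.dig_iff]

theorem oe_holds (hD : GoodD D) (M : PN A → (II r → ZMod q) → Prop) (v : VV r → ZMod q)
    (s : Bool) (a b : Tm (VV r)) :
    (oe r s a b : GAtm (PN A) (II r) (VV r)).holds D M v ↔ ((a.ev v = b.ev v) ↔ s = true) := by
  have h : (fun j : Fin 5 => ((![.c 0, a, b, b, b] : Fin 5 → Tm (VV r)) j).ev v) =
      ![((0 : ℕ) : ZMod q), a.ev v, b.ev v, b.ev v, b.ev v] := by
    funext j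
    fin_cases j <;> rfl
  show ((D fun j => ((![.c 0, a, b, b, b] : Fin 5 → Tm (VV r)) j).ev v) ↔ s = true) ↔ _
  rw [h, hD.eq_iff]

theorem na_holds {M : PN A → (II r → ZMod q) → Prop} {p : PN A} {t : Fin r → Tm (VV r)}
    {x : Fin (r + 1) → Tm (VV r)} {v : VV r → ZMod q} {y : II r → ZMod q}
    (h : Sum.elim (fun i => (t i).ev v) (fun i => (x i).ev v) = y) (hM : M p y) :
    (na r p t x : GAtm (PN A) (II r) (VV r)).holds D M v := by
  show M p fun i => (tp r t x i).ev v
  rw [CompStep.ev_tp, h]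
  exact hM

theorem colN_holds (hD : GoodN D n) (hr : 17 ≤ r) (M : PN A → (II r → ZMod q) → Prop)
    (I : ℕ) (H : ZMod q) (p p' : Fin (r + 1) → ZMod q) :
    ∀ a ∈ (colN r : List (GAtm (PN A) (II r) (VV r))),
      a.holds D M (CompStep.val (mk r (n - 1) I H) p p') := by
  intro a ha
  rw [colN, List.mem_map] at ha
  obtain ⟨e, -, rfl⟩ := ha
  rw [al_holds hD, ev_tn, dgt_mk_lo hr _ _ _ e.2, val_dg]
  simp

theorem rowN_holds (hD : GoodN D n) (hr : 17 ≤ r) (M : PN A → (II r → ZMod q) → Prop)
    (J : ℕ) (H : ZMod q) (p p' : Fin (r + 1) → ZMod q) :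
    ∀ a ∈ (rowN r : List (GAtm (PN A) (II r) (VV r))),
      a.holds D M (CompStep.val (mk r J (n - 1) H) p p') := by
  intro a ha
  rw [rowN, List.mem_map] at ha
  obtain ⟨e, -, rfl⟩ := ha
  rw [al_holds hD, ev_tn, dgt_mk_hi hr _ _ _ e.2, val_dg]
  simp

theorem alf_holds (hD : GoodN D n) (M : PN A → (II r → ZMod q) → Prop)
    (t : Fin r → ZMod q) (p p' : Fin (r + 1) → ZMod q) (e : Fin 8) (j J : ℕ)
    (h : dgt t j = dg q J e.val) (h' : dg q J e.val ≠ dg q (n - 1) e.val) :
    (al r false e (tn r j) : GAtm (PN A) (II r) (VV r)).holds D M (CompStep.val t p p') := by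
  rw [al_holds hD, ev_tn, h]
  simp only [Bool.false_eq_true, iff_false]
  intro h1
  apply h'
  rcases Nat.eq_zero_or_pos q with h0 | h0
  · subst h0
    have h2 : (dg 0 J e.val).val = (dg 0 (n - 1) e.val).val := by
      rw [h1, val_dg]
    simpa [dg] using h2
  · have : NeZero q := ⟨h0.ne'⟩
    apply ZMod.val_injective q
    rw [h1, val_dg]

/-- application of a new rule -/
theorem app (x : XR r) (v : VV r → ZMod q)
    (h : ∀ a ∈ (x.rule A).2.2, a.holds D ((progN A r).Sat D) v) {p : PN A} {y : II r → ZMod q}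
    (hp : (x.rule A).1 = p) (hy : (fun i => ((x.rule A).2.1 i).ev v) = y) :
    (progN A r).Sat D p y := by
  subst hp
  subst hy
  exact (progN A r).sat_rule D (.inr x) v h

theorem carP' (hD : GoodD D) {p x : Fin (r + 1) → ZMod q} {c : Fin (r + 1)}
    (hc : SuccAt c p x) (t : Fin r → ZMod q) (p' : Fin (r + 1) → ZMod q) :
    ∀ a ∈ (carP r c : List (GAtm (PP A) (II r) (VV r))).map (GAtm.map PN.old),
      a.holds D ((progN A r).Sat D) (CompStep.val t p p') := by
  intro a ha
  rw [List.mem_map] at ha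
  obtain ⟨b, hb, rfl⟩ := ha
  exact (holds_map _ _ b).mpr (CompStep.carP_holds hD hc t p' b hb)

/-! ### time blocks -/

theorem succ_mk (hr : 17 ≤ r) (J I : ℕ) (H : ZMod q) (c : Fin 8)
    (hc : SuccAt c (dv q J) (dv q (J + 1))) :
    SuccAt (⟨c.val, by omega⟩ : Fin r) (mk r J I H) (mk r (J + 1) I H) := by
  obtain ⟨h1, h2, h3⟩ := hc
  refine ⟨fun i hi => ?_, ?_, fun i hi => ?_⟩
  · have hi1 : i.val < c.val := hi
    have hi2 : i.val < 8 := by omega
    have h4 := h1 ⟨i.val, hi2⟩ hi1
    simp only [mk, hi2, if_true]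
    exact h4
  · have hi2 : c.val < 8 := c.2
    simp only [mk, hi2, if_true]
    exact h2
  · have hi1 : c.val < i.val := hi
    by_cases hi2 : i.val < 8
    · have h4 := h3 ⟨i.val, hi2⟩ hi1
      simp only [mk, hi2, if_true]
      exact h4
    · simp only [mk, hi2, if_false]

theorem ev_tb (hr : 17 ≤ r) (J I : ℕ) (H : ZMod q) (c : Fin 8)
    (hc : SuccAt c (dv q I) (dv q (I + 1))) (p p' : Fin (r + 1) → ZMod q) :
    (fun i => (tb' r (⟨8 + c.val, by omega⟩ : Fin r) i).ev (CompStep.val (mk r J I H) p p')) =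
      mk r 0 (I + 1) H := by
  obtain ⟨h1, h2, h3⟩ := hc
  funext i
  by_cases h8 : i.val < 8
  · simp only [tb', mk, h8, if_true, dg_zero]
    simp [Tm.ev]
  · have h8' : ∀ X Y : ZMod q, (if i.val < 8 then X else Y) = Y := fun X Y => if_neg h8
    by_cases hi : i ≤ (⟨8 + c.val, by omega⟩ : Fin r)
    · have hi' : i.val ≤ 8 + c.val := hi
      have h16 : i.val < 16 := by omega
      have e1 : (tb' r (⟨8 + c.val, by omega⟩ : Fin r) i).ev (CompStep.val (mk r J I H) p p') =
          mk r J I H i + 1 := by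
        simp only [tb', h8, hi, if_true, if_false]
        rfl
      rw [e1]
      simp only [mk, h8', h16, if_true]
      rcases Nat.lt_or_ge (i.val - 8) c.val with h | h
      · have h4 := h1 ⟨i.val - 8, by omega⟩ h
        have h5 : dg q I (i.val - 8) + 1 = 0 := h4.1
        have h6 : dg q (I + 1) (i.val - 8) = 0 := h4.2
        rw [h5, h6]
      · have h7 : i.val - 8 = c.val := by omega
        rw [h7]
        exact h2.2.symm
    · have hi' : 8 + c.val < i.val := by
        by_contra h
        exact hi (not_lt.mp h)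
      have e1 : (tb' r (⟨8 + c.val, by omega⟩ : Fin r) i).ev (CompStep.val (mk r J I H) p p') =
          mk r J I H i := by
        simp only [tb', h8, hi, if_false]
        rfl
      rw [e1]
      simp only [mk, h8']
      by_cases h16 : i.val < 16
      · simp only [h16, if_true]
        exact (h3 ⟨i.val - 8, by omega⟩ (by
          show c.val < i.val - 8
          omega)).symm
      · simp only [h16, if_false]

theorem carB_holds (hD : GoodD D) (hr : 17 ≤ r) (M : PN A → (II r → ZMod q) → Prop)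
    (J I : ℕ) (H : ZMod q) (c : Fin 8)
    (hc : SuccAt c (dv q I) (dv q (I + 1))) (p p' : Fin (r + 1) → ZMod q) :
    ∀ a ∈ (carB r (⟨8 + c.val, by omega⟩ : Fin r) : List (GAtm (PN A) (II r) (VV r))),
      a.holds D M (CompStep.val (mk r J I H) p p') := by
  obtain ⟨h1, h2, h3⟩ := hc
  intro a ha
  rw [carB, List.mem_append] at ha
  rcases ha with ha | ha
  · rw [List.mem_map] at ha
    obtain ⟨i, hi, rfl⟩ := ha
    have hi' : 8 ≤ i.val ∧ i < (⟨8 + c.val, by omega⟩ : Fin r) := by simpa using hi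
    have hi2 : i.val < 8 + c.val := hi'.2
    rw [oe_holds hD]
    have e1 : (Tm.s (.inl i) : Tm (VV r)).ev (CompStep.val (mk r J I H) p p') =
      mk r J I H i + 1 := rfl
    have h8 : ¬ i.val < 8 := by omega
    have h16 : i.val < 16 := by omega
    have h4 := h1 ⟨i.val - 8, by omega⟩ (by
      show i.val - 8 < c.val
      omega)
    have h5 : dg q I (i.val - 8) + 1 = 0 := h4.1
    rw [e1]
    simp only [mk, h8, h16, if_true, if_false, h5]
    simp [Tm.ev]
  · rw [List.mem_singleton] at ha
    subst ha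
    rw [oe_holds hD]
    have e1 : (Tm.s (.inl (⟨8 + c.val, by omega⟩ : Fin r)) : Tm (VV r)).ev
      (CompStep.val (mk r J I H) p p') = mk r J I H ⟨8 + c.val, by omega⟩ + 1 := rfl
    have h8 : ¬ 8 + c.val < 8 := by omega
    have h16 : 8 + c.val < 16 := by omega
    have h9 : 8 + c.val - 8 = c.val := by omega
    have h5 : dg q I c.val + 1 ≠ 0 := h2.1
    rw [e1]
    simp only [mk, h8, h16, h9, if_true, if_false]
    simp [Tm.ev, h5]

theorem ev_tc (p p' : Fin (r + 1) → ZMod q) (t : Fin r → ZMod q) :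
    (fun i => (tc' r i).ev (CompStep.val t p p')) = mk r 0 0 (1 : ZMod q) := by
  funext i
  by_cases h16 : i.val = 16
  · simp [tc', mk, h16, Tm.ev]
  · by_cases h8 : i.val < 8
    · simp [tc', mk, h16, h8, Tm.ev, dg_zero]
    · by_cases h9 : i.val < 16
      · simp [tc', mk, h16, h8, h9, Tm.ev, dg_zero]
      · simp [tc', mk, h16, h8, h9, Tm.ev]

theorem mk_zero : mk r 0 0 (0 : ZMod q) = 0 := by
  funext i
  by_cases h8 : i.val < 8
  · simp [mk, h8, dg_zero]
  · by_cases h9 : i.val < 16
    · simp [mk, h8, h9, dg_zero]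
    · simp [mk, h8, h9]

theorem num_p1 [Fact q.Prime] :
    num q (fun i : Fin (r + 1) => if i.val = r then (1 : ZMod q) else 0) = q ^ r := by
  have h1 : Fact (1 < q) := ⟨(Fact.out : q.Prime).one_lt⟩
  unfold num
  rw [Fin.sum_univ_castSucc]
  have h2 : ∀ i : Fin r, ¬ (i.castSucc.val = r) := fun i => by
    have := i.2
    simp only [Fin.val_castSucc]
    omega
  simp only [h2, if_false, ZMod.val_zero, zero_mul, Finset.sum_const_zero, zero_add, Fin.val_last,
    if_true, ZMod.val_one, one_mul]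

/-! ### the scan -/

variable [Fact q.Prime]

theorem pos_mk (hr : 17 ≤ r) (hD : GoodN D n) (hn : 1 ≤ n) (hnq : n < q ^ 8) (s : ℕ) :
    ∀ (J I : ℕ) (H : ZMod q) (x : Fin (r + 1) → ZMod q), J < n → I < n → (H = 0 ∨ H = 1) →
      H.val * n ^ 2 + I * n + J = s → num q x = q ^ r + s →
      (progN A r).Sat D (.pos : PN A) (Sum.elim (mk r J I H) x) := by
  have hq : q.Prime := Fact.out
  have : NeZero q := ⟨hq.ne_zero⟩
  have hF : Fact (1 < q) := ⟨hq.one_lt⟩
  induction s with
  | zero =>
    intro J I H x hJ hI hH hs hx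
    have hJ0 : J = 0 := by omega
    have hI0 : I = 0 := by
      have : I * n = 0 := by omega
      rcases Nat.mul_eq_zero.mp this with h | h
      · exact h
      · omega
    have hH0 : H = 0 := by
      have : H.val * n ^ 2 = 0 := by omega
      rcases Nat.mul_eq_zero.mp this with h | h
      · exact (ZMod.val_eq_zero H).mp h
      · have := Nat.pow_pos (n := 2) (show 0 < n by omega)
        omega
    subst hJ0
    subst hI0
    subst hH0
    refine app .pos0 (CompStep.val 0 0 0) (fun a ha => absurd ha List.not_mem_nil) rfl ?_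
    change (fun i => (tp r (tz r) (p1 r) i).ev _) = _
    rw [CompStep.ev_tp, mk_zero]
    congr 1
    · funext i
      simp [tz, Tm.ev]
    · apply num_injective q
      refine Eq.trans (congrArg (num q) (funext fun i => ?_))
        ((num_p1 (r := r) (q := q)).trans (hx.trans (Nat.add_zero _)).symm)
      by_cases h : i.val = r
      · simp [p1, h, Tm.ev]
      · simp [p1, h, Tm.ev]
  | succ s ih =>
    intro J I H x hJ hI hH hs hx
    have hxlt := num_lt q x
    obtain ⟨x', hx'⟩ := exists_num q (R := r + 1) (q ^ r + s) (by omega)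
    obtain ⟨cp, hcp⟩ := (succ_iff q x' x).mp (by omega)
    rcases Nat.eq_zero_or_pos J with hJ0 | hJ0
    · subst hJ0
      rcases Nat.eq_zero_or_pos I with hI0 | hI0
      · subst hI0
        -- the first cell of the second graph
        have hH1 : H = 1 := by
          rcases hH with h | h
          · rw [h, ZMod.val_zero] at hs
            omega
          · exact h
        subst hH1
        rw [ZMod.val_one] at hs
        have h1 := ih (n - 1) (n - 1) 0 x' (by omega) (by omega) (Or.inl rfl) (by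
          rw [ZMod.val_zero]
          obtain ⟨k, rfl⟩ : ∃ k, n = k + 1 := ⟨n - 1, by omega⟩
          simp only [Nat.add_sub_cancel]
          have : 1 * (k + 1) ^ 2 + 0 * (k + 1) + 0 = k * (k + 1) + k + 1 := by ring
          omega) hx'
        refine app (.posC cp) (CompStep.val (mk r (n - 1) (n - 1) 0) x' 0) (fun a ha => ?_) rfl ?_
        · simp only [XR.rule, List.mem_append, List.mem_cons, List.not_mem_nil, or_false] at ha
          rcases ha with (((rfl | rfl) | ha) | ha) | ha
          · exact na_holds rfl h1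
          · refine (oe_holds hD.toGoodD _ _ _ _ _).mpr ?_
            rw [ev_tn, dgt_mk_16 hr]
            simp [Tm.ev]
          · exact colN_holds hD hr _ _ _ _ _ a ha
          · exact rowN_holds hD hr _ _ _ _ _ a ha
          · exact carP' hD.toGoodD hcp _ _ a ha
        · change (fun i => (tp r (tc' r) (ps r cp) i).ev _) = _
          rw [CompStep.ev_tp, CompStep.ev_ps hcp, ev_tc]
      · -- next row
        obtain ⟨I', rfl⟩ : ∃ k, I = k + 1 := ⟨I - 1, by omega⟩
        have h1 := ih (n - 1) I' H x' (by omega) (by omega) hH (by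
          have : (I' + 1) * n = I' * n + n := by ring
          omega) hx'
        obtain ⟨c, hc⟩ := digSucc (q := q) (J := I') (by omega)
        obtain ⟨e, he⟩ := ne_digit (q := q) (J := I') (N := n - 1) (by omega) (by omega) (by omega)
        refine app (.posB (⟨8 + c.val, by omega⟩ : Fin r) (by simp) (by
          show 8 + c.val < 16
          omega) e cp)
          (CompStep.val (mk r (n - 1) I' H) x' 0) (fun a ha => ?_) rfl ?_
        · simp only [XR.rule, List.mem_append, List.mem_cons, List.not_mem_nil, or_false] at ha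
          rcases ha with (((rfl | rfl) | ha) | ha) | ha
          · exact na_holds rfl h1
          · exact alf_holds hD _ _ _ _ e _ I' (dgt_mk_hi hr _ _ _ e.2) he
          · exact colN_holds hD hr _ _ _ _ _ a ha
          · exact carB_holds hD.toGoodD hr _ _ _ _ c hc _ _ a ha
          · exact carP' hD.toGoodD hcp _ _ a ha
        · change (fun i => (tp r (tb' r _) (ps r cp) i).ev _) = _
          rw [CompStep.ev_tp, CompStep.ev_ps hcp, ev_tb hr _ _ _ c hc]
    · -- next column
      obtain ⟨J', rfl⟩ : ∃ k, J = k + 1 := ⟨J - 1, by omega⟩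
      have h1 := ih J' I H x' (by omega) hI hH (by omega) hx'
      obtain ⟨c, hc⟩ := digSucc (q := q) (J := J') (by omega)
      obtain ⟨e, he⟩ := ne_digit (q := q) (J := J') (N := n - 1) (by omega) (by omega) (by omega)
      have hsc := succ_mk hr J' I H c hc
      refine app (.posA (⟨c.val, by omega⟩ : Fin r) c.2 e cp)
        (CompStep.val (mk r J' I H) x' 0) (fun a ha => ?_) rfl ?_
      · simp only [XR.rule, List.mem_append, List.mem_cons, List.not_mem_nil, or_false] at ha
        rcases ha with ((rfl | rfl) | ha) | ha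
        · exact na_holds rfl h1
        · exact alf_holds hD _ _ _ _ e _ J' (dgt_mk_lo hr _ _ _ e.2) he
        · rw [List.mem_map] at ha
          obtain ⟨b, hb, rfl⟩ := ha
          exact (holds_map _ _ b).mpr (CompStep.carT_holds hD.toGoodD hsc x' 0 b hb)
        · exact carP' hD.toGoodD hcp _ _ a ha
      · change (fun i => (tp r (ts r _) (ps r cp) i).ev _) = _
        rw [CompStep.ev_tp, CompStep.ev_ps hcp, CompStep.ev_ts hsc]

end PosN

open PosN

variable {A : TM} {r q : ℕ} [Fact q.Prime] {D : (Fin 5 → ZMod q) → Prop} {n : ℕ}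

theorem comp_pos (hr : 17 ≤ r) (hD : GoodN D n) (hn : 1 ≤ n) (hnq : n < q ^ 8)
    (t : Fin r → ZMod q) (x : Fin (r + 1) → ZMod q) (h1 : jv (dgt t) < n) (h2 : iv (dgt t) < n)
    (h3 : dgt t 16 = 0 ∨ dgt t 16 = 1) (h4 : ∀ j : Fin r, 17 ≤ j.val → t j = 0)
    (h5 : num q x = q ^ r + (dgt t 16).val * n ^ 2 + iv (dgt t) * n + jv (dgt t)) :
    (progN A r).Sat D (.pos : PN A) (Sum.elim t x) := by
  have : NeZero q := ⟨(Fact.out : q.Prime).ne_zero⟩
  have h6 := pos_mk (A := A) hr hD hn hnq _ (jv (dgt t)) (iv (dgt t)) (dgt t 16) x h1 h2 h3 rfl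
    (by rw [h5]; ring)
  rwa [← eq_mk t h4] at h6

theorem comp_bl (hr : 17 ≤ r) (hD : GoodN D n) (hn : 1 ≤ n) (hnq : n < q ^ 8)
    (x : Fin (r + 1) → ZMod q) (h : q ^ r + 2 * n ^ 2 ≤ num q x) :
    (progN A r).Sat D (.bl : PN A) (Sum.elim 0 x) := by
  have hq : q.Prime := Fact.out
  have : NeZero q := ⟨hq.ne_zero⟩
  have hF : Fact (1 < q) := ⟨hq.one_lt⟩
  obtain ⟨s, hs⟩ : ∃ s, num q x = q ^ r + 2 * n ^ 2 + s := ⟨num q x - (q ^ r + 2 * n ^ 2), by omega⟩
  induction s generalizing x with
  | zero =>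
    have hxlt := num_lt q x
    have hn2 : 1 ≤ n ^ 2 := Nat.one_le_pow _ _ hn
    obtain ⟨x', hx'⟩ := exists_num q (R := r + 1) (q ^ r + 2 * n ^ 2 - 1) (by omega)
    obtain ⟨cp, hcp⟩ := (succ_iff q x' x).mp (by omega)
    have h1 := pos_mk (A := A) hr hD hn hnq _ (n - 1) (n - 1) 1 x' (by omega) (by omega)
      (Or.inr rfl) rfl (by
        rw [hx', ZMod.val_one]
        obtain ⟨k, rfl⟩ : ∃ k, n = k + 1 := ⟨n - 1, by omega⟩
        simp only [Nat.add_sub_cancel]
        have e1 : 2 * (k + 1) ^ 2 = 1 * (k + 1) ^ 2 + k * (k + 1) + k + 1 := by ring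
        omega)
    refine app (.posE cp) (CompStep.val (mk r (n - 1) (n - 1) 1) x' 0) (fun a ha => ?_) rfl ?_
    · simp only [XR.rule, List.mem_append, List.mem_cons, List.not_mem_nil, or_false] at ha
      rcases ha with (((rfl | rfl) | ha) | ha) | ha
      · exact na_holds rfl h1
      · refine (oe_holds hD.toGoodD _ _ _ _ _).mpr ?_
        rw [ev_tn, dgt_mk_16 hr]
        simp [Tm.ev]
      · exact colN_holds hD hr _ _ _ _ _ a ha
      · exact rowN_holds hD hr _ _ _ _ _ a ha
      · exact carP' hD.toGoodD hcp _ _ a ha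
    · change (fun i => (tp r (tz r) (ps r cp) i).ev _) = _
      rw [CompStep.ev_tp, CompStep.ev_ps hcp]
      congr 1
      funext i
      simp [tz, Tm.ev]
  | succ s ih =>
    have hxlt := num_lt q x
    obtain ⟨x', hx'⟩ := exists_num q (R := r + 1) (q ^ r + 2 * n ^ 2 + s) (by omega)
    obtain ⟨cp, hcp⟩ := (succ_iff q x' x).mp (by omega)
    have h1 := ih x' (by omega) hx'
    refine app (.blS cp) (CompStep.val 0 x' 0) (fun a ha => ?_) rfl ?_
    · simp only [XR.rule, List.mem_append, List.mem_cons, List.not_mem_nil, or_false] at ha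
      rcases ha with rfl | ha
      · refine na_holds ?_ h1
        rw [CompStep.ev_pv]
        congr 1
        funext i
        simp [tz, Tm.ev]
      · exact carP' hD.toGoodD hcp _ _ a ha
    · change (fun i => (tp r (tz r) (ps r cp) i).ev _) = _
      rw [CompStep.ev_tp, CompStep.ev_ps hcp]
      congr 1
      funext i
      simp [tz, Tm.ev]

end Vale.Agent.P310
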