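import Vale.Agent.P310.CDef

/-!
P310, Level C: soundness of the rules for arcs and adjacency.
-/

namespace Vale.Agent.P310

open scoped BigOperators

namespace SAdj

theorem ev5 {V : Type} {q : ℕ} (v : V → ZMod q) (a b c d e : Tm V) :
    (fun j => ((![a, b, c, d, e] : Fin 5 → Tm V) j).ev v) =
      ![a.ev v, b.ev v, c.ev v, d.ev v, e.ev v] := by
  funext j
  fin_cases j <;> rfl

variable {A : TM} {r q : ℕ} {D : (Fin 5 → ZMod q) → Prop} {u : List Bool}

/-- the position of an assignment -/
def px (v : VV r → ZMod q) : Fin (r + 1) → ZMod q := fun j => v (.inr (.inl j))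

theorem pn_ev (v : VV r → ZMod q) (j : ℕ) : (pn r j).ev v = dig (px v) j := rfl

theorem holds_ac (M : PP A → (II r → ZMod q) → Prop) (v : VV r → ZMod q) (s : Bool) (π : Fin 4) :
    (ac r s π : GAtm (PP A) (II r) (VV r)).holds D M v ↔
      (D ![((4 + π.val : ℕ) : ZMod q), dig (px v) 14, dig (px v) 6, dig (px v) 13,
        dig (px v) 13] ↔ s = true) := by
  change ((D fun j => ((![.c (4 + π.val), pn r 14, pn r 6, pn r 13, pn r 13] :
    Fin 5 → Tm (VV r)) j).ev v) ↔ s = true) ↔ _
  rw [ev5]
  rfl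

theorem holds_am (M : PP A → (II r → ZMod q) → Prop) (v : VV r → ZMod q) (s : Bool) (j : Fin 6) :
    (am r s j : GAtm (PP A) (II r) (VV r)).holds D M v ↔
      (D ![((8 + j.val : ℕ) : ZMod q), dig (px v) 6, dig (px v) 13, dig (px v) j.val,
        dig (px v) (7 + j.val)] ↔ s = true) := by
  change ((D fun i => ((![.c (8 + j.val), pn r 6, pn r 13, pn r j.val, pn r (7 + j.val)] :
    Fin 5 → Tm (VV r)) i).ev v) ↔ s = true) ↔ _
  rw [ev5]
  rfl

theorem holds_atb (M : PP A → (II r → ZMod q) → Prop) (v : VV r → ZMod q) (s : Bool) :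
    (atb r s : GAtm (PP A) (II r) (VV r)).holds D M v ↔
      (D ![dig (px v) 1, dig (px v) 2, dig (px v) 3, dig (px v) 4, dig (px v) 5] ↔ s = true) := by
  change ((D fun i => ((![pn r 1, pn r 2, pn r 3, pn r 4, pn r 5] :
    Fin 5 → Tm (VV r)) i).ev v) ↔ s = true) ↔ _
  rw [ev5]
  rfl

theorem holds_ae (hD : GoodD D) (M : PP A → (II r → ZMod q) → Prop) (v : VV r → ZMod q)
    (s : Bool) (a b : Tm (VV r)) :
    (ae r s a b : GAtm (PP A) (II r) (VV r)).holds D M v ↔ (a.ev v = b.ev v ↔ s = true) := by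
  change ((D fun i => ((![.c 0, a, b, b, b] : Fin 5 → Tm (VV r)) i).ev v) ↔ s = true) ↔ _
  rw [ev5, ← hD.eq_iff (a.ev v) (b.ev v) (b.ev v) (b.ev v)]
  rfl

theorem ev_tp (v : VV r → ZMod q) (t : Fin r → Tm (VV r)) (x : Fin (r + 1) → Tm (VV r)) :
    (fun i => (tp r t x i).ev v) = Sum.elim (fun i => (t i).ev v) fun i => (x i).ev v := by
  funext i
  cases i <;> rfl

theorem holds_pa (v : VV r → ZMod q) (p : PP A) (t : Fin r → Tm (VV r))
    (x : Fin (r + 1) → Tm (VV r)) :
    (pa r p t x : GAtm (PP A) (II r) (VV r)).holds D (Mean A r D u) v ↔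
      Mean A r D u p (Sum.elim (fun i => (t i).ev v) fun i => (x i).ev v) := by
  change (Mean A r D u p fun i => (tp r t x i).ev v) ↔ _
  rw [ev_tp]

theorem pj_val {j : ℕ} (hj : j ≤ r) : (pj r j).val = j := by
  unfold pj
  simp only [Fin.ofNat, Nat.mod_eq_of_lt (by omega : j < r + 1)]

theorem larc_congr {d e : ℕ → ZMod q} (h : ∀ j < 15, d j = e j) : LArc D d ↔ LArc D e := by
  unfold LArc
  rw [h 14 (by norm_num), h 6 (by norm_num), h 13 (by norm_num),
    show (fun j : Fin 6 => d j.val) = fun j : Fin 6 => e j.val from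
      funext fun j => h _ (by omega),
    show (fun j : Fin 6 => d (7 + j.val)) = fun j : Fin 6 => e (7 + j.val) from
      funext fun j => h _ (by omega)]

theorem psw_dig (hr : 15 ≤ r) (v : VV r → ZMod q) (j : ℕ) (hj : j < 15) :
    dig (fun i => ((psw r) i).ev v) j = dig (px v) (swn j) := by
  change v (.inr (.inl (pj r (swn (pj r j).val)))) = v (.inr (.inl (pj r (swn j))))
  rw [pj_val (by omega)]

/-- meaning of the disjunction in `arcD` -/
theorem or_iff (d : ℕ → ZMod q) :
    (D ![((4 : ℕ) : ZMod q), d 14, d 6, d 13, d 13] ∨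
      (D ![((5 : ℕ) : ZMod q), d 14, d 6, d 13, d 13] ∧ D ![d 1, d 2, d 3, d 4, d 5]) ∨
      (D ![((6 : ℕ) : ZMod q), d 14, d 6, d 13, d 13] ∧ ¬ D ![d 1, d 2, d 3, d 4, d 5]) ∨
      (D ![((7 : ℕ) : ZMod q), d 14, d 6, d 13, d 13] ∧ ∀ j : Fin 6, d j.val = 0)) ↔
      ∃ π : Fin 4, ¬ NC D π d := by
  simp only [NC, not_not, Fin.exists_fin_succ, Fin.isValue, IsEmpty.exists_iff, or_false]
  simp

theorem larc_iff (d : ℕ → ZMod q) : LArc D d ↔
    (∀ j : Fin 6, D ![((8 + j.val : ℕ) : ZMod q), d 6, d 13, d j.val, d (7 + j.val)]) ∧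
      ∃ π : Fin 4, ¬ NC D π d := by
  rw [← or_iff]
  rfl

end SAdj

open SAdj

variable {A : TM} {r q : ℕ} [Fact q.Prime] {D : (Fin 5 → ZMod q) → Prop} {u : List Bool}

theorem sound_adj (hr : 15 ≤ r) (hD : GoodD D) :
    (∀ π, RR.Sound D u (.nca π : RR A r)) ∧ (∀ s, RR.Sound D u (.ncb s : RR A r)) ∧
    (∀ j, RR.Sound D u (.ncc j : RR A r)) ∧ (∀ π, RR.Sound D u (.arc1 π : RR A r)) ∧
    (∀ j, RR.Sound D u (.arc0m j : RR A r)) ∧ RR.Sound D u (.arc0c : RR A r) ∧
    RR.Sound D u (.adj1 : RR A r) ∧ RR.Sound D u (.adj2 : RR A r) ∧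
    RR.Sound D u (.adj0 : RR A r) := by
  refine ⟨?_, ?_, ?_, ?_, ?_, ?_, ?_, ?_, ?_⟩
  · intro π v h
    have h1 := h _ (by simp only [RR.rule]; exact List.mem_singleton.2 rfl)
    rw [holds_ac] at h1
    intro h2
    exact absurd (h1.1 h2.1) (by simp)
  · intro s v h
    have h1 := h _ (by simp only [RR.rule]; exact List.mem_singleton.2 rfl)
    rw [holds_atb] at h1
    cases s with
    | true =>
      intro h2
      exact absurd (h1.1 (h2.2.1 rfl)) (by simp)
    | false =>
      intro h2
      exact h2.2.2.1 rfl (h1.2 rfl)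
  · intro j v h
    have h1 := h _ (by simp only [RR.rule]; exact List.mem_singleton.2 rfl)
    rw [holds_ae hD] at h1
    intro h2
    have h3 : dig (px v) j.val = 0 := h2.2.2.2 rfl j
    refine absurd (h1.1 ?_) (by simp)
    rw [pn_ev, h3]
    simp [Tm.ev]
  · intro π v h
    change (true = true ↔ LArc D (dig (px v)))
    simp only [true_iff]
    rw [larc_iff]
    refine ⟨fun j => ?_, π, ?_⟩
    · have h1 := h (am r true j) (by simp [RR.rule])
      rw [holds_am] at h1
      exact h1.2 rfl
    · unfold NC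
      rw [not_not]
      have h1 := h (ac r true π) (by simp [RR.rule])
      rw [holds_ac] at h1
      refine ⟨h1.2 rfl, ?_, ?_, ?_⟩
      · rintro rfl
        have h2 := h (atb r true) (by simp [RR.rule, acs])
        rw [holds_atb] at h2
        exact h2.2 rfl
      · rintro rfl
        have h2 := h (atb r false) (by simp [RR.rule, acs])
        rw [holds_atb] at h2
        intro h3
        exact absurd (h2.1 h3) (by simp)
      · rintro rfl j
        have h2 := h (ae r true (pn r j.val) (.c 0)) (by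
          simp only [RR.rule, acs]
          refine List.mem_append_right _ ?_
          simp)
        rw [holds_ae hD] at h2
        have h3 := h2.2 rfl
        rw [pn_ev] at h3
        rw [h3]
        simp [Tm.ev]
  · intro j v h
    have h1 := h _ (by simp only [RR.rule]; exact List.mem_singleton.2 rfl)
    rw [holds_am] at h1
    change (false = true ↔ LArc D (dig (px v)))
    simp only [Bool.false_eq_true, false_iff]
    rw [larc_iff]
    intro h2
    exact absurd (h1.1 (h2.1 j)) (by simp)
  · intro v h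
    change (false = true ↔ LArc D (dig (px v)))
    simp only [Bool.false_eq_true, false_iff]
    rw [larc_iff]
    rintro ⟨_, π, h2⟩
    have h1 := h (pa r (.nc π) (tv r) (pv r)) (by simp [RR.rule])
    rw [holds_pa] at h1
    exact h2 h1
  · intro v h
    have h1 := h _ (by simp only [RR.rule]; exact List.mem_singleton.2 rfl)
    rw [holds_pa] at h1
    change (true = true ↔ LArc D (dig (px v))) at h1
    change (true = true ↔ LAdj D (dig (px v)))
    simp only [true_iff] at h1 ⊢
    exact Or.inl h1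
  · intro v h
    have h1 := h _ (by simp only [RR.rule]; exact List.mem_singleton.2 rfl)
    rw [holds_pa] at h1
    change (true = true ↔ LArc D (dig fun i => ((psw r) i).ev v)) at h1
    change (true = true ↔ LAdj D (dig (px v)))
    simp only [true_iff] at h1 ⊢
    exact Or.inr ((larc_congr (psw_dig hr v)).1 h1)
  · intro v h
    have h1 := h (pa r (.arc false) (tv r) (pv r)) (by simp [RR.rule])
    have h2 := h (pa r (.arc false) (tv r) (psw r)) (by simp [RR.rule])
    rw [holds_pa] at h1 h2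
    change (false = true ↔ LArc D (dig (px v))) at h1
    change (false = true ↔ LArc D (dig fun i => ((psw r) i).ev v)) at h2
    change (false = true ↔ LAdj D (dig (px v)))
    simp only [Bool.false_eq_true, false_iff] at h1 h2 ⊢
    rw [larc_congr (psw_dig hr v)] at h2
    rintro (h3 | h3)
    · exact h1 h3
    · exact h2 h3

end Vale.Agent.P310
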