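import Vale.Agent.P310.CDefN
import Vale.Agent.P310.GenComp
import Vale.Agent.P310.CompInit
import Vale.Agent.P310.SoundAdj
import Vale.Agent.P310.PosN

/-!
P310, Level C for all `n`, piece N6: all facts of the initial configuration are derived by the
extended program.
-/

namespace Vale.Agent.P310

open scoped BigOperators

namespace NInit

variable {A : TM} {r q : ℕ} {D : (Fin 5 → ZMod q) → Prop} {u : List Bool} {n : ℕ}

theorem holds_map {P P' I V : Type} (M : P' → (I → ZMod q) → Prop) (f : P → P')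
    (v : V → ZMod q) (a : GAtm P I V) :
    (a.map f).holds D M v ↔ a.holds D (fun p => M (f p)) v := by
  cases a <;> rfl

theorem old_holds (x : RR A r) (hx : ¬ x.isInit) :
    x.Holds D (fun p => (progN A r).Sat D (.old p : PN A)) := by
  intro v h
  refine (progN A r).sat_rule D (.inl ⟨x, hx⟩) v ?_
  intro a ha
  obtain ⟨b, hb, rfl⟩ := List.mem_map.mp ha
  exact (holds_map ((progN A r).Sat D) PN.old v b).mpr (h b hb)

/-- application of an old rule whose head has time zero -/
theorem app_old (x : RR A r) (hi : ¬ x.isInit) (v : VV r → ZMod q)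
    (p : Fin (r + 1) → Tm (VV r)) (hx : x.rule.2.1 = tp r (tz r) p) (w : Fin (r + 1) → ZMod q)
    (hw : ∀ i, (p i).ev v = w i)
    (hb : ∀ a ∈ x.rule.2.2, a.holds D (fun p => (progN A r).Sat D (.old p : PN A)) v) :
    (progN A r).Sat D (.old x.rule.1 : PN A) (Sum.elim (0 : Fin r → ZMod q) w) := by
  have h := old_holds x hi v hb
  have e : (fun i => (x.rule.2.1 i).ev v) = Sum.elim (0 : Fin r → ZMod q) w := by
    rw [hx]
    exact CInit.ev_tz_p p v w hw
  rw [e] at h
  exact h

/-- application of a new rule whose head has time zero -/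
theorem app_new (x : XR r) (v : VV r → ZMod q)
    (p : Fin (r + 1) → Tm (VV r)) (hx : (x.rule A).2.1 = tp r (tz r) p)
    (w : Fin (r + 1) → ZMod q) (hw : ∀ i, (p i).ev v = w i)
    (hb : ∀ a ∈ (x.rule A).2.2, a.holds D ((progN A r).Sat D) v) :
    (progN A r).Sat D ((x.rule A).1 : PN A) (Sum.elim (0 : Fin r → ZMod q) w) := by
  have h := (progN A r).sat_rule D (.inr x) v hb
  have e : (fun i => (((progN A r).ha (.inr x)) i).ev v) =
      Sum.elim (0 : Fin r → ZMod q) w := by
    show (fun i => ((x.rule A).2.1 i).ev v) = _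
    rw [hx]
    exact CInit.ev_tz_p p v w hw
  rw [e] at h
  exact h

theorem oe_holds (hD : GoodD D) (M : PN A → (II r → ZMod q) → Prop) (v : VV r → ZMod q)
    (s : Bool) (a b : Tm (VV r)) :
    (oe r s a b : GAtm (PN A) (II r) (VV r)).holds D M v ↔ ((a.ev v = b.ev v) ↔ s = true) := by
  have h : (fun j : Fin 5 => ((![.c 0, a, b, b, b] : Fin 5 → Tm (VV r)) j).ev v) =
      ![((0 : ℕ) : ZMod q), a.ev v, b.ev v, b.ev v, b.ev v] := by
    funext j
    fin_cases j <;> rfl
  show ((D fun j => ((![.c 0, a, b, b, b] : Fin 5 → Tm (VV r)) j).ev v) ↔ s = true) ↔ _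
  rw [h, hD.eq_iff]

/-- valuation with time `t` and position `x` -/
def vt (t : Fin r → ZMod q) (x : Fin (r + 1) → ZMod q) : VV r → ZMod q :=
  Sum.elim t (Sum.elim x 0)

theorem tn_ev (t : Fin r → ZMod q) (x : Fin (r + 1) → ZMod q) (j : ℕ) :
    (tn r j).ev (vt t x) = dgt t j := by
  unfold tn dgt
  split_ifs with h
  · rfl
  · simp [Tm.ev]

/-- the value of the term block `pdj` -/
def pw' (t : Fin r → ZMod q) : Fin (r + 1) → ZMod q := fun x =>
  if x.val < 7 then dgt t x.val else if x.val < 14 then dgt t (x.val + 1) else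
    if x.val = 14 then dgt t 16 else 0

theorem pdj_ev (t : Fin r → ZMod q) (x : Fin (r + 1) → ZMod q) (i : Fin (r + 1)) :
    (pdj r i).ev (vt t x) = pw' t i := by
  unfold pdj pw'
  split_ifs with h1 h2 h3
  · exact tn_ev t x _
  · exact tn_ev t x _
  · exact tn_ev t x _
  · simp [Tm.ev]

theorem dig_pw (hr : 17 ≤ r) (t : Fin r → ZMod q) (j : ℕ) (hj : j < 15) :
    dig (pw' t) j = pdg (dgt t) j := by
  unfold dig pw' pdg
  have h1 : (pj r j).val = j := CInit.pj_val j (by omega)
  rw [h1]
  split_ifs with h2 h3 h4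
  · rfl
  · rfl
  · rfl
  · omega

theorem ladj_pw (hr : 17 ≤ r) (t : Fin r → ZMod q) :
    LAdj D (dig (pw' t)) ↔ LAdj D (pdg (dgt t)) := by
  unfold LAdj
  have h1 : LArc D (dig (pw' t)) ↔ LArc D (pdg (dgt t)) :=
    SAdj.larc_congr fun j hj => dig_pw hr t j hj
  have h2 : (LArc D fun j => dig (pw' t) (swn j)) ↔ LArc D fun j => pdg (dgt t) (swn j) := by
    apply SAdj.larc_congr
    intro j hj
    apply dig_pw hr t
    unfold swn
    split_ifs <;> omega
  rw [h1, h2]

/-- a time block with given row, column and number of the graph -/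
theorem exists_time [NeZero q] (hr : 17 ≤ r) (i j : ℕ) (hi : i < q ^ 8) (hj : j < q ^ 8)
    (c : ZMod q) : ∃ t : Fin r → ZMod q, jv (dgt t) = j ∧ iv (dgt t) = i ∧ dgt t 16 = c ∧
      ∀ k : Fin r, 17 ≤ k.val → t k = 0 := by
  obtain ⟨y, hy⟩ := exists_num q j hj
  obtain ⟨z, hz⟩ := exists_num q i hi
  refine ⟨fun k => if h : k.val < 8 then y ⟨k.val, h⟩ else if h : k.val < 16 then
    z ⟨k.val - 8, by omega⟩ else if k.val = 16 then c else 0, ?_, ?_, ?_, ?_⟩
  · rw [← hy]
    unfold jv num
    rw [Finset.sum_range]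
    refine Finset.sum_congr rfl fun k _ => ?_
    have h1 : k.val < r := by omega
    have h2 : k.val < 8 := k.isLt
    unfold dgt
    rw [dif_pos h1]
    dsimp only
    rw [dif_pos h2]
  · rw [← hz]
    unfold iv num
    rw [Finset.sum_range]
    refine Finset.sum_congr rfl fun k _ => ?_
    have h0 : k.val < 8 := k.isLt
    have h1 : 8 + k.val < r := by omega
    have h2 : ¬ (8 + k.val < 8) := by omega
    have h3 : 8 + k.val < 16 := by omega
    unfold dgt
    rw [dif_pos h1]
    dsimp only
    rw [dif_neg h2, dif_pos h3]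
    congr 3
    apply Fin.ext
    simp
  · have h1 : 16 < r := by omega
    unfold dgt
    rw [dif_pos h1]
    dsimp only
    rw [dif_neg (by omega), dif_neg (by omega), if_pos rfl]
  · intro k hk
    dsimp only
    rw [dif_neg (by omega), dif_neg (by omega), if_neg (by omega)]

theorem pos_atom (M : PN A → (II r → ZMod q) → Prop) (p : PN A) (t : Fin r → ZMod q)
    (x : Fin (r + 1) → ZMod q) :
    (na r p (tv r) (pv r) : GAtm (PN A) (II r) (VV r)).holds D M (vt t x) ↔
      M p (Sum.elim t x) := by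
  show M p (fun i => (tp r (tv r) (pv r) i).ev (vt t x)) ↔ _
  have e : (fun i => (tp r (tv r) (pv r) i).ev (vt t x)) = Sum.elim t x := by
    funext i
    cases i <;> rfl
  rw [e]

theorem zero_atom (M : PN A → (II r → ZMod q) → Prop) (p : PN A) (v : VV r → ZMod q)
    (y : Fin (r + 1) → Tm (VV r)) (w : Fin (r + 1) → ZMod q) (hw : ∀ i, (y i).ev v = w i) :
    (na r p (tz r) y : GAtm (PN A) (II r) (VV r)).holds D M v ↔
      M p (Sum.elim (0 : Fin r → ZMod q) w) := by
  show M p (fun i => (tp r (tz r) y i).ev v) ↔ _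
  rw [CInit.ev_tz_p y v w hw]

/-- a cell of the input -/
theorem cell_in [Fact q.Prime] (hr : 17 ≤ r) (hD : GoodN D n) (hn : 1 ≤ n) (hnq : n < q ^ 8)
    (hu : InpN D n u) (x : Fin (r + 1) → ZMod q) (z : ℕ) (hz : num q x = q ^ r + z)
    (hlt : z < 2 * n ^ 2) :
    (progN A r).Sat D (.old (.ct 0 ((A.init u).tp 0 (z : ℤ))) : PN A)
      (Sum.elim (0 : Fin r → ZMod q) x) := by
  have hq1 : 1 < q := (Fact.out : q.Prime).one_lt
  have : Fact (1 < q) := ⟨hq1⟩
  have : NeZero q := ⟨by omega⟩
  have hn2 : 0 < n ^ 2 := by positivity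
  set h : ℕ := z / n ^ 2 with hh
  set z' : ℕ := z % n ^ 2 with hz'
  have hzz : z = h * n ^ 2 + z' := by
    rw [hh, hz', mul_comm]
    exact (Nat.div_add_mod z (n ^ 2)).symm
  have hz'lt : z' < n ^ 2 := Nat.mod_lt _ hn2
  have hh2 : h < 2 := by
    rw [hh]
    exact Nat.div_lt_of_lt_mul (by rw [mul_comm]; exact hlt)
  have hi : z' / n < n := Nat.div_lt_of_lt_mul (by rw [← pow_two]; exact hz'lt)
  have hj : z' % n < n := Nat.mod_lt _ (by omega)
  have hij : z' = z' / n * n + z' % n := by
    rw [mul_comm]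
    exact (Nat.div_add_mod z' n).symm
  have hcval : ((h : ℕ) : ZMod q).val = h := ZMod.val_natCast_of_lt (by omega)
  obtain ⟨t, ht1, ht2, ht3, ht4⟩ := exists_time (r := r) hr (z' / n) (z' % n) (by omega)
    (by omega) ((h : ℕ) : ZMod q)
  have h16 : dgt t 16 = 0 ∨ dgt t 16 = 1 := by
    rw [ht3]
    have : h = 0 ∨ h = 1 := by omega
    rcases this with h0 | h0
    · left
      rw [h0]
      simp
    · right
      rw [h0]
      simp
  have hpos := comp_pos (A := A) hr hD hn hnq t x (by rw [ht1]; exact hj) (by rw [ht2]; exact hi)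
    h16 ht4 (by
      rw [hz, ht1, ht2, ht3, hcval, hzz]
      omega)
  obtain ⟨b, hb⟩ : ∃ b : Bool, b = true ↔
      dgt t 7 = 0 ∧ dgt t 15 = 0 ∧ LAdj D (pdg (dgt t)) := by
    by_cases hc : dgt t 7 = 0 ∧ dgt t 15 = 0 ∧ LAdj D (pdg (dgt t))
    · exact ⟨true, by simp [hc]⟩
    · exact ⟨false, by
        constructor
        · intro h
          exact absurd h (by simp)
        · intro h
          exact absurd h hc⟩
  have hbit := hu.bit (dgt t) b (by rw [ht1]; exact hj) (by rw [ht2]; exact hi) h16 hb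
  have hidx : (dgt t 16).val * n ^ 2 + iv (dgt t) * n + jv (dgt t) = z := by
    rw [ht1, ht2, ht3, hcval, hzz]
    omega
  rw [hidx] at hbit
  rw [CInit.tp_some z b hbit]
  by_cases h7 : dgt t 7 = 0 ∧ dgt t 15 = 0
  · refine app_new (A := A) (.inp1 b) (vt t x) (pv r) rfl x (fun _ => rfl) ?_
    intro a ha
    have ha' : a = na r .pos (tv r) (pv r) ∨ a = oe r true (tn r 7) (.c 0) ∨
        a = oe r true (tn r 15) (.c 0) ∨ a = na r (.old (.adj b)) (tz r) (pdj r) := by
      have := ha
      simpa only [XR.rule, List.mem_cons, List.not_mem_nil, or_false] using this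
    rcases ha' with rfl | rfl | rfl | rfl
    · exact (pos_atom ((progN A r).Sat D) .pos t x).mpr hpos
    · refine (oe_holds hD.toGoodD ((progN A r).Sat D) (vt t x) true _ _).mpr ?_
      rw [tn_ev]
      simp [Tm.ev, h7.1]
    · refine (oe_holds hD.toGoodD ((progN A r).Sat D) (vt t x) true _ _).mpr ?_
      rw [tn_ev]
      simp [Tm.ev, h7.2]
    · refine (zero_atom ((progN A r).Sat D) (.old (.adj b)) (vt t x) (pdj r) (pw' t)
        (pdj_ev t x)).mpr ?_
      refine comp_adj_all (A := A) (by omega) hD.toGoodD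
        (fun p => (progN A r).Sat D (.old p : PN A)) old_holds 0 (pw' t) b ?_
      rw [hb, ladj_pw hr]
      constructor
      · exact fun h => h.2.2
      · exact fun h => ⟨h7.1, h7.2, h⟩
  · have hbf : b = false := by
      cases b with
      | false => rfl
      | true => exact absurd ⟨(hb.mp rfl).1, (hb.mp rfl).2.1⟩ h7
    rw [hbf]
    obtain ⟨s, hs⟩ : ∃ s : Bool, dgt t (if s then 7 else 15) ≠ 0 := by
      by_cases h70 : dgt t 7 = 0
      · refine ⟨false, ?_⟩
        intro h15
        exact h7 ⟨h70, by simpa using h15⟩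
      · exact ⟨true, by simpa using h70⟩
    refine app_new (A := A) (.inp0 s) (vt t x) (pv r) rfl x (fun _ => rfl) ?_
    intro a ha
    have ha' : a = na r .pos (tv r) (pv r) ∨
        a = oe r false (tn r (if s then 7 else 15)) (.c 0) := by
      have := ha
      simpa only [XR.rule, List.mem_cons, List.not_mem_nil, or_false] using this
    rcases ha' with rfl | rfl
    · exact (pos_atom ((progN A r).Sat D) .pos t x).mpr hpos
    · refine (oe_holds hD.toGoodD ((progN A r).Sat D) (vt t x) false _ _).mpr ?_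
      rw [tn_ev]
      simpa [Tm.ev] using hs

theorem cell0 [Fact q.Prime] (hr : 17 ≤ r) (hD : GoodN D n) (hn : 1 ≤ n) (hnq : n < q ^ 8)
    (hu : InpN D n u) (x : Fin (r + 1) → ZMod q) :
    (progN A r).Sat D (.old (.ct 0 ((A.init u).tp 0 ((num q x : ℤ) - (q : ℤ) ^ r))) : PN A)
      (Sum.elim (0 : Fin r → ZMod q) x) := by
  have hq1 : 1 < q := (Fact.out : q.Prime).one_lt
  have : NeZero q := ⟨by omega⟩
  have hs := CInit.sum_split x
  by_cases h1 : num q x < q ^ r
  · have hb : (A.init u).tp 0 ((num q x : ℤ) - (q : ℤ) ^ r) = A.blank := by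
      apply CInit.tp_neg
      have : (num q x : ℤ) < (q : ℤ) ^ r := by exact_mod_cast h1
      omega
    rw [hb]
    have hlast : x (Fin.last r) = 0 := by
      by_contra hne
      have h2 : 1 ≤ (x (Fin.last r)).val := by
        have := (ZMod.val_ne_zero (x (Fin.last r))).2 hne
        omega
      have h3 : 1 * q ^ r ≤ (x (Fin.last r)).val * q ^ r := Nat.mul_le_mul_right _ h2
      omega
    refine app_new (A := A) .bl0 (vt 0 x) (pv r) rfl x (fun _ => rfl) ?_
    intro a ha
    have ha' : a = oe r true (pn r r) (.c 0) := List.mem_singleton.mp ha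
    subst ha'
    refine (oe_holds hD.toGoodD ((progN A r).Sat D) (vt 0 x) true _ _).mpr ?_
    have e1 : pj r r = Fin.last r := Fin.ext (CInit.pj_val _ le_rfl)
    have e2 : (pn r r : Tm (VV r)).ev (vt 0 x) = x (pj r r) := rfl
    rw [e2, e1, hlast]
    simp [Tm.ev]
  · by_cases h2 : q ^ r + 2 * n ^ 2 ≤ num q x
    · have hz : ((num q x : ℤ) - (q : ℤ) ^ r) = ((num q x - q ^ r : ℕ) : ℤ) := by
        rw [Nat.cast_sub (by omega)]
        push_cast
        ring
      rw [hz, CInit.tp_none _ (by rw [hu.len]; omega)]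
      refine app_new (A := A) .bl1 (vt 0 x) (pv r) rfl x (fun _ => rfl) ?_
      intro a ha
      have ha' : a = na r .bl (tz r) (pv r) := List.mem_singleton.mp ha
      subst ha'
      exact (zero_atom ((progN A r).Sat D) .bl (vt 0 x) (pv r) x (fun _ => rfl)).mpr
        (comp_bl hr hD hn hnq x h2)
    · have hz : ((num q x : ℤ) - (q : ℤ) ^ r) = ((num q x - q ^ r : ℕ) : ℤ) := by
        rw [Nat.cast_sub (by omega)]
        push_cast
        ring
      rw [hz]
      exact cell_in hr hD hn hnq hu x _ (by omega) (by omega)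

theorem head0 [Fact q.Prime] (i : Fin (A.nt + 1)) (x : Fin (r + 1) → ZMod q)
    (h0 : num q x = q ^ r) :
    (progN A r).Sat D (.old (.hd i) : PN A) (Sum.elim (0 : Fin r → ZMod q) x) := by
  have hq2 : 2 ≤ q := (Fact.out : q.Prime).two_le
  have : NeZero q := ⟨by omega⟩
  have h1 := CInit.sum_split x
  have h2 := CInit.low_lt x
  have h3 : (x (Fin.last r)).val = 1 := by
    rcases Nat.lt_trichotomy (x (Fin.last r)).val 1 with h | h | h
    · have : (x (Fin.last r)).val = 0 := by omega
      rw [this, zero_mul] at h1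
      omega
    · exact h
    · have : 2 * q ^ r ≤ (x (Fin.last r)).val * q ^ r := Nat.mul_le_mul_right _ h
      omega
  have h4 : num q (fun i : Fin r => x i.castSucc) = 0 := by
    have : num q (fun i : Fin r => x i.castSucc) =
      ∑ i : Fin r, (x i.castSucc).val * q ^ i.val := rfl
    rw [h3, one_mul] at h1
    omega
  have h5 := (num_eq_zero_iff q _).mp h4
  refine app_old (.hd0 i : RR A r) (fun h => h) (CInit.vx x) (p1 r) rfl x (fun j => ?_) ?_
  · refine Fin.lastCases ?_ (fun j => ?_) j
    · have : x (Fin.last r) = 1 := by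
        apply ZMod.val_injective q
        rw [h3, ZMod.val_one'' (by omega)]
      rw [this]
      simp [p1, Tm.ev]
    · have : x j.castSucc = 0 := congrFun h5 j
      rw [this]
      have hj : j.val ≠ r := by omega
      simp [p1, Tm.ev, hj]
  · intro a ha
    simp [RR.rule] at ha

end NInit

theorem comp_initN {A : TM} {r q : ℕ} [Fact q.Prime] {D : (Fin 5 → ZMod q) → Prop}
    {u : List Bool} {n : ℕ} (hr : 17 ≤ r) (hD : GoodN D n) (hn : 1 ≤ n) (hnq : n < q ^ 8)
    (hu : InpN D n u) :
    FactsM (A := A) u (fun p => (progN A r).Sat D (.old p : PN A)) (0 : Fin r → ZMod q) := by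
  have hrun : A.run u (num q (0 : Fin r → ZMod q)) = A.init u := by
    rw [num_zero]
    rfl
  unfold FactsM
  rw [hrun]
  refine ⟨?_, ?_, ?_⟩
  · exact NInit.app_old (.st0 : RR A r) (fun h => h) (CInit.vx 0) (pz r) rfl 0
      (fun i => CInit.ev_pz _ i) (by
      intro a ha
      simp [RR.rule] at ha)
  · intro i x hx
    apply NInit.head0
    have : (A.init u).hd i = 0 := rfl
    rw [this, add_zero] at hx
    exact_mod_cast hx
  · intro i x
    by_cases hi : i = 0
    · subst hi
      exact NInit.cell0 hr hD hn hnq hu x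
    · have hb : (A.init u).tp i ((num q x : ℤ) - (q : ℤ) ^ r) = A.blank := by
        simp only [TM.init]
        rw [if_neg (fun hc => hi hc.1)]
      rw [hb]
      exact NInit.app_old (.bl4 i hi : RR A r) (fun h => h) (CInit.vx x) (pv r) rfl x
        (fun _ => rfl) (by
        intro a ha
        simp [RR.rule] at ha)

end Vale.Agent.P310
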