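import Vale.Agent.P310.CDef

/-!
P310, Level C, piece C4: soundness of the rules for the initial configuration.
-/

namespace Vale.Agent.P310

open scoped BigOperators

namespace SInit

variable {A : TM} {r q : ℕ}

theorem num_range (x : Fin (r + 1) → ZMod q) :
    num q x = ∑ j ∈ Finset.range (r + 1), (dig x j).val * q ^ j := by
  unfold num
  rw [← Fin.sum_univ_eq_sum_range (fun j => (dig x j).val * q ^ j) (r + 1)]
  refine Finset.sum_congr rfl fun i _ => ?_
  have : pj r i.val = i := by
    apply Fin.ext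
    simp only [pj, Fin.val_ofNat]
    exact Nat.mod_eq_of_lt i.isLt
  simp only [dig, this]

theorem dig_last (x : Fin (r + 1) → ZMod q) : dig x r = x (Fin.last r) := by
  unfold dig
  congr 1
  apply Fin.ext
  simp only [pj, Fin.val_ofNat, Fin.val_last]
  exact Nat.mod_eq_of_lt (Nat.lt_succ_self r)

/-- the low part of the number -/
theorem num_split (x : Fin (r + 1) → ZMod q) :
    num q x = ∑ j ∈ Finset.range r, (dig x j).val * q ^ j + (dig x r).val * q ^ r := by
  rw [num_range, Finset.sum_range_succ]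

theorem low_lt [NeZero q] (x : Fin (r + 1) → ZMod q) :
    ∑ j ∈ Finset.range r, (dig x j).val * q ^ j < q ^ r := by
  have h := num_lt q (fun i : Fin r => dig x i.val)
  unfold num at h
  rwa [Fin.sum_univ_eq_sum_range (fun j => (dig x j).val * q ^ j) r] at h

theorem low_ge (x : Fin (r + 1) → ZMod q) (j : ℕ) (hj : j < r) :
    (dig x j).val * q ^ j ≤ ∑ j ∈ Finset.range r, (dig x j).val * q ^ j :=
  Finset.single_le_sum (f := fun j => (dig x j).val * q ^ j) (fun _ _ => Nat.zero_le _)
    (Finset.mem_range.2 hj)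

theorem init_blank (u : List Bool) (z : ℤ) (i : Fin (A.nt + 1))
    (h : z < 0 ∨ (u.length : ℤ) ≤ z) : (A.run u 0).tp i z = A.blank := by
  change (if i = 0 ∧ 0 ≤ z then (u[z.toNat]?).elim A.blank A.bit else A.blank) = A.blank
  split_ifs with hc
  · rcases h with h | h
    · exact absurd hc.2 (not_le.2 h)
    · have : u.length ≤ z.toNat := by omega
      rw [List.getElem?_eq_none this]
      rfl
  · rfl

theorem init_bit (u : List Bool) (n : ℕ) (b : Bool) (h : u[n]? = some b) :
    (A.run u 0).tp 0 (n : ℤ) = A.bit b := by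
  change (if (0 : Fin (A.nt + 1)) = 0 ∧ 0 ≤ (n : ℤ) then
    (u[(n : ℤ).toNat]?).elim A.blank A.bit else A.blank) = A.bit b
  rw [if_pos ⟨rfl, Int.natCast_nonneg n⟩, Int.toNat_natCast, h]
  rfl

theorem two_le [Fact q.Prime] : 2 ≤ q := (Fact.out : q.Prime).two_le

theorem pow_bd [Fact q.Prime] {j : ℕ} (hj : 15 ≤ j) : 2 * q ^ 14 ≤ q ^ j := by
  have h2 : 2 ≤ q := two_le
  calc 2 * q ^ 14 ≤ q * q ^ 14 := Nat.mul_le_mul_right _ h2
    _ = q ^ 15 := by ring
    _ ≤ q ^ j := Nat.pow_le_pow_right (by omega) hj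

theorem num_t0 {v : VV r → ZMod q} (X : Fin (r + 1) → Tm (VV r)) :
    num q (fun i : Fin r => (tp r (tz r) X (.inl i)).ev v) = 0 := by
  have : (fun i : Fin r => (tp r (tz r) X (.inl i)).ev v) = 0 := by
    funext i
    simp [tp, tz, Tm.ev]
  rw [this, num_zero]

theorem ae_false {D : (Fin 5 → ZMod q) → Prop} (hD : GoodD D)
    (M : PP A → (II r → ZMod q) → Prop) (v : VV r → ZMod q) (a b : Tm (VV r))
    (h : (ae r false a b : GAtm (PP A) (II r) (VV r)).holds D M v) : a.ev v ≠ b.ev v := by
  intro hab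
  change (D (fun j : Fin 5 => ((![Tm.c 0, a, b, b, b] : Fin 5 → Tm (VV r)) j).ev v)) ↔
    false = true at h
  have e : (fun j : Fin 5 => ((![Tm.c 0, a, b, b, b] : Fin 5 → Tm (VV r)) j).ev v) =
      ![((0 : ℕ) : ZMod q), a.ev v, b.ev v, b.ev v, b.ev v] := by
    funext j
    fin_cases j <;> rfl
  rw [e, hD.eq_iff] at h
  exact absurd (h.1 hab) (by simp)

/-- A blank cell of the initial configuration outside of the input. -/
theorem blank_of [Fact q.Prime] (u : List Bool) (hu : u.length = 2 * q ^ 14)
    (i : Fin (A.nt + 1)) (x : Fin (r + 1) → ZMod q)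
    (h : (dig x r).val = 0 ∨ q ^ r + 2 * q ^ 14 ≤ num q x) :
    (A.run u 0).tp i ((num q x : ℤ) - (q : ℤ) ^ r) = A.blank := by
  have : NeZero q := ⟨(Fact.out : q.Prime).ne_zero⟩
  apply init_blank
  rcases h with h | h
  · left
    have h1 := num_split x
    have h2 := low_lt x
    rw [h, zero_mul, add_zero] at h1
    rw [← h1] at h2
    have : (num q x : ℤ) < (q : ℤ) ^ r := by exact_mod_cast h2
    omega
  · right
    rw [hu]
    have : ((q ^ r + 2 * q ^ 14 : ℕ) : ℤ) ≤ (num q x : ℤ) := by exact_mod_cast h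
    push_cast at this ⊢
    linarith

end SInit

section

variable {A : TM} {r q : ℕ} [Fact q.Prime] {D : (Fin 5 → ZMod q) → Prop} {u : List Bool}

open SInit

theorem sound_init (hr : 15 ≤ r) (hD : GoodD D) (hu : InpOK D u) :
    RR.Sound D u (.st0 : RR A r) ∧ (∀ i, RR.Sound D u (.hd0 i : RR A r)) ∧
    (∀ b h, RR.Sound D u (.inp b h : RR A r)) ∧
    (∀ j h1 h2, RR.Sound D u (.bl1 j h1 h2 : RR A r)) ∧ RR.Sound D u (.bl2 : RR A r) ∧
    RR.Sound D u (.bl3 : RR A r) ∧ (∀ i h, RR.Sound D u (.bl4 i h : RR A r)) := by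
  have : NeZero q := ⟨(Fact.out : q.Prime).ne_zero⟩
  have h2q : 2 ≤ q := two_le
  have : Fact (1 < q) := ⟨by omega⟩
  refine ⟨?_, ?_, ?_, ?_, ?_, ?_, ?_⟩
  · -- st0
    intro v _
    simp only [RR.rule, Mean]
    refine ⟨?_, ?_⟩
    · intro j
      simp [tp, pz, Tm.ev]
    · rw [num_t0]
      rfl
  · -- hd0
    intro i v _
    simp only [RR.rule, Mean]
    rw [num_t0]
    have e : (fun j : Fin (r + 1) => (tp r (tz r) (p1 r) (.inr j)).ev v) =
        fun j : Fin (r + 1) => if j = Fin.last r then (1 : ZMod q) else 0 := by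
      funext j
      by_cases hj : j = Fin.last r
      · subst hj
        simp [tp, p1, Tm.ev]
      · have : ¬ j.val = r := fun h => hj (Fin.ext h)
        simp [tp, p1, Tm.ev, hj, this]
    rw [e]
    have e2 : num q (fun j : Fin (r + 1) => if j = Fin.last r then (1 : ZMod q) else 0) =
        q ^ r := by
      unfold num
      rw [Finset.sum_eq_single (Fin.last r)]
      · simp [ZMod.val_one]
      · intro j _ hj
        simp [hj]
      · simp
    rw [e2]
    have e3 : (A.run u 0).hd i = 0 := rfl
    rw [e3]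
    push_cast
    ring
  · -- inp
    intro b h v hb
    have h1 := hb (pa r (.adj b) (tz r) (pin r h)) (by simp [RR.rule])
    simp only [RR.rule, Mean]
    rw [num_t0]
    set x : Fin (r + 1) → ZMod q := fun j => (tp r (tz r) (pin r h) (.inr j)).ev v with hx
    have h2 : (b = true ↔ LAdj D (dig x)) := h1
    have hd : ∀ (j : ℕ) (hj : j ≤ r), dig x j = x ⟨j, Nat.lt_succ_of_le hj⟩ := by
      intro j hj
      unfold dig
      congr 1
      apply Fin.ext
      simp only [pj, Fin.val_ofNat]
      exact Nat.mod_eq_of_lt (by omega)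
    have h14 : dig x 14 = (h.toNat : ZMod q) := by
      rw [hd 14 (by omega), hx]
      have : ¬ (14 = r) := by omega
      simp [tp, pin, Tm.ev, this]
    have h14' : dig x 14 = 0 ∨ dig x 14 = 1 := by
      rw [h14]
      cases h <;> simp
    have h3 := hu.bit (dig x) b h14' h2
    have h4 : ∀ j, 15 ≤ j → j < r → dig x j = 0 := by
      intro j hj1 hj2
      rw [hd j (by omega), hx]
      have e1 : ¬ (j = r) := by omega
      have e2 : ¬ (j < 14) := by omega
      have e3 : ¬ (j = 14) := by omega
      simp [tp, pin, Tm.ev, e1, e2, e3]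
    have h5 : dig x r = 1 := by
      rw [hd r le_rfl, hx]
      simp [tp, pin, Tm.ev]
    have h6 : num q x = q ^ r + ∑ j ∈ Finset.range 15, (dig x j).val * q ^ j := by
      rw [num_split, h5, ZMod.val_one, one_mul, add_comm]
      congr 1
      obtain ⟨k, rfl⟩ := Nat.exists_eq_add_of_le hr
      rw [Finset.sum_range_add]
      have : ∑ j ∈ Finset.range k, (dig x (15 + j)).val * q ^ (15 + j) = 0 := by
        apply Finset.sum_eq_zero
        intro j hj
        rw [h4 (15 + j) (by omega) (by have := Finset.mem_range.1 hj; omega)]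
        simp
      rw [this, add_zero]
    have h7 : (num q x : ℤ) - (q : ℤ) ^ r =
        ((∑ j ∈ Finset.range 15, (dig x j).val * q ^ j : ℕ) : ℤ) := by
      rw [h6]
      push_cast
      ring
    rw [h7]
    exact init_bit u _ b h3
  · -- bl1
    intro j h15 hjr v hb
    have h1 := hb (ae r false (.v (.inr (.inl j))) (.c 0)) (by simp [RR.rule])
    have h2 := ae_false hD _ v _ _ h1
    simp only [RR.rule, Mean]
    rw [num_t0]
    set x : Fin (r + 1) → ZMod q := fun j => (tp r (tz r) (pv r) (.inr j)).ev v with hx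
    have h3 : x j ≠ 0 := by
      have e1 : x j = (Tm.v (.inr (.inl j)) : Tm (VV r)).ev v := rfl
      have e2 : (Tm.c 0 : Tm (VV r)).ev v = 0 := by simp [Tm.ev]
      rw [e1, ← e2]
      exact h2
    have h4 : dig x j.val = x j := by
      unfold dig
      congr 1
      apply Fin.ext
      simp only [pj, Fin.val_ofNat]
      exact Nat.mod_eq_of_lt j.isLt
    apply blank_of u hu.len
    by_cases hz : (dig x r).val = 0
    · exact Or.inl hz
    · right
      have h5 : 1 ≤ (dig x j.val).val := by
        rw [h4]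
        have := (ZMod.val_ne_zero (x j)).2 h3
        omega
      have h6 := low_ge x j.val hjr
      have h7 := num_split x
      have h8 : 1 * q ^ r ≤ (dig x r).val * q ^ r := Nat.mul_le_mul_right _ (by omega)
      have h9 : 1 * q ^ j.val ≤ (dig x j.val).val * q ^ j.val := Nat.mul_le_mul_right _ h5
      have h10 : 2 * q ^ 14 ≤ q ^ j.val := pow_bd h15
      omega
  · -- bl2
    intro v hb
    have h1 := hb (ae r false (pn r r) (.c 1)) (by simp [RR.rule])
    have h2 := ae_false hD _ v _ _ h1
    simp only [RR.rule, Mean]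
    rw [num_t0]
    set x : Fin (r + 1) → ZMod q := fun j => (tp r (tz r) (pv r) (.inr j)).ev v with hx
    have h3 : dig x r ≠ 1 := by
      have e1 : dig x r = (pn r r : Tm (VV r)).ev v := rfl
      have e2 : (Tm.c 1 : Tm (VV r)).ev v = 1 := by simp [Tm.ev]
      rw [e1, ← e2]
      exact h2
    apply blank_of u hu.len
    by_cases hz : (dig x r).val = 0
    · exact Or.inl hz
    · right
      have h5 : 2 ≤ (dig x r).val := by
        by_contra hlt
        have h51 : (dig x r).val = 1 := by omega
        apply h3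
        apply ZMod.val_injective q
        rw [h51, ZMod.val_one]
      have h7 := num_split x
      have h8 : 2 * q ^ r ≤ (dig x r).val * q ^ r := Nat.mul_le_mul_right _ h5
      have h10 : 2 * q ^ 14 ≤ q ^ r := pow_bd hr
      omega
  · -- bl3
    intro v hb
    have h1 := hb (ae r false (pn r 14) (.c 0)) (by simp [RR.rule])
    have h1' := hb (ae r false (pn r 14) (.c 1)) (by simp [RR.rule])
    have h2 := ae_false hD _ v _ _ h1
    have h2' := ae_false hD _ v _ _ h1'
    simp only [RR.rule, Mean]
    rw [num_t0]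
    set x : Fin (r + 1) → ZMod q := fun j => (tp r (tz r) (pv r) (.inr j)).ev v with hx
    have h3 : dig x 14 ≠ 0 := by
      have e1 : dig x 14 = (pn r 14 : Tm (VV r)).ev v := rfl
      have e2 : (Tm.c 0 : Tm (VV r)).ev v = 0 := by simp [Tm.ev]
      rw [e1, ← e2]
      exact h2
    have h3' : dig x 14 ≠ 1 := by
      have e1 : dig x 14 = (pn r 14 : Tm (VV r)).ev v := rfl
      have e2 : (Tm.c 1 : Tm (VV r)).ev v = 1 := by simp [Tm.ev]
      rw [e1, ← e2]
      exact h2'
    apply blank_of u hu.len
    by_cases hz : (dig x r).val = 0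
    · exact Or.inl hz
    · right
      have h5 : 2 ≤ (dig x 14).val := by
        by_contra hlt
        have h50 := (ZMod.val_ne_zero (dig x 14)).2 h3
        have h51 : (dig x 14).val = 1 := by omega
        apply h3'
        apply ZMod.val_injective q
        rw [h51, ZMod.val_one]
      have h6 := low_ge x 14 (by omega)
      have h7 := num_split x
      have h8 : 1 * q ^ r ≤ (dig x r).val * q ^ r := Nat.mul_le_mul_right _ (by omega)
      have h9 : 2 * q ^ 14 ≤ (dig x 14).val * q ^ 14 := Nat.mul_le_mul_right _ h5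
      omega
  · -- bl4
    intro i hi v _
    simp only [RR.rule, Mean]
    rw [num_t0]
    generalize ((num q fun j => (tp r (tz r) (pv r) (.inr j)).ev v : ℕ) : ℤ) - (q : ℤ) ^ r = z
    change (if i = 0 ∧ 0 ≤ z then (u[z.toNat]?).elim A.blank A.bit else A.blank) = A.blank
    rw [if_neg]
    rintro ⟨h, _⟩
    exact hi h

end

end Vale.Agent.P310
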