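import Vale.Agent.P310.CDef

/-!
P310, Level C [C5]: soundness of the rules for the steps of the machine.
-/

namespace Vale.Agent.P310

open scoped BigOperators

section

variable {A : TM} {r q : ℕ} [Fact q.Prime] {D : (Fin 5 → ZMod q) → Prop} {u : List Bool}

omit [Fact q.Prime] in
theorem C5_ae_holds (hD : GoodD D) (M : PP A → (II r → ZMod q) → Prop) (v : VV r → ZMod q)
    (s : Bool) (a b : Tm (VV r)) :
    (ae r s a b : GAtm (PP A) (II r) (VV r)).holds D M v ↔ (a.ev v = b.ev v ↔ s = true) := by
  have h : (fun j => ((![.c 0, a, b, b, b] : Fin 5 → Tm (VV r)) j).ev v) =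
      ![((0 : ℕ) : ZMod q), a.ev v, b.ev v, b.ev v, b.ev v] := by
    funext j
    fin_cases j <;> rfl
  change ((D fun j => ((![.c 0, a, b, b, b] : Fin 5 → Tm (VV r)) j).ev v) ↔ s = true) ↔ _
  rw [h, hD.eq_iff]

/-- A true carry condition makes the term block `ts` the successor. -/
theorem num_ts (hD : GoodD D) (M : PP A → (II r → ZMod q) → Prop) (c : Fin r) (v : VV r → ZMod q)
    (h : ∀ a ∈ (carT r c : List (GAtm (PP A) (II r) (VV r))), a.holds D M v) :
    num q (fun i => (ts r c i).ev v) = num q (fun i => (tv r i).ev v) + 1 := by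
  rw [succ_iff]
  refine ⟨c, ?_, ?_, ?_⟩
  · intro i hi
    have h1 := h (ae r true (.s (.inl i)) (.c 0)) (by
      unfold carT
      refine List.mem_append_left _ (List.mem_map.mpr ⟨i, ?_, rfl⟩)
      rw [List.mem_filter]
      exact ⟨List.mem_finRange i, by simpa using hi⟩)
    rw [C5_ae_holds hD] at h1
    have h2 : v (.inl i) + 1 = 0 := by
      have h3 := h1.mpr rfl
      simpa [Tm.ev] using h3
    refine ⟨h2, ?_⟩
    have h4 : ts r c i = .s (.inl i) := if_pos (le_of_lt hi)
    exact (congrArg (Tm.ev v) h4).trans h2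
  · have h1 := h (ae r false (.s (.inl c)) (.c 0)) (by
      unfold carT
      exact List.mem_append_right _ (List.mem_singleton.mpr rfl))
    rw [C5_ae_holds hD] at h1
    have h2 : v (.inl c) + 1 ≠ 0 := by
      intro h3
      have h4 := h1.mp (by simpa [Tm.ev] using h3)
      exact absurd h4 (by decide)
    refine ⟨h2, ?_⟩
    have h4 : ts r c c = .s (.inl c) := if_pos le_rfl
    exact congrArg (Tm.ev v) h4
  · intro i hi
    have h4 : ts r c i = .v (.inl i) := if_neg (not_le.mpr hi)
    exact congrArg (Tm.ev v) h4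

theorem num_ps (hD : GoodD D) (M : PP A → (II r → ZMod q) → Prop) (c : Fin (r + 1))
    (v : VV r → ZMod q)
    (h : ∀ a ∈ (carP r c : List (GAtm (PP A) (II r) (VV r))), a.holds D M v) :
    num q (fun i => (ps r c i).ev v) = num q (fun i => (pv r i).ev v) + 1 := by
  rw [succ_iff]
  refine ⟨c, ?_, ?_, ?_⟩
  · intro i hi
    have h1 := h (ae r true (.s (.inr (.inl i))) (.c 0)) (by
      unfold carP
      refine List.mem_append_left _ (List.mem_map.mpr ⟨i, ?_, rfl⟩)
      rw [List.mem_filter]
      exact ⟨List.mem_finRange i, by simpa using hi⟩)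
    rw [C5_ae_holds hD] at h1
    have h2 : v (.inr (.inl i)) + 1 = 0 := by
      have h3 := h1.mpr rfl
      simpa [Tm.ev] using h3
    refine ⟨h2, ?_⟩
    have h4 : ps r c i = .s (.inr (.inl i)) := if_pos (le_of_lt hi)
    exact (congrArg (Tm.ev v) h4).trans h2
  · have h1 := h (ae r false (.s (.inr (.inl c))) (.c 0)) (by
      unfold carP
      exact List.mem_append_right _ (List.mem_singleton.mpr rfl))
    rw [C5_ae_holds hD] at h1
    have h2 : v (.inr (.inl c)) + 1 ≠ 0 := by
      intro h3
      have h4 := h1.mp (by simpa [Tm.ev] using h3)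
      exact absurd h4 (by decide)
    refine ⟨h2, ?_⟩
    have h4 : ps r c c = .s (.inr (.inl c)) := if_pos le_rfl
    exact congrArg (Tm.ev v) h4
  · intro i hi
    have h4 : ps r c i = .v (.inr (.inl i)) := if_neg (not_le.mpr hi)
    exact congrArg (Tm.ev v) h4

/-! ### one step of the run -/

theorem C5_run_succ (A : TM) (u : List Bool) (t : ℕ) :
    A.run u (t + 1) = A.step (A.run u t) := by
  unfold TM.run
  rw [Function.iterate_succ_apply']

theorem C5_step (A : TM) (c : Cfg A) (s : A.St) (a : Fin (A.nt + 1) → A.Sy) (h1 : s ≠ A.qa)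
    (h2 : s ≠ A.qr) (hs : c.st = s) (ha : ∀ i, c.tp i (c.hd i) = a i) :
    A.step c = { st := (A.tr s a).1
                 hd := fun i => c.hd i + ((A.tr s a).2.2 i).toInt
                 tp := fun i => Function.update (c.tp i) (c.hd i) ((A.tr s a).2.1 i) } := by
  have ha' : (fun i => c.tp i (c.hd i)) = a := funext ha
  unfold TM.step
  rw [if_neg (by rw [hs]; exact not_or.mpr ⟨h1, h2⟩), ha', hs]

/-- time of an assignment -/
def C5t {r q : ℕ} (v : VV r → ZMod q) : ℕ := num q fun i : Fin r => v (.inl i)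
/-- position of an assignment -/
def C5p {r q : ℕ} (v : VV r → ZMod q) : ℕ := num q fun i : Fin (r + 1) => v (.inr (.inl i))

omit [Fact q.Prime] in
theorem C5_hd (i : Fin (A.nt + 1)) (v : VV r → ZMod q)
    (h : (pa r (.hd i) (tv r) (pv r) : GAtm (PP A) (II r) (VV r)).holds D (Mean A r D u) v) :
    (C5p v : ℤ) = (q : ℤ) ^ r + (A.run u (C5t v)).hd i := h

omit [Fact q.Prime] in
theorem C5_st (s : A.St) (v : VV r → ZMod q)
    (h : (pa r (.st s) (tv r) (pz r) : GAtm (PP A) (II r) (VV r)).holds D (Mean A r D u) v) :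
    (A.run u (C5t v)).st = s := h.2

omit [Fact q.Prime] in
theorem C5_rds (a : Fin (A.nt + 1) → A.Sy) (v : VV r → ZMod q)
    (h : ∀ x ∈ (rds r a : List (GAtm (PP A) (II r) (VV r))), x.holds D (Mean A r D u) v)
    (i : Fin (A.nt + 1)) :
    (A.run u (C5t v)).tp i ((A.run u (C5t v)).hd i) = a i :=
  (h (pa r (.rd i (a i)) (tv r) (pz r)) (List.mem_map.mpr ⟨i, List.mem_finRange i, rfl⟩)).2

theorem C5_pz (v : VV r → ZMod q) (j : Fin (r + 1)) : (pz r j).ev v = 0 := by
  simp [pz, Tm.ev]

theorem sound_tm (_hr : 15 ≤ r) (hD : GoodD D) :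
    (∀ i a, RR.Sound D u (.rd i a : RR A r)) ∧ (∀ i j, RR.Sound D u (.nhd i j : RR A r)) ∧
    (∀ c s a h1 h2, RR.Sound D u (.st c s a h1 h2 : RR A r)) ∧
    (∀ c s a h1 h2 i, RR.Sound D u (.wr c s a h1 h2 i : RR A r)) ∧
    (∀ c s a h1 h2 i hd, RR.Sound D u (.mvN c s a h1 h2 i hd : RR A r)) ∧
    (∀ c s a h1 h2 i hd c', RR.Sound D u (.mvR c s a h1 h2 i hd c' : RR A r)) ∧
    (∀ c s a h1 h2 i hd c', RR.Sound D u (.mvL c s a h1 h2 i hd c' : RR A r)) ∧
    (∀ c i a, RR.Sound D u (.keep c i a : RR A r)) ∧
    RR.Sound D u (.goal : RR A r) := by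
  refine ⟨?_, ?_, ?_, ?_, ?_, ?_, ?_, ?_, ?_⟩
  · -- rd
    intro i a v h
    have h1 := C5_hd i v (h _ (List.mem_cons_self))
    have h2 : (A.run u (C5t v)).tp i ((C5p v : ℤ) - (q : ℤ) ^ r) = a :=
      h _ (List.mem_cons_of_mem _ (List.mem_cons_self))
    refine ⟨fun j => C5_pz v j, ?_⟩
    change (A.run u (C5t v)).tp i ((A.run u (C5t v)).hd i) = a
    rw [← h2, h1]
    congr 1
    ring
  · -- nhd
    intro i j v h
    have h1 := C5_hd i v (h _ (List.mem_cons_self))
    have h2 := h _ (List.mem_cons_of_mem _ (List.mem_cons_self))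
    rw [C5_ae_holds hD] at h2
    change ((num q fun i : Fin (r + 1) => v (.inr (.inr i)) : ℕ) : ℤ) ≠
      (q : ℤ) ^ r + (A.run u (C5t v)).hd i
    rw [← h1]
    intro h3
    have h4 : (num q fun i : Fin (r + 1) => v (.inr (.inr i))) =
      num q fun i : Fin (r + 1) => v (.inr (.inl i)) := by exact_mod_cast h3
    have h5 := congrFun (num_injective q h4) j
    have h6 := h2.mp h5.symm
    exact absurd h6 (by decide)
  · -- st
    intro c s a n1 n2 v h
    have h0 := num_ts hD (Mean A r D u) c v fun x hx => h x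
      (List.mem_append_left _ (List.mem_append_left _ hx))
    have h1 := C5_st s v (h _ (List.mem_append_left _ (List.mem_append_right _
      (List.mem_cons_self))))
    have h2 := C5_rds a v fun x hx => h x (List.mem_append_right _ hx)
    have h3 := C5_step A (A.run u (C5t v)) s a n1 n2 h1 h2
    refine ⟨fun j => C5_pz v j, ?_⟩
    change (A.run u (num q fun i => (ts r c i).ev v)).st = (A.tr s a).1
    rw [h0]
    change (A.run u (C5t v + 1)).st = _
    rw [C5_run_succ, h3]
  · -- wr
    intro c s a n1 n2 i v h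
    have h0 := num_ts hD (Mean A r D u) c v fun x hx => h x
      (List.mem_append_left _ (List.mem_append_left _ hx))
    have h1 := C5_st s v (h _ (List.mem_append_left _ (List.mem_append_right _
      (List.mem_cons_self))))
    have h4 := C5_hd i v (h _ (List.mem_append_left _ (List.mem_append_right _
      (List.mem_cons_of_mem _ (List.mem_cons_self)))))
    have h2 := C5_rds a v fun x hx => h x (List.mem_append_right _ hx)
    have h3 := C5_step A (A.run u (C5t v)) s a n1 n2 h1 h2
    change (A.run u (num q fun i => (ts r c i).ev v)).tp i ((C5p v : ℤ) - (q : ℤ) ^ r) =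
      (A.tr s a).2.1 i
    rw [h0]
    change (A.run u (C5t v + 1)).tp i _ = _
    rw [C5_run_succ, h3, h4]
    have h5 : (q : ℤ) ^ r + (A.run u (C5t v)).hd i - (q : ℤ) ^ r = (A.run u (C5t v)).hd i := by
      ring
    rw [h5]
    exact Function.update_self _ _ _
  · -- mvN
    intro c s a n1 n2 i hd v h
    have h0 := num_ts hD (Mean A r D u) c v fun x hx => h x
      (List.mem_append_left _ (List.mem_append_left _ hx))
    have h1 := C5_st s v (h _ (List.mem_append_left _ (List.mem_append_right _
      (List.mem_cons_self))))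
    have h4 := C5_hd i v (h _ (List.mem_append_left _ (List.mem_append_right _
      (List.mem_cons_of_mem _ (List.mem_cons_self)))))
    have h2 := C5_rds a v fun x hx => h x (List.mem_append_right _ hx)
    have h3 := C5_step A (A.run u (C5t v)) s a n1 n2 h1 h2
    change (C5p v : ℤ) = (q : ℤ) ^ r + (A.run u (num q fun i => (ts r c i).ev v)).hd i
    rw [h0]
    change _ = (q : ℤ) ^ r + (A.run u (C5t v + 1)).hd i
    rw [C5_run_succ, h3, h4]
    change _ = (q : ℤ) ^ r + ((A.run u (C5t v)).hd i + ((A.tr s a).2.2 i).toInt)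
    rw [hd]
    simp [Dir.toInt]
  · -- mvR
    intro c s a n1 n2 i hd c' v h
    have h0 := num_ts hD (Mean A r D u) c v fun x hx => h x
      (List.mem_append_left _ (List.mem_append_left _ (List.mem_append_left _ hx)))
    have h0' := num_ps hD (Mean A r D u) c' v fun x hx => h x
      (List.mem_append_left _ (List.mem_append_left _ (List.mem_append_right _ hx)))
    have h1 := C5_st s v (h _ (List.mem_append_left _ (List.mem_append_right _
      (List.mem_cons_self))))
    have h4 := C5_hd i v (h _ (List.mem_append_left _ (List.mem_append_right _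
      (List.mem_cons_of_mem _ (List.mem_cons_self)))))
    have h2 := C5_rds a v fun x hx => h x (List.mem_append_right _ hx)
    have h3 := C5_step A (A.run u (C5t v)) s a n1 n2 h1 h2
    change ((num q fun i => (ps r c' i).ev v : ℕ) : ℤ) =
      (q : ℤ) ^ r + (A.run u (num q fun i => (ts r c i).ev v)).hd i
    rw [h0, h0']
    change ((C5p v + 1 : ℕ) : ℤ) = (q : ℤ) ^ r + (A.run u (C5t v + 1)).hd i
    rw [C5_run_succ, h3]
    change _ = (q : ℤ) ^ r + ((A.run u (C5t v)).hd i + ((A.tr s a).2.2 i).toInt)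
    rw [hd]
    push_cast
    rw [h4]
    simp only [Dir.toInt]
    ring
  · -- mvL
    intro c s a n1 n2 i hd c' v h
    have h0 := num_ts hD (Mean A r D u) c v fun x hx => h x
      (List.mem_append_left _ (List.mem_append_left _ (List.mem_append_left _ hx)))
    have h0' := num_ps hD (Mean A r D u) c' v fun x hx => h x
      (List.mem_append_left _ (List.mem_append_left _ (List.mem_append_right _ hx)))
    have h1 := C5_st s v (h _ (List.mem_append_left _ (List.mem_append_right _
      (List.mem_cons_self))))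
    have h4 : ((num q fun i => (ps r c' i).ev v : ℕ) : ℤ) =
        (q : ℤ) ^ r + (A.run u (C5t v)).hd i :=
      h _ (List.mem_append_left _ (List.mem_append_right _
        (List.mem_cons_of_mem _ (List.mem_cons_self))))
    have h2 := C5_rds a v fun x hx => h x (List.mem_append_right _ hx)
    have h3 := C5_step A (A.run u (C5t v)) s a n1 n2 h1 h2
    change (C5p v : ℤ) = (q : ℤ) ^ r + (A.run u (num q fun i => (ts r c i).ev v)).hd i
    rw [h0]
    change _ = (q : ℤ) ^ r + (A.run u (C5t v + 1)).hd i
    rw [C5_run_succ, h3]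
    change _ = (q : ℤ) ^ r + ((A.run u (C5t v)).hd i + ((A.tr s a).2.2 i).toInt)
    rw [hd]
    rw [h0'] at h4
    have h5 : ((C5p v : ℤ) + 1) = (q : ℤ) ^ r + (A.run u (C5t v)).hd i := by
      rw [← h4]
      push_cast
      rfl
    simp only [Dir.toInt]
    linarith
  · -- keep
    intro c i a v h
    have h0 := num_ts hD (Mean A r D u) c v fun x hx => h x (List.mem_append_left _ hx)
    have h1 : (A.run u (C5t v)).tp i ((C5p v : ℤ) - (q : ℤ) ^ r) = a :=
      h _ (List.mem_append_right _ (List.mem_cons_self))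
    have h2 : (C5p v : ℤ) ≠ (q : ℤ) ^ r + (A.run u (C5t v)).hd i :=
      h _ (List.mem_append_right _ (List.mem_cons_of_mem _ (List.mem_cons_self)))
    change (A.run u (num q fun i => (ts r c i).ev v)).tp i ((C5p v : ℤ) - (q : ℤ) ^ r) = a
    rw [h0]
    change (A.run u (C5t v + 1)).tp i _ = _
    rw [C5_run_succ, ← h1]
    unfold TM.step
    split_ifs with hs
    · rfl
    · refine Function.update_of_ne ?_ _ _
      intro h3
      apply h2
      rw [← h3]
      ring
  · -- goal
    intro v h
    have h1 := C5_st A.qa v (h _ (List.mem_cons_self))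
    exact ⟨C5t v, num_lt q _, h1⟩

end

end Vale.Agent.P310
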