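import Vale.Agent.P310.SoundN
import Vale.Agent.P310.SoundAdj
import Vale.Agent.P310.SoundInit
import Vale.Agent.P310.SoundTM

/-!
P310, Level C for all `n`, piece N3b: the intended meaning is a model of the extended program.
-/

namespace Vale.Agent.P310

open scoped BigOperators

/-- atoms with renamed predicates -/
theorem GAtm.holds_map {P P' I V : Type} {q : ℕ} (D : (Fin 5 → ZMod q) → Prop)
    (M : P' → (I → ZMod q) → Prop) (f : P → P') (v : V → ZMod q) (a : GAtm P I V) :
    (a.map f).holds D M v ↔ a.holds D (fun p => M (f p)) v := by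
  cases a <;> rfl

section

variable {A : TM} {r q : ℕ} [Fact q.Prime] {D : (Fin 5 → ZMod q) → Prop} {u : List Bool} {n : ℕ}

open SInit in
/-- the three initial rules which do not mention the input -/
theorem sound_init_old :
    RR.Sound D u (.st0 : RR A r) ∧ (∀ i, RR.Sound D u (.hd0 i : RR A r)) ∧
    (∀ i h, RR.Sound D u (.bl4 i h : RR A r)) := by
  have : NeZero q := ⟨(Fact.out : q.Prime).ne_zero⟩
  have h2q : 2 ≤ q := two_le
  have : Fact (1 < q) := ⟨by omega⟩
  refine ⟨?_, ?_, ?_⟩
  · -- st0
    intro v _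
    simp only [RR.rule, Mean]
    refine ⟨?_, ?_⟩
    · intro j
      simp [tp, pz, Tm.ev]
    · rw [num_t0]
      rfl
  · -- hd0
    intro i v _
    simp only [RR.rule, Mean]
    rw [num_t0]
    have e : (fun j : Fin (r + 1) => (tp r (tz r) (p1 r) (.inr j)).ev v) =
        fun j : Fin (r + 1) => if j = Fin.last r then (1 : ZMod q) else 0 := by
      funext j
      by_cases hj : j = Fin.last r
      · subst hj
        simp [tp, p1, Tm.ev]
      · have : ¬ j.val = r := fun h => hj (Fin.ext h)
        simp [tp, p1, Tm.ev, hj, this]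
    rw [e]
    have e2 : num q (fun j : Fin (r + 1) => if j = Fin.last r then (1 : ZMod q) else 0) =
        q ^ r := by
      unfold num
      rw [Finset.sum_eq_single (Fin.last r)]
      · simp [ZMod.val_one]
      · intro j _ hj
        simp [hj]
      · simp
    rw [e2]
    have e3 : (A.run u 0).hd i = 0 := rfl
    rw [e3]
    push_cast
    ring
  · -- bl4
    intro i hi v _
    simp only [RR.rule, Mean]
    rw [num_t0]
    generalize ((num q fun j => (tp r (tz r) (pv r) (.inr j)).ev v : ℕ) : ℤ) - (q : ℤ) ^ r = z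
    change (if i = 0 ∧ 0 ≤ z then (u[z.toNat]?).elim A.blank A.bit else A.blank) = A.blank
    rw [if_neg]
    rintro ⟨h, _⟩
    exact hi h

/-- rules of the old program -/
theorem sound_old (hr : 17 ≤ r) (hD : GoodD D) (x : RR A r) (hx : ¬ x.isInit) :
    RR.Sound D u x := by
  have hr' : 15 ≤ r := by omega
  obtain ⟨a1, a2, a3, a4, a5, a6, a7, a8, a9⟩ := sound_adj (A := A) (u := u) hr' hD
  obtain ⟨b1, b2, b7⟩ := sound_init_old (A := A) (r := r) (D := D) (u := u)
  obtain ⟨c1, c2, c3, c4, c5, c6, c7, c8, c9⟩ := sound_tm (A := A) (u := u) hr' hD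
  cases x with
  | nca π => exact a1 π
  | ncb s => exact a2 s
  | ncc j => exact a3 j
  | arc1 π => exact a4 π
  | arc0m j => exact a5 j
  | arc0c => exact a6
  | adj1 => exact a7
  | adj2 => exact a8
  | adj0 => exact a9
  | st0 => exact b1
  | hd0 i => exact b2 i
  | inp b h => exact absurd trivial hx
  | bl1 j h1 h2 => exact absurd trivial hx
  | bl2 => exact absurd trivial hx
  | bl3 => exact absurd trivial hx
  | bl4 i h => exact b7 i h
  | rd i a => exact c1 i a
  | nhd i j => exact c2 i j
  | st c s a h1 h2 => exact c3 c s a h1 h2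
  | wr c s a h1 h2 i => exact c4 c s a h1 h2 i
  | mvN c s a h1 h2 i hd => exact c5 c s a h1 h2 i hd
  | mvR c s a h1 h2 i hd c' => exact c6 c s a h1 h2 i hd c'
  | mvL c s a h1 h2 i hd c' => exact c7 c s a h1 h2 i hd c'
  | keep c i a => exact c8 c i a
  | goal => exact c9

theorem modelN (hr : 17 ≤ r) (hD : GoodN D n) (hn : 1 ≤ n) (hnq : n < q ^ 8)
    (hu : InpN D n u) : (progN A r).Model D (MeanN A r D n u) := by
  intro x v h
  cases x with
  | inl x =>
    have h1 := sound_old (A := A) (u := u) hr hD.toGoodD x.1 x.2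
    refine h1 v ?_
    intro a ha
    have h2 := h (a.map .old) (List.mem_map_of_mem ha)
    exact (GAtm.holds_map D (MeanN A r D n u) PN.old v a).mp h2
  | inr x => exact sound_new hr hD hn hnq hu x v h

end

end Vale.Agent.P310
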