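import Vale.Agent.P310.ProgGoal
import Vale.Agent.P310.ModelN
import Vale.Agent.P310.GenComp
import Vale.Agent.P310.InitN

/-!
P310, Level C for all `n`, piece N7: the extended program derives its goal exactly when the
machine accepts in time.
-/

namespace Vale.Agent.P310

open scoped BigOperators

section

variable {A : TM} {r q : ℕ} [Fact q.Prime] {D : (Fin 5 → ZMod q) → Prop} {u : List Bool} {n : ℕ}

/-- the least fixed point of the extended program satisfies the old rules -/
theorem progN_holds (x : RR A r) (hx : ¬ x.isInit) :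
    x.Holds D (fun p => (progN A r).Sat D (.old p : PN A)) := by
  intro v h
  refine (progN A r).sat_rule D (.inl ⟨x, hx⟩) v ?_
  intro a ha
  obtain ⟨b, hb, rfl⟩ := List.mem_map.mp ha
  exact (GAtm.holds_map D ((progN A r).Sat D) PN.old v b).mpr (h b hb)

theorem facts_of_leN (hr : 17 ≤ r) (hD : GoodN D n) (hn : 1 ≤ n) (hnq : n < q ^ 8)
    (hu : InpN D n u) (N : ℕ) (hN : N < q ^ r)
    (hrun : ∀ s < N, (A.run u s).st ≠ A.qa ∧ (A.run u s).st ≠ A.qr) :
    ∃ t : Fin r → ZMod q, num q t = N ∧
      FactsM (A := A) u (fun p => (progN A r).Sat D (.old p : PN A)) t := by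
  induction N with
  | zero => exact ⟨0, num_zero q, comp_initN hr hD hn hnq hu⟩
  | succ N ih =>
    obtain ⟨t, ht, hF⟩ := ih (by omega) (fun s hs => hrun s (by omega))
    obtain ⟨t', ht'⟩ := exists_num q (N + 1) hN
    obtain ⟨c, hc⟩ := (succ_iff q t t').mp (by rw [ht, ht'])
    have h1 := hrun N (by omega)
    refine ⟨t', ht', comp_step_gen (by omega) hD.toGoodD _ progN_holds t t' c hc ?_ ?_ hF⟩
    · rw [ht]
      exact h1.1
    · rw [ht]
      exact h1.2

theorem sat_goal_iffN (hr : 17 ≤ r) (hD : GoodN D n) (hn : 1 ≤ n) (hnq : n < q ^ 8)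
    (hu : InpN D n u) :
    (∃ y, (progN A r).Sat D (.old .goal : PN A) y) ↔ ∃ t < q ^ r, (A.run u t).st = A.qa := by
  constructor
  · rintro ⟨y, hy⟩
    exact hy (MeanN A r D n u) (modelN hr hD hn hnq hu)
  · rintro ⟨t1, ht1, hq1⟩
    classical
    have hex : ∃ t, (A.run u t).st = A.qa := ⟨t1, hq1⟩
    set t0 := Nat.find hex with ht0
    have h0 : (A.run u t0).st = A.qa := Nat.find_spec hex
    have hle : t0 ≤ t1 := Nat.find_min' hex hq1
    have hmin : ∀ s < t0, (A.run u s).st ≠ A.qa ∧ (A.run u s).st ≠ A.qr := by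
      intro s hs
      have h1 : (A.run u s).st ≠ A.qa := Nat.find_min hex hs
      refine ⟨h1, fun h2 => ?_⟩
      have h3 := A.run_stop u (Or.inr h2) (t0 - s)
      rw [Nat.add_sub_cancel' hs.le] at h3
      rw [h3] at h0
      exact h1 h0
    obtain ⟨t, ht, hF, -, -⟩ := facts_of_leN (A := A) hr hD hn hnq hu t0 (by omega) hmin
    rw [ht, h0] at hF
    have h5 := progN_holds (A := A) (r := r) (D := D) .goal (fun h => h)
      (Sum.elim t (fun _ => 0) : VV r → ZMod q) (by
        intro a ha
        have ha' : a = pa r (.st A.qa : PP A) (tv r) (pz r) := List.mem_singleton.mp ha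
        subst ha'
        have h6 : (fun i => ((tp r (tv r) (pz r) : II r → Tm (VV r)) i).ev
            (Sum.elim t (fun _ => 0) : VV r → ZMod q)) = Sum.elim t 0 := by
          funext i
          cases i with
          | inl i => rfl
          | inr i => simp [tp, pz, Tm.ev]
        show (progN A r).Sat D (.old (.st A.qa) : PN A) _
        rw [h6]
        exact hF)
    exact ⟨_, h5⟩

end

end Vale.Agent.P310
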