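import Vale.Agent.P310.Emb
import Vale.Agent.P310.ProgGoalN
import Vale.Agent.P310.EncN
import Vale.Agent.P310.Diag
import Vale.Agent.P310.TableN

/-!
P310, Level C [N9]: the lower bound at one `k`, for all `n`.
-/

namespace Vale.Agent.P310

open scoped BigOperators

theorem diagN (r : ℕ) (hr : 17 ≤ r) (m : ℕ) (hm : 6 * ((2 * r + 1) + (3 * r + 2)) + 2 < m)
    (A : TM) (T : ℕ → ℕ) (hA : A.DecidesWL (m + 1) T) :
    ∃ q0 : ℕ, ∀ q : ℕ, q.Prime → q0 ≤ q → ∀ n : ℕ, q ^ 7 ≤ n → n < q ^ 8 → q ^ r ≤ T n := by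
  have hI : Fintype.card (II r) = 2 * r + 1 := by
    simp only [Fintype.card_sum, Fintype.card_fin]
    omega
  have hV : Fintype.card (VV r) = 3 * r + 2 := by
    simp only [Fintype.card_sum, Fintype.card_fin]
    omega
  have hI5 : 5 ≤ Fintype.card (II r) := by omega
  obtain ⟨Pg', hPg'⟩ := GProg.exists_tprog hI5 (progN A r)
  obtain ⟨U, Q, i1, i2, i3, g, hg, hB⟩ := tlevelB hI5 Pg' m (by rw [hI, hV]; exact hm)
  obtain ⟨q0, hT⟩ := exists_tableN U m Q g hg
  refine ⟨max q0 m, fun q hq hq0 n hn7 hn8 => ?_⟩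
  have : Fact q.Prime := ⟨hq⟩
  have hq1 : 1 ≤ q := hq.one_lt.le
  have hn1 : 1 ≤ n := le_trans (Nat.one_le_pow _ _ hq1) hn7
  obtain ⟨D, hD, em, hem⟩ := hT q (le_trans (le_max_left _ _) hq0) n
  obtain ⟨f, hu⟩ := inpN_enc hD.toGoodD n hn7 hn8
  by_contra hlt
  have hlt' : T n < q ^ r := not_le.mp hlt
  have h1 := hA n ((tgr D false).map f) ((tgr D true).map f)
  have h2 := (hB q D (le_trans (le_max_right _ _) hq0)).2 em
  rw [hem false, hem true, hPg' q D] at h2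
  have h3 : (∃ y, (progN A r).Sat D (.old .goal : PN A) y) ↔ _ := sat_goal_iffN hr hD hn1 hn8 hu
  have : NeZero q := ⟨hq.ne_zero⟩
  have : Nonempty (Vx q) := ⟨(⟨0, hq.pos⟩, 0)⟩
  have h4 : WLEquiv (m + 1) ((tgr D false).map f) ((tgr D true).map f) ↔
      ¬ ∃ t < q ^ r, (A.run (enc ((tgr D false).map f) ((tgr D true).map f)) t).st = A.qa := by
    rw [WLEquiv.map_emb_iff (by omega) f, ← h3]
    exact h2
  by_cases hW : WLEquiv (m + 1) ((tgr D false).map f) ((tgr D true).map f)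
  · rw [if_pos hW] at h1
    exact h4.mp hW ⟨_, hlt', h1⟩
  · rw [if_neg hW] at h1
    have h5 : ∃ t < q ^ r, (A.run (enc ((tgr D false).map f) ((tgr D true).map f)) t).st =
        A.qa := by
      by_contra h6
      exact hW (h4.mpr h6)
    obtain ⟨t, _, h6⟩ := h5
    exact A.not_both _ h1 h6

end Vale.Agent.P310
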