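import Vale.Agent.P310.Game

/-!
P310 [N1]: adding isolated vertices does not change equivalence.
-/

namespace Vale.Agent.P310

open Finset SimAux

/-- If two tuples have the same stable colour then the graphs are equivalent. -/
theorem WLEquiv.of_sim {V W : Type} [Fintype V] [Fintype W] {k : ℕ} {G : SimpleGraph V}
    {H : SimpleGraph W} {x : Fin k → V} {y : Fin k → W} (h : Sim G H x y) : WLEquiv k G H := by
  classical
  have key : ∀ j : ℕ, j ≤ k → ∃ F : (Fin j → V) ≃ (Fin j → W), ∀ z : Fin j → V,
      Sim G H (fun i : Fin k => if hi : i.val < j then z ⟨i.val, hi⟩ else x i)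
        (fun i : Fin k => if hi : i.val < j then F z ⟨i.val, hi⟩ else y i) := by
    intro j
    induction j with
    | zero =>
      intro _
      refine ⟨Equiv.ofUnique _ _, fun z => ?_⟩
      simpa using h
    | succ j ih =>
      intro hj
      obtain ⟨F, hF⟩ := ih (by omega)
      choose σ hσ using fun z => (hF z).forth'
      let E : V × (Fin j → V) ≃ W × (Fin j → W) :=
        { toFun := fun p => (σ p.2 p.1, F p.2)
          invFun := fun p => ((σ (F.symm p.2)).symm p.1, F.symm p.2)
          left_inv := by
            rintro ⟨a, b⟩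
            simp
          right_inv := by
            rintro ⟨a, b⟩
            simp }
      refine ⟨(Fin.snocEquiv fun _ => V).symm.trans (E.trans (Fin.snocEquiv fun _ => W)),
        fun z => ?_⟩
      have h1 := hσ (fun i => z i.castSucc) (z (Fin.last j)) ⟨j, by omega⟩
      convert h1 using 1
      · funext i
        by_cases hi : i = ⟨j, by omega⟩
        · subst hi
          simp [Fin.last]
        · rw [Function.update_of_ne hi]
          have hi' : i.val ≠ j := fun e => hi (Fin.ext e)
          by_cases h2 : i.val < j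
          · rw [dif_pos (by omega : i.val < j + 1), dif_pos h2]
            rfl
          · rw [dif_neg (by omega : ¬ i.val < j + 1), dif_neg h2]
      · funext i
        by_cases hi : i = ⟨j, by omega⟩
        · subst hi
          rw [Function.update_self, dif_pos (by simp : (⟨j, by omega⟩ : Fin k).val < j + 1)]
          change (Fin.snoc (F fun i => z i.castSucc)
            (σ (fun i => z i.castSucc) (z (Fin.last j))) : Fin (j + 1) → W) (Fin.last j) = _
          rw [Fin.snoc_last]
        · rw [Function.update_of_ne hi]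
          have hi' : i.val ≠ j := fun e => hi (Fin.ext e)
          by_cases h2 : i.val < j
          · rw [dif_pos (by omega : i.val < j + 1), dif_pos h2]
            change (Fin.snoc (F fun i => z i.castSucc)
              (σ (fun i => z i.castSucc) (z (Fin.last j))) : Fin (j + 1) → W)
              (Fin.castSucc ⟨i.val, h2⟩) = _
            rw [Fin.snoc_castSucc]
          · rw [dif_neg (by omega : ¬ i.val < j + 1), dif_neg h2]
  obtain ⟨F, hF⟩ := key k le_rfl
  intro r
  rw [map_univ_eq_iff]
  refine ⟨F, fun z => ?_⟩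
  have h1 := hF z r
  have h2 : (fun i : Fin k => if hi : i.val < k then z ⟨i.val, hi⟩ else x i) = z := by
    funext i
    rw [dif_pos i.isLt]
  have h3 : (fun i : Fin k => if hi : i.val < k then F z ⟨i.val, hi⟩ else y i) = F z := by
    funext i
    rw [dif_pos i.isLt]
  rwa [h2, h3] at h1

theorem map_adj_of_notMem {V W : Type} {G : SimpleGraph V} {f : V ↪ W} {a b : W}
    (ha : a ∉ Set.range f) : ¬ (G.map f).Adj a b := by
  rw [SimpleGraph.map_adj]
  rintro ⟨u, v, _, rfl, _⟩
  exact ha ⟨u, rfl⟩

theorem map_emb_mp {V W : Type} [Fintype V] [Nonempty V] [Fintype W] {k : ℕ} (f : V ↪ W)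
    (G H : SimpleGraph V) (h : WLEquiv k G H) : WLEquiv k (G.map f) (H.map f) := by
  classical
  obtain ⟨x0⟩ := ‹Nonempty V›
  obtain ⟨y, hy⟩ := h.exists_sim fun _ => x0
  refine WLEquiv.of_sim (x := fun _ => f x0) (y := fun i => f (y i)) ?_
  refine Sim.of_game (fun (x y : Fin k → W) => ∃ x' y' : Fin k → V, Sim G H x' y' ∧
    ∀ i, (x i = f (x' i) ∧ y i = f (y' i)) ∨ (x i ∉ Set.range f ∧ y i = x i)) ?_ ?_ _ _
    ⟨fun _ => x0, y, hy, fun i => Or.inl ⟨rfl, rfl⟩⟩
  · rintro x y ⟨x', y', hs, hc⟩ i j
    rcases hc i with ⟨h1, h2⟩ | ⟨h1, h2⟩ <;> rcases hc j with ⟨h3, h4⟩ | ⟨h3, h4⟩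
    · rw [h1, h2, h3, h4, f.injective.eq_iff, f.injective.eq_iff]
      refine ⟨hs.eq_iff i j, ?_⟩
      rw [SimpleGraph.map_adj_apply, SimpleGraph.map_adj_apply]
      exact hs.adj_iff i j
    · refine ⟨⟨fun e => ?_, fun e => ?_⟩, ⟨fun e => ?_, fun e => ?_⟩⟩
      · exact absurd ⟨x' i, by rw [← h1, e]⟩ h3
      · exact absurd ⟨y' i, by rw [← h2, e, h4]⟩ h3
      · exact absurd e.symm (map_adj_of_notMem h3)
      · rw [h4] at e
        exact absurd e.symm (map_adj_of_notMem h3)
    · refine ⟨⟨fun e => ?_, fun e => ?_⟩, ⟨fun e => ?_, fun e => ?_⟩⟩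
      · exact absurd ⟨x' j, by rw [← h3, e]⟩ h1
      · exact absurd ⟨y' j, by rw [← h4, ← e, h2]⟩ h1
      · exact absurd e (map_adj_of_notMem h1)
      · rw [h2] at e
        exact absurd e (map_adj_of_notMem h1)
    · rw [h2, h4]
      refine ⟨Iff.rfl, ⟨fun e => ?_, fun e => ?_⟩⟩
      · exact absurd e (map_adj_of_notMem h1)
      · exact absurd e (map_adj_of_notMem h1)
  · rintro x y ⟨x', y', hs, hc⟩
    obtain ⟨σ, hσ⟩ := hs.forth'
    refine ⟨Equiv.Perm.viaEmbedding σ f, fun z i => ?_⟩
    by_cases hz : z ∈ Set.range f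
    · obtain ⟨v, rfl⟩ := hz
      refine ⟨_, _, hσ v i, fun j => ?_⟩
      by_cases hj : j = i
      · subst hj
        left
        rw [Function.update_self, Function.update_self, Function.update_self,
          Function.update_self, Equiv.Perm.viaEmbedding_apply]
        exact ⟨rfl, rfl⟩
      · rw [Function.update_of_ne hj, Function.update_of_ne hj, Function.update_of_ne hj,
          Function.update_of_ne hj]
        exact hc j
    · refine ⟨x', y', hs, fun j => ?_⟩
      by_cases hj : j = i
      · subst hj
        right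
        rw [Function.update_self, Function.update_self,
          Equiv.Perm.viaEmbedding_apply_of_notMem _ _ _ hz]
        exact ⟨hz, rfl⟩
      · rw [Function.update_of_ne hj, Function.update_of_ne hj]
        exact hc j

/-- two isolated vertices outside the tuple have the same colours -/
theorem color_swap {W : Type} [Fintype W] {k : ℕ} (G : SimpleGraph W) (x : Fin k → W) {a b : W}
    (ha : ∀ c, ¬ G.Adj a c) (hb : ∀ c, ¬ G.Adj b c) (hxa : ∀ j, x j ≠ a) (hxb : ∀ j, x j ≠ b)
    (r : ℕ) (i : Fin k) :
    color k G r (Function.update x i a) = color k G r (Function.update x i b) := by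
  classical
  have hG : G.map (Equiv.swap a b).toEmbedding = G := by
    ext u v
    rw [SimpleGraph.map_adj]
    constructor
    · rintro ⟨u', v', huv, rfl, rfl⟩
      have h1 : u' ≠ a := fun e => ha v' (e ▸ huv)
      have h2 : u' ≠ b := fun e => hb v' (e ▸ huv)
      have h3 : v' ≠ a := fun e => ha u' (e ▸ huv.symm)
      have h4 : v' ≠ b := fun e => hb u' (e ▸ huv.symm)
      simpa [Equiv.swap_apply_of_ne_of_ne h1 h2, Equiv.swap_apply_of_ne_of_ne h3 h4] using huv
    · intro huv
      have h1 : u ≠ a := fun e => ha v (e ▸ huv)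
      have h2 : u ≠ b := fun e => hb v (e ▸ huv)
      have h3 : v ≠ a := fun e => ha u (e ▸ huv.symm)
      have h4 : v ≠ b := fun e => hb u (e ▸ huv.symm)
      exact ⟨u, v, huv, by simp [Equiv.swap_apply_of_ne_of_ne h1 h2],
        by simp [Equiv.swap_apply_of_ne_of_ne h3 h4]⟩
  have h1 := color_map (k := k) (Equiv.swap a b) G r (Function.update x i a)
  rw [hG] at h1
  rw [← h1]
  congr 1
  funext j
  by_cases hj : j = i
  · subst hj
    simp
  · rw [Function.update_of_ne hj, Function.update_of_ne hj]
    exact Equiv.swap_apply_of_ne_of_ne (hxa j) (hxb j)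

theorem map_val_eq_sum {W α : Type} [Fintype W] (A : W → α) :
    (univ : Finset W).val.map A = ∑ w : W, ({A w} : Multiset α) := by
  rw [Finset.sum_eq_multiset_sum]
  rw [show ((univ : Finset W).val.map fun w => ({A w} : Multiset α)) =
    ((univ : Finset W).val.map A).map fun a => ({a} : Multiset α) by rw [Multiset.map_map]; rfl]
  rw [Multiset.sum_map_singleton]

theorem update_comp {V W : Type} {k : ℕ} (f : V ↪ W) (x : Fin k → V) (i : Fin k) (z : V) :
    (fun j => f (Function.update x i z j)) = Function.update (fun j => f (x j)) i (f z) := by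
  funext j
  by_cases hj : j = i
  · subst hj
    simp
  · rw [Function.update_of_ne hj, Function.update_of_ne hj]

/-- a vertex outside the tuple which is isolated on one side has a partner of this kind -/
theorem partner {V W : Type} [Fintype V] [Fintype W] {k : ℕ} (hk : 2 ≤ k) {G : SimpleGraph V}
    {H : SimpleGraph W} {x : Fin k → V} {y : Fin k → W} {a : V} {b : W}
    (hab : ∀ i, Sim G H (Function.update x i a) (Function.update y i b))
    (ha : ∀ c, ¬ G.Adj a c) (hxa : ∀ j, x j ≠ a) :
    (∀ c, ¬ H.Adj b c) ∧ ∀ j, y j ≠ b := by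
  constructor
  · intro c hc
    obtain ⟨i, hi⟩ : ∃ i : Fin k, i = ⟨0, by omega⟩ := ⟨_, rfl⟩
    obtain ⟨j, hij⟩ := SimAux.exists_ne hk i
    obtain ⟨σ, hσ⟩ := (hab i).forth'
    have h1 := (hσ (σ.symm c) j).adj_iff i j
    rw [Function.update_of_ne hij, Function.update_of_ne hij, Function.update_self,
      Function.update_self, Function.update_self, Function.update_self,
      Equiv.apply_symm_apply] at h1
    exact ha _ (h1.mpr hc)
  · intro j hj
    obtain ⟨i, hij⟩ := SimAux.exists_ne hk j
    have h1 := (hab i).eq_iff j i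
    rw [Function.update_of_ne hij, Function.update_of_ne hij, Function.update_self,
      Function.update_self] at h1
    exact hxa j (h1.mpr hj)

theorem map_emb_forth {V W : Type} [Fintype V] [Fintype W] {k : ℕ} (hk : 2 ≤ k) (f : V ↪ W)
    (G H : SimpleGraph V) (x y : Fin k → V)
    (h : Sim (G.map f) (H.map f) (fun i => f (x i)) fun i => f (y i)) :
    ∃ σ : V ≃ V, ∀ z i, Sim (G.map f) (H.map f) (fun j => f (Function.update x i z j))
      fun j => f (Function.update y i (σ z) j) := by
  classical
  -- it is enough to do it for every round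
  suffices h0 : ∀ r, ∃ σ : V ≃ V, ∀ z i,
      color k (G.map f) r (fun j => f (Function.update x i z j)) =
        color k (H.map f) r (fun j => f (Function.update y i (σ z) j)) by
    choose σ hσ using h0
    obtain ⟨τ, hτ⟩ := exists_frequent σ
    refine ⟨τ, fun z i r => ?_⟩
    obtain ⟨m, hm, rfl⟩ := hτ r
    exact color_mono hm (hσ m z i)
  intro r
  set x1 : Fin k → W := fun i => f (x i) with hx1
  set y1 : Fin k → W := fun i => f (y i) with hy1
  let A : W → (Fin k → Color k r) := fun w i => color k (G.map f) r (Function.update x1 i w)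
  let B : W → (Fin k → Color k r) := fun w i => color k (H.map f) r (Function.update y1 i w)
  suffices h1 : (univ : Finset V).val.map (fun z => A (f z)) =
      (univ : Finset V).val.map (fun z => B (f z)) by
    obtain ⟨σ, hσ⟩ := (map_univ_eq_iff _ _).mp h1
    refine ⟨σ, fun z i => ?_⟩
    rw [update_comp, update_comp]
    exact congrFun (hσ z) i
  obtain ⟨σ, hσ⟩ := h.forth'
  have h2 : (univ : Finset W).val.map A = (univ : Finset W).val.map B := by
    rw [map_univ_eq_iff]
    exact ⟨σ, fun w => funext fun i => hσ w i r⟩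
  have hout : ∀ (G' : SimpleGraph V) (z : Fin k → V) (w w' : W), w ∉ Set.range f →
      (∀ c, ¬ (G'.map f).Adj w' c) → (∀ j, f (z j) ≠ w') → ∀ i,
      color k (G'.map f) r (Function.update (fun j => f (z j)) i w') =
        color k (G'.map f) r (Function.update (fun j => f (z j)) i w) := by
    intro G' z w w' hw h3 h4 i
    refine color_swap _ _ h3 (fun c => map_adj_of_notMem hw) h4 (fun j e => hw ⟨z j, e⟩) r i
  rw [map_val_eq_sum, map_val_eq_sum] at h2 ⊢
  rw [← Finset.sum_add_sum_compl (univ.map f), ← Finset.sum_add_sum_compl (univ.map f) fun w =>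
    ({B w} : Multiset _), Finset.sum_map, Finset.sum_map] at h2
  have h5 : ∑ w ∈ (univ.map f)ᶜ, ({A w} : Multiset _) = ∑ w ∈ (univ.map f)ᶜ, {B w} := by
    refine Finset.sum_congr rfl fun w hw => ?_
    congr 1
    have hw' : w ∉ Set.range f := by
      rintro ⟨v, rfl⟩
      simp at hw
    funext i
    -- the partner of `w`
    have h6 : ∀ i, Sim (G.map f) (H.map f) (Function.update x1 i w)
        (Function.update y1 i (σ w)) := fun i => hσ w i
    obtain ⟨h7, h8⟩ := partner hk h6 (fun c => map_adj_of_notMem hw')
      (fun j e => hw' ⟨x j, e⟩)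
    have h9 := hσ w i r
    change color k (G.map f) r (Function.update x1 i w) =
      color k (H.map f) r (Function.update y1 i w)
    rw [h9]
    exact hout H y w (σ w) hw' h7 h8 i
  rw [h5] at h2
  exact add_right_cancel h2

theorem map_emb_mpr {V W : Type} [Fintype V] [Nonempty V] [Fintype W] {k : ℕ}
    (hk : 2 ≤ k) (f : V ↪ W) (G H : SimpleGraph V) (h : WLEquiv k (G.map f) (H.map f)) :
    WLEquiv k G H := by
  classical
  -- a pair of tuples inside
  by_cases hin : ∃ x y : Fin k → V, Sim (G.map f) (H.map f) (fun i => f (x i)) fun i => f (y i)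
  · obtain ⟨x, y, hxy⟩ := hin
    refine WLEquiv.of_sim (x := x) (y := y) ?_
    refine Sim.of_game (fun x y : Fin k → V =>
      Sim (G.map f) (H.map f) (fun i => f (x i)) fun i => f (y i)) ?_ ?_ x y hxy
    · intro x y hs i j
      have h1 := hs.eq_iff i j
      have h2 := hs.adj_iff i j
      rw [f.injective.eq_iff, f.injective.eq_iff] at h1
      rw [SimpleGraph.map_adj_apply, SimpleGraph.map_adj_apply] at h2
      exact ⟨h1, h2⟩
    · intro x y hs
      exact map_emb_forth hk f G H x y hs
  · -- otherwise there are no edges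
    have hG : ∀ (G H : SimpleGraph V), WLEquiv k (G.map f) (H.map f) →
        (¬ ∃ x y : Fin k → V, Sim (G.map f) (H.map f) (fun i => f (x i)) fun i => f (y i)) →
        G = ⊥ := by
      intro G H h hin
      rw [SimpleGraph.eq_bot_iff_forall_not_adj]
      intro a b hab
      apply hin
      obtain ⟨y, hy⟩ := h.exists_sim fun _ => f a
      obtain ⟨σ, hσ⟩ := hy.forth'
      obtain ⟨i0, hi0⟩ : ∃ i : Fin k, i = ⟨0, by omega⟩ := ⟨_, rfl⟩
      have hmem : ∀ i, y i ∈ Set.range f := by
        intro i
        by_contra hne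
        obtain ⟨j, hij⟩ := SimAux.exists_ne hk i
        have h1 := (hσ (f b) j).adj_iff i j
        rw [Function.update_of_ne hij, Function.update_of_ne hij, Function.update_self,
          Function.update_self, SimpleGraph.map_adj_apply] at h1
        exact map_adj_of_notMem hne (h1.mp hab)
      choose y' hy' using hmem
      refine ⟨fun _ => a, y', ?_⟩
      convert hy using 1
      funext i
      exact hy' i
    have h1 : G = ⊥ := hG G H h hin
    have h2 : H = ⊥ := by
      refine hG H G (fun r => (h r).symm) ?_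
      rintro ⟨x, y, hxy⟩
      exact hin ⟨y, x, hxy.symm⟩
    rw [h1, h2]
    intro r
    rfl

theorem WLEquiv.map_emb_iff {V W : Type} [Fintype V] [Nonempty V] [Fintype W] {k : ℕ}
    (hk : 2 ≤ k) (f : V ↪ W) (G H : SimpleGraph V) :
    WLEquiv k (G.map f) (H.map f) ↔ WLEquiv k G H :=
  ⟨map_emb_mpr hk f G H, map_emb_mp f G H⟩

end Vale.Agent.P310
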