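import Mathlib

/-! # P310: a finite group without short relations

For every finite set `S` of generators and every `N` there is a finite group with elements indexed by `S`
without nontrivial relation of length at most `N` (permutations of the ball of radius `N` of the free group). -/

namespace Vale.Agent.P310

open FreeGroup

namespace FinGroup

variable {S : Type} [DecidableEq S]

/-- the ball of radius `N` of the free group -/
abbrev Ball (S : Type) [DecidableEq S] (N : ℕ) : Type := {x : FreeGroup S // x.norm ≤ N}

theorem finite_ball [Finite S] (N : ℕ) : Finite (Ball S N) := by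
  have h : Set.Finite {l : List (S × Bool) | l.length ≤ N} := List.finite_length_le _ N
  have : Finite {l : List (S × Bool) // l.length ≤ N} := h
  exact Finite.of_injective
    (fun x : Ball S N => (⟨x.1.toWord, x.2⟩ : {l : List (S × Bool) // l.length ≤ N}))
    (fun x y hxy => by
      have := congrArg Subtype.val hxy
      exact Subtype.ext (FreeGroup.toWord_injective this))

/-- left multiplication by a generator, as an equivalence of two parts of the ball -/
noncomputable def part (N : ℕ) (s : S) :
    {x : Ball S N // ((FreeGroup.of s) * x.1).norm ≤ N} ≃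
      {y : Ball S N // ((FreeGroup.of s)⁻¹ * y.1).norm ≤ N} where
  toFun x := ⟨⟨FreeGroup.of s * x.1.1, x.2⟩, by
    show ((FreeGroup.of s)⁻¹ * (FreeGroup.of s * x.1.1)).norm ≤ N
    rw [inv_mul_cancel_left]
    exact x.1.2⟩
  invFun y := ⟨⟨(FreeGroup.of s)⁻¹ * y.1.1, y.2⟩, by
    show (FreeGroup.of s * ((FreeGroup.of s)⁻¹ * y.1.1)).norm ≤ N
    rw [mul_inv_cancel_left]
    exact y.1.2⟩
  left_inv x := by
    apply Subtype.ext
    apply Subtype.ext
    exact inv_mul_cancel_left _ _
  right_inv y := by
    apply Subtype.ext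
    apply Subtype.ext
    exact mul_inv_cancel_left _ _

/-- the permutation of the ball given by a generator -/
noncomputable def gen [Finite S] (N : ℕ) (s : S) : Equiv.Perm (Ball S N) := by
  classical
  have := finite_ball (S := S) N
  exact (part N s).extendSubtype

theorem gen_apply [Finite S] (N : ℕ) (s : S) (x : Ball S N)
    (hx : ((FreeGroup.of s) * x.1).norm ≤ N) :
    gen N s x = ⟨FreeGroup.of s * x.1, hx⟩ := by
  classical
  have := finite_ball (S := S) N
  unfold gen
  rw [Equiv.extendSubtype_apply_of_mem _ x hx]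
  rfl

theorem gen_symm_apply [Finite S] (N : ℕ) (s : S) (x : Ball S N)
    (hx : ((FreeGroup.of s)⁻¹ * x.1).norm ≤ N) :
    (gen N s)⁻¹ x = ⟨(FreeGroup.of s)⁻¹ * x.1, hx⟩ := by
  rw [Equiv.Perm.inv_eq_iff_eq, gen_apply]
  · apply Subtype.ext
    exact (mul_inv_cancel_left _ _).symm
  · show (FreeGroup.of s * ((FreeGroup.of s)⁻¹ * x.1)).norm ≤ N
    rw [mul_inv_cancel_left]
    exact x.2

theorem lift_apply [Finite S] (N : ℕ) (w : List (S × Bool)) (hw : FreeGroup.IsReduced w)
    (hl : w.length ≤ N) :
    ((FreeGroup.lift (gen N) (FreeGroup.mk w)) (⟨1, by simp⟩ : Ball S N)).1 =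
      FreeGroup.mk w := by
  induction w with
  | nil => simp [FreeGroup.one_eq_mk]
  | cons a w ih =>
    have hw' : FreeGroup.IsReduced w := List.IsChain.tail hw
    have h1 := ih hw' (by simp at hl; omega)
    have hn : ∀ v : List (S × Bool), FreeGroup.IsReduced v → (FreeGroup.mk v).norm = v.length := by
      intro v hv
      rw [FreeGroup.norm, FreeGroup.toWord_mk, hv.reduce_eq]
    have h2 : FreeGroup.mk (a :: w) = FreeGroup.mk [a] * FreeGroup.mk w := by
      rw [FreeGroup.mul_mk]; rfl
    have h3 := hn _ hw
    rw [h2] at h3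
    rw [h2, _root_.map_mul, Equiv.Perm.mul_apply]
    have h4 : (FreeGroup.lift (gen N) (FreeGroup.mk w)) (⟨1, by simp⟩ : Ball S N) =
        ⟨FreeGroup.mk w, by rw [hn _ hw']; simp at hl; omega⟩ := Subtype.ext h1
    rw [h4]
    obtain ⟨s, b⟩ := a
    cases b with
    | true =>
      have e : FreeGroup.mk [(s, true)] = FreeGroup.of s := rfl
      rw [e] at h3 ⊢
      rw [FreeGroup.lift_apply_of, gen_apply]
      rw [h3]
      exact hl
    | false =>
      have e : FreeGroup.mk [(s, false)] = (FreeGroup.of s)⁻¹ := by
        simp [FreeGroup.of, FreeGroup.inv_mk, FreeGroup.invRev]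
      rw [e] at h3 ⊢
      rw [_root_.map_inv, FreeGroup.lift_apply_of, gen_symm_apply]
      rw [h3]
      exact hl

end FinGroup

/-- **A finite group without short relations.** -/
theorem exists_finite_group (S : Type) [Finite S] [DecidableEq S] (N : ℕ) :
    ∃ (Q : Type) (_ : Group Q) (_ : Finite Q) (g : S → Q),
      ∀ x : FreeGroup S, x ≠ 1 → x.norm ≤ N → FreeGroup.lift g x ≠ 1 := by
  have := FinGroup.finite_ball (S := S) N
  refine ⟨Equiv.Perm (FinGroup.Ball S N), inferInstance, inferInstance, FinGroup.gen N, ?_⟩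
  intro x hx hn h
  have h1 := FinGroup.lift_apply N x.toWord FreeGroup.isReduced_toWord hn
  rw [FreeGroup.mk_toWord, h] at h1
  exact hx h1.symm

/-- the word form: no nonempty reduced word of length at most `N` is a relation -/
theorem exists_finite_group_word (S : Type) [Finite S] (N : ℕ) :
    ∃ (Q : Type) (_ : Group Q) (_ : Finite Q) (g : S → Q),
      ∀ w : List (S × Bool), w ≠ [] → w.length ≤ N →
        w.IsChain (fun a b => a.1 = b.1 → a.2 = b.2) →
        (w.map fun a => if a.2 then g a.1 else (g a.1)⁻¹).prod ≠ 1 := by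
  classical
  obtain ⟨Q, i1, i2, g, hg⟩ := exists_finite_group S N
  refine ⟨Q, i1, i2, g, fun w hw hl hc h => ?_⟩
  have hr : FreeGroup.IsReduced w := hc
  have hn : (FreeGroup.mk w).norm = w.length := by
    rw [FreeGroup.norm, FreeGroup.toWord_mk, hr.reduce_eq]
  refine hg (FreeGroup.mk w) ?_ (by rw [hn]; exact hl) ?_
  · intro h1
    rw [h1, FreeGroup.norm_one] at hn
    exact hw (List.length_eq_zero_iff.1 hn.symm)
  · rw [FreeGroup.lift_mk]
    refine Eq.trans ?_ h
    congr 1
    refine List.map_congr_left ?_
    rintro ⟨s, b⟩ _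
    cases b <;> rfl

end Vale.Agent.P310
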