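import Mathlib

/-!
# P310: finite groups with generators that satisfy no short relation

For every finite `α` and every `N` there is a finite group `Q` and `g : α → Q` such that the
homomorphism `FreeGroup α → Q` is nontrivial on every nontrivial element of length at most `N`.
-/

namespace Vale.Agent.P310

namespace Girth

variable {α : Type} [Finite α] [DecidableEq α]

/-- the ball of radius `N` in the free group -/
abbrev Vb (α : Type) [DecidableEq α] (N : ℕ) : Type := {x : FreeGroup α // x.norm ≤ N}

theorem finite_Vb (N : ℕ) : Finite (Vb α N) := by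
  have h1 : Set.Finite {l : List (α × Bool) | l.length ≤ N} := List.finite_length_le _ N
  have : Finite {l : List (α × Bool) | l.length ≤ N} := h1
  refine Finite.of_injective
    (fun x : Vb α N => (⟨x.1.toWord, x.2⟩ : {l : List (α × Bool) | l.length ≤ N})) ?_
  intro x y h
  apply Subtype.ext
  exact FreeGroup.toWord_injective (congrArg Subtype.val h)

noncomputable instance (N : ℕ) : Fintype (Vb α N) := by
  haveI := finite_Vb (α := α) N
  exact Fintype.ofFinite _

/-- left multiplication by a generator as a partial bijection of the ball -/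
def pe (N : ℕ) (s : α) :
    {x : Vb α N // (FreeGroup.of s * x.1).norm ≤ N} ≃
      {x : Vb α N // ((FreeGroup.of s)⁻¹ * x.1).norm ≤ N} where
  toFun x := ⟨⟨FreeGroup.of s * x.1.1, x.2⟩, by
    change ((FreeGroup.of s)⁻¹ * (FreeGroup.of s * x.1.1)).norm ≤ N
    rw [inv_mul_cancel_left]
    exact x.1.2⟩
  invFun x := ⟨⟨(FreeGroup.of s)⁻¹ * x.1.1, x.2⟩, by
    change ((FreeGroup.of s) * ((FreeGroup.of s)⁻¹ * x.1.1)).norm ≤ N
    rw [mul_inv_cancel_left]
    exact x.1.2⟩
  left_inv x := by
    apply Subtype.ext; apply Subtype.ext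
    change (FreeGroup.of s)⁻¹ * (FreeGroup.of s * x.1.1) = x.1.1
    rw [inv_mul_cancel_left]
  right_inv x := by
    apply Subtype.ext; apply Subtype.ext
    change (FreeGroup.of s) * ((FreeGroup.of s)⁻¹ * x.1.1) = x.1.1
    rw [mul_inv_cancel_left]

/-- the generators of the finite group -/
noncomputable def gen (N : ℕ) (s : α) : Equiv.Perm (Vb α N) :=
  (pe N s).extendSubtype

theorem gen_apply (N : ℕ) (s : α) (x : Vb α N) (h : (FreeGroup.of s * x.1).norm ≤ N) :
    gen N s x = ⟨FreeGroup.of s * x.1, h⟩ := by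
  unfold gen
  have h1 := Equiv.extendSubtype_apply_of_mem (pe N s) x h
  rw [h1]
  rfl

theorem gen_inv_apply (N : ℕ) (s : α) (x : Vb α N) (h : ((FreeGroup.of s)⁻¹ * x.1).norm ≤ N) :
    (gen N s)⁻¹ x = ⟨(FreeGroup.of s)⁻¹ * x.1, h⟩ := by
  rw [Equiv.Perm.inv_eq_iff_eq]
  have h2 : (FreeGroup.of s * ((FreeGroup.of s)⁻¹ * x.1)).norm ≤ N := by
    rw [mul_inv_cancel_left]; exact x.2
  rw [gen_apply N s ⟨(FreeGroup.of s)⁻¹ * x.1, h⟩ h2]
  apply Subtype.ext
  simp

omit [Finite α] in
theorem norm_of_reduced {L : List (α × Bool)} (h : FreeGroup.IsReduced L) :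
    (FreeGroup.mk L).norm = L.length := by
  unfold FreeGroup.norm
  rw [FreeGroup.toWord_mk, h.reduce_eq]

theorem lift_apply (N : ℕ) (L : List (α × Bool)) (hL : FreeGroup.IsReduced L)
    (hN : L.length ≤ N) :
    FreeGroup.lift (gen N) (FreeGroup.mk L) ⟨1, by simp⟩ =
      (⟨FreeGroup.mk L, by rw [norm_of_reduced hL]; exact hN⟩ : Vb α N) := by
  induction L with
  | nil =>
    have : (FreeGroup.mk ([] : List (α × Bool))) = 1 := rfl
    rw [show FreeGroup.lift (gen N) (FreeGroup.mk ([] : List (α × Bool))) = 1 by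
      rw [this, map_one]]
    rfl
  | cons a L ih =>
    have hL' : FreeGroup.IsReduced L := List.IsChain.tail hL
    have hN' : L.length ≤ N := by simp only [List.length_cons] at hN; omega
    have ih' := ih hL' hN'
    obtain ⟨s, b⟩ := a
    have e0 : FreeGroup.mk ((s, b) :: L) = FreeGroup.mk [(s, b)] * FreeGroup.mk L := by
      rw [FreeGroup.mul_mk]; rfl
    have hn : (FreeGroup.mk ((s, b) :: L)).norm ≤ N := by rw [norm_of_reduced hL]; exact hN
    rw [e0] at hn
    have e1 : FreeGroup.lift (gen N) (FreeGroup.mk ((s, b) :: L)) ⟨1, by simp⟩ =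
        FreeGroup.lift (gen N) (FreeGroup.mk [(s, b)])
          (FreeGroup.lift (gen N) (FreeGroup.mk L) ⟨1, by simp⟩) := by
      rw [e0, map_mul]; rfl
    rw [e1, ih']
    apply Subtype.ext
    cases b with
    | true =>
      have e2 : FreeGroup.mk [(s, true)] = FreeGroup.of s := rfl
      rw [e2] at hn
      rw [e2, FreeGroup.lift_apply_of, gen_apply N s _ hn]
      exact e0.symm
    | false =>
      have e2 : FreeGroup.mk [(s, false)] = (FreeGroup.of s)⁻¹ := rfl
      rw [e2] at hn
      rw [e2, map_inv, FreeGroup.lift_apply_of, gen_inv_apply N s _ hn]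
      exact e0.symm

end Girth

/-- For every finite `α` and every `N` there are a finite group `Q` and `g : α → Q` such that no
nontrivial element of the free group of length at most `N` is killed. -/
theorem exists_girth (α : Type) [Finite α] [DecidableEq α] (N : ℕ) :
    ∃ (Q : Type) (_ : Group Q) (_ : Fintype Q) (_ : DecidableEq Q) (g : α → Q),
      ∀ w : FreeGroup α, w ≠ 1 → w.norm ≤ N → FreeGroup.lift g w ≠ 1 := by
  classical
  refine ⟨Equiv.Perm (Girth.Vb α N), inferInstance, inferInstance, inferInstance, Girth.gen N,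
    fun w hw hN h => hw ?_⟩
  have h1 := Girth.lift_apply N w.toWord FreeGroup.isReduced_toWord hN
  have h2 := congrArg Subtype.val h1
  simp only [FreeGroup.mk_toWord, h] at h2
  exact h2.symm

/-- list form: a nonempty reduced word of length at most `N` has nontrivial product. -/
theorem exists_girth_list (α : Type) [Finite α] [DecidableEq α] (N : ℕ) :
    ∃ (Q : Type) (_ : Group Q) (_ : Fintype Q) (_ : DecidableEq Q) (g : α → Q),
      ∀ L : List (α × Bool), L ≠ [] → L.IsChain (fun a b => a.1 = b.1 → a.2 = b.2) →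
        L.length ≤ N → (L.map fun x => cond x.2 (g x.1) (g x.1)⁻¹).prod ≠ 1 := by
  obtain ⟨Q, iG, iF, iD, g, hg⟩ := exists_girth α N
  refine ⟨Q, iG, iF, iD, g, fun L hL hr hN h => ?_⟩
  have hr' : FreeGroup.IsReduced L := hr
  refine hg (FreeGroup.mk L) (fun h1 => hL ?_) ?_ ?_
  · have h2 := congrArg FreeGroup.toWord h1
    rw [FreeGroup.toWord_mk, hr'.reduce_eq, FreeGroup.toWord_one] at h2
    exact h2
  · rw [Girth.norm_of_reduced hr']; exact hN
  · rw [FreeGroup.lift_mk]
    exact h

end Vale.Agent.P310
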