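import Mathlib

/-!
P310, Level C: quantifier-free positive formulas (guards) over a set of literals, their negation
and their disjunctive normal form.
-/

namespace Vale.Agent.P310

/-- positive formulas over the literals `L` -/
inductive Gd (L : Type) : Type
  | tt
  | ff
  | lit (l : L)
  | and (a b : Gd L)
  | or (a b : Gd L)

namespace Gd

variable {L : Type}

/-- truth of a guard when `M` is the set of true literals -/
def holds (M : L → Prop) : Gd L → Prop
  | tt => True
  | ff => False
  | lit l => M l
  | and a b => holds M a ∧ holds M b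
  | or a b => holds M a ∨ holds M b

/-- negation; `c` complements a literal -/
def neg (c : L → L) : Gd L → Gd L
  | tt => ff
  | ff => tt
  | lit l => lit (c l)
  | and a b => or (neg c a) (neg c b)
  | or a b => and (neg c a) (neg c b)

theorem holds_neg {M : L → Prop} {c : L → L} (h : ∀ l, M (c l) ↔ ¬ M l) (g : Gd L) :
    holds M (neg c g) ↔ ¬ holds M g := by
  induction g with
  | tt => simp [neg, holds]
  | ff => simp [neg, holds]
  | lit l => exact h l
  | and a b iha ihb =>
    simp only [neg, holds, iha, ihb]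
    tauto
  | or a b iha ihb =>
    simp only [neg, holds, iha, ihb]
    tauto

/-- disjunctive normal form -/
def dnf : Gd L → List (List L)
  | tt => [[]]
  | ff => []
  | lit l => [[l]]
  | and a b => (dnf a).flatMap fun x => (dnf b).map fun y => x ++ y
  | or a b => dnf a ++ dnf b

theorem holds_dnf (M : L → Prop) (g : Gd L) :
    holds M g ↔ ∃ cl ∈ dnf g, ∀ l ∈ cl, M l := by
  induction g with
  | tt => simp [holds, dnf]
  | ff => simp [holds, dnf]
  | lit l => simp [holds, dnf]
  | and a b iha ihb =>
    simp only [holds, dnf, iha, ihb, List.mem_flatMap, List.mem_map]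
    constructor
    · rintro ⟨⟨x, hx, h1⟩, y, hy, h2⟩
      refine ⟨x ++ y, ⟨x, hx, y, hy, rfl⟩, fun l hl => ?_⟩
      rcases List.mem_append.mp hl with hl | hl
      · exact h1 l hl
      · exact h2 l hl
    · rintro ⟨_, ⟨x, hx, y, hy, rfl⟩, h⟩
      exact ⟨⟨x, hx, fun l hl => h l (List.mem_append_left _ hl)⟩,
        y, hy, fun l hl => h l (List.mem_append_right _ hl)⟩
  | or a b iha ihb =>
    simp only [holds, dnf, iha, ihb, List.mem_append]
    constructor
    · rintro (⟨x, hx, h⟩ | ⟨x, hx, h⟩)
      · exact ⟨x, Or.inl hx, h⟩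
      · exact ⟨x, Or.inr hx, h⟩
    · rintro ⟨x, hx | hx, h⟩
      · exact Or.inl ⟨x, hx, h⟩
      · exact Or.inr ⟨x, hx, h⟩

/-- change of literals -/
def map {L' : Type} (f : L → L') : Gd L → Gd L'
  | tt => tt
  | ff => ff
  | lit l => lit (f l)
  | and a b => and (map f a) (map f b)
  | or a b => or (map f a) (map f b)

theorem holds_map {L' : Type} (f : L → L') (M : L' → Prop) (g : Gd L) :
    holds M (map f g) ↔ holds (fun l => M (f l)) g := by
  induction g with
  | tt => rfl
  | ff => rfl
  | lit l => rfl
  | and a b iha ihb => simp only [map, holds, iha, ihb]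
  | or a b iha ihb => simp only [map, holds, iha, ihb]

/-- conjunction of a list -/
def andL : List (Gd L) → Gd L
  | [] => tt
  | a :: l => and a (andL l)

/-- disjunction of a list -/
def orL : List (Gd L) → Gd L
  | [] => ff
  | a :: l => or a (orL l)

theorem holds_andL (M : L → Prop) (l : List (Gd L)) : holds M (andL l) ↔ ∀ g ∈ l, holds M g := by
  induction l with
  | nil => simp [andL, holds]
  | cons a l ih => simp [andL, holds, ih]

theorem holds_orL (M : L → Prop) (l : List (Gd L)) : holds M (orL l) ↔ ∃ g ∈ l, holds M g := by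
  induction l with
  | nil => simp [orL, holds]
  | cons a l ih => simp [orL, holds, ih]

/-- conjunction over `Fin n` -/
def all {n : ℕ} (f : Fin n → Gd L) : Gd L := andL (List.ofFn f)

/-- disjunction over `Fin n` -/
def any {n : ℕ} (f : Fin n → Gd L) : Gd L := orL (List.ofFn f)

theorem holds_all (M : L → Prop) {n : ℕ} (f : Fin n → Gd L) :
    holds M (all f) ↔ ∀ i, holds M (f i) := by
  rw [all, holds_andL]
  constructor
  · intro h i
    exact h _ (List.mem_ofFn.mpr ⟨i, rfl⟩)
  · intro h g hg
    obtain ⟨i, rfl⟩ := List.mem_ofFn.mp hg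
    exact h i

theorem holds_any (M : L → Prop) {n : ℕ} (f : Fin n → Gd L) :
    holds M (any f) ↔ ∃ i, holds M (f i) := by
  rw [any, holds_orL]
  constructor
  · rintro ⟨g, hg, h⟩
    obtain ⟨i, rfl⟩ := List.mem_ofFn.mp hg
    exact ⟨i, h⟩
  · rintro ⟨i, h⟩
    exact ⟨_, List.mem_ofFn.mpr ⟨i, rfl⟩, h⟩

end Gd

end Vale.Agent.P310
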