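import Vale.Agent.P310.Leaf

/-!
P310, Level A: the support of a sum of few equations at one digit is large.
-/

namespace Vale.Agent.P310

open scoped BigOperators

namespace Sys

variable {S : Sys}

namespace LC

theorem sl_inj (hS : S.OK) (ψ : S.C →+ S.A) (E : S.E1) {i j : Fin 3}
    (h : S.sl ψ E i = S.sl ψ E j) : i = j := by
  have h1 : (S.lt E.1 i).2 = (S.lt E.1 j).2 := congrArg (fun v : S.V1 => v.1.2) h
  exact S.g_inj hS E.1.1 i j (mul_left_cancel h1)

/-- the form of one equation at a variable -/
def one (ψ : S.C →+ S.A) (E : S.E1) (v : S.V1) : ZMod 2 :=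
  ∑ i : Fin 3, if S.sl ψ E i = v then 1 else 0

theorem one_slot (hS : S.OK) (ψ : S.C →+ S.A) (E : S.E1) (i : Fin 3) :
    one ψ E (S.sl ψ E i) = 1 := by
  unfold one
  rw [Finset.sum_eq_single i]
  · simp
  · intro j _ hj
    rw [if_neg]
    exact fun h => hj (sl_inj hS ψ E h)
  · intro h
    exact absurd (Finset.mem_univ i) h

theorem one_ne {ψ : S.C →+ S.A} {E : S.E1} {v : S.V1} (h : ∀ i, S.sl ψ E i ≠ v) :
    one ψ E v = 0 := by
  unfold one
  exact Finset.sum_eq_zero fun i _ => if_neg (h i)

theorem bd_insert (ψ : S.C →+ S.A) (U : Finset S.E1) {E : S.E1} (hE : E ∈ U) (v : S.V1) :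
    S.bd ψ U v = one ψ E v + S.bd ψ (U.erase E) v := by
  unfold bd one
  rw [Finset.add_sum_erase U (fun E => ∑ i : Fin 3, if S.sl ψ E i = v then (1 : ZMod 2) else 0) hE]

theorem bd_priv (ψ : S.C →+ S.A) (U : Finset S.E1) {E : S.E1} {i : Fin 3}
    (h : S.Priv ψ U E i) : S.bd ψ (U.erase E) (S.sl ψ E i) = 0 := by
  unfold bd
  refine Finset.sum_eq_zero fun E' hE' => Finset.sum_eq_zero fun i' _ => ?_
  rw [if_neg]
  intro h'
  exact (Finset.ne_of_mem_erase hE') (h E' (Finset.mem_of_mem_erase hE') i' h')

end LC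

open LC in
theorem card_bd (hS : S.OK) (ψ : S.C →+ S.A) (U : Finset S.E1) (hU : U.Nonempty)
    (hc : 2 * U.card ≤ S.big) :
    U.card + 2 ≤ (Finset.univ.filter fun v => S.bd ψ U v ≠ 0).card := by
  classical
  induction hn : U.card using Nat.strong_induction_on generalizing U with
  | _ n ih =>
    obtain ⟨E, hE, i, j, hij, hi, hj, -, -⟩ := S.exists_leaf hS ψ U hU hc none
    have hv1 : S.bd ψ U (S.sl ψ E i) = 1 := by
      rw [bd_insert ψ U hE, one_slot hS, bd_priv ψ U hi, add_zero]
    have hv2 : S.bd ψ U (S.sl ψ E j) = 1 := by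
      rw [bd_insert ψ U hE, one_slot hS, bd_priv ψ U hj, add_zero]
    have hne : S.sl ψ E i ≠ S.sl ψ E j := fun h => hij (sl_inj hS ψ E h)
    -- the third slot
    obtain ⟨k, hki, hkj, hk⟩ : ∃ k : Fin 3, k ≠ i ∧ k ≠ j ∧ ∀ l, l = i ∨ l = j ∨ l = k := by
      have key : ∀ i j : Fin 3, i ≠ j →
          ∃ k : Fin 3, k ≠ i ∧ k ≠ j ∧ ∀ l, l = i ∨ l = j ∨ l = k := by decide
      exact key i j hij
    rcases (U.erase E).eq_empty_or_nonempty with he | he
    · -- a single equation
      have hU1 : U = {E} := by
        rw [Finset.eq_singleton_iff_unique_mem]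
        refine ⟨hE, fun E' hE' => ?_⟩
        by_contra hne'
        have : E' ∈ U.erase E := Finset.mem_erase.mpr ⟨hne', hE'⟩
        rw [he] at this
        simp at this
      have hn1 : n = 1 := by rw [← hn, hU1, Finset.card_singleton]
      have hv3 : S.bd ψ U (S.sl ψ E k) = 1 := by
        rw [bd_insert ψ U hE, one_slot hS, he]
        simp [bd]
      have hsub : ({S.sl ψ E i, S.sl ψ E j, S.sl ψ E k} : Finset S.V1) ⊆
          Finset.univ.filter fun v => S.bd ψ U v ≠ 0 := by
        intro v hv
        simp only [Finset.mem_insert, Finset.mem_singleton] at hv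
        rw [Finset.mem_filter]
        refine ⟨Finset.mem_univ _, ?_⟩
        rcases hv with rfl | rfl | rfl
        · rw [hv1]; exact one_ne_zero
        · rw [hv2]; exact one_ne_zero
        · rw [hv3]; exact one_ne_zero
      have hcard : ({S.sl ψ E i, S.sl ψ E j, S.sl ψ E k} : Finset S.V1).card = 3 := by
        rw [Finset.card_eq_three]
        exact ⟨_, _, _, hne, fun h => hki (sl_inj hS ψ E h).symm,
          fun h => hkj (sl_inj hS ψ E h).symm, rfl⟩
      calc n + 2 = 3 := by omega
        _ = ({S.sl ψ E i, S.sl ψ E j, S.sl ψ E k} : Finset S.V1).card := hcard.symm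
        _ ≤ _ := Finset.card_le_card hsub
    · have hc1 : (U.erase E).card = n - 1 := by rw [Finset.card_erase_of_mem hE, hn]
      have hpos : 0 < n := by rw [← hn]; exact Finset.card_pos.mpr hU
      have h3 := ih (n - 1) (by omega) (U.erase E) he (by omega) hc1
      set s' := Finset.univ.filter fun v => S.bd ψ (U.erase E) v ≠ 0 with hs'
      have hsub : insert (S.sl ψ E i) (insert (S.sl ψ E j) (s'.erase (S.sl ψ E k))) ⊆
          Finset.univ.filter fun v => S.bd ψ U v ≠ 0 := by
        intro v hv
        rw [Finset.mem_filter]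
        refine ⟨Finset.mem_univ _, ?_⟩
        rcases Finset.mem_insert.mp hv with rfl | hv
        · rw [hv1]; exact one_ne_zero
        rcases Finset.mem_insert.mp hv with rfl | hv
        · rw [hv2]; exact one_ne_zero
        obtain ⟨hvk, hv⟩ := Finset.mem_erase.mp hv
        rw [hs', Finset.mem_filter] at hv
        have hv' := hv.2
        have h4 : ∀ l, S.sl ψ E l ≠ v := by
          intro l hl
          rcases hk l with rfl | rfl | rfl
          · rw [← hl] at hv'; exact hv' (bd_priv ψ U hi)
          · rw [← hl] at hv'; exact hv' (bd_priv ψ U hj)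
          · exact hvk hl.symm
        rw [bd_insert ψ U hE, one_ne h4, zero_add]
        exact hv'
      have hi' : S.sl ψ E i ∉ s' := by
        rw [hs', Finset.mem_filter]
        exact fun h => h.2 (bd_priv ψ U hi)
      have hj' : S.sl ψ E j ∉ s' := by
        rw [hs', Finset.mem_filter]
        exact fun h => h.2 (bd_priv ψ U hj)
      have hcard : (insert (S.sl ψ E i) (insert (S.sl ψ E j) (s'.erase (S.sl ψ E k)))).card =
          (s'.erase (S.sl ψ E k)).card + 2 := by
        rw [Finset.card_insert_of_notMem, Finset.card_insert_of_notMem]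
        · exact fun h => hj' (Finset.mem_of_mem_erase h)
        · intro h
          rcases Finset.mem_insert.mp h with h | h
          · exact hne h
          · exact hi' (Finset.mem_of_mem_erase h)
      have h5 := Finset.card_le_card hsub
      rw [hcard] at h5
      have h6 := Finset.pred_card_le_card_erase (s := s') (a := S.sl ψ E k)
      omega

end Sys

end Vale.Agent.P310
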