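import Vale.Agent.P310.Core
import Vale.Agent.P310.Group
import Vale.Agent.P310.SysOK
import Vale.Agent.P310.HornU
import Vale.Agent.P310.Compile

/-!
P310, Level B, piece B4: assembly of Levels A and B.
-/

namespace Vale.Agent.P310

open scoped BigOperators

theorem levelB (Pg : Prog) {ρ v B : ℕ} (hPg : Pg.WF ρ v B) (m : ℕ) (hm : 6 * (ρ + v) + 2 < m) :
    ∃ (U : USys (ρ + v)) (Q : Type) (_ : Group Q) (_ : Fintype Q) (_ : DecidableEq Q)
      (g : U.E → Fin 3 → Q), ∀ (q : ℕ) [Fact q.Prime] (w : ℕ → Sym), m ≤ q →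
      ∀ {KK : Type} [Fintype KK] (em : (U.sys m Q g q w).Kind ↪ KK),
        WLEquiv (m + 1) ((U.sys m Q g q w).gr false em) ((U.sys m Q g q w).gr true em) ↔
          ¬ ∃ y, Pg.Sat q w Pg.goal y := by
  obtain ⟨H, hH⟩ := Pg.exists_horn hPg
  obtain ⟨U, hU, hUH⟩ := H.exists_usys (200 * (m + 2))
  obtain ⟨Q, i1, i2, i3, g, hg⟩ := exists_group (U.E × Fin 3) (200 * (m + 2))
  refine ⟨U, Q, i1, i2, i3, fun e i => g (e, i), ?_⟩
  intro q hq w hmq KK _ em
  have hOK := U.sys_ok m hU hm Q (fun e i => g (e, i)) hg q hmq w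
  have h1 := Sys.core hOK em
  have h2 : (U.sys m Q (fun e i => g (e, i)) q w).Der U.fin 0 ↔ H.Der q w H.goal 0 :=
    hUH m Q (fun e i => g (e, i)) q w
  have h3 := hH q w
  rw [← h3, ← h2]
  exact h1

end Vale.Agent.P310
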