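import Mathlib

/-!
P310, A4: extension of solutions of a linear system over `ZMod 2`.
-/

namespace Vale.Agent.P310

open scoped BigOperators

theorem lin_ext {W : Type} [Fintype W] [DecidableEq W]
    (D : AddSubgroup ((W → ZMod 2) × ZMod 2)) (X : Set W) (d0 : W → ZMod 2)
    (h : ∀ p ∈ D, (∀ v, p.1 v ≠ 0 → v ∈ X) → ∑ v, p.1 v * d0 v = p.2) :
    ∃ d : W → ZMod 2, (∀ p ∈ D, ∑ v, p.1 v * d v = p.2) ∧ ∀ v ∈ X, d v = d0 v := by
  classical
  -- the submodule of forced pairs
  let S1 : Submodule (ZMod 2) ((W → ZMod 2) × ZMod 2) := AddSubgroup.toZModSubmodule 2 D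
  let S2 : Submodule (ZMod 2) ((W → ZMod 2) × ZMod 2) :=
    { carrier := {q | (∀ v, q.1 v ≠ 0 → v ∈ X) ∧ ∑ v, q.1 v * d0 v = q.2}
      add_mem' := by
        rintro a b ⟨ha, ha'⟩ ⟨hb, hb'⟩
        refine ⟨fun v hv => ?_, ?_⟩
        · by_contra hX
          have h1 : a.1 v = 0 := by
            by_contra h1; exact hX (ha v h1)
          have h2 : b.1 v = 0 := by
            by_contra h2; exact hX (hb v h2)
          apply hv
          simp [h1, h2]
        · simp only [Prod.fst_add, Prod.snd_add, Pi.add_apply, add_mul, Finset.sum_add_distrib]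
          rw [ha', hb']
      zero_mem' := by
        refine ⟨fun v hv => ?_, ?_⟩
        · exact absurd rfl hv
        · simp
      smul_mem' := by
        rintro c a ⟨ha, ha'⟩
        refine ⟨fun v hv => ?_, ?_⟩
        · apply ha
          intro h0
          apply hv
          simp [h0]
        · simp only [Prod.smul_fst, Prod.smul_snd, Pi.smul_apply, smul_eq_mul, mul_assoc]
          rw [← Finset.mul_sum, ha'] }
  have hnot : ((0, 1) : (W → ZMod 2) × ZMod 2) ∉ S1 ⊔ S2 := by
    intro hmem
    obtain ⟨p, hp, q, hq, hpq⟩ := Submodule.mem_sup.1 hmem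
    have hpD : p ∈ D := hp
    obtain ⟨hq1, hq2⟩ := hq
    have e1 : p.1 + q.1 = 0 := congrArg Prod.fst hpq
    have e2 : p.2 + q.2 = 1 := congrArg Prod.snd hpq
    have hpX : ∀ v, p.1 v ≠ 0 → v ∈ X := by
      intro v hv
      apply hq1
      intro h0
      apply hv
      have := congrFun e1 v
      simpa [h0] using this
    have h3 := h p hpD hpX
    have : (0 : ZMod 2) = 1 := by
      rw [← e2, ← h3, ← hq2, ← Finset.sum_add_distrib]
      symm
      apply Finset.sum_eq_zero
      intro v _
      rw [← add_mul]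
      have := congrFun e1 v
      simp only [Pi.add_apply, Pi.zero_apply] at this
      rw [this, zero_mul]
    exact absurd this (by decide)
  obtain ⟨f, hf, hfb⟩ := Submodule.exists_dual_map_eq_bot_of_notMem hnot inferInstance
  have hf0 : ∀ x ∈ S1 ⊔ S2, f x = 0 := by
    intro x hx
    have : f x ∈ (S1 ⊔ S2).map f := Submodule.mem_map_of_mem hx
    rw [hfb] at this
    exact (Submodule.mem_bot _).1 this
  have hf1 : f (0, 1) = 1 := by
    have : ∀ a : ZMod 2, a ≠ 0 → a = 1 := by decide
    exact this _ hf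
  -- the functional evaluated
  have key : ∀ p : (W → ZMod 2) × ZMod 2,
      f p = ∑ v, p.1 v * f (Pi.single v 1, 0) + p.2 := by
    intro p
    have hp : p = ∑ v, p.1 v • ((Pi.single v 1, 0) : (W → ZMod 2) × ZMod 2) + p.2 • (0, 1) := by
      ext v
      · simp only [Prod.fst_add, Prod.smul_fst, smul_zero, add_zero, Prod.fst_sum]
        rw [Finset.sum_apply]
        simp [Pi.single_apply]
      · simp [Prod.snd_sum]
    conv_lhs => rw [hp]
    rw [map_add, map_sum, map_smul, hf1]
    simp only [map_smul, smul_eq_mul, mul_one]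
  refine ⟨fun v => f (Pi.single v 1, 0), ?_, ?_⟩
  · intro p hp
    have h0 := hf0 p (Submodule.mem_sup_left hp)
    rw [key] at h0
    have : ∀ a b : ZMod 2, a + b = 0 → a = b := by decide
    exact this _ _ h0
  · intro v hv
    have hmem : ((Pi.single v 1, d0 v) : (W → ZMod 2) × ZMod 2) ∈ S2 := by
      refine ⟨?_, ?_⟩
      · intro w hw
        by_cases hwv : w = v
        · rw [hwv]; exact hv
        · simp [hwv] at hw
      · simp [Pi.single_apply]
    have h0 := hf0 _ (Submodule.mem_sup_right hmem)
    rw [key] at h0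
    simp only [Pi.single_apply, ite_mul, one_mul, zero_mul, Finset.sum_ite_eq',
      Finset.mem_univ, if_true] at h0
    have : ∀ a b : ZMod 2, a + b = 0 → a = b := by decide
    exact this _ _ h0

end Vale.Agent.P310
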