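import Vale.Agent.P310.WL

/-!
P310: multitape Turing machines and the encoding of a pair of graphs (definitions only).
-/

namespace Vale.Agent.P310

/-! ### Turing machines -/

/-- head moves -/
inductive Dir : Type
  | L
  | N
  | R
  deriving DecidableEq

instance : Fintype Dir := ⟨{.L, .N, .R}, by intro x; cases x <;> simp⟩

/-- displacement of a head move -/
def Dir.toInt : Dir → ℤ
  | .L => -1
  | .N => 0
  | .R => 1

/-- A deterministic Turing machine with `nt + 1` two-way infinite tapes, with the states `qa`
(accept) and `qr` (reject). -/
structure TM where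
  /-- number of work tapes besides the input tape -/
  nt : ℕ
  St : Type
  Sy : Type
  [fSt : Fintype St]
  [dSt : DecidableEq St]
  [fSy : Fintype Sy]
  [dSy : DecidableEq Sy]
  q0 : St
  qa : St
  qr : St
  qa_ne_qr : qa ≠ qr
  blank : Sy
  bit : Bool → Sy
  /-- transition function: new state, written symbols, head moves -/
  tr : St → (Fin (nt + 1) → Sy) → St × (Fin (nt + 1) → Sy) × (Fin (nt + 1) → Dir)

attribute [instance] TM.fSt TM.dSt TM.fSy TM.dSy

/-- configurations -/
structure Cfg (A : TM) where
  st : A.St
  hd : Fin (A.nt + 1) → ℤ
  tp : Fin (A.nt + 1) → ℤ → A.Sy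

namespace TM

variable (A : TM)

/-- one step; the machine stops in the states `qa` and `qr` -/
def step (c : Cfg A) : Cfg A :=
  if c.st = A.qa ∨ c.st = A.qr then c else
    let o := A.tr c.st fun i => c.tp i (c.hd i)
    { st := o.1
      hd := fun i => c.hd i + (o.2.2 i).toInt
      tp := fun i => Function.update (c.tp i) (c.hd i) (o.2.1 i) }

/-- initial configuration: the input word on the cells `0, 1, ...` of tape `0`, everything else
blank, all heads at cell `0` -/
def init (u : List Bool) : Cfg A where
  st := A.q0
  hd := fun _ => 0
  tp := fun i z => if i = 0 ∧ 0 ≤ z then (u[z.toNat]?).elim A.blank A.bit else A.blank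

/-- configuration after `t` steps -/
def run (u : List Bool) (t : ℕ) : Cfg A := (A.step)^[t] (A.init u)

end TM

open Classical in
/-- the adjacency matrix of a graph on `Fin n`, row by row -/
noncomputable def adjBits {n : ℕ} (G : SimpleGraph (Fin n)) : List Bool :=
  List.ofFn fun p : Fin (n * n) => decide (G.Adj p.divNat p.modNat)

/-- the input word of a pair of graphs -/
noncomputable def enc {n : ℕ} (G H : SimpleGraph (Fin n)) : List Bool := adjBits G ++ adjBits H

open Classical in
/-- The machine `A` decides `k`-WL equivalence of pairs of graphs with `n` vertices each within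
`T n` steps. -/
def TM.DecidesWL (A : TM) (k : ℕ) (T : ℕ → ℕ) : Prop :=
  ∀ (n : ℕ) (G H : SimpleGraph (Fin n)),
    (A.run (enc G H) (T n)).st = if WLEquiv k G H then A.qa else A.qr

end Vale.Agent.P310
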