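import Vale.Agent.P310.SoundAdj
import Vale.Agent.P310.SoundInit
import Vale.Agent.P310.SoundTM
import Vale.Agent.P310.CompInit
import Vale.Agent.P310.CompStep

/-!
P310, Level C, piece C9: the program derives its goal exactly when the machine accepts in time.
-/

namespace Vale.Agent.P310

open scoped BigOperators

/-- the machine stays in a halting configuration -/
theorem TM.run_stop (A : TM) (u : List Bool) {s : ℕ}
    (h : (A.run u s).st = A.qa ∨ (A.run u s).st = A.qr) (k : ℕ) :
    A.run u (s + k) = A.run u s := by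
  induction k with
  | zero => rfl
  | succ k ih =>
    have h1 : A.run u (s + (k + 1)) = A.step (A.run u (s + k)) := by
      unfold TM.run
      rw [← add_assoc, Function.iterate_succ_apply']
    rw [h1, ih]
    unfold TM.step
    rw [if_pos h]

section

variable {A : TM} {r q : ℕ} [Fact q.Prime] {D : (Fin 5 → ZMod q) → Prop} {u : List Bool}

theorem mean_model (hr : 15 ≤ r) (hD : GoodD D) (hu : InpOK D u) :
    (prog A r).Model D (Mean A r D u) := by
  obtain ⟨a1, a2, a3, a4, a5, a6, a7, a8, a9⟩ := sound_adj (A := A) (u := u) hr hD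
  obtain ⟨b1, b2, b3, b4, b5, b6, b7⟩ := sound_init (A := A) hr hD hu
  obtain ⟨c1, c2, c3, c4, c5, c6, c7, c8, c9⟩ := sound_tm (A := A) (u := u) hr hD
  have key : ∀ x : RR A r, RR.Sound D u x := by
    intro x
    cases x with
    | nca π => exact a1 π
    | ncb s => exact a2 s
    | ncc j => exact a3 j
    | arc1 π => exact a4 π
    | arc0m j => exact a5 j
    | arc0c => exact a6
    | adj1 => exact a7
    | adj2 => exact a8
    | adj0 => exact a9
    | st0 => exact b1
    | hd0 i => exact b2 i
    | inp b h => exact b3 b h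
    | bl1 j h1 h2 => exact b4 j h1 h2
    | bl2 => exact b5
    | bl3 => exact b6
    | bl4 i h => exact b7 i h
    | rd i a => exact c1 i a
    | nhd i j => exact c2 i j
    | st c s a h1 h2 => exact c3 c s a h1 h2
    | wr c s a h1 h2 i => exact c4 c s a h1 h2 i
    | mvN c s a h1 h2 i hd => exact c5 c s a h1 h2 i hd
    | mvR c s a h1 h2 i hd c' => exact c6 c s a h1 h2 i hd c'
    | mvL c s a h1 h2 i hd c' => exact c7 c s a h1 h2 i hd c'
    | keep c i a => exact c8 c i a
    | goal => exact c9
  intro x v h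
  exact key x v h

theorem facts_of_le (hr : 15 ≤ r) (hD : GoodD D) (hu : InpOK D u) (n : ℕ) (hn : n < q ^ r)
    (hrun : ∀ s < n, (A.run u s).st ≠ A.qa ∧ (A.run u s).st ≠ A.qr) :
    ∃ t : Fin r → ZMod q, num q t = n ∧ Facts A r D u t := by
  induction n with
  | zero => exact ⟨0, num_zero q, comp_init hr hD hu⟩
  | succ n ih =>
    obtain ⟨t, ht, hF⟩ := ih (by omega) (fun s hs => hrun s (by omega))
    obtain ⟨t', ht'⟩ := exists_num q (n + 1) hn
    obtain ⟨c, hc⟩ := (succ_iff q t t').mp (by rw [ht, ht'])
    have h1 := hrun n (by omega)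
    refine ⟨t', ht', comp_step hr hD t t' c hc ?_ ?_ hF⟩
    · rw [ht]
      exact h1.1
    · rw [ht]
      exact h1.2

theorem sat_goal_iff (hr : 15 ≤ r) (hD : GoodD D) (hu : InpOK D u) :
    (∃ y, (prog A r).Sat D (.goal : PP A) y) ↔ ∃ t < q ^ r, (A.run u t).st = A.qa := by
  constructor
  · rintro ⟨y, hy⟩
    exact hy (Mean A r D u) (mean_model hr hD hu)
  · rintro ⟨t1, ht1, hq1⟩
    classical
    have hex : ∃ t, (A.run u t).st = A.qa := ⟨t1, hq1⟩
    set t0 := Nat.find hex with ht0
    have h0 : (A.run u t0).st = A.qa := Nat.find_spec hex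
    have hle : t0 ≤ t1 := Nat.find_min' hex hq1
    have hmin : ∀ s < t0, (A.run u s).st ≠ A.qa ∧ (A.run u s).st ≠ A.qr := by
      intro s hs
      have h1 : (A.run u s).st ≠ A.qa := Nat.find_min hex hs
      refine ⟨h1, fun h2 => ?_⟩
      have h3 := A.run_stop u (Or.inr h2) (t0 - s)
      rw [Nat.add_sub_cancel' hs.le] at h3
      rw [h3] at h0
      exact h1 h0
    obtain ⟨t, ht, hF, -, -⟩ := facts_of_le (A := A) hr hD hu t0 (by omega) hmin
    rw [ht, h0] at hF
    have h5 := (prog A r).sat_rule D (.goal : RR A r)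
      (Sum.elim t (fun _ => 0) : VV r → ZMod q) (by
        intro a ha
        have ha' : a = pa r (.st A.qa : PP A) (tv r) (pz r) := List.mem_singleton.mp ha
        subst ha'
        have h6 : (fun i => ((tp r (tv r) (pz r) : II r → Tm (VV r)) i).ev
            (Sum.elim t (fun _ => 0) : VV r → ZMod q)) = Sum.elim t 0 := by
          funext i
          cases i with
          | inl i => rfl
          | inr i => simp [tp, pz, Tm.ev]
        show (prog A r).Sat D (.st A.qa : PP A) _
        rw [h6]
        exact hF)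
    exact ⟨_, h5⟩

end

end Vale.Agent.P310
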