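import Vale.Agent.P310.CDefN
import Vale.Agent.P310.SoundTM
import Vale.Agent.P310.SoundInit

/-!
P310, Level C for all `n`, piece N3: the new rules hold under the intended meaning.
-/

namespace Vale.Agent.P310

open scoped BigOperators

namespace SNew

variable {A : TM} {r q : ℕ} {D : (Fin 5 → ZMod q) → Prop} {u : List Bool} {n : ℕ}

/-! ### digits -/

theorem sum_digits (q m K : ℕ) :
    ∑ x ∈ Finset.range K, (m / q ^ x % q) * q ^ x = m % q ^ K := by
  induction K with
  | zero => simp [Nat.mod_one]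
  | succ K ih =>
    rw [Finset.sum_range_succ, ih, Nat.mod_pow_succ]
    ring

/-- the digits of `n - 1` -/
def zd (q n : ℕ) : Fin 8 → ZMod q := fun e => (((n - 1) / q ^ e.val % q : ℕ) : ZMod q)

theorem zd_val [NeZero q] (e : Fin 8) : (zd q n e).val = (n - 1) / q ^ e.val % q := by
  rw [zd, ZMod.val_natCast, Nat.mod_mod]

theorem num_zd [NeZero q] (hn : 1 ≤ n) (hnq : n < q ^ 8) : num q (zd q n) = n - 1 := by
  unfold num
  simp only [zd_val]
  rw [Fin.sum_univ_eq_sum_range (fun x => (n - 1) / q ^ x % q * q ^ x) 8, sum_digits]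
  exact Nat.mod_eq_of_lt (by omega)

theorem jv_num (d : ℕ → ZMod q) : jv d = num q fun e : Fin 8 => d e.val := by
  unfold num
  rw [jv, ← Fin.sum_univ_eq_sum_range (fun x => (d x).val * q ^ x) 8]

theorem iv_num (d : ℕ → ZMod q) : iv d = num q fun e : Fin 8 => d (8 + e.val) := by
  unfold num
  rw [iv, ← Fin.sum_univ_eq_sum_range (fun x => (d (8 + x)).val * q ^ x) 8]

theorem num_eq_iff [NeZero q] (hn : 1 ≤ n) (hnq : n < q ^ 8) (f : Fin 8 → ZMod q) :
    num q f = n - 1 ↔ ∀ e : Fin 8, (f e).val = (n - 1) / q ^ e.val % q := by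
  have key : num q f = n - 1 ↔ f = zd q n := by
    rw [← (num_injective q).eq_iff, num_zd hn hnq]
  rw [key]
  constructor
  · rintro rfl e
    exact zd_val e
  · intro h
    funext e
    apply ZMod.val_injective q
    rw [h, zd_val]

/-! ### terms -/

theorem ev_tn (v : VV r → ZMod q) (j : ℕ) :
    (tn r j).ev v = dgt (fun i : Fin r => v (.inl i)) j := by
  unfold tn dgt
  split
  · rfl
  · simp [Tm.ev]

theorem dgt_ts (v : VV r → ZMod q) (c : Fin r) (j : ℕ) (hj : j < r) :
    dgt (fun i : Fin r => (ts r c i).ev v) j =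
      if j ≤ c.val then dgt (fun i : Fin r => v (.inl i)) j + 1 else
        dgt (fun i : Fin r => v (.inl i)) j := by
  unfold dgt ts
  rw [dif_pos hj, dif_pos hj]
  beta_reduce
  by_cases h : j ≤ c.val
  · have h' : (⟨j, hj⟩ : Fin r) ≤ c := h
    rw [if_pos h, if_pos h']
    rfl
  · have h' : ¬ (⟨j, hj⟩ : Fin r) ≤ c := h
    rw [if_neg h, if_neg h']
    rfl

theorem dgt_tb (v : VV r → ZMod q) (c : Fin r) (j : ℕ) (hj : j < r) :
    dgt (fun i : Fin r => (tb' r c i).ev v) j =
      if j < 8 then 0 else if j ≤ c.val then dgt (fun i : Fin r => v (.inl i)) j + 1 else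
        dgt (fun i : Fin r => v (.inl i)) j := by
  unfold dgt tb'
  rw [dif_pos hj, dif_pos hj]
  beta_reduce
  by_cases h8 : j < 8
  · rw [if_pos h8, if_pos h8]
    simp [Tm.ev]
  · rw [if_neg h8, if_neg h8]
    by_cases h : j ≤ c.val
    · have h' : (⟨j, hj⟩ : Fin r) ≤ c := h
      rw [if_pos h, if_pos h']
      rfl
    · have h' : ¬ (⟨j, hj⟩ : Fin r) ≤ c := h
      rw [if_neg h, if_neg h']
      rfl

theorem dgt_tc (v : VV r → ZMod q) (j : ℕ) (hj : j < r) :
    dgt (fun i : Fin r => (tc' r i).ev v) j = if j = 16 then 1 else 0 := by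
  unfold dgt tc'
  rw [dif_pos hj]
  beta_reduce
  by_cases h : j = 16
  · rw [if_pos h, if_pos h]
    simp [Tm.ev]
  · rw [if_neg h, if_neg h]
    simp [Tm.ev]

theorem dgt_tz (v : VV r → ZMod q) (j : ℕ) :
    dgt (fun i : Fin r => (tz r i).ev v) j = 0 := by
  unfold dgt tz
  split
  · simp [Tm.ev]
  · rfl

/-! ### atoms -/

theorem oe_holds (hD : GoodD D) (M : PN A → (II r → ZMod q) → Prop) (v : VV r → ZMod q)
    (s : Bool) (a b : Tm (VV r)) :
    (oe r s a b : GAtm (PN A) (II r) (VV r)).holds D M v ↔ (a.ev v = b.ev v ↔ s = true) := by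
  have h : (fun j => ((![.c 0, a, b, b, b] : Fin 5 → Tm (VV r)) j).ev v) =
      ![((0 : ℕ) : ZMod q), a.ev v, b.ev v, b.ev v, b.ev v] := by
    funext j
    fin_cases j <;> rfl
  change ((D fun j => ((![.c 0, a, b, b, b] : Fin 5 → Tm (VV r)) j).ev v) ↔ s = true) ↔ _
  rw [h, hD.eq_iff]

theorem al_holds (hD : GoodN D n) (M : PN A → (II r → ZMod q) → Prop) (v : VV r → ZMod q)
    (s : Bool) (e : Fin 8) (a : Tm (VV r)) :
    (al r s e a : GAtm (PN A) (II r) (VV r)).holds D M v ↔
      ((a.ev v).val = (n - 1) / q ^ e.val % q ↔ s = true) := by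
  have h : (fun j => ((![.c (16 + e.val), a, a, a, a] : Fin 5 → Tm (VV r)) j).ev v) =
      ![((16 + e.val : ℕ) : ZMod q), a.ev v, a.ev v, a.ev v, a.ev v] := by
    funext j
    fin_cases j <;> rfl
  change ((D fun j => ((![.c (16 + e.val), a, a, a, a] : Fin 5 → Tm (VV r)) j).ev v) ↔
    s = true) ↔ _
  rw [h, hD.dig_iff]

theorem map_holds (M : PN A → (II r → ZMod q) → Prop) (v : VV r → ZMod q)
    (a : GAtm (PP A) (II r) (VV r)) :
    (a.map PN.old).holds D M v ↔ a.holds D (fun p => M (.old p)) v := by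
  cases a <;> rfl

/-- the column is `n - 1` -/
theorem colN_holds [NeZero q] (hD : GoodN D n) (hn : 1 ≤ n) (hnq : n < q ^ 8)
    (M : PN A → (II r → ZMod q) → Prop) (v : VV r → ZMod q)
    (h : ∀ a ∈ (colN r : List (GAtm (PN A) (II r) (VV r))), a.holds D M v) :
    jv (dgt fun i : Fin r => v (.inl i)) = n - 1 := by
  rw [jv_num, num_eq_iff hn hnq]
  intro e
  have h1 := h (al r true e (tn r e.val)) (List.mem_map.mpr ⟨e, List.mem_finRange e, rfl⟩)
  rw [al_holds hD, ev_tn] at h1
  exact h1.mpr rfl

/-- the row is `n - 1` -/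
theorem rowN_holds [NeZero q] (hD : GoodN D n) (hn : 1 ≤ n) (hnq : n < q ^ 8)
    (M : PN A → (II r → ZMod q) → Prop) (v : VV r → ZMod q)
    (h : ∀ a ∈ (rowN r : List (GAtm (PN A) (II r) (VV r))), a.holds D M v) :
    iv (dgt fun i : Fin r => v (.inl i)) = n - 1 := by
  rw [iv_num, num_eq_iff hn hnq]
  intro e
  have h1 := h (al r true e (tn r (8 + e.val))) (List.mem_map.mpr ⟨e, List.mem_finRange e, rfl⟩)
  rw [al_holds hD, ev_tn] at h1
  exact h1.mpr rfl

theorem carP_holds [NeZero q] (hD : GoodD D) (M : PN A → (II r → ZMod q) → Prop)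
    (c : Fin (r + 1)) (v : VV r → ZMod q) [Fact q.Prime]
    (h : ∀ a ∈ ((carP r c).map (GAtm.map .old) : List (GAtm (PN A) (II r) (VV r))),
      a.holds D M v) :
    num q (fun i => (ps r c i).ev v) = num q (fun i : Fin (r + 1) => v (.inr (.inl i))) + 1 :=
  num_ps hD (fun p => M (.old p)) c v fun a ha =>
    (map_holds M v a).mp (h _ (List.mem_map_of_mem ha))

theorem carT_dig (hD : GoodD D) (M : PN A → (II r → ZMod q) → Prop)
    (c : Fin r) (v : VV r → ZMod q)
    (h : ∀ a ∈ ((carT r c).map (GAtm.map .old) : List (GAtm (PN A) (II r) (VV r))),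
      a.holds D M v) :
    (∀ j < c.val, dgt (fun i : Fin r => v (.inl i)) j + 1 = 0) ∧
      dgt (fun i : Fin r => v (.inl i)) c.val + 1 ≠ 0 := by
  have h' : ∀ a ∈ (carT r c : List (GAtm (PP A) (II r) (VV r))),
      a.holds D (fun p => M (.old p)) v := fun a ha =>
    (map_holds M v a).mp (h _ (List.mem_map_of_mem ha))
  constructor
  · intro j hj
    have hjr : j < r := hj.trans c.isLt
    have h1 := h' (ae r true (.s (.inl ⟨j, hjr⟩)) (.c 0)) (by
      unfold carT
      refine List.mem_append_left _ (List.mem_map.mpr ⟨⟨j, hjr⟩, ?_, rfl⟩)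
      rw [List.mem_filter]
      exact ⟨List.mem_finRange _, by simpa [Fin.lt_def] using hj⟩)
    rw [C5_ae_holds hD] at h1
    have h3 := h1.mpr rfl
    unfold dgt
    rw [dif_pos hjr]
    simpa [Tm.ev] using h3
  · have h1 := h' (ae r false (.s (.inl c)) (.c 0)) (by
      unfold carT
      exact List.mem_append_right _ (List.mem_singleton.mpr rfl))
    rw [C5_ae_holds hD] at h1
    unfold dgt
    rw [dif_pos c.isLt]
    intro h3
    have h4 := h1.mp (by simpa [Tm.ev] using h3)
    exact absurd h4 (by decide)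

theorem carB_dig (hD : GoodD D) (M : PN A → (II r → ZMod q) → Prop)
    (c : Fin r) (v : VV r → ZMod q)
    (h : ∀ a ∈ (carB r c : List (GAtm (PN A) (II r) (VV r))), a.holds D M v) :
    (∀ j, 8 ≤ j → j < c.val → dgt (fun i : Fin r => v (.inl i)) j + 1 = 0) ∧
      dgt (fun i : Fin r => v (.inl i)) c.val + 1 ≠ 0 := by
  constructor
  · intro j h8 hj
    have hjr : j < r := hj.trans c.isLt
    have h1 := h (oe r true (.s (.inl ⟨j, hjr⟩)) (.c 0)) (by
      unfold carB
      refine List.mem_append_left _ (List.mem_map.mpr ⟨⟨j, hjr⟩, ?_, rfl⟩)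
      rw [List.mem_filter]
      refine ⟨List.mem_finRange _, ?_⟩
      simp only [decide_eq_true_eq]
      exact ⟨h8, hj⟩)
    rw [oe_holds hD] at h1
    have h3 := h1.mpr rfl
    unfold dgt
    rw [dif_pos hjr]
    simpa [Tm.ev] using h3
  · have h1 := h (oe r false (.s (.inl c)) (.c 0)) (by
      unfold carB
      exact List.mem_append_right _ (List.mem_singleton.mpr rfl))
    rw [oe_holds hD] at h1
    unfold dgt
    rw [dif_pos c.isLt]
    intro h3
    have h4 := h1.mp (by simpa [Tm.ev] using h3)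
    exact absurd h4 (by decide)

/-- `MeanN` of `pos` at the variables -/
theorem pos_mean (v : VV r → ZMod q)
    (h : (na r .pos (tv r) (pv r) : GAtm (PN A) (II r) (VV r)).holds D (MeanN A r D n u) v) :
    jv (dgt fun i : Fin r => v (.inl i)) < n ∧ iv (dgt fun i : Fin r => v (.inl i)) < n ∧
      (dgt (fun i : Fin r => v (.inl i)) 16 = 0 ∨ dgt (fun i : Fin r => v (.inl i)) 16 = 1) ∧
      num q (fun i : Fin (r + 1) => v (.inr (.inl i))) =
        q ^ r + (dgt (fun i : Fin r => v (.inl i)) 16).val * n ^ 2 +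
          iv (dgt fun i : Fin r => v (.inl i)) * n + jv (dgt fun i : Fin r => v (.inl i)) := h

/-- adjacency only depends on the first 15 digits -/
theorem lAdj_congr {d d' : ℕ → ZMod q} (h : ∀ x < 15, d x = d' x) : LAdj D d ↔ LAdj D d' := by
  have key : ∀ e e' : ℕ → ZMod q, (∀ x < 15, e x = e' x) → (LArc D e → LArc D e') := by
    intro e e' he hl
    unfold LArc at hl ⊢
    have f1 : (fun j : Fin 6 => e j.val) = fun j : Fin 6 => e' j.val := by
      funext j
      exact he _ (by omega)
    have f2 : (fun j : Fin 6 => e (7 + j.val)) = fun j : Fin 6 => e' (7 + j.val) := by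
      funext j
      exact he _ (by omega)
    rw [f1, f2, he 14 (by omega), he 6 (by omega), he 13 (by omega)] at hl
    exact hl
  have sw : ∀ x < 15, swn x < 15 := by
    intro x hx
    unfold swn
    split
    · omega
    · split <;> omega
  unfold LAdj
  constructor
  · rintro (h1 | h1)
    · exact .inl (key d d' h h1)
    · exact .inr (key _ _ (fun x hx => h _ (sw x hx)) h1)
  · rintro (h1 | h1)
    · exact .inl (key d' d (fun x hx => (h x hx).symm) h1)
    · exact .inr (key _ _ (fun x hx => (h _ (sw x hx)).symm) h1)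

theorem ev_pdj (hr : 17 ≤ r) (v : VV r → ZMod q) (x : ℕ) (hx : x < 15) :
    dig (fun j => (pdj r j).ev v) x = pdg (dgt fun i : Fin r => v (.inl i)) x := by
  unfold dig pdj pdg
  beta_reduce
  have hp : (pj r x).val = x := by
    simp only [pj, Fin.val_ofNat]
    exact Nat.mod_eq_of_lt (by omega)
  rw [hp]
  by_cases h7 : x < 7
  · rw [if_pos h7, if_pos h7, ev_tn]
  · rw [if_neg h7, if_neg h7]
    by_cases h14 : x < 14
    · rw [if_pos h14, if_pos h14, ev_tn]
    · have h : x = 14 := by omega
      rw [if_neg h14, if_neg h14, if_pos h, ev_tn]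

end SNew

open SNew

variable {A : TM} {r q : ℕ} [Fact q.Prime] {D : (Fin 5 → ZMod q) → Prop} {u : List Bool} {n : ℕ}

theorem sound_new (hr : 17 ≤ r) (hD : GoodN D n) (hn : 1 ≤ n) (hnq : n < q ^ 8)
    (hu : InpN D n u) (x : XR r) (v : VV r → ZMod q)
    (h : ∀ a ∈ (x.rule A).2.2, a.holds D (MeanN A r D n u) v) :
    MeanN A r D n u (x.rule A).1 fun i => ((x.rule A).2.1 i).ev v := by
  have hq0 : NeZero q := ⟨(Fact.out : q.Prime).ne_zero⟩
  have h2q : 2 ≤ q := (Fact.out : q.Prime).two_le
  have h1q : Fact (1 < q) := ⟨by omega⟩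
  obtain ⟨T, hT⟩ : ∃ T : ℕ → ZMod q, T = dgt (fun i : Fin r => v (.inl i)) := ⟨_, rfl⟩
  obtain ⟨p, hp⟩ : ∃ p : ℕ, p = num q (fun i : Fin (r + 1) => v (.inr (.inl i))) := ⟨_, rfl⟩
  cases x with
  | pos0 =>
    have e0 : (dgt fun i : Fin r => (tz r i).ev v) = fun _ => 0 := funext (dgt_tz v)
    have e1 : jv (fun _ => (0 : ZMod q)) = 0 := by simp [jv]
    have e2 : iv (fun _ => (0 : ZMod q)) = 0 := by simp [iv]
    have e3 : num q (fun j : Fin (r + 1) => (p1 r j).ev v) = q ^ r := by
      unfold num
      rw [Finset.sum_eq_single (Fin.last r)]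
      · simp [p1, Tm.ev, ZMod.val_one]
      · intro j _ hj
        have : ¬ j.val = r := fun h => hj (Fin.ext h)
        simp [p1, Tm.ev, this]
      · simp
    change jv (dgt fun i : Fin r => (tz r i).ev v) < n ∧
      iv (dgt fun i : Fin r => (tz r i).ev v) < n ∧
      (dgt (fun i : Fin r => (tz r i).ev v) 16 = 0 ∨
        dgt (fun i : Fin r => (tz r i).ev v) 16 = 1) ∧
      num q (fun j : Fin (r + 1) => (p1 r j).ev v) =
        q ^ r + (dgt (fun i : Fin r => (tz r i).ev v) 16).val * n ^ 2 +
          iv (dgt fun i : Fin r => (tz r i).ev v) * n +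
          jv (dgt fun i : Fin r => (tz r i).ev v)
    rw [e0, e1, e2, e3]
    refine ⟨by omega, by omega, .inl rfl, ?_⟩
    simp
  | posA c hc e c' =>
    have hp0 := pos_mean v (h _ (by simp [XR.rule]))
    have ha := h (al r false e (tn r e.val)) (by simp [XR.rule])
    have hT' := carT_dig hD.toGoodD (MeanN A r D n u) c v fun a ha => h a (by
      simp only [XR.rule, List.mem_append]; exact .inl (.inr ha))
    have hP' := carP_holds hD.toGoodD (MeanN A r D n u) c' v fun a ha => h a (by
      simp only [XR.rule, List.mem_append]; exact .inr ha)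
    rw [al_holds hD, ev_tn, ← hT] at ha
    rw [← hT] at hT' hp0
    rw [← hp] at hP' hp0
    obtain ⟨a1, a2, a3, a4⟩ := hp0
    obtain ⟨T', hT''⟩ : ∃ T' : ℕ → ZMod q, T' = dgt (fun i : Fin r => (ts r c i).ev v) :=
      ⟨_, rfl⟩
    have eT : ∀ j < r, T' j = if j ≤ c.val then T j + 1 else T j := by
      intro j hj
      rw [hT'', dgt_ts v c j hj, hT]
    change jv (dgt fun i : Fin r => (ts r c i).ev v) < n ∧
      iv (dgt fun i : Fin r => (ts r c i).ev v) < n ∧
      (dgt (fun i : Fin r => (ts r c i).ev v) 16 = 0 ∨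
        dgt (fun i : Fin r => (ts r c i).ev v) 16 = 1) ∧
      num q (fun j : Fin (r + 1) => (ps r c' j).ev v) =
        q ^ r + (dgt (fun i : Fin r => (ts r c i).ev v) 16).val * n ^ 2 +
          iv (dgt fun i : Fin r => (ts r c i).ev v) * n +
          jv (dgt fun i : Fin r => (ts r c i).ev v)
    rw [hP', ← hT'']
    have j1 : jv T' = jv T + 1 := by
      rw [jv_num, jv_num, succ_iff]
      refine ⟨⟨c.val, hc⟩, ?_, ?_, ?_⟩
      · intro i hi
        have hi' : i.val < c.val := hi
        have : T i.val + 1 = 0 := hT'.1 _ hi'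
        refine ⟨this, ?_⟩
        show T' i.val = 0
        rw [eT _ (by omega), if_pos hi'.le, this]
      · refine ⟨hT'.2, ?_⟩
        show T' c.val = T c.val + 1
        rw [eT _ c.isLt, if_pos le_rfl]
      · intro i hi
        have hi' : c.val < i.val := hi
        show T' i.val = T i.val
        rw [eT _ (by omega), if_neg (by omega)]
    have i1 : iv T' = iv T := by
      unfold iv
      refine Finset.sum_congr rfl fun x hx => ?_
      have := Finset.mem_range.1 hx
      rw [eT _ (by omega), if_neg (by omega)]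
    have k1 : T' 16 = T 16 := by
      rw [eT _ (by omega), if_neg (by omega)]
    have hne : jv T ≠ n - 1 := by
      intro h0
      rw [jv_num, num_eq_iff hn hnq] at h0
      have := ha.mp (h0 e)
      exact absurd this (by decide)
    rw [j1, i1, k1, a4]
    exact ⟨by omega, a2, a3, by ring⟩
  | posB c h1 h2 e c' =>
    have hp0 := pos_mean v (h _ (by simp [XR.rule]))
    have ha := h (al r false e (tn r (8 + e.val))) (by simp [XR.rule])
    have hC := colN_holds hD hn hnq (MeanN A r D n u) v fun a ha => h a (by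
      simp only [XR.rule, List.mem_append]; exact .inl (.inl (.inr ha)))
    have hT' := carB_dig hD.toGoodD (MeanN A r D n u) c v fun a ha => h a (by
      simp only [XR.rule, List.mem_append]; exact .inl (.inr ha))
    have hP' := carP_holds hD.toGoodD (MeanN A r D n u) c' v fun a ha => h a (by
      simp only [XR.rule, List.mem_append]; exact .inr ha)
    rw [al_holds hD, ev_tn, ← hT] at ha
    rw [← hT] at hT' hp0 hC
    rw [← hp] at hP' hp0
    obtain ⟨a1, a2, a3, a4⟩ := hp0
    obtain ⟨T', hT''⟩ : ∃ T' : ℕ → ZMod q, T' = dgt (fun i : Fin r => (tb' r c i).ev v) :=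
      ⟨_, rfl⟩
    have eT : ∀ j < r, T' j = if j < 8 then 0 else if j ≤ c.val then T j + 1 else T j := by
      intro j hj
      rw [hT'', dgt_tb v c j hj, hT]
    change jv (dgt fun i : Fin r => (tb' r c i).ev v) < n ∧
      iv (dgt fun i : Fin r => (tb' r c i).ev v) < n ∧
      (dgt (fun i : Fin r => (tb' r c i).ev v) 16 = 0 ∨
        dgt (fun i : Fin r => (tb' r c i).ev v) 16 = 1) ∧
      num q (fun j : Fin (r + 1) => (ps r c' j).ev v) =
        q ^ r + (dgt (fun i : Fin r => (tb' r c i).ev v) 16).val * n ^ 2 +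
          iv (dgt fun i : Fin r => (tb' r c i).ev v) * n +
          jv (dgt fun i : Fin r => (tb' r c i).ev v)
    rw [hP', ← hT'']
    have j1 : jv T' = 0 := by
      unfold jv
      refine Finset.sum_eq_zero fun x hx => ?_
      have := Finset.mem_range.1 hx
      rw [eT _ (by omega), if_pos this]
      simp
    have i1 : iv T' = iv T + 1 := by
      rw [iv_num, iv_num, succ_iff]
      refine ⟨⟨c.val - 8, by omega⟩, ?_, ?_, ?_⟩
      · intro i hi
        have hi' : i.val < c.val - 8 := hi
        have : T (8 + i.val) + 1 = 0 := hT'.1 _ (by omega) (by omega)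
        refine ⟨this, ?_⟩
        show T' (8 + i.val) = 0
        rw [eT _ (by omega), if_neg (by omega), if_pos (by omega), this]
      · have e8 : 8 + (c.val - 8) = c.val := by omega
        show T (8 + (c.val - 8)) + 1 ≠ 0 ∧ T' (8 + (c.val - 8)) = T (8 + (c.val - 8)) + 1
        rw [e8]
        refine ⟨hT'.2, ?_⟩
        rw [eT _ c.isLt, if_neg (by omega), if_pos le_rfl]
      · intro i hi
        have hi' : c.val - 8 < i.val := hi
        show T' (8 + i.val) = T (8 + i.val)
        rw [eT _ (by omega), if_neg (by omega), if_neg (by omega)]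
    have k1 : T' 16 = T 16 := by
      rw [eT _ (by omega), if_neg (by omega), if_neg (by omega)]
    have hne : iv T ≠ n - 1 := by
      intro h0
      rw [iv_num, num_eq_iff hn hnq] at h0
      have := ha.mp (h0 e)
      exact absurd this (by decide)
    rw [j1, i1, k1, a4, hC]
    refine ⟨by omega, by omega, a3, ?_⟩
    have e5 : (iv T + 1) * n = iv T * n + n := by ring
    rw [e5]
    omega
  | posC c' =>
    have hp0 := pos_mean v (h _ (by simp [XR.rule]))
    have ha := h (oe r true (tn r 16) (.c 0)) (by simp [XR.rule])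
    have hC := colN_holds hD hn hnq (MeanN A r D n u) v fun a ha => h a (by
      simp only [XR.rule, List.mem_append]; exact .inl (.inl (.inr ha)))
    have hR := rowN_holds hD hn hnq (MeanN A r D n u) v fun a ha => h a (by
      simp only [XR.rule, List.mem_append]; exact .inl (.inr ha))
    have hP' := carP_holds hD.toGoodD (MeanN A r D n u) c' v fun a ha => h a (by
      simp only [XR.rule, List.mem_append]; exact .inr ha)
    rw [oe_holds hD.toGoodD, ev_tn, ← hT] at ha
    rw [← hT] at hp0 hC hR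
    rw [← hp] at hP' hp0
    obtain ⟨a1, a2, a3, a4⟩ := hp0
    have h16 : T 16 = 0 := by
      have := ha.mpr rfl
      simpa [Tm.ev] using this
    obtain ⟨T', hT''⟩ : ∃ T' : ℕ → ZMod q, T' = dgt (fun i : Fin r => (tc' r i).ev v) :=
      ⟨_, rfl⟩
    have eT : ∀ j < r, T' j = if j = 16 then 1 else 0 := by
      intro j hj
      rw [hT'', dgt_tc v j hj]
    change jv (dgt fun i : Fin r => (tc' r i).ev v) < n ∧
      iv (dgt fun i : Fin r => (tc' r i).ev v) < n ∧
      (dgt (fun i : Fin r => (tc' r i).ev v) 16 = 0 ∨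
        dgt (fun i : Fin r => (tc' r i).ev v) 16 = 1) ∧
      num q (fun j : Fin (r + 1) => (ps r c' j).ev v) =
        q ^ r + (dgt (fun i : Fin r => (tc' r i).ev v) 16).val * n ^ 2 +
          iv (dgt fun i : Fin r => (tc' r i).ev v) * n +
          jv (dgt fun i : Fin r => (tc' r i).ev v)
    rw [hP', ← hT'']
    have j1 : jv T' = 0 := by
      unfold jv
      refine Finset.sum_eq_zero fun x hx => ?_
      have := Finset.mem_range.1 hx
      rw [eT _ (by omega), if_neg (by omega)]
      simp
    have i1 : iv T' = 0 := by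
      unfold iv
      refine Finset.sum_eq_zero fun x hx => ?_
      have := Finset.mem_range.1 hx
      rw [eT _ (by omega), if_neg (by omega)]
      simp
    have k1 : T' 16 = 1 := by
      rw [eT _ (by omega), if_pos rfl]
    rw [j1, i1, k1, a4, hC, hR, h16, ZMod.val_zero, ZMod.val_one]
    refine ⟨by omega, by omega, .inr rfl, ?_⟩
    obtain ⟨m, rfl⟩ : ∃ m, n = m + 1 := ⟨n - 1, by omega⟩
    rw [Nat.add_sub_cancel]
    ring
  | posE c' =>
    have hp0 := pos_mean v (h _ (by simp [XR.rule]))
    have ha := h (oe r true (tn r 16) (.c 1)) (by simp [XR.rule])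
    have hC := colN_holds hD hn hnq (MeanN A r D n u) v fun a ha => h a (by
      simp only [XR.rule, List.mem_append]; exact .inl (.inl (.inr ha)))
    have hR := rowN_holds hD hn hnq (MeanN A r D n u) v fun a ha => h a (by
      simp only [XR.rule, List.mem_append]; exact .inl (.inr ha))
    have hP' := carP_holds hD.toGoodD (MeanN A r D n u) c' v fun a ha => h a (by
      simp only [XR.rule, List.mem_append]; exact .inr ha)
    rw [oe_holds hD.toGoodD, ev_tn, ← hT] at ha
    rw [← hT] at hp0 hC hR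
    rw [← hp] at hP' hp0
    obtain ⟨a1, a2, a3, a4⟩ := hp0
    have h16 : T 16 = 1 := by
      have := ha.mpr rfl
      simpa [Tm.ev] using this
    change q ^ r + 2 * n ^ 2 ≤ num q (fun j : Fin (r + 1) => (ps r c' j).ev v)
    rw [hP', a4, hC, hR, h16, ZMod.val_one]
    obtain ⟨m, rfl⟩ : ∃ m, n = m + 1 := ⟨n - 1, by omega⟩
    rw [Nat.add_sub_cancel]
    apply le_of_eq
    ring
  | blS c' =>
    have h0 : q ^ r + 2 * n ^ 2 ≤ p := by
      rw [hp]
      exact h (na r .bl (tz r) (pv r)) (by simp [XR.rule])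
    have hP' := carP_holds hD.toGoodD (MeanN A r D n u) c' v fun a ha => h a (by
      simp only [XR.rule, List.mem_append]; exact .inr ha)
    change q ^ r + 2 * n ^ 2 ≤ num q (fun j : Fin (r + 1) => (ps r c' j).ev v)
    rw [hP', ← hp]
    omega
  | bl0 =>
    have ha := h (oe r true (pn r r) (.c 0)) (by simp [XR.rule])
    rw [oe_holds hD.toGoodD] at ha
    have h0 : dig (fun i : Fin (r + 1) => v (.inr (.inl i))) r = 0 := by
      have h1 := ha.mpr rfl
      have e1 : (Tm.c 0 : Tm (VV r)).ev v = 0 := by simp [Tm.ev]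
      rw [e1] at h1
      exact h1
    have e0 : num q (fun i : Fin r => (tz r i).ev v) = 0 := by
      have : (fun i : Fin r => (tz r i).ev v) = 0 := by
        funext i
        simp [tz, Tm.ev]
      rw [this, num_zero]
    change (A.run u (num q fun i : Fin r => (tz r i).ev v)).tp 0
      ((num q (fun i : Fin (r + 1) => v (.inr (.inl i))) : ℤ) - (q : ℤ) ^ r) = A.blank
    rw [e0]
    apply SInit.init_blank
    left
    have h1 := SInit.num_split (fun i : Fin (r + 1) => v (.inr (.inl i)))
    have h2 := SInit.low_lt (fun i : Fin (r + 1) => v (.inr (.inl i)))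
    rw [h0, ZMod.val_zero, zero_mul, add_zero] at h1
    rw [← h1] at h2
    have : (num q (fun i : Fin (r + 1) => v (.inr (.inl i))) : ℤ) < (q : ℤ) ^ r := by
      exact_mod_cast h2
    omega
  | bl1 =>
    have h0 : q ^ r + 2 * n ^ 2 ≤ p := by
      rw [hp]
      exact h (na r .bl (tz r) (pv r)) (by simp [XR.rule])
    have e0 : num q (fun i : Fin r => (tz r i).ev v) = 0 := by
      have : (fun i : Fin r => (tz r i).ev v) = 0 := by
        funext i
        simp [tz, Tm.ev]
      rw [this, num_zero]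
    change (A.run u (num q fun i : Fin r => (tz r i).ev v)).tp 0
      ((num q (fun i : Fin (r + 1) => v (.inr (.inl i))) : ℤ) - (q : ℤ) ^ r) = A.blank
    rw [e0, ← hp]
    apply SInit.init_blank
    right
    rw [hu.len]
    have : ((q ^ r + 2 * n ^ 2 : ℕ) : ℤ) ≤ (p : ℤ) := by exact_mod_cast h0
    push_cast at this ⊢
    linarith
  | inp1 b =>
    have hp0 := pos_mean v (h _ (by simp [XR.rule]))
    have h7 := h (oe r true (tn r 7) (.c 0)) (by simp [XR.rule])
    have h15 := h (oe r true (tn r 15) (.c 0)) (by simp [XR.rule])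
    have hadj : (b = true ↔ LAdj D (dig fun j : Fin (r + 1) => (pdj r j).ev v)) :=
      h (na r (.old (.adj b)) (tz r) (pdj r)) (by simp [XR.rule])
    rw [oe_holds hD.toGoodD, ev_tn, ← hT] at h7 h15
    rw [← hT] at hp0
    rw [← hp] at hp0
    obtain ⟨a1, a2, a3, a4⟩ := hp0
    have d7 : T 7 = 0 := by
      have := h7.mpr rfl
      simpa [Tm.ev] using this
    have d15 : T 15 = 0 := by
      have := h15.mpr rfl
      simpa [Tm.ev] using this
    rw [lAdj_congr (fun x hx => ev_pdj hr v x hx), ← hT] at hadj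
    have hbit := hu.bit T b a1 a2 a3 (by
      rw [hadj]
      exact ⟨fun h => ⟨d7, d15, h⟩, fun h => h.2.2⟩)
    have e0 : num q (fun i : Fin r => (tz r i).ev v) = 0 := by
      have : (fun i : Fin r => (tz r i).ev v) = 0 := by
        funext i
        simp [tz, Tm.ev]
      rw [this, num_zero]
    change (A.run u (num q fun i : Fin r => (tz r i).ev v)).tp 0
      ((num q (fun i : Fin (r + 1) => v (.inr (.inl i))) : ℤ) - (q : ℤ) ^ r) = A.bit b
    rw [e0, ← hp, a4]
    have e1 : ((q ^ r + (T 16).val * n ^ 2 + iv T * n + jv T : ℕ) : ℤ) - (q : ℤ) ^ r =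
        (((T 16).val * n ^ 2 + iv T * n + jv T : ℕ) : ℤ) := by
      push_cast
      ring
    rw [e1]
    exact SInit.init_bit u _ b hbit
  | inp0 s =>
    have hp0 := pos_mean v (h _ (by simp [XR.rule]))
    have ha := h (oe r false (tn r (if s then 7 else 15)) (.c 0)) (by simp [XR.rule])
    rw [oe_holds hD.toGoodD, ev_tn, ← hT] at ha
    rw [← hT] at hp0
    rw [← hp] at hp0
    obtain ⟨a1, a2, a3, a4⟩ := hp0
    have hne : T (if s then 7 else 15) ≠ 0 := by
      intro h0
      have := ha.mp (by simpa [Tm.ev] using h0)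
      exact absurd this (by decide)
    have hbit := hu.bit T false a1 a2 a3 (by
      constructor
      · intro h0
        exact absurd h0 (by decide)
      · rintro ⟨b1, b2, -⟩
        exfalso
        cases s
        · exact hne b2
        · exact hne b1)
    have e0 : num q (fun i : Fin r => (tz r i).ev v) = 0 := by
      have : (fun i : Fin r => (tz r i).ev v) = 0 := by
        funext i
        simp [tz, Tm.ev]
      rw [this, num_zero]
    change (A.run u (num q fun i : Fin r => (tz r i).ev v)).tp 0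
      ((num q (fun i : Fin (r + 1) => v (.inr (.inl i))) : ℤ) - (q : ℤ) ^ r) = A.bit false
    rw [e0, ← hp, a4]
    have e1 : ((q ^ r + (T 16).val * n ^ 2 + iv T * n + jv T : ℕ) : ℤ) - (q : ℤ) ^ r =
        (((T 16).val * n ^ 2 + iv T * n + jv T : ℕ) : ℤ) := by
      push_cast
      ring
    rw [e1]
    exact SInit.init_bit u _ false hbit

end Vale.Agent.P310
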