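import Vale.Agent.P310.WL

/-!
P310, Level A: two-of-three systems, their linear system over `ZMod 2` and their pair of graphs.
-/

namespace Vale.Agent.P310

open scoped BigOperators

/-- kinds without the bits, over raw data -/
inductive ROKind (T E Q : Type) (m : ℕ) : Type
  | var (x : T × Q) (l : Fin m)
  | eqn (p : E × Q) (l : Fin m)
  | spc (s : Option Q)

/-- kinds of the basic vertices, over raw data -/
inductive RKind0 (T E Q : Type) (m : ℕ) : Type
  | var (x : T × Q) (l : Fin m) (b : ZMod 2)
  | eqn (p : E × Q) (l : Fin m) (f : Fin 3 → ZMod 2)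
  | spc (s : Option Q) (f : Fin m → ZMod 2)

/-- kinds of vertices: basic vertices and their leaves, over raw data -/
inductive RKind (T E Q : Type) (m Λ : ℕ) : Type
  | base (κ : RKind0 T E Q m)
  | leaf (κ : RKind0 T E Q m) (j : Fin Λ)

/-- forget the bits -/
def RKind0.ok {T E Q : Type} {m : ℕ} : RKind0 T E Q m → ROKind T E Q m
  | .var x l _ => .var x l
  | .eqn p l _ => .eqn p l
  | .spc s _ => .spc s

noncomputable instance {T E Q : Type} {m : ℕ} [Fintype T] [Fintype E] [Fintype Q] :
    Fintype (RKind0 T E Q m) := by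
  classical
  exact Fintype.ofInjective
    (fun k : RKind0 T E Q m => (match k with
      | .var x l b => Sum.inl (x, l, b)
      | .eqn p l f => Sum.inr (Sum.inl (p, l, f))
      | .spc s f => Sum.inr (Sum.inr (s, f)) :
      ((T × Q) × Fin m × ZMod 2) ⊕ ((E × Q) × Fin m × (Fin 3 → ZMod 2)) ⊕
        (Option Q × (Fin m → ZMod 2))))
    (by
      intro a b hab
      cases a <;> cases b <;> simp_all)

noncomputable instance {T E Q : Type} {m : ℕ} [Fintype T] [Fintype E] [Fintype Q] :
    Fintype (ROKind T E Q m) := by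
  classical
  exact Fintype.ofInjective
    (fun k : ROKind T E Q m => (match k with
      | .var x l => Sum.inl (x, l)
      | .eqn p l => Sum.inr (Sum.inl (p, l))
      | .spc s => Sum.inr (Sum.inr s) :
      ((T × Q) × Fin m) ⊕ ((E × Q) × Fin m) ⊕ Option Q))
    (by
      intro a b hab
      cases a <;> cases b <;> simp_all)

noncomputable instance {T E Q : Type} {m Λ : ℕ} [Fintype T] [Fintype E] [Fintype Q] :
    Fintype (RKind T E Q m Λ) := by
  classical
  exact Fintype.ofInjective
    (fun k : RKind T E Q m Λ => (match k with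
      | .base κ => Sum.inl κ
      | .leaf κ j => Sum.inr (κ, j) : RKind0 T E Q m ⊕ (RKind0 T E Q m × Fin Λ)))
    (by
      intro a b hab
      cases a <;> cases b <;> simp_all)

/-- Data of a two-of-three system. -/
structure Sys where
  /-- types -/
  T : Type
  /-- equation types -/
  E : Type
  /-- contexts -/
  C : Type
  /-- values of a digit -/
  A : Type
  /-- the finite group used to kill short cycles -/
  Q : Type
  [fT : Fintype T]
  [dT : DecidableEq T]
  [fE : Fintype E]
  [dE : DecidableEq E]
  [cC : AddCommGroup C]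
  [dC : DecidableEq C]
  [cA : AddCommGroup A]
  [fA : Fintype A]
  [dA : DecidableEq A]
  [gQ : Group Q]
  [fQ : Fintype Q]
  [dQ : DecidableEq Q]
  /-- number of digit positions -/
  m : ℕ
  /-- digit maps -/
  φ : Fin m → C →+ A
  /-- type in a slot of an equation type -/
  ty : E → Fin 3 → T
  /-- shift in a slot of an equation type -/
  sh : E → Fin 3 → C
  /-- group element of a slot of an equation type -/
  g : E → Fin 3 → Q
  /-- presence of an equation type at a context -/
  pres : E → C → Prop
  /-- presence of an equation type at a digit value -/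
  presA : E → A → Prop
  start : T
  fin : T
  /-- number of leaves of a vertex of a given kind -/
  lam : ROKind T E Q m → ℕ
  /-- bound for the number of leaves -/
  Lam : ℕ

attribute [instance] Sys.fT Sys.dT Sys.fE Sys.dE Sys.cC Sys.dC Sys.cA Sys.fA Sys.dA Sys.gQ Sys.fQ
  Sys.dQ

namespace Sys

variable (S : Sys)

/-- The derived facts: the least set of facts containing `(start, 0)` and closed under the
two-of-three rule of every present equation. -/
inductive Der : S.T → S.C → Prop
  | start : Der S.start 0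
  | step (e : S.E) (c : S.C) (i j l : Fin 3) : i ≠ j → l ≠ i → l ≠ j → S.pres e c →
      Der (S.ty e i) (c + S.sh e i) → Der (S.ty e j) (c + S.sh e j) →
      Der (S.ty e l) (c + S.sh e l)

/-- lifted types -/
abbrev LT := S.T × S.Q
/-- nodes: lifted type and context -/
abbrev Nd := S.LT × S.C
/-- variables at one digit -/
abbrev V1 := S.LT × S.A
/-- equations at one digit -/
abbrev E1 := (S.E × S.Q) × S.A
/-- variables -/
abbrev Var := Fin S.m × S.V1
/-- equations -/
abbrev Eqn := Fin S.m × S.E1

/-- lifted type in a slot of a lifted equation type -/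
def lt (p : S.E × S.Q) (i : Fin 3) : S.LT := (S.ty p.1 i, p.2 * S.g p.1 i)

/-- node in slot `i` of the equation type `p` at the context `c` -/
def nd (p : S.E × S.Q) (c : S.C) (i : Fin 3) : S.Nd := (S.lt p i, c + S.sh p.1 i)

/-- variable in slot `i` of an equation, for a general digit map -/
def sl (ψ : S.C →+ S.A) (E : S.E1) (i : Fin 3) : S.V1 := (S.lt E.1 i, E.2 + ψ (S.sh E.1.1 i))

/-- projection of a node to a digit -/
def pr (ψ : S.C →+ S.A) (n : S.Nd) : S.V1 := (n.1, ψ n.2)

/-- walks between lifted types with their total shift -/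
inductive Near : ℕ → S.LT → S.LT → S.C → Prop
  | refl (n : ℕ) (x : S.LT) : Near n x x 0
  | step {n : ℕ} {x : S.LT} {d : S.C} (p : S.E × S.Q) (i j : Fin 3) : Near n x (S.lt p i) d →
      Near (n + 1) x (S.lt p j) (d + S.sh p.1 j - S.sh p.1 i)

/-- special equations: `some h` is the start equation of lift `h`, `none` the final one -/
abbrev Spc := Option S.Q

/-- lifted type of a special equation -/
def spt : S.Spc → S.LT
  | some h => (S.start, h)
  | none => (S.fin, 1)

/-- The size bound used everywhere. -/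
def big : ℕ := 200 * (S.m + 2)

/-- Hypotheses on the system. -/
structure OK (S : Sys) : Prop where
  pres_iff : ∀ (l : Fin S.m) (e : S.E) (c : S.C), S.pres e c ↔ S.presA e (S.φ l c)
  grp : ∀ w : FreeGroup (S.E × Fin 3), w ≠ 1 → w.norm ≤ S.big →
    FreeGroup.lift (fun p : S.E × Fin 3 => S.g p.1 p.2) w ≠ 1
  code : ∃ kap : ℕ, 6 * kap + 2 < S.m ∧ ∀ c : S.C, c ≠ 0 →
    (Finset.univ.filter fun l : Fin S.m => S.φ l c = 0).card ≤ kap
  fin_out : ∀ (e : S.E) (i : Fin 3), S.ty e i = S.fin →
    i = 2 ∧ S.ty e 0 = S.ty e 1 ∧ S.sh e 0 = S.sh e 1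
  start_ne : S.start ≠ S.fin
  iso : ∀ n ≤ S.big, ∀ (s : S.Spc) (x : S.LT) (d : S.C), S.Near n (S.spt s) x d → d = 0
  lam_inj : Function.Injective S.lam
  two_le_lam : ∀ o, 2 ≤ S.lam o
  lam_le : ∀ o, S.lam o ≤ S.Lam

/-! ### The graphs -/

/-- kinds of the basic vertices -/
abbrev Kind0 := RKind0 S.T S.E S.Q S.m

/-- kinds without the bits -/
abbrev OKind := ROKind S.T S.E S.Q S.m

/-- kinds of vertices -/
abbrev Kind := RKind S.T S.E S.Q S.m S.Lam

/-- right hand side of a special equation in the graph `false` (= G) or `true` (= H) -/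
def tw (hh : Bool) : S.Spc → ZMod 2
  | some _ => 0
  | none => if hh then 1 else 0

/-- directed arcs of the graph `hh` -/
inductive Arc (hh : Bool) : S.Kind → S.A → S.Kind → S.A → Prop
  | eqn (p : S.E × S.Q) (l : Fin S.m) (f : Fin 3 → ZMod 2) (a : S.A) (i : Fin 3) :
      S.presA p.1 a → ∑ i, f i = 0 →
      Arc hh (.base (.eqn p l f)) a (.base (.var (S.lt p i) l (f i))) (a + S.φ l (S.sh p.1 i))
  | spc (s : S.Spc) (f : Fin S.m → ZMod 2) (l : Fin S.m) : ∑ l, f l = S.tw hh s →
      Arc hh (.base (.spc s f)) 0 (.base (.var (S.spt s) l (f l))) 0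
  | leaf (κ : S.Kind0) (j : Fin S.Lam) (a : S.A) : j.val < S.lam κ.ok →
      Arc hh (.base κ) a (.leaf κ j) a

/-- The graph `hh` on `KK × A`, where the kinds are embedded into `KK`; all other vertices are
isolated. -/
def gr (hh : Bool) {KK : Type} (em : S.Kind ↪ KK) : SimpleGraph (KK × S.A) where
  Adj v w := ∃ κ κ' : S.Kind, v.1 = em κ ∧ w.1 = em κ' ∧
    (S.Arc hh κ v.2 κ' w.2 ∨ S.Arc hh κ' w.2 κ v.2)
  symm := by
    constructor
    rintro v w ⟨κ, κ', h1, h2, h3⟩
    exact ⟨κ', κ, h2, h1, h3.symm⟩
  loopless := by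
    constructor
    rintro ⟨u, a⟩ ⟨κ, κ', h1, h2, h3⟩
    obtain rfl : κ = κ' := em.injective (h1.symm.trans h2)
    rcases h3 with h3 | h3 <;> cases h3

end Sys

end Vale.Agent.P310
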