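import Vale.Agent.P310.Obj

/-!
P310, Level B, table version: Horn systems and Datalog programs with an arbitrary table
(definitions only).
-/

namespace Vale.Agent.P310

open scoped BigOperators

/-- conditions on the public coordinates -/
inductive TCnd : Type
  | all
  | tab
  | ntab
  deriving DecidableEq

/-- meaning of a condition; `D` is the table -/
def TCnd.holds {J q : ℕ} (D : (Fin J → ZMod q) → Prop) : TCnd → (Fin J → ZMod q) → Prop
  | .all, _ => True
  | .tab, b => D b
  | .ntab, b => ¬ D b

/-- contexts over `ZMod q`: public coordinates and secret coordinates -/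
abbrev TCtx (J κ q : ℕ) := (Fin J → ZMod q) × (Fin κ → ZMod q)

/-- cast of a uniform shift -/
def tshift {J κ : ℕ} (q : ℕ) (b : Fin J → ℕ) (v : Fin κ → ℕ) : TCtx J κ q :=
  (fun j => (b j : ZMod q), fun i => (v i : ZMod q))

/-- A shift-invariant Horn system: unary rules `us @ (c + sS) => ut @ (c + sT)` under a condition
on the public coordinates of `c`, and conjunctions `ja @ c, jb @ c => jc @ c`. -/
structure THorn (J κ : ℕ) where
  X : Type
  U : Type
  Jn : Type
  [fX : Fintype X]
  [dX : DecidableEq X]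
  [fU : Fintype U]
  [dU : DecidableEq U]
  [fJ : Fintype Jn]
  [dJ : DecidableEq Jn]
  us : U → X
  ut : U → X
  /-- shifts of source and target, public coordinates -/
  usb : U → Fin J → ℕ
  utb : U → Fin J → ℕ
  /-- shifts of source and target, other coordinates -/
  usg : U → Fin κ → ℕ
  utg : U → Fin κ → ℕ
  uc : U → TCnd
  ja : Jn → X
  jb : Jn → X
  jc : Jn → X
  start : X
  goal : X

attribute [instance] THorn.fX THorn.dX THorn.fU THorn.dU THorn.fJ THorn.dJ

/-- derivable facts of a Horn system -/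
inductive THorn.Der {J κ : ℕ} (H : THorn J κ) (q : ℕ) (D : (Fin J → ZMod q) → Prop) :
    H.X → TCtx J κ q → Prop
  | start : THorn.Der H q D H.start 0
  | un (r : H.U) (c : TCtx J κ q) : (H.uc r).holds D c.1 →
      THorn.Der H q D (H.us r) (c + tshift q (H.usb r) (H.usg r)) →
      THorn.Der H q D (H.ut r) (c + tshift q (H.utb r) (H.utg r))
  | cj (j : H.Jn) (c : TCtx J κ q) : THorn.Der H q D (H.ja j) c →
      THorn.Der H q D (H.jb j) c → THorn.Der H q D (H.jc j) c

/-! ### Datalog programs with a table -/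

/-- affine forms in `v` variables with natural coefficients -/
structure Aff (v : ℕ) where
  c : ℕ
  m : Fin v → ℕ

/-- value of an affine form -/
def Aff.ev {v : ℕ} (q : ℕ) (f : Aff v) (x : Fin v → ZMod q) : ZMod q :=
  (f.c : ZMod q) + ∑ i, (f.m i : ZMod q) * x i

/-- value of a list of affine forms -/
def evA {ρ v : ℕ} (q : ℕ) (f : Fin ρ → Aff v) (x : Fin v → ZMod q) : Fin ρ → ZMod q :=
  fun j => (f j).ev q x

/-- an atom: a predicate (`inl`) or the table (`inr true`) or its complement (`inr false`), and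
arguments -/
structure Atm (P : Type) (ρ v : ℕ) where
  pr : P ⊕ Bool
  ar : Fin ρ → Aff v

/-- a program; all predicates have arity `ρ`, the table has arity `J` -/
structure TProg (J ρ v : ℕ) where
  P : Type
  R : Type
  [fP : Fintype P]
  [dP : DecidableEq P]
  [fR : Fintype R]
  [dR : DecidableEq R]
  hd : R → P
  ha : R → Fin ρ → Aff v
  body : R → List (Atm P ρ v)
  goal : P

attribute [instance] TProg.fP TProg.dP TProg.fR TProg.dR

/-- truth of a table atom: the table is read at the first `J` arguments -/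
def tabHolds {J ρ q : ℕ} (hJ : J ≤ ρ) (D : (Fin J → ZMod q) → Prop) (s : Bool)
    (y : Fin ρ → ZMod q) : Prop :=
  D (fun j => y (Fin.castLE hJ j)) ↔ s = true

/-- least fixed point of a program over `ZMod q` with table `D` -/
inductive TProg.Holds {J ρ v : ℕ} (hJ : J ≤ ρ) (Pg : TProg J ρ v) (q : ℕ)
    (D : (Fin J → ZMod q) → Prop) : Pg.P → (Fin ρ → ZMod q) → Prop
  | rule (r : Pg.R) (x : Fin v → ZMod q)
      (h1 : ∀ a ∈ Pg.body r, ∀ p, a.pr = .inl p → TProg.Holds hJ Pg q D p (evA q a.ar x))
      (h2 : ∀ a ∈ Pg.body r, ∀ s, a.pr = .inr s → tabHolds hJ D s (evA q a.ar x)) :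
      TProg.Holds hJ Pg q D (Pg.hd r) (evA q (Pg.ha r) x)

/-! ### Uniform two-of-three systems, table version -/

/-- A uniform two-of-three system: everything is independent of the field size and of the
table. -/
structure TUSys (J κ : ℕ) where
  T : Type
  E : Type
  [fT : Fintype T]
  [dT : DecidableEq T]
  [fE : Fintype E]
  [dE : DecidableEq E]
  ty : E → Fin 3 → T
  /-- shift of the public coordinates -/
  shb : E → Fin 3 → Fin J → ℕ
  /-- shift of the other coordinates -/
  shg : E → Fin 3 → Fin κ → ℕ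
  cnd : E → TCnd
  start : T
  fin : T

attribute [instance] TUSys.fT TUSys.dT TUSys.fE TUSys.dE

/-- structural hypotheses on a uniform system -/
structure TUSys.OK {J κ : ℕ} (U : TUSys J κ) (L : ℕ) : Prop where
  fin_out : ∀ (e : U.E) (i : Fin 3), U.ty e i = U.fin →
    i = 2 ∧ U.ty e 0 = U.ty e 1 ∧ U.shb e 0 = U.shb e 1 ∧ U.shg e 0 = U.shg e 1
  start_ne : U.start ≠ U.fin
  iso : ∃ u : U.T → ℕ, u U.start = 0 ∧ u U.fin = 0 ∧
    (∀ e i, u (U.ty e i) < L → ∀ j, U.shb e j = 0 ∧ U.shg e j = 0) ∧
    ∀ e i j, u (U.ty e i) ≤ u (U.ty e j) + 1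

/-- the digit maps: public coordinates and Reed-Solomon evaluation -/
def tdigit (J κ m q : ℕ) (l : Fin m) : TCtx J κ q →+ (Fin J → ZMod q) × ZMod q where
  toFun c := (c.1, ∑ i, c.2 i * (l.val : ZMod q) ^ i.val)
  map_zero' := by simp
  map_add' := by
    intro a b
    simp [add_mul, Finset.sum_add_distrib]

/-- the system over `ZMod q` with table `D` -/
noncomputable def TUSys.sys {J κ : ℕ} (U : TUSys J κ) (m : ℕ) (Q : Type) [Group Q] [Fintype Q]
    [DecidableEq Q] (g : U.E → Fin 3 → Q) (q : ℕ) [NeZero q] (D : (Fin J → ZMod q) → Prop) :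
    Sys where
  T := U.T
  E := U.E
  C := TCtx J κ q
  A := (Fin J → ZMod q) × ZMod q
  Q := Q
  m := m
  φ := tdigit J κ m q
  ty := U.ty
  sh e i := tshift q (U.shb e i) (U.shg e i)
  g := g
  pres e c := (U.cnd e).holds D c.1
  presA e a := (U.cnd e).holds D a.1
  start := U.start
  fin := U.fin
  lam o := (Fintype.equivFin (ROKind U.T U.E Q m) o).val + 2
  Lam := Fintype.card (ROKind U.T U.E Q m) + 2

end Vale.Agent.P310
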