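import Vale.Agent.P310.Machine
import Vale.Agent.P310.TDefs
import Vale.Agent.P310.Vec

/-!
P310, Level C: general programs, the graphs given by a table, the program of the diagonalisation
and the intended meaning of its predicates (definitions only).
-/

namespace Vale.Agent.P310

open scoped BigOperators

/-! ### General programs -/

/-- terms: variables, successors of variables, constants -/
inductive Tm (V : Type) : Type
  | v (i : V)
  | s (i : V)
  | c (n : ℕ)

/-- value of a term -/
def Tm.ev {V : Type} {q : ℕ} (x : V → ZMod q) : Tm V → ZMod q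
  | .v i => x i
  | .s i => x i + 1
  | .c n => (n : ZMod q)

/-- atoms: a predicate with arguments, or the table with a truth value -/
inductive GAtm (P I V : Type) : Type
  | pr (p : P) (a : I → Tm V)
  | tb (s : Bool) (a : Fin 5 → Tm V)

/-- truth of an atom -/
def GAtm.holds {P I V : Type} {q : ℕ} (D : (Fin 5 → ZMod q) → Prop)
    (M : P → (I → ZMod q) → Prop) (x : V → ZMod q) : GAtm P I V → Prop
  | .pr p a => M p fun i => (a i).ev x
  | .tb s a => (D fun j => (a j).ev x) ↔ s = true

/-- a general program, with argument indices `I` and variables `V` -/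
structure GProg (I V : Type) where
  P : Type
  R : Type
  [nP : Finite P]
  [nR : Finite R]
  hd : R → P
  ha : R → I → Tm V
  body : R → List (GAtm P I V)
  goal : P

attribute [instance] GProg.nP GProg.nR

/-- `M` is a model of the program -/
def GProg.Model {I V : Type} (Pg : GProg I V) {q : ℕ} (D : (Fin 5 → ZMod q) → Prop)
    (M : Pg.P → (I → ZMod q) → Prop) : Prop :=
  ∀ (r : Pg.R) (x : V → ZMod q), (∀ a ∈ Pg.body r, a.holds D M x) →
    M (Pg.hd r) fun i => (Pg.ha r i).ev x

/-- least fixed point -/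
def GProg.Sat {I V : Type} (Pg : GProg I V) {q : ℕ} (D : (Fin 5 → ZMod q) → Prop) (p : Pg.P)
    (y : I → ZMod q) : Prop :=
  ∀ M : Pg.P → (I → ZMod q) → Prop, Pg.Model D M → M p y

/-! ### Graphs given by a table

Tags (first coordinate of the table): `0` is equality of the next two coordinates, `4 + π` are
the conditions of arcs, `8 + j` the shifts of the coordinates of arcs. -/

/-- Arc of the graph number `h` from the vertex with kind number `ν` and coordinates `a` to the
vertex with kind number `ν'` and coordinates `a'`. -/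
def arcD {q : ℕ} (D : (Fin 5 → ZMod q) → Prop) (h ν : ZMod q) (a : Fin 6 → ZMod q) (ν' : ZMod q)
    (a' : Fin 6 → ZMod q) : Prop :=
  (∀ j : Fin 6, D ![((8 + j.val : ℕ) : ZMod q), ν, ν', a j, a' j]) ∧
  (D ![((4 : ℕ) : ZMod q), h, ν, ν', ν'] ∨
    (D ![((5 : ℕ) : ZMod q), h, ν, ν', ν'] ∧ D ![a 1, a 2, a 3, a 4, a 5]) ∨
    (D ![((6 : ℕ) : ZMod q), h, ν, ν', ν'] ∧ ¬ D ![a 1, a 2, a 3, a 4, a 5]) ∨
    (D ![((7 : ℕ) : ZMod q), h, ν, ν', ν'] ∧ ∀ j, a j = 0))

/-- The table is fit for use: equality, and no arcs between vertices of the same kind. -/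
structure GoodD {q : ℕ} (D : (Fin 5 → ZMod q) → Prop) : Prop where
  eq_iff : ∀ a b c d : ZMod q, D ![((0 : ℕ) : ZMod q), a, b, c, d] ↔ a = b
  irr : ∀ (π : Fin 4) (h ν : ZMod q), ¬ D ![((4 + π.val : ℕ) : ZMod q), h, ν, ν, ν]

/-- vertices of the graphs: kind number and element of the digit group -/
abbrev Vx (q : ℕ) := Fin q × ((Fin 5 → ZMod q) × ZMod q)

/-- coordinates of a vertex: the secret coordinate, then the public ones -/
def co {q : ℕ} (a : (Fin 5 → ZMod q) × ZMod q) : Fin 6 → ZMod q := Fin.cons a.2 a.1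

/-- The graph number `h` of the table -/
def tgr {q : ℕ} (D : (Fin 5 → ZMod q) → Prop) (h : Bool) : SimpleGraph (Vx q) where
  Adj u v := u ≠ v ∧
    (arcD D (h.toNat : ZMod q) (u.1.val : ZMod q) (co u.2) (v.1.val : ZMod q) (co v.2) ∨
      arcD D (h.toNat : ZMod q) (v.1.val : ZMod q) (co v.2) (u.1.val : ZMod q) (co u.2))
  symm := by
    constructor
    rintro u v ⟨h1, h2⟩
    exact ⟨h1.symm, h2.symm⟩
  loopless := by
    constructor
    rintro u ⟨h1, _⟩
    exact h1 rfl

/-- digits of a vertex: coordinates, then the kind number -/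
def vdig {q : ℕ} (u : Vx q) : Fin 7 → ZMod q := Fin.snoc (co u.2) (u.1.val : ZMod q)

/-- Arc in terms of 15 digits: `0 .. 6` first vertex, `7 .. 13` second vertex, `14` number of the
graph. -/
def LArc {q : ℕ} (D : (Fin 5 → ZMod q) → Prop) (d : ℕ → ZMod q) : Prop :=
  arcD D (d 14) (d 6) (fun j => d j.val) (d 13) (fun j => d (7 + j.val))

/-- exchange of the digits `0 .. 6` and `7 .. 13` -/
def swn (j : ℕ) : ℕ := if j < 7 then j + 7 else if j < 14 then j - 7 else j

/-- Adjacency in terms of 15 digits -/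
def LAdj {q : ℕ} (D : (Fin 5 → ZMod q) → Prop) (d : ℕ → ZMod q) : Prop :=
  LArc D d ∨ LArc D fun j => d (swn j)

/-- the input word is the one described by the table -/
structure InpOK {q : ℕ} (D : (Fin 5 → ZMod q) → Prop) (u : List Bool) : Prop where
  len : u.length = 2 * q ^ 14
  bit : ∀ (d : ℕ → ZMod q) (b : Bool), (d 14 = 0 ∨ d 14 = 1) → (b = true ↔ LAdj D d) →
    u[∑ j ∈ Finset.range 15, (d j).val * q ^ j]? = some b

/-! ### The program -/

/-- predicates of the program -/
inductive PP (A : TM) : Type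
  | nc (π : Fin 4)
  | arc (s : Bool)
  | adj (s : Bool)
  | st (s : A.St)
  | hd (i : Fin (A.nt + 1))
  | nhd (i : Fin (A.nt + 1))
  | ct (i : Fin (A.nt + 1)) (a : A.Sy)
  | rd (i : Fin (A.nt + 1)) (a : A.Sy)
  | goal

/-- argument indices: `r` digits of the time, `r + 1` digits of a position -/
abbrev II (r : ℕ) := Fin r ⊕ Fin (r + 1)

/-- variables: a time and two positions -/
abbrev VV (r : ℕ) := Fin r ⊕ (Fin (r + 1) ⊕ Fin (r + 1))

section

variable (r : ℕ)

/-- digit number `j` of a position -/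
def pj (j : ℕ) : Fin (r + 1) := Fin.ofNat (r + 1) j

/-- argument tuple from a time part and a position part -/
def tp {X : Type} (t : Fin r → X) (p : Fin (r + 1) → X) : II r → X := Sum.elim t p

/-- the time `t` -/
def tv : Fin r → Tm (VV r) := fun i => .v (.inl i)
/-- the time `t + 1`, with carry at `c` -/
def ts (c : Fin r) : Fin r → Tm (VV r) := fun i => if i ≤ c then .s (.inl i) else .v (.inl i)
/-- the time zero -/
def tz : Fin r → Tm (VV r) := fun _ => .c 0
/-- the position `p` -/
def pv : Fin (r + 1) → Tm (VV r) := fun i => .v (.inr (.inl i))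
/-- the position `p'` -/
def pw : Fin (r + 1) → Tm (VV r) := fun i => .v (.inr (.inr i))
/-- the position `p + 1`, with carry at `c` -/
def ps (c : Fin (r + 1)) : Fin (r + 1) → Tm (VV r) :=
  fun i => if i ≤ c then .s (.inr (.inl i)) else .v (.inr (.inl i))
/-- the zero position -/
def pz : Fin (r + 1) → Tm (VV r) := fun _ => .c 0
/-- the position `q ^ r` -/
def p1 : Fin (r + 1) → Tm (VV r) := fun i => if i.val = r then .c 1 else .c 0
/-- input positions of the graph `h` -/
def pin (h : Bool) : Fin (r + 1) → Tm (VV r) := fun i =>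
  if i.val = r then .c 1 else if i.val < 14 then .v (.inr (.inl i)) else
    if i.val = 14 then .c h.toNat else .c 0
/-- the position `p` with the two vertices exchanged -/
def psw : Fin (r + 1) → Tm (VV r) := fun i => .v (.inr (.inl (pj r (swn i.val))))
/-- digit `j` of the position `p` -/
def pn (j : ℕ) : Tm (VV r) := .v (.inr (.inl (pj r j)))

variable {A : TM}

/-- atom of a predicate -/
def pa (p : PP A) (t : Fin r → Tm (VV r)) (x : Fin (r + 1) → Tm (VV r)) :
    GAtm (PP A) (II r) (VV r) := .pr p (tp r t x)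
/-- equality or inequality of terms -/
def ae (s : Bool) (a b : Tm (VV r)) : GAtm (PP A) (II r) (VV r) := .tb s ![.c 0, a, b, b, b]
/-- shift of the coordinate `j` -/
def am (s : Bool) (j : Fin 6) : GAtm (PP A) (II r) (VV r) :=
  .tb s ![.c (8 + j.val), pn r 6, pn r 13, pn r j.val, pn r (7 + j.val)]
/-- condition number `π` -/
def ac (s : Bool) (π : Fin 4) : GAtm (PP A) (II r) (VV r) :=
  .tb s ![.c (4 + π.val), pn r 14, pn r 6, pn r 13, pn r 13]
/-- the table at the public coordinates -/
def atb (s : Bool) : GAtm (PP A) (II r) (VV r) := .tb s ![pn r 1, pn r 2, pn r 3, pn r 4, pn r 5]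
/-- the special part of the condition number `π` -/
def acs (π : Fin 4) : List (GAtm (PP A) (II r) (VV r)) :=
  if π = 0 then [] else if π = 1 then [atb r true] else if π = 2 then [atb r false] else
    (List.finRange 6).map fun j => ae r true (pn r j.val) (.c 0)
/-- the carry conditions for `t + 1` -/
def carT (c : Fin r) : List (GAtm (PP A) (II r) (VV r)) :=
  ((List.finRange r).filter fun i => i < c).map (fun i => ae r true (.s (.inl i)) (.c 0)) ++
    [ae r false (.s (.inl c)) (.c 0)]
/-- the carry conditions for `p + 1` -/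
def carP (c : Fin (r + 1)) : List (GAtm (PP A) (II r) (VV r)) :=
  ((List.finRange (r + 1)).filter fun i => i < c).map
      (fun i => ae r true (.s (.inr (.inl i))) (.c 0)) ++
    [ae r false (.s (.inr (.inl c))) (.c 0)]
/-- the symbols read -/
def rds (a : Fin (A.nt + 1) → A.Sy) : List (GAtm (PP A) (II r) (VV r)) :=
  (List.finRange (A.nt + 1)).map fun i => pa r (.rd i (a i)) (tv r) (pz r)

/-- rules of the program -/
inductive RR (A : TM) (r : ℕ) : Type
  | nca (π : Fin 4)
  | ncb (s : Bool)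
  | ncc (j : Fin 6)
  | arc1 (π : Fin 4)
  | arc0m (j : Fin 6)
  | arc0c
  | adj1
  | adj2
  | adj0
  | st0
  | hd0 (i : Fin (A.nt + 1))
  | inp (b h : Bool)
  | bl1 (j : Fin (r + 1)) (h15 : 15 ≤ j.val) (hr : j.val < r)
  | bl2
  | bl3
  | bl4 (i : Fin (A.nt + 1)) (hi : i ≠ 0)
  | rd (i : Fin (A.nt + 1)) (a : A.Sy)
  | nhd (i : Fin (A.nt + 1)) (j : Fin (r + 1))
  | st (c : Fin r) (s : A.St) (a : Fin (A.nt + 1) → A.Sy) (h1 : s ≠ A.qa) (h2 : s ≠ A.qr)
  | wr (c : Fin r) (s : A.St) (a : Fin (A.nt + 1) → A.Sy) (h1 : s ≠ A.qa) (h2 : s ≠ A.qr)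
      (i : Fin (A.nt + 1))
  | mvN (c : Fin r) (s : A.St) (a : Fin (A.nt + 1) → A.Sy) (h1 : s ≠ A.qa) (h2 : s ≠ A.qr)
      (i : Fin (A.nt + 1)) (hd : (A.tr s a).2.2 i = .N)
  | mvR (c : Fin r) (s : A.St) (a : Fin (A.nt + 1) → A.Sy) (h1 : s ≠ A.qa) (h2 : s ≠ A.qr)
      (i : Fin (A.nt + 1)) (hd : (A.tr s a).2.2 i = .R) (c' : Fin (r + 1))
  | mvL (c : Fin r) (s : A.St) (a : Fin (A.nt + 1) → A.Sy) (h1 : s ≠ A.qa) (h2 : s ≠ A.qr)
      (i : Fin (A.nt + 1)) (hd : (A.tr s a).2.2 i = .L) (c' : Fin (r + 1))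
  | keep (c : Fin r) (i : Fin (A.nt + 1)) (a : A.Sy)
  | goal

/-- head, head arguments and body of a rule -/
def RR.rule {A : TM} {r : ℕ} : RR A r → PP A × (II r → Tm (VV r)) × List (GAtm (PP A) (II r) (VV r))
  | .nca π => (.nc π, tp r (tv r) (pv r), [ac r false π])
  | .ncb s => (.nc (if s then 1 else 2), tp r (tv r) (pv r), [atb r (!s)])
  | .ncc j => (.nc 3, tp r (tv r) (pv r), [ae r false (pn r j.val) (.c 0)])
  | .arc1 π => (.arc true, tp r (tv r) (pv r),
      (List.finRange 6).map (fun j => am r true j) ++ [ac r true π] ++ acs r π)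
  | .arc0m j => (.arc false, tp r (tv r) (pv r), [am r false j])
  | .arc0c => (.arc false, tp r (tv r) (pv r),
      (List.finRange 4).map fun π => pa r (.nc π) (tv r) (pv r))
  | .adj1 => (.adj true, tp r (tv r) (pv r), [pa r (.arc true) (tv r) (pv r)])
  | .adj2 => (.adj true, tp r (tv r) (pv r), [pa r (.arc true) (tv r) (psw r)])
  | .adj0 => (.adj false, tp r (tv r) (pv r),
      [pa r (.arc false) (tv r) (pv r), pa r (.arc false) (tv r) (psw r)])
  | .st0 => (.st A.q0, tp r (tz r) (pz r), [])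
  | .hd0 i => (.hd i, tp r (tz r) (p1 r), [])
  | .inp b h => (.ct 0 (A.bit b), tp r (tz r) (pin r h), [pa r (.adj b) (tz r) (pin r h)])
  | .bl1 j _ _ => (.ct 0 A.blank, tp r (tz r) (pv r), [ae r false (.v (.inr (.inl j))) (.c 0)])
  | .bl2 => (.ct 0 A.blank, tp r (tz r) (pv r), [ae r false (pn r r) (.c 1)])
  | .bl3 => (.ct 0 A.blank, tp r (tz r) (pv r),
      [ae r false (pn r 14) (.c 0), ae r false (pn r 14) (.c 1)])
  | .bl4 i _ => (.ct i A.blank, tp r (tz r) (pv r), [])
  | .rd i a => (.rd i a, tp r (tv r) (pz r),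
      [pa r (.hd i) (tv r) (pv r), pa r (.ct i a) (tv r) (pv r)])
  | .nhd i j => (.nhd i, tp r (tv r) (pw r),
      [pa r (.hd i) (tv r) (pv r), ae r false (.v (.inr (.inl j))) (.v (.inr (.inr j)))])
  | .st c s a _ _ => (.st (A.tr s a).1, tp r (ts r c) (pz r),
      carT r c ++ [pa r (.st s) (tv r) (pz r)] ++ rds r a)
  | .wr c s a _ _ i => (.ct i ((A.tr s a).2.1 i), tp r (ts r c) (pv r),
      carT r c ++ [pa r (.st s) (tv r) (pz r), pa r (.hd i) (tv r) (pv r)] ++ rds r a)
  | .mvN c s a _ _ i _ => (.hd i, tp r (ts r c) (pv r),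
      carT r c ++ [pa r (.st s) (tv r) (pz r), pa r (.hd i) (tv r) (pv r)] ++ rds r a)
  | .mvR c s a _ _ i _ c' => (.hd i, tp r (ts r c) (ps r c'),
      carT r c ++ carP r c' ++
        [pa r (.st s) (tv r) (pz r), pa r (.hd i) (tv r) (pv r)] ++ rds r a)
  | .mvL c s a _ _ i _ c' => (.hd i, tp r (ts r c) (pv r),
      carT r c ++ carP r c' ++
        [pa r (.st s) (tv r) (pz r), pa r (.hd i) (tv r) (ps r c')] ++ rds r a)
  | .keep c i a => (.ct i a, tp r (ts r c) (pv r),
      carT r c ++ [pa r (.ct i a) (tv r) (pv r), pa r (.nhd i) (tv r) (pv r)])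
  | .goal => (.goal, tp r (tz r) (pz r), [pa r (.st A.qa) (tv r) (pz r)])

end

instance (A : TM) : Finite (PP A) := by
  have f : Function.Injective (fun p : PP A => (match p with
    | .nc π => .inl (.inl π)
    | .arc b => .inl (.inr (b, true))
    | .adj b => .inl (.inr (b, false))
    | .st s => .inr (.inl (some s))
    | .hd i => .inr (.inr (.inl (i, true)))
    | .nhd i => .inr (.inr (.inl (i, false)))
    | .ct i a => .inr (.inr (.inr (i, a, true)))
    | .rd i a => .inr (.inr (.inr (i, a, false)))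
    | .goal => .inr (.inl none) :
    (Fin 4 ⊕ (Bool × Bool)) ⊕ Option A.St ⊕ (Fin (A.nt + 1) × Bool) ⊕
      (Fin (A.nt + 1) × A.Sy × Bool))) := by
    intro a b hab
    cases a <;> cases b <;> simp_all
  exact Finite.of_injective _ f

/-- code of a rule -/
def RR.code {A : TM} {r : ℕ} (x : RR A r) : Fin 25 × (Fin 6 × Bool × Bool × Fin (r + 1)) ×
    (Fin (A.nt + 1) × A.Sy) × (Fin (r + 1) × A.St × (Fin (A.nt + 1) → A.Sy)) :=
  let z := A.blank
  let w : Fin (A.nt + 1) → A.Sy := fun _ => z
  match x with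
  | .nca π => (0, (⟨π.val, by omega⟩, true, true, 0), (0, z), (0, A.q0, w))
  | .ncb s => (1, (0, s, true, 0), (0, z), (0, A.q0, w))
  | .ncc j => (2, (j, true, true, 0), (0, z), (0, A.q0, w))
  | .arc1 π => (3, (⟨π.val, by omega⟩, true, true, 0), (0, z), (0, A.q0, w))
  | .arc0m j => (4, (j, true, true, 0), (0, z), (0, A.q0, w))
  | .arc0c => (5, (0, true, true, 0), (0, z), (0, A.q0, w))
  | .adj1 => (6, (0, true, true, 0), (0, z), (0, A.q0, w))
  | .adj2 => (7, (0, true, true, 0), (0, z), (0, A.q0, w))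
  | .adj0 => (8, (0, true, true, 0), (0, z), (0, A.q0, w))
  | .st0 => (9, (0, true, true, 0), (0, z), (0, A.q0, w))
  | .hd0 i => (10, (0, true, true, 0), (i, z), (0, A.q0, w))
  | .inp b h => (11, (0, b, h, 0), (0, z), (0, A.q0, w))
  | .bl1 j _ _ => (12, (0, true, true, j), (0, z), (0, A.q0, w))
  | .bl2 => (13, (0, true, true, 0), (0, z), (0, A.q0, w))
  | .bl3 => (14, (0, true, true, 0), (0, z), (0, A.q0, w))
  | .bl4 i _ => (15, (0, true, true, 0), (i, z), (0, A.q0, w))
  | .rd i a => (16, (0, true, true, 0), (i, a), (0, A.q0, w))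
  | .nhd i j => (17, (0, true, true, j), (i, z), (0, A.q0, w))
  | .st c s a _ _ => (18, (0, true, true, 0), (0, z), (c.castSucc, s, a))
  | .wr c s a _ _ i => (19, (0, true, true, 0), (i, z), (c.castSucc, s, a))
  | .mvN c s a _ _ i _ => (20, (0, true, true, 0), (i, z), (c.castSucc, s, a))
  | .mvR c s a _ _ i _ c' => (21, (0, true, true, c'), (i, z), (c.castSucc, s, a))
  | .mvL c s a _ _ i _ c' => (22, (0, true, true, c'), (i, z), (c.castSucc, s, a))
  | .keep c i a => (23, (0, true, true, 0), (i, a), (c.castSucc, A.q0, w))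
  | .goal => (24, (0, true, true, 0), (0, z), (0, A.q0, w))

instance (A : TM) (r : ℕ) : Finite (RR A r) := by
  have f : Function.Injective (RR.code : RR A r → _) := by
    intro a b hab
    cases a <;> cases b <;>
      first
      | rfl
      | (simp only [RR.code, Prod.mk.injEq] at hab
         exact absurd hab.1 (by decide))
      | (simp only [RR.code, Prod.mk.injEq, Fin.mk.injEq, Fin.castSucc_inj, true_and,
          and_true] at hab
         simp_all only [RR.nca.injEq, RR.ncc.injEq, RR.arc1.injEq, RR.arc0m.injEq,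
          RR.hd0.injEq, RR.bl1.injEq, RR.bl4.injEq, RR.rd.injEq, RR.nhd.injEq,
          RR.st.injEq, RR.wr.injEq, RR.mvN.injEq, RR.mvR.injEq, RR.mvL.injEq, RR.keep.injEq,
          Fin.ext_iff, and_self])
  exact Finite.of_injective _ f

/-- the program -/
noncomputable def prog (A : TM) (r : ℕ) : GProg (II r) (VV r) where
  P := PP A
  R := RR A r
  hd x := x.rule.1
  ha x := x.rule.2.1
  body x := x.rule.2.2
  goal := .goal

/-! ### Intended meaning -/

/-- meaning of the predicates `nc` -/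
def NC {q : ℕ} (D : (Fin 5 → ZMod q) → Prop) (π : Fin 4) (d : ℕ → ZMod q) : Prop :=
  ¬ (D ![((4 + π.val : ℕ) : ZMod q), d 14, d 6, d 13, d 13] ∧
    (π = 1 → D ![d 1, d 2, d 3, d 4, d 5]) ∧ (π = 2 → ¬ D ![d 1, d 2, d 3, d 4, d 5]) ∧
    (π = 3 → ∀ j : Fin 6, d j.val = 0))

/-- the digits of a position as a function on all natural numbers -/
def dig {q r : ℕ} (p : Fin (r + 1) → ZMod q) (j : ℕ) : ZMod q := p (pj r j)

/-- Intended meaning of the predicates, for the input word `u` of the machine. -/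
def Mean (A : TM) (r : ℕ) {q : ℕ} (D : (Fin 5 → ZMod q) → Prop) (u : List Bool)
    (p : PP A) (y : II r → ZMod q) : Prop :=
  let t := num q fun i => y (.inl i)
  let x := fun j => y (.inr j)
  match p with
  | .nc π => NC D π (dig x)
  | .arc s => (s = true ↔ LArc D (dig x))
  | .adj s => (s = true ↔ LAdj D (dig x))
  | .st s => (∀ j, x j = 0) ∧ (A.run u t).st = s
  | .hd i => (num q x : ℤ) = (q : ℤ) ^ r + (A.run u t).hd i
  | .nhd i => (num q x : ℤ) ≠ (q : ℤ) ^ r + (A.run u t).hd i
  | .ct i a => (A.run u t).tp i ((num q x : ℤ) - (q : ℤ) ^ r) = a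
  | .rd i a => (∀ j, x j = 0) ∧ (A.run u t).tp i ((A.run u t).hd i) = a
  | .goal => ∃ t < q ^ r, (A.run u t).st = A.qa

end Vale.Agent.P310
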