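import Vale.Agent.P310.Obj

/-!
P310, Level B: uniform systems, Horn systems, Datalog programs (definitions only).
-/

namespace Vale.Agent.P310

open scoped BigOperators

/-- symbols of the data string -/
inductive Sym : Type
  | one
  | zero
  | stop
  deriving DecidableEq

instance : Fintype Sym := ⟨{.one, .zero, .stop}, by intro x; cases x <;> simp⟩

/-- conditions on the public coordinate -/
inductive Cnd : Type
  | b0
  | bn0
  | bnl
  | w (s : Sym)

/-- meaning of a condition; `w` is the data string -/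
def Cnd.holds (q : ℕ) (w : ℕ → Sym) : Cnd → ZMod q → Prop
  | .b0, b => b = 0
  | .bn0, b => b ≠ 0
  | .bnl, b => b + 1 ≠ 0
  | .w s, b => w b.val = s

/-- A uniform two-of-three system: everything is independent of the field size and of the data. -/
structure USys (κ : ℕ) where
  T : Type
  E : Type
  [fT : Fintype T]
  [dT : DecidableEq T]
  [fE : Fintype E]
  [dE : DecidableEq E]
  ty : E → Fin 3 → T
  /-- shift of the public coordinate -/
  shb : E → Fin 3 → ℕ
  /-- shift of the other coordinates -/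
  shg : E → Fin 3 → Fin κ → ℕ
  cnd : E → Cnd
  start : T
  fin : T

attribute [instance] USys.fT USys.dT USys.fE USys.dE

/-- structural hypotheses on a uniform system -/
structure USys.OK {κ : ℕ} (U : USys κ) (L : ℕ) : Prop where
  fin_out : ∀ (e : U.E) (i : Fin 3), U.ty e i = U.fin →
    i = 2 ∧ U.ty e 0 = U.ty e 1 ∧ U.shb e 0 = U.shb e 1 ∧ U.shg e 0 = U.shg e 1
  start_ne : U.start ≠ U.fin
  iso : ∃ u : U.T → ℕ, u U.start = 0 ∧ u U.fin = 0 ∧
    (∀ e i, u (U.ty e i) < L → ∀ j, U.shb e j = 0 ∧ U.shg e j = 0) ∧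
    ∀ e i j, u (U.ty e i) ≤ u (U.ty e j) + 1

/-- contexts over `ZMod q` -/
abbrev Ctx (κ q : ℕ) := ZMod q × (Fin κ → ZMod q)

/-- the digit maps: public coordinate and Reed-Solomon evaluation -/
def digit (κ m q : ℕ) (l : Fin m) : Ctx κ q →+ ZMod q × ZMod q where
  toFun c := (c.1, ∑ i, c.2 i * (l.val : ZMod q) ^ i.val)
  map_zero' := by simp
  map_add' := by
    intro a b
    simp [add_mul, Finset.sum_add_distrib]

/-- the system over `ZMod q` with data `w` -/
noncomputable def USys.sys {κ : ℕ} (U : USys κ) (m : ℕ) (Q : Type) [Group Q] [Fintype Q]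
    [DecidableEq Q] (g : U.E → Fin 3 → Q) (q : ℕ) [NeZero q] (w : ℕ → Sym) : Sys where
  T := U.T
  E := U.E
  C := Ctx κ q
  A := ZMod q × ZMod q
  Q := Q
  m := m
  φ := digit κ m q
  ty := U.ty
  sh e i := ((U.shb e i : ZMod q), fun j => (U.shg e i j : ZMod q))
  g := g
  pres e c := (U.cnd e).holds q w c.1
  presA e a := (U.cnd e).holds q w a.1
  start := U.start
  fin := U.fin
  lam o := (Fintype.equivFin (ROKind U.T U.E Q m) o).val + 2
  Lam := Fintype.card (ROKind U.T U.E Q m) + 2

/-! ### Horn systems -/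

/-- A shift-invariant Horn system: unary rules `us @ (c + sS) => ut @ (c + sT)` under a condition
on the public coordinate of `c`, and conjunctions `ja @ c, jb @ c => jc @ c` for `c` with public
coordinate `0`. -/
structure Horn (κ : ℕ) where
  X : Type
  U : Type
  J : Type
  [fX : Fintype X]
  [dX : DecidableEq X]
  [fU : Fintype U]
  [dU : DecidableEq U]
  [fJ : Fintype J]
  [dJ : DecidableEq J]
  us : U → X
  ut : U → X
  /-- shifts of source and target, public coordinate -/
  usb : U → ℕ
  utb : U → ℕ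
  /-- shifts of source and target, other coordinates -/
  usg : U → Fin κ → ℕ
  utg : U → Fin κ → ℕ
  uc : U → Cnd
  ja : J → X
  jb : J → X
  jc : J → X
  start : X
  goal : X

attribute [instance] Horn.fX Horn.dX Horn.fU Horn.dU Horn.fJ Horn.dJ

/-- cast of a uniform shift -/
def shiftOf {κ : ℕ} (q : ℕ) (b : ℕ) (v : Fin κ → ℕ) : Ctx κ q := ((b : ZMod q), fun i => (v i : ZMod q))

/-- derivable facts of a Horn system -/
inductive Horn.Der {κ : ℕ} (H : Horn κ) (q : ℕ) (w : ℕ → Sym) : H.X → Ctx κ q → Prop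
  | start : Horn.Der H q w H.start 0
  | un (r : H.U) (c : Ctx κ q) : (H.uc r).holds q w c.1 →
      Horn.Der H q w (H.us r) (c + shiftOf q (H.usb r) (H.usg r)) →
      Horn.Der H q w (H.ut r) (c + shiftOf q (H.utb r) (H.utg r))
  | cj (j : H.J) (c : Ctx κ q) : c.1 = 0 → Horn.Der H q w (H.ja j) c →
      Horn.Der H q w (H.jb j) c → Horn.Der H q w (H.jc j) c

/-! ### Datalog programs -/

/-- base predicates: `succ [u, v]`: `v = u + 1`; `zero [u]`; `nz [u]`; `w s [u]`: the data string
has the symbol `s` at `u` -/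
inductive Base : Type
  | succ
  | zero
  | nz
  | w (s : Sym)

/-- arity of a base predicate -/
def Base.ar : Base → ℕ
  | .succ => 2
  | _ => 1

/-- meaning of a base predicate -/
def Base.holds (q : ℕ) (w : ℕ → Sym) : Base → List (ZMod q) → Prop
  | .succ, [u, v] => v = u + 1
  | .zero, [u] => u = 0
  | .nz, [u] => u ≠ 0
  | .w s, [u] => w u.val = s
  | _, _ => False

/-- an atom: predicate and list of variables -/
structure Atom (P : Type) where
  pr : P ⊕ Base
  ar : List ℕ

/-- a rule: head predicate, head variables, body -/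
structure Rule (P : Type) where
  hd : P
  hv : List ℕ
  body : List (Atom P)

/-- truth of an atom under an interpretation `M` of the predicates and an assignment `x` -/
def Atom.holds {P : Type} (q : ℕ) (w : ℕ → Sym) (M : P → List (ZMod q) → Prop) (x : ℕ → ZMod q)
    (a : Atom P) : Prop :=
  match a.pr with
  | .inl p => M p (a.ar.map x)
  | .inr b => b.holds q w (a.ar.map x)

/-- the interpretation `M` satisfies the rule -/
def Rule.holds {P : Type} (q : ℕ) (w : ℕ → Sym) (M : P → List (ZMod q) → Prop) (r : Rule P) :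
    Prop :=
  ∀ x : ℕ → ZMod q, (∀ a ∈ r.body, a.holds q w M x) → M r.hd (r.hv.map x)

/-- a Datalog program -/
structure Prog where
  P : Type
  [fP : Fintype P]
  [dP : DecidableEq P]
  ar : P → ℕ
  rules : Set (Rule P)
  goal : P

attribute [instance] Prog.fP Prog.dP

/-- least fixed point of a program over `ZMod q` with data `w` -/
def Prog.Sat (Pg : Prog) (q : ℕ) (w : ℕ → Sym) (p : Pg.P) (y : List (ZMod q)) : Prop :=
  ∀ M : Pg.P → List (ZMod q) → Prop, (∀ r ∈ Pg.rules, r.holds q w M) → M p y

/-- well-formedness: arities at most `ρ`, variables below `v`, bodies of length at most `B` -/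
structure Prog.WF (Pg : Prog) (ρ v B : ℕ) : Prop where
  two_le : 2 ≤ ρ
  ar_le : ∀ p, Pg.ar p ≤ ρ
  hv_len : ∀ r ∈ Pg.rules, r.hv.length = Pg.ar r.hd
  hv_lt : ∀ r ∈ Pg.rules, ∀ i ∈ r.hv, i < v
  body_len : ∀ r ∈ Pg.rules, r.body.length ≤ B
  atom_len : ∀ r ∈ Pg.rules, ∀ a ∈ r.body, a.ar.length = (match a.pr with
    | .inl p => Pg.ar p
    | .inr b => b.ar)
  atom_lt : ∀ r ∈ Pg.rules, ∀ a ∈ r.body, ∀ i ∈ a.ar, i < v

end Vale.Agent.P310
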