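import Mathlib

/-!
P310: the k-dimensional (joint update) Weisfeiler-Leman refinement of the problem file, and the
relation of having the same colour in every round.
-/

namespace Vale.Agent.P310

/-- The type of the colours after `r` rounds of `k`-dimensional refinement. -/
def Color (k : ℕ) : ℕ → Type
  | 0 => Fin k → Fin k → Prop × Prop
  | r + 1 => Color k r × Multiset (Fin k → Color k r)

/-- The colour of a `k`-tuple of vertices of `G` after `r` rounds: round `0` is the atomic type
(which pairs of entries are equal and which are adjacent), and round `r + 1` records the colour of
round `r` together with the multiset, over all vertices `y`, of the tuples of the colours of the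
`k` tuples `x[i <- y]`. -/
def color {V : Type} [Fintype V] (k : ℕ) (G : SimpleGraph V) : (r : ℕ) → (Fin k → V) → Color k r
  | 0, x => fun i j => (x i = x j, G.Adj (x i) (x j))
  | r + 1, x => (color k G r x,
      (Finset.univ : Finset V).val.map fun y => fun i => color k G r (Function.update x i y))

/-- `k`-WL equivalence: after every round, the multisets of the colours of all `k`-tuples of the
two graphs coincide. -/
def WLEquiv {V W : Type} [Fintype V] [Fintype W] (k : ℕ) (G : SimpleGraph V)
    (H : SimpleGraph W) : Prop :=
  ∀ r : ℕ, (Finset.univ : Finset (Fin k → V)).val.map (color k G r) =
    (Finset.univ : Finset (Fin k → W)).val.map (color k H r)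

/-- Two tuples have the same colour in all rounds. -/
def Sim {V W : Type} [Fintype V] [Fintype W] {k : ℕ} (G : SimpleGraph V)
    (H : SimpleGraph W) (x : Fin k → V) (y : Fin k → W) : Prop :=
  ∀ r : ℕ, color k G r x = color k H r y

end Vale.Agent.P310
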